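import Crest.Agent.WL.XShape

/-! CHUNK R290-XH3: see the text of XShape.lean. -/

set_option autoImplicit false

namespace Crest.Agent.WL

namespace X

variable {S : Sys}

/-- connectedness relation -/
def XConnR (b : S.C → ZMod 2) (p q : V S) : Prop :=
  Relation.ReflTransGen (fun p q => adj S b p q = true) p q

theorem XConn_of_adj (b : S.C → ZMod 2) {p q : V S} (h : adj S b p q = true) : XConnR b p q :=
  Relation.ReflTransGen.single h

theorem XConn_trans (b : S.C → ZMod 2) {p q r : V S} (h : XConnR b p q) (h' : XConnR b q r) :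
    XConnR b p r :=
  Relation.ReflTransGen.trans h h'

theorem XConn_symm (b : S.C → ZMod 2) {p q : V S} (h : XConnR b p q) : XConnR b q p := by
  unfold XConnR at *
  induction h with
  | refl => exact Relation.ReflTransGen.refl
  | tail _ h2 ih =>
      exact Relation.ReflTransGen.head (by rw [adj_symm]; exact h2) ih

theorem XConn_of_step (b : S.C → ZMod 2) {p q : V S} (h : stepX S b p q = true) : XConnR b p q :=
  XConn_of_adj b (by unfold adj; rw [h]; rfl)

/-- a vertex of `X`. -/
def XConn_vx (v : V0 S) (t : ℕ) (h : t < M S + 3) : V S := (v, ⟨t, h⟩)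

theorem XConn_12 (b : S.C → ZMod 2) (v : V0 S) :
    XConnR b (XConn_vx v 1 (by omega)) (XConn_vx v 2 (by omega)) := by
  apply XConn_of_step
  simp [stepX, XConn_vx]

theorem XConn_21 (b : S.C → ZMod 2) (v w : V0 S) (h : idx S w = idx S v + 1) :
    XConnR b (XConn_vx v 2 (by omega)) (XConn_vx w 1 (by omega)) := by
  apply XConn_of_step
  simp [stepX, XConn_vx, h]

theorem XConn_spine0 (b : S.C → ZMod 2) (w : V0 S) (hw : idx S w = 0) (n : ℕ) :
    ∀ v : V0 S, idx S v = n → XConnR b (XConn_vx w 1 (by omega)) (XConn_vx v 1 (by omega)) := by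
  induction n with
  | zero =>
      intro v hv
      have : w = v := idx_inj (by rw [hw, hv])
      subst this
      exact Relation.ReflTransGen.refl
  | succ n ih =>
      intro v hv
      have hlt := idx_lt v
      obtain ⟨u, hu⟩ := idx_surj (S := S) n (by omega)
      exact XConn_trans b (ih u hu) (XConn_trans b (XConn_12 b u) (XConn_21 b u v (by omega)))

theorem XConn_spine (b : S.C → ZMod 2) (v w : V0 S) :
    XConnR b (XConn_vx v 1 (by omega)) (XConn_vx w 1 (by omega)) := by
  have hlt := idx_lt v
  obtain ⟨u, hu⟩ := idx_surj (S := S) 0 (by omega)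
  exact XConn_trans b (XConn_symm b (XConn_spine0 b u hu _ v rfl)) (XConn_spine0 b u hu _ w rfl)

theorem XConn_pend (b : S.C → ZMod 2) (v : V0 S) (t : ℕ) (h : t < M S + 3) :
    XConnR b (XConn_vx v t h) (XConn_vx v 0 (by omega)) ∨
      XConnR b (XConn_vx v t h) (XConn_vx v 1 (by omega)) := by
  induction t with
  | zero => exact Or.inl Relation.ReflTransGen.refl
  | succ t ih =>
      by_cases h0 : t = 0
      · subst h0; exact Or.inr Relation.ReflTransGen.refl
      by_cases h1 : t = 1
      · subst h1; exact Or.inr (XConn_symm b (XConn_12 b v))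
      by_cases h2 : t + 1 = 3 + len S v
      · right
        apply XConn_symm
        apply XConn_trans b (XConn_12 b v)
        apply XConn_of_step
        simp [stepX, XConn_vx, h2]
      by_cases h3 : t = 2
      · subst h3
        left
        apply XConn_symm
        apply XConn_of_step
        have : 0 < len S v := by omega
        simp [stepX, XConn_vx, this]
      have key : XConnR b (XConn_vx v (t+1) h) (XConn_vx v t (by omega)) := by
        apply XConn_symm
        apply XConn_of_step
        have h4 : 3 ≤ t := by omega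
        simp [stepX, XConn_vx, h2, h4]
      rcases ih (by omega) with h5 | h5
      · exact Or.inl (XConn_trans b key h5)
      · exact Or.inr (XConn_trans b key h5)

/-- the level-zero vertex is joined to the spine -/
def XConnG (b : S.C → ZMod 2) (v : V0 S) : Prop :=
  ∃ w : V0 S, XConnR b (XConn_vx v 0 (by omega)) (XConn_vx w 1 (by omega))

theorem XConnG_step (b : S.C → ZMod 2) {v w : V0 S} (h : step S b v w = true) (hw : XConnG b w) :
    XConnG b v := by
  obtain ⟨u, hu⟩ := hw
  refine ⟨u, XConn_trans b ?_ hu⟩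
  apply XConn_of_step
  simp [stepX, XConn_vx, h]

theorem XConnG_step' (b : S.C → ZMod 2) {v w : V0 S} (h : step S b w v = true) (hw : XConnG b w) :
    XConnG b v := by
  obtain ⟨u, hu⟩ := hw
  refine ⟨u, XConn_trans b (XConn_symm b ?_) hu⟩
  apply XConn_of_step
  simp [stepX, XConn_vx, h]

theorem XConnG_att (b : S.C → ZMod 2) (v : V0 S) (h : junk S v = true ∨ ∃ e, v = V0.tp e) :
    XConnG b v := by
  refine ⟨v, ?_⟩
  apply XConn_of_step
  simp [stepX, XConn_vx, h]

theorem XConnG_tp (b : S.C → ZMod 2) (e : S.E) : XConnG b (V0.tp e) :=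
  XConnG_att b _ (Or.inr ⟨e, rfl⟩)

theorem XConnG_rl (b : S.C → ZMod 2) (e : S.E) (x : ZMod 2) (n : ℕ) (h : n < 10 * S.nC + 1) :
    XConnG b (V0.rl e ⟨n, h⟩ x) := by
  induction n with
  | zero =>
      apply XConnG_step' b (w := V0.tp e) _ (XConnG_tp b e)
      simp [step]
  | succ n ih =>
      apply XConnG_step' b (w := V0.rl e ⟨n, by omega⟩ x) _ (ih (by omega))
      simp [step]

theorem XConn_inc (c : S.C) (s : Fin 5) : 2 * inc S c s < 10 * S.nC + 1 := by
  have h1 := (S.eC c).isLt
  have h2 := s.isLt
  unfold inc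
  omega

theorem XConnG_t0 (b : S.C → ZMod 2) (c : S.C) (s : Fin 5) (x : ZMod 2) (e : S.E)
    (hal : S.al c = true) (he : S.slot c s = some e) : XConnG b (V0.t0 c s x) := by
  apply XConnG_step' b (w := V0.rl e ⟨2 * inc S c s, XConn_inc c s⟩ x) _ (XConnG_rl b e x _ _)
  simp [step, hal, he]

theorem XConnG_co0 (b : S.C → ZMod 2) (c : S.C) (a : Fin 4 → ZMod 2) (s : Fin 5) (e : S.E)
    (hal : S.al c = true) (he : S.slot c s = some e) : XConnG b (V0.co c a s) := by
  apply XConnG_step' b (w := V0.t2 c s (full S b c a s) (full S b c a (s+1)) (full S b c a (s+2)))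
    (by simp [step, hal])
  apply XConnG_step' b (w := V0.t1 c s (full S b c a s) (full S b c a (s+1))) (by simp [step, hal])
  apply XConnG_step' b (w := V0.t0 c s (full S b c a s)) (by simp [step, hal])
  exact XConnG_t0 b c s _ e hal he

theorem XConnG_coup (b : S.C → ZMod 2) (c : S.C) (a : Fin 4 → ZMod 2) (hal : S.al c = true)
    (m : ℕ) (h : m < 5) : XConnG b (V0.co c a ⟨m, h⟩) ↔ XConnG b (V0.co c a ⟨0, by omega⟩) := by
  induction m with
  | zero => exact Iff.rfl
  | succ m ih =>
      rw [← ih (by omega)]
      constructor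
      · intro h1
        exact XConnG_step b (by simp [step, hal]) h1
      · intro h1
        exact XConnG_step' b (w := V0.co c a ⟨m, by omega⟩) (by simp [step, hal]) h1

theorem XConnG_co (b : S.C → ZMod 2) (c : S.C) (a : Fin 4 → ZMod 2) (s : Fin 5)
    (hal : S.al c = true) : XConnG b (V0.co c a s) := by
  obtain ⟨s', e, he⟩ := S.slot_ex c hal
  have h1 := XConnG_co0 b c a s' e hal he
  have h2 := (XConnG_coup b c a hal s'.val s'.isLt).1 h1
  exact (XConnG_coup b c a hal s.val s.isLt).2 h2

theorem XConn_full (b : S.C → ZMod 2) (c : S.C) (s : Fin 5) (x y z : ZMod 2) :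
    ∃ a : Fin 4 → ZMod 2, full S b c a s = x ∧ full S b c a (s + 1) = y ∧
      full S b c a (s + 2) = z := by
  fin_cases s
  · exact ⟨![x, y, z, 0], by simp [full], by simp [full], by simp [full]⟩
  · exact ⟨![0, x, y, z], by simp [full], by simp [full], by simp [full]⟩
  · refine ⟨![z - b c - x - y, 0, x, y], ?_, ?_, ?_⟩
    · simp [full]
    · simp [full]
    · simp [full]
      ring
  · refine ⟨![z, y - b c - z - x, 0, x], ?_, ?_, ?_⟩
    · simp [full]
    · simp [full]
      ring
    · simp [full]
  · refine ⟨![y, z, x - b c - y - z, 0], ?_, ?_, ?_⟩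
    · simp [full]
    · simp [full]
    · simp [full]

theorem XConnG_all (b : S.C → ZMod 2) (v : V0 S) : XConnG b v := by
  have ht2 : ∀ c s x y z, S.al c = true → XConnG b (V0.t2 (S := S) c s x y z) := by
    intro c s x y z hal
    obtain ⟨a, h1, h2, h3⟩ := XConn_full b c s x y z
    exact XConnG_step b (w := V0.co c a s) (by simp [step, hal, h1, h2, h3])
      (XConnG_co b c a s hal)
  have ht1 : ∀ c s x y, S.al c = true → XConnG b (V0.t1 (S := S) c s x y) := by
    intro c s x y hal
    exact XConnG_step b (w := V0.t2 c s x y 0) (by simp [step, hal]) (ht2 c s x y 0 hal)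
  have ht0 : ∀ c s x, S.al c = true → XConnG b (V0.t0 (S := S) c s x) := by
    intro c s x hal
    exact XConnG_step b (w := V0.t1 c s x 0) (by simp [step, hal]) (ht1 c s x 0 hal)
  cases v with
  | co c a s =>
      by_cases hal : S.al c = true
      · exact XConnG_co b c a s hal
      · exact XConnG_att b _ (Or.inl (by simpa [junk] using hal))
  | t0 c s x =>
      by_cases hal : S.al c = true
      · exact ht0 c s x hal
      · exact XConnG_att b _ (Or.inl (by simpa [junk] using hal))
  | t1 c s x y =>
      by_cases hal : S.al c = true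
      · exact ht1 c s x y hal
      · exact XConnG_att b _ (Or.inl (by simpa [junk] using hal))
  | t2 c s x y z =>
      by_cases hal : S.al c = true
      · exact ht2 c s x y z hal
      · exact XConnG_att b _ (Or.inl (by simpa [junk] using hal))
  | rl e n x => exact XConnG_rl b e x n.val n.isLt
  | tp e => exact XConnG_tp b e

theorem XConn_to (b : S.C → ZMod 2) (p : V S) :
    ∃ w : V0 S, XConnR b p (XConn_vx w 1 (by omega)) := by
  obtain ⟨v, t, ht⟩ := p
  rcases XConn_pend b v t ht with h | h
  · obtain ⟨w, hw⟩ := XConnG_all b v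
    exact ⟨w, XConn_trans b h hw⟩
  · exact ⟨v, h⟩

theorem connected (b : S.C → ZMod 2) (p q : V S) :
    Relation.ReflTransGen (fun p q => adj S b p q = true) p q := by
  obtain ⟨v, hv⟩ := XConn_to b p
  obtain ⟨w, hw⟩ := XConn_to b q
  exact XConn_trans b hv (XConn_trans b (XConn_spine b v w) (XConn_symm b hw))

end X

end Crest.Agent.WL
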