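import Crest.Agent.WL.XShape

/-! CHUNK R290-XH2: see the text of XShape.lean. -/

set_option autoImplicit false

namespace Crest.Agent.WL

namespace X

open Finset

variable {S : Sys}

/-- a set covered by three predicates, each with at most one element -/
private theorem card_le_three {α : Type} [DecidableEq α] (s : Finset α) (P Q R : α → Prop)
    (hP : ∀ x y, P x → P y → x = y) (hQ : ∀ x y, Q x → Q y → x = y)
    (hR : ∀ x y, R x → R y → x = y) (h : ∀ x ∈ s, P x ∨ Q x ∨ R x) : s.card ≤ 3 := by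
  classical
  have hone : ∀ T : α → Prop, (∀ x y, T x → T y → x = y) → (s.filter T).card ≤ 1 := by
    intro T hT
    rw [Finset.card_le_one]
    intro a ha b hb
    exact hT a b (Finset.mem_filter.1 ha).2 (Finset.mem_filter.1 hb).2
  have hsub : s ⊆ s.filter P ∪ (s.filter Q ∪ s.filter R) := by
    intro x hx
    rcases h x hx with h1 | h1 | h1
    · exact Finset.mem_union_left _ (Finset.mem_filter.2 ⟨hx, h1⟩)
    · exact Finset.mem_union_right _ (Finset.mem_union_left _ (Finset.mem_filter.2 ⟨hx, h1⟩))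
    · exact Finset.mem_union_right _ (Finset.mem_union_right _ (Finset.mem_filter.2 ⟨hx, h1⟩))
  have h1 := Finset.card_le_card hsub
  have h2 := Finset.card_union_le (s.filter P) (s.filter Q ∪ s.filter R)
  have h3 := Finset.card_union_le (s.filter Q) (s.filter R)
  have h4 := hone P hP
  have h5 := hone Q hQ
  have h6 := hone R hR
  omega

private theorem ext2 {p q : V S} (h1 : p.1 = q.1) (h2 : p.2.val = q.2.val) : p = q :=
  Prod.ext h1 (Fin.ext h2)

private theorem deg_pos (b : S.C → ZMod 2) (p : V S) (hp : p.2.val ≠ 0) :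
    (univ.filter fun q => adj S b p q = true).card ≤ 3 := by
  classical
  obtain ⟨v, t⟩ := p
  replace hp : t.val ≠ 0 := hp
  by_cases ht1 : t.val = 1
  · refine card_le_three _ (fun q => q.1 = v ∧ q.2.val = 2) (fun q => idx S v = idx S q.1 + 1 ∧ q.2.val = 2)
      (fun q => q.1 = v ∧ q.2.val = 0) ?_ ?_ ?_ ?_
    · rintro x y ⟨h1, h2⟩ ⟨h3, h4⟩
      exact ext2 (h1.trans h3.symm) (h2.trans h4.symm)
    · rintro x y ⟨h1, h2⟩ ⟨h3, h4⟩
      exact ext2 (idx_inj (by omega)) (h2.trans h4.symm)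
    · rintro x y ⟨h1, h2⟩ ⟨h3, h4⟩
      exact ext2 (h1.trans h3.symm) (h2.trans h4.symm)
    · intro q hq
      obtain ⟨u, r⟩ := q
      simp only [mem_filter, mem_univ, true_and, adj, stepX, Bool.or_eq_true, Bool.and_eq_true,
        decide_eq_true_eq, ht1] at hq
      simp only
      rcases hq with ((((((h | h) | h) | h) | h) | h) | h) | ((((((h | h) | h) | h) | h) | h) | h)
      · omega
      · exact Or.inl ⟨h.1.symm, h.2⟩
      · omega
      · omega
      · omega
      · omega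
      · omega
      · omega
      · omega
      · exact Or.inr (Or.inl ⟨h.1, h.2.1⟩)
      · exact Or.inr (Or.inr ⟨h.1, h.2.1⟩)
      · omega
      · omega
      · omega
  by_cases ht2 : t.val = 2
  · refine card_le_three _ (fun q => q.1 = v ∧ q.2.val = 1) (fun q => idx S q.1 = idx S v + 1 ∧ q.2.val = 1)
      (fun q => q.1 = v ∧ q.2.val = 3 + len S v) ?_ ?_ ?_ ?_
    · rintro x y ⟨h1, h2⟩ ⟨h3, h4⟩
      exact ext2 (h1.trans h3.symm) (h2.trans h4.symm)
    · rintro x y ⟨h1, h2⟩ ⟨h3, h4⟩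
      exact ext2 (idx_inj (by omega)) (h2.trans h4.symm)
    · rintro x y ⟨h1, h2⟩ ⟨h3, h4⟩
      exact ext2 (h1.trans h3.symm) (h2.trans h4.symm)
    · intro q hq
      obtain ⟨u, r⟩ := q
      simp only [mem_filter, mem_univ, true_and, adj, stepX, Bool.or_eq_true, Bool.and_eq_true,
        decide_eq_true_eq, ht2] at hq
      simp only
      rcases hq with ((((((h | h) | h) | h) | h) | h) | h) | ((((((h | h) | h) | h) | h) | h) | h)
      · omega
      · omega
      · exact Or.inr (Or.inl ⟨h.1, h.2⟩)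
      · omega
      · omega
      · exact Or.inr (Or.inr ⟨h.1.symm, h.2⟩)
      · omega
      · omega
      · exact Or.inl ⟨h.1, h.2.1⟩
      · omega
      · omega
      · omega
      · omega
      · omega
  · have ht3 : 3 ≤ t.val := by omega
    refine card_le_three _ (fun q => q.1 = v ∧ q.2.val = t.val + 1)
      (fun q => q.1 = v ∧ q.2.val = t.val - 1)
      (fun q => q.1 = v ∧ q.2.val = if t.val = 3 then 0 else 2) ?_ ?_ ?_ ?_
    · rintro x y ⟨h1, h2⟩ ⟨h3, h4⟩
      exact ext2 (h1.trans h3.symm) (h2.trans h4.symm)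
    · rintro x y ⟨h1, h2⟩ ⟨h3, h4⟩
      exact ext2 (h1.trans h3.symm) (h2.trans h4.symm)
    · rintro x y ⟨h1, h2⟩ ⟨h3, h4⟩
      exact ext2 (h1.trans h3.symm) (h2.trans h4.symm)
    · intro q hq
      obtain ⟨u, r⟩ := q
      simp only [mem_filter, mem_univ, true_and, adj, stepX, Bool.or_eq_true, Bool.and_eq_true,
        decide_eq_true_eq] at hq
      simp only
      rcases hq with ((((((h | h) | h) | h) | h) | h) | h) | ((((((h | h) | h) | h) | h) | h) | h)
      · omega
      · omega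
      · omega
      · omega
      · omega
      · omega
      · exact Or.inl ⟨h.1.symm, h.2.2.1⟩
      · omega
      · omega
      · omega
      · omega
      · refine Or.inr (Or.inr ⟨h.1, ?_⟩)
        rw [if_pos h.2.2.1]
        exact h.2.1
      · by_cases h3 : t.val = 3
        · refine Or.inr (Or.inl ⟨h.1, ?_⟩)
          omega
        · refine Or.inr (Or.inr ⟨h.1, ?_⟩)
          rw [if_neg h3]
          exact h.2.1
      · refine Or.inr (Or.inl ⟨h.1, ?_⟩)
        omega

/-- neighbours of the vertices `(v, 0)` -/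
private theorem adj_zero (b : S.C → ZMod 2) (v : V0 S) (t : Fin (M S + 3)) (ht : t.val = 0)
    (q : V S) (hq : adj S b (v, t) q = true) :
    (q.2.val = 0 ∧ (step S b v q.1 = true ∨ step S b q.1 v = true)) ∨
      (q.1 = v ∧ q.2.val = 1 ∧ (junk S v = true ∨ ∃ e, v = V0.tp e)) ∨
      (q.1 = v ∧ q.2.val = 3 ∧ 0 < len S v) := by
  obtain ⟨u, r⟩ := q
  simp only [adj, stepX, Bool.or_eq_true, Bool.and_eq_true, decide_eq_true_eq, ht] at hq
  simp only
  rcases hq with ((((((h | h) | h) | h) | h) | h) | h) | ((((((h | h) | h) | h) | h) | h) | h)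
  · exact Or.inl ⟨h.1.2, Or.inl h.2⟩
  · omega
  · omega
  · exact Or.inr (Or.inl ⟨h.1.symm, h.2.2.1, h.2.2.2⟩)
  · exact Or.inr (Or.inr ⟨h.1.symm, h.2.2.1, h.2.2.2⟩)
  · omega
  · omega
  · exact Or.inl ⟨h.1.1, Or.inr h.2⟩
  · omega
  · omega
  · omega
  · omega
  · omega
  · omega

/-- two cores at most carry three prescribed values -/
private theorem full_two : ∀ (β : ZMod 2) (s : Fin 5) (x y z : ZMod 2),
    ∃ r : Fin 4, ∀ a a' : Fin 4 → ZMod 2,
      (if h : s.val < 4 then a ⟨s.val, h⟩ else β + (a 0 + a 1 + a 2 + a 3)) = x →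
      (if h : (s + 1).val < 4 then a ⟨(s + 1).val, h⟩ else β + (a 0 + a 1 + a 2 + a 3)) = y →
      (if h : (s + 2).val < 4 then a ⟨(s + 2).val, h⟩ else β + (a 0 + a 1 + a 2 + a 3)) = z →
      (if h : s.val < 4 then a' ⟨s.val, h⟩ else β + (a' 0 + a' 1 + a' 2 + a' 3)) = x →
      (if h : (s + 1).val < 4 then a' ⟨(s + 1).val, h⟩ else β + (a' 0 + a' 1 + a' 2 + a' 3)) = y →
      (if h : (s + 2).val < 4 then a' ⟨(s + 2).val, h⟩ else β + (a' 0 + a' 1 + a' 2 + a' 3)) = z →
      a r = a' r → a = a' := by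
  intro β s x y z
  have key : ∀ a a' : Fin 4 → ZMod 2, a 0 = a' 0 → a 1 = a' 1 → a 2 = a' 2 → a 3 = a' 3 →
      a = a' := by
    intro a a' h0 h1 h2 h3
    funext i
    fin_cases i
    · exact h0
    · exact h1
    · exact h2
    · exact h3
  fin_cases s
  · refine ⟨3, fun a a' h1 h2 h3 h4 h5 h6 h7 => key a a' ?_ ?_ ?_ ?_⟩
    · exact (show a 0 = x from h1).trans (show a' 0 = x from h4).symm
    · exact (show a 1 = y from h2).trans (show a' 1 = y from h5).symm
    · exact (show a 2 = z from h3).trans (show a' 2 = z from h6).symm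
    · exact h7
  · refine ⟨0, fun a a' h1 h2 h3 h4 h5 h6 h7 => key a a' ?_ ?_ ?_ ?_⟩
    · exact h7
    · exact (show a 1 = x from h1).trans (show a' 1 = x from h4).symm
    · exact (show a 2 = y from h2).trans (show a' 2 = y from h5).symm
    · exact (show a 3 = z from h3).trans (show a' 3 = z from h6).symm
  · refine ⟨0, fun a a' h1 h2 h3 h4 h5 h6 h7 => ?_⟩
    have e2 : a 2 = a' 2 := (show a 2 = x from h1).trans (show a' 2 = x from h4).symm
    have e3 : a 3 = a' 3 := (show a 3 = y from h2).trans (show a' 3 = y from h5).symm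
    have e4 : β + (a 0 + a 1 + a 2 + a 3) = β + (a' 0 + a' 1 + a' 2 + a' 3) :=
      (show β + (a 0 + a 1 + a 2 + a 3) = z from h3).trans
        (show β + (a' 0 + a' 1 + a' 2 + a' 3) = z from h6).symm
    rw [e2, e3, h7] at e4
    exact key a a' h7 (by simpa using e4) e2 e3
  · refine ⟨1, fun a a' h1 h2 h3 h4 h5 h6 h7 => ?_⟩
    have e3 : a 3 = a' 3 := (show a 3 = x from h1).trans (show a' 3 = x from h4).symm
    have e4 : β + (a 0 + a 1 + a 2 + a 3) = β + (a' 0 + a' 1 + a' 2 + a' 3) :=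
      (show β + (a 0 + a 1 + a 2 + a 3) = y from h2).trans
        (show β + (a' 0 + a' 1 + a' 2 + a' 3) = y from h5).symm
    have e0 : a 0 = a' 0 := (show a 0 = z from h3).trans (show a' 0 = z from h6).symm
    rw [e0, e3, h7] at e4
    exact key a a' e0 h7 (by simpa using e4) e3
  · refine ⟨2, fun a a' h1 h2 h3 h4 h5 h6 h7 => ?_⟩
    have e4 : β + (a 0 + a 1 + a 2 + a 3) = β + (a' 0 + a' 1 + a' 2 + a' 3) :=
      (show β + (a 0 + a 1 + a 2 + a 3) = x from h1).trans
        (show β + (a' 0 + a' 1 + a' 2 + a' 3) = x from h4).symm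
    have e0 : a 0 = a' 0 := (show a 0 = y from h2).trans (show a' 0 = y from h5).symm
    have e1 : a 1 = a' 1 := (show a 1 = z from h3).trans (show a' 1 = z from h6).symm
    rw [e0, e1, h7] at e4
    exact key a a' e0 e1 h7 (by simpa using e4)

private theorem inc_inj {c c' : S.C} {s s' : Fin 5} (h : inc S c s = inc S c' s') :
    c = c' ∧ s = s' := by
  unfold inc at h
  have h1 := s.isLt
  have h2 := s'.isLt
  have h3 : (S.eC c).val = (S.eC c').val := by omega
  have h4 : s.val = s'.val := by omega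
  exact ⟨S.eC.injective (Fin.ext h3), Fin.ext h4⟩

private theorem junk_nbr (b : S.C → ZMod 2) (v u : V0 S) (hj : junk S v = true) :
    step S b v u = false ∧ step S b u v = false := by
  cases v <;> cases u <;> simp_all [junk, step]
  all_goals
    intro h1 h2
    rw [h2, hj] at h1
    exact absurd h1 (by simp)

private theorem junk_len (v : V0 S) (hj : junk S v = true) : len S v = 0 := by
  cases v <;> simp_all [junk, len]

private theorem deg_junk (b : S.C → ZMod 2) (v : V0 S) (t : Fin (M S + 3)) (ht : t.val = 0)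
    (hj : junk S v = true) : (univ.filter fun q => adj S b (v, t) q = true).card ≤ 3 := by
  classical
  refine card_le_three _ (fun q => q.1 = v ∧ q.2.val = 1) (fun q => False) (fun q => False)
    ?_ ?_ ?_ ?_
  · rintro x y ⟨h1, h2⟩ ⟨h3, h4⟩
    exact ext2 (h1.trans h3.symm) (h2.trans h4.symm)
  · rintro x y h
    exact h.elim
  · rintro x y h
    exact h.elim
  · intro q hq
    rcases adj_zero b _ t ht q (mem_filter.1 hq).2 with ⟨h0, h | h⟩ | ⟨h1, h2, h3⟩ | ⟨h1, h2, h3⟩
    · rw [(junk_nbr b v q.1 hj).1] at h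
      exact absurd h (by simp)
    · rw [(junk_nbr b v q.1 hj).2] at h
      exact absurd h (by simp)
    · exact Or.inl ⟨h1, h2⟩
    · rw [junk_len v hj] at h3
      exact absurd h3 (by simp)

private theorem zmod2 (y : ZMod 2) : y = 0 ∨ y = 1 := by
  revert y
  decide

private theorem deg_t2 (b : S.C → ZMod 2) (c : S.C) (s : Fin 5) (x y z : ZMod 2)
    (t : Fin (M S + 3)) (ht : t.val = 0) (hal : S.al c = true) :
    (univ.filter fun q => adj S b (V0.t2 c s x y z, t) q = true).card ≤ 3 := by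
  classical
  obtain ⟨r, hr⟩ := full_two (b c) s x y z
  have huniq : ∀ w : ZMod 2, ∀ p q : V S,
      ((∃ a, full S b c a s = x ∧ full S b c a (s + 1) = y ∧ full S b c a (s + 2) = z ∧ a r = w ∧
        p.1 = V0.co c a s) ∧ p.2.val = 0) →
      ((∃ a, full S b c a s = x ∧ full S b c a (s + 1) = y ∧ full S b c a (s + 2) = z ∧ a r = w ∧
        q.1 = V0.co c a s) ∧ q.2.val = 0) → p = q := by
    rintro w p q ⟨⟨a, h1, h2, h3, h4, h5⟩, h6⟩ ⟨⟨a', h1', h2', h3', h4', h5'⟩, h6'⟩
    have : a = a' := hr a a' h1 h2 h3 h1' h2' h3' (h4.trans h4'.symm)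
    subst this
    exact ext2 (h5.trans h5'.symm) (h6.trans h6'.symm)
  refine card_le_three _ (fun q => q.1 = V0.t1 c s x y ∧ q.2.val = 0)
    (fun q => (∃ a, full S b c a s = x ∧ full S b c a (s + 1) = y ∧ full S b c a (s + 2) = z ∧
      a r = 0 ∧ q.1 = V0.co c a s) ∧ q.2.val = 0)
    (fun q => (∃ a, full S b c a s = x ∧ full S b c a (s + 1) = y ∧ full S b c a (s + 2) = z ∧
      a r = 1 ∧ q.1 = V0.co c a s) ∧ q.2.val = 0) ?_ (huniq 0) (huniq 1) ?_
  · rintro x y ⟨h1, h2⟩ ⟨h3, h4⟩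
    exact ext2 (h1.trans h3.symm) (h2.trans h4.symm)
  · intro q hq
    rcases adj_zero b _ t ht q (mem_filter.1 hq).2 with ⟨h0, h | h⟩ | ⟨h1, h2, h3⟩ | ⟨h1, h2, h3⟩
    · obtain ⟨u, r'⟩ := q
      simp only at h h0 ⊢
      cases u <;> simp [step] at h
      rename_i c' a s'
      obtain ⟨-, rfl, rfl, h1, h2, h3⟩ := h
      rcases zmod2 (a r) with h4 | h4
      · exact Or.inr (Or.inl ⟨⟨a, h1, h2, h3, h4, rfl⟩, h0⟩)
      · exact Or.inr (Or.inr ⟨⟨a, h1, h2, h3, h4, rfl⟩, h0⟩)
    · obtain ⟨u, r'⟩ := q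
      simp only at h h0 ⊢
      cases u <;> simp [step] at h
      obtain ⟨-, rfl, rfl, rfl, rfl⟩ := h
      exact Or.inl ⟨rfl, h0⟩
    · exfalso
      rcases h3 with h3 | ⟨e, he⟩
      · simp [junk, hal] at h3
      · exact absurd he (by simp)
    · exfalso
      simp [len] at h3

private theorem deg_t1 (b : S.C → ZMod 2) (c : S.C) (s : Fin 5) (x y : ZMod 2)
    (t : Fin (M S + 3)) (ht : t.val = 0) (hal : S.al c = true) :
    (univ.filter fun q => adj S b (V0.t1 c s x y, t) q = true).card ≤ 3 := by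
  classical
  refine card_le_three _ (fun q => q.1 = V0.t2 c s x y 0 ∧ q.2.val = 0)
    (fun q => q.1 = V0.t2 c s x y 1 ∧ q.2.val = 0) (fun q => q.1 = V0.t0 c s x ∧ q.2.val = 0)
    ?_ ?_ ?_ ?_
  · rintro x y ⟨h1, h2⟩ ⟨h3, h4⟩
    exact ext2 (h1.trans h3.symm) (h2.trans h4.symm)
  · rintro x y ⟨h1, h2⟩ ⟨h3, h4⟩
    exact ext2 (h1.trans h3.symm) (h2.trans h4.symm)
  · rintro x y ⟨h1, h2⟩ ⟨h3, h4⟩
    exact ext2 (h1.trans h3.symm) (h2.trans h4.symm)
  · intro q hq
    rcases adj_zero b _ t ht q (mem_filter.1 hq).2 with ⟨h0, h | h⟩ | ⟨h1, h2, h3⟩ | ⟨h1, h2, h3⟩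
    · obtain ⟨u, r'⟩ := q
      simp only at h h0 ⊢
      cases u <;> simp [step] at h
      rename_i c' s' x' y' z'
      obtain ⟨-, rfl, rfl, rfl, rfl⟩ := h
      rcases zmod2 z' with rfl | rfl
      · exact Or.inl ⟨rfl, h0⟩
      · exact Or.inr (Or.inl ⟨rfl, h0⟩)
    · obtain ⟨u, r'⟩ := q
      simp only at h h0 ⊢
      cases u <;> simp [step] at h
      obtain ⟨-, rfl, rfl, rfl⟩ := h
      exact Or.inr (Or.inr ⟨rfl, h0⟩)
    · exfalso
      rcases h3 with h3 | ⟨e, he⟩
      · simp [junk, hal] at h3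
      · exact absurd he (by simp)
    · exfalso
      simp [len] at h3

private theorem deg_t0 (b : S.C → ZMod 2) (c : S.C) (s : Fin 5) (x : ZMod 2)
    (t : Fin (M S + 3)) (ht : t.val = 0) (hal : S.al c = true) :
    (univ.filter fun q => adj S b (V0.t0 c s x, t) q = true).card ≤ 3 := by
  classical
  refine card_le_three _ (fun q => q.1 = V0.t1 c s x 0 ∧ q.2.val = 0)
    (fun q => q.1 = V0.t1 c s x 1 ∧ q.2.val = 0)
    (fun q => (∃ (e : S.E) (n : Fin (10 * S.nC + 1)), S.slot c s = some e ∧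
        n.val = 2 * inc S c s ∧ q.1 = V0.rl e n x ∧ q.2.val = 0) ∨
      (S.slot c s = none ∧ q.1 = V0.t0 c s x ∧ q.2.val = 3)) ?_ ?_ ?_ ?_
  · rintro x y ⟨h1, h2⟩ ⟨h3, h4⟩
    exact ext2 (h1.trans h3.symm) (h2.trans h4.symm)
  · rintro x y ⟨h1, h2⟩ ⟨h3, h4⟩
    exact ext2 (h1.trans h3.symm) (h2.trans h4.symm)
  · rintro p q (⟨e, n, h1, h2, h3, h4⟩ | ⟨h1, h2, h3⟩) (⟨e', n', h1', h2', h3', h4'⟩ | ⟨h1', h2', h3'⟩)
    · rw [h1] at h1'
      have he : e = e' := by simpa using h1'
      subst he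
      have hn : n = n' := Fin.ext (by omega)
      subst hn
      exact ext2 (h3.trans h3'.symm) (h4.trans h4'.symm)
    · rw [h1] at h1'
      exact absurd h1' (by simp)
    · rw [h1] at h1'
      exact absurd h1' (by simp)
    · exact ext2 (h2.trans h2'.symm) (h3.trans h3'.symm)
  · intro q hq
    rcases adj_zero b _ t ht q (mem_filter.1 hq).2 with ⟨h0, h | h⟩ | ⟨h1, h2, h3⟩ | ⟨h1, h2, h3⟩
    · obtain ⟨u, r'⟩ := q
      simp only at h h0 ⊢
      cases u <;> simp [step] at h
      rename_i c' s' x' y'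
      obtain ⟨-, rfl, rfl, rfl⟩ := h
      rcases zmod2 y' with rfl | rfl
      · exact Or.inl ⟨rfl, h0⟩
      · exact Or.inr (Or.inl ⟨rfl, h0⟩)
    · obtain ⟨u, r'⟩ := q
      simp only at h h0 ⊢
      cases u <;> simp [step] at h
      rename_i e n x'
      obtain ⟨-, h1, h2, rfl⟩ := h
      exact Or.inr (Or.inr (Or.inl ⟨e, n, h1, h2, rfl, h0⟩))
    · exfalso
      rcases h3 with h3 | ⟨e, he⟩
      · simp [junk, hal] at h3
      · exact absurd he (by simp)
    · by_cases hsl : S.slot c s = none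
      · exact Or.inr (Or.inr (Or.inr ⟨hsl, h1, h2⟩))
      · exfalso
        simp [len, hsl] at h3

private theorem deg_tp (b : S.C → ZMod 2) (e : S.E) (t : Fin (M S + 3)) (ht : t.val = 0) :
    (univ.filter fun q => adj S b (V0.tp e, t) q = true).card ≤ 3 := by
  classical
  have huniq : ∀ w : ZMod 2, ∀ p q : V S,
      ((∃ n : Fin (10 * S.nC + 1), n.val = 0 ∧ p.1 = V0.rl e n w) ∧ p.2.val = 0) →
      ((∃ n : Fin (10 * S.nC + 1), n.val = 0 ∧ q.1 = V0.rl e n w) ∧ q.2.val = 0) → p = q := by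
    rintro w p q ⟨⟨n, h1, h2⟩, h3⟩ ⟨⟨n', h1', h2'⟩, h3'⟩
    have hn : n = n' := Fin.ext (h1.trans h1'.symm)
    subst hn
    exact ext2 (h2.trans h2'.symm) (h3.trans h3'.symm)
  refine card_le_three _
    (fun q => (∃ n : Fin (10 * S.nC + 1), n.val = 0 ∧ q.1 = V0.rl e n 0) ∧ q.2.val = 0)
    (fun q => (∃ n : Fin (10 * S.nC + 1), n.val = 0 ∧ q.1 = V0.rl e n 1) ∧ q.2.val = 0)
    (fun q => q.1 = V0.tp e ∧ q.2.val = 1) (huniq 0) (huniq 1) ?_ ?_
  · rintro x y ⟨h1, h2⟩ ⟨h3, h4⟩
    exact ext2 (h1.trans h3.symm) (h2.trans h4.symm)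
  · intro q hq
    rcases adj_zero b _ t ht q (mem_filter.1 hq).2 with ⟨h0, h | h⟩ | ⟨h1, h2, h3⟩ | ⟨h1, h2, h3⟩
    · obtain ⟨u, r'⟩ := q
      simp only at h h0 ⊢
      cases u <;> simp [step] at h
      rename_i e' n' x'
      obtain ⟨rfl, h⟩ := h
      have h' : n'.val = 0 := by simp [h]
      rcases zmod2 x' with rfl | rfl
      · exact Or.inl ⟨⟨n', h', rfl⟩, h0⟩
      · exact Or.inr (Or.inl ⟨⟨n', h', rfl⟩, h0⟩)
    · obtain ⟨u, r'⟩ := q
      simp only at h h0 ⊢
      cases u <;> simp [step] at h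
    · exact Or.inr (Or.inr ⟨h1, h2⟩)
    · exfalso
      simp [len] at h3

private theorem deg_rl (b : S.C → ZMod 2) (e : S.E) (n : Fin (10 * S.nC + 1)) (x : ZMod 2)
    (t : Fin (M S + 3)) (ht : t.val = 0) :
    (univ.filter fun q => adj S b (V0.rl e n x, t) q = true).card ≤ 3 := by
  classical
  refine card_le_three _
    (fun q => (∃ n' : Fin (10 * S.nC + 1), n'.val = n.val + 1 ∧ q.1 = V0.rl e n' x) ∧ q.2.val = 0)
    (fun q => (if n.val = 0 then q.1 = V0.tp e else
      ∃ n' : Fin (10 * S.nC + 1), n.val = n'.val + 1 ∧ q.1 = V0.rl e n' x) ∧ q.2.val = 0)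
    (fun q => if n.val % 2 = 1 then q.1 = V0.rl e n x ∧ q.2.val = 3 else
      (∃ c s, n.val = 2 * inc S c s ∧ q.1 = V0.t0 c s x) ∧ q.2.val = 0) ?_ ?_ ?_ ?_
  · rintro p q ⟨⟨n1, h1, h2⟩, h3⟩ ⟨⟨n2, h1', h2'⟩, h3'⟩
    have hn : n1 = n2 := Fin.ext (h1.trans h1'.symm)
    subst hn
    exact ext2 (h2.trans h2'.symm) (h3.trans h3'.symm)
  · rintro p q ⟨h1, h2⟩ ⟨h1', h2'⟩
    by_cases h0 : n.val = 0
    · rw [if_pos h0] at h1 h1'
      exact ext2 (h1.trans h1'.symm) (h2.trans h2'.symm)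
    · rw [if_neg h0] at h1 h1'
      obtain ⟨n1, h3, h4⟩ := h1
      obtain ⟨n2, h3', h4'⟩ := h1'
      have hn : n1 = n2 := Fin.ext (by omega)
      subst hn
      exact ext2 (h4.trans h4'.symm) (h2.trans h2'.symm)
  · intro p q h1 h1'
    by_cases h0 : n.val % 2 = 1
    · simp only [if_pos h0] at h1 h1'
      exact ext2 (h1.1.trans h1'.1.symm) (h1.2.trans h1'.2.symm)
    · simp only [if_neg h0] at h1 h1'
      obtain ⟨⟨c, s, h3, h4⟩, h5⟩ := h1
      obtain ⟨⟨c', s', h3', h4'⟩, h5'⟩ := h1'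
      obtain ⟨rfl, rfl⟩ := inc_inj (show inc S c s = inc S c' s' by omega)
      exact ext2 (h4.trans h4'.symm) (h5.trans h5'.symm)
  · intro q hq
    rcases adj_zero b _ t ht q (mem_filter.1 hq).2 with ⟨h0, h | h⟩ | ⟨h1, h2, h3⟩ | ⟨h1, h2, h3⟩
    · obtain ⟨u, r'⟩ := q
      simp only at h h0 ⊢
      cases u <;> simp [step] at h
      · rename_i c s x'
        obtain ⟨-, -, h2, rfl⟩ := h
        refine Or.inr (Or.inr ?_)
        rw [if_neg (by omega)]
        exact ⟨⟨c, s, h2, rfl⟩, h0⟩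
      · rename_i e' n' x'
        obtain ⟨rfl, rfl, h2⟩ := h
        exact Or.inl ⟨⟨n', h2, rfl⟩, h0⟩
    · obtain ⟨u, r'⟩ := q
      simp only at h h0 ⊢
      cases u <;> simp [step] at h
      · rename_i e' n' x'
        obtain ⟨rfl, rfl, h2⟩ := h
        refine Or.inr (Or.inl ⟨?_, h0⟩)
        rw [if_neg (by omega)]
        exact ⟨n', h2, rfl⟩
      · rename_i e'
        obtain ⟨rfl, h2⟩ := h
        refine Or.inr (Or.inl ⟨?_, h0⟩)
        rw [if_pos (by simp [h2])]
    · exfalso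
      rcases h3 with h3 | ⟨e, he⟩
      · simp [junk] at h3
      · exact absurd he (by simp)
    · have hodd : n.val % 2 = 1 := by
        by_contra hne
        simp [len, hne] at h3
      refine Or.inr (Or.inr ?_)
      rw [if_pos hodd]
      exact ⟨h1, h2⟩

theorem deg_le (b : S.C → ZMod 2) (p : V S) : (univ.filter fun q => adj S b p q = true).card ≤ 3 := by
  classical
  by_cases hp : p.2.val ≠ 0
  · exact deg_pos b p hp
  push Not at hp
  obtain ⟨v, t⟩ := p
  replace hp : t.val = 0 := hp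
  cases v with
  | co c a s =>
    by_cases hal : S.al c = true
    · by_cases hs : s = 0
      · subst hs
        refine card_le_three _ (fun q => (∃ s' : Fin 5, s'.val = 1 ∧ q.1 = V0.co c a s') ∧ q.2.val = 0)
          (fun q => q.1 = V0.t2 c 0 (full S b c a 0) (full S b c a (0 + 1)) (full S b c a (0 + 2)) ∧
            q.2.val = 0)
          (fun q => q.1 = V0.co c a 0 ∧ q.2.val = 3) ?_ ?_ ?_ ?_
        · rintro x y ⟨⟨s1, h1, h1'⟩, h2⟩ ⟨⟨s2, h3, h3'⟩, h4⟩
          have : s1 = s2 := Fin.ext (h1.trans h3.symm)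
          subst this
          exact ext2 (h1'.trans h3'.symm) (h2.trans h4.symm)
        · rintro x y ⟨h1, h2⟩ ⟨h3, h4⟩
          exact ext2 (h1.trans h3.symm) (h2.trans h4.symm)
        · rintro x y ⟨h1, h2⟩ ⟨h3, h4⟩
          exact ext2 (h1.trans h3.symm) (h2.trans h4.symm)
        · intro q hq
          rcases adj_zero b _ t hp q (mem_filter.1 hq).2 with ⟨h0, h | h⟩ | ⟨h1, h2, h3⟩ | ⟨h1, h2, h3⟩
          · obtain ⟨u, r⟩ := q
            simp only at h h0 ⊢
            cases u <;> simp [step] at h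
            obtain ⟨-, rfl, rfl, h⟩ := h
            exact Or.inl ⟨⟨_, h, rfl⟩, h0⟩
          · obtain ⟨u, r⟩ := q
            simp only at h h0 ⊢
            cases u <;> simp [step] at h
            obtain ⟨-, rfl, rfl, rfl, rfl, rfl⟩ := h
            exact Or.inr (Or.inl ⟨rfl, h0⟩)
          · exfalso
            rcases h3 with h3 | ⟨e, he⟩
            · simp [junk, hal] at h3
            · exact absurd he (by simp)
          · exact Or.inr (Or.inr ⟨h1, h2⟩)
      · refine card_le_three _ (fun q => (∃ s' : Fin 5, s'.val = s.val + 1 ∧ q.1 = V0.co c a s') ∧ q.2.val = 0)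
          (fun q => q.1 = V0.t2 c s (full S b c a s) (full S b c a (s + 1)) (full S b c a (s + 2)) ∧
            q.2.val = 0)
          (fun q => (∃ s' : Fin 5, s.val = s'.val + 1 ∧ q.1 = V0.co c a s') ∧ q.2.val = 0) ?_ ?_ ?_ ?_
        · rintro x y ⟨⟨s1, h1, h1'⟩, h2⟩ ⟨⟨s2, h3, h3'⟩, h4⟩
          have : s1 = s2 := Fin.ext (h1.trans h3.symm)
          subst this
          exact ext2 (h1'.trans h3'.symm) (h2.trans h4.symm)
        · rintro x y ⟨h1, h2⟩ ⟨h3, h4⟩
          exact ext2 (h1.trans h3.symm) (h2.trans h4.symm)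
        · rintro x y ⟨⟨s1, h1, h1'⟩, h2⟩ ⟨⟨s2, h3, h3'⟩, h4⟩
          have : s1 = s2 := Fin.ext (by omega)
          subst this
          exact ext2 (h1'.trans h3'.symm) (h2.trans h4.symm)
        · intro q hq
          rcases adj_zero b _ t hp q (mem_filter.1 hq).2 with ⟨h0, h | h⟩ | ⟨h1, h2, h3⟩ | ⟨h1, h2, h3⟩
          · obtain ⟨u, r⟩ := q
            simp only at h h0 ⊢
            cases u <;> simp [step] at h
            obtain ⟨-, rfl, rfl, h⟩ := h
            exact Or.inl ⟨⟨_, h, rfl⟩, h0⟩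
          · obtain ⟨u, r⟩ := q
            simp only at h h0 ⊢
            cases u <;> simp [step] at h
            · obtain ⟨-, rfl, rfl, h⟩ := h
              exact Or.inr (Or.inr ⟨⟨_, h, rfl⟩, h0⟩)
            · obtain ⟨-, rfl, rfl, rfl, rfl, rfl⟩ := h
              exact Or.inr (Or.inl ⟨rfl, h0⟩)
          · exfalso
            rcases h3 with h3 | ⟨e, he⟩
            · simp [junk, hal] at h3
            · exact absurd he (by simp)
          · exfalso
            simp [len, hs] at h3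
    · exact deg_junk b _ t hp (by simp [junk, hal])
  | t0 c s x =>
    by_cases hal : S.al c = true
    · exact deg_t0 b c s x t hp hal
    · exact deg_junk b _ t hp (by simp [junk, hal])
  | t1 c s x y =>
    by_cases hal : S.al c = true
    · exact deg_t1 b c s x y t hp hal
    · exact deg_junk b _ t hp (by simp [junk, hal])
  | t2 c s x y z =>
    by_cases hal : S.al c = true
    · exact deg_t2 b c s x y z t hp hal
    · exact deg_junk b _ t hp (by simp [junk, hal])
  | rl e n x => exact deg_rl b e n x t hp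
  | tp e => exact deg_tp b e t hp

end X

end Crest.Agent.WL
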