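import Crest.Agent.WL.GlueD
import Crest.Agent.WLX.SU
import Crest.Agent.WLY.ShapeN
import Crest.Agent.WLM.TM2Fin

/-!
# Row 290: the cores CoreSub, CoreV, CoreD and TM2Prop
-/

set_option autoImplicit false

namespace Crest.Agent.WL

open Crest.Agent.CHR Crest.CountHier Crest.Agent.WLM Crest.Agent.WLD Crest.Agent.WLX Crest.WLRefine
open Crest.Agent.WLH

theorem tm2Prop : TM2Prop := by
  intro α ea g M
  obtain ⟨P, C, h⟩ := prog_of_tm2 M
  refine ⟨P, C, fun a => ?_⟩
  obtain ⟨t, ht, h'⟩ := h a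
  exact ⟨t, ht, h'⟩

theorem coreSub : CoreSub :=
  coreSub_of SU.sysUP (sysEqJ_of bDict (fun T N b _ => V_pos T N b)) WLY.shapeOK
    (fun T _ N b _ => V_pos T N b)

theorem coreV : CoreV := coreV_of_coreSub coreSub

theorem coreD : CoreD := coreD_of SU.sysUP

end Crest.Agent.WL
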