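import Crest.Prelude.Def_WL
import Crest.Prelude.Def_ParityLift

/-!
# Row 290: Weisfeiler-Leman colours on arbitrary finite types, pebble families, strategies

`jc`, `sc` are `jcolor`, `scolor` for a graph on an arbitrary finite type.
-/

set_option autoImplicit false

namespace Crest.Agent.WL

open Crest.WLRefine Finset

section defs

variable {V : Type} [Fintype V] [DecidableEq V]

/-- Atomic type of a tuple. -/
def atT {k : ℕ} (adj : V → V → Bool) (v : Fin k → V) :
    (Fin k → Fin k → Bool) × (Fin k → Fin k → Bool) :=
  (fun i j => decide (v i = v j), fun i j => adj (v i) (v j))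

/-- Joint-update colours. -/
def jc (adj : V → V → Bool) (k : ℕ) : (s : ℕ) → (Fin k → V) → JColor k s
  | 0, v => atT adj v
  | s + 1, v => (jc adj k s v,
      (univ : Finset V).val.map fun z => fun i => jc adj k s (Function.update v i z))

/-- Separate-update colours. -/
def sc (adj : V → V → Bool) (k : ℕ) : (s : ℕ) → (Fin k → V) → SColor k s
  | 0, v => atT adj v
  | s + 1, v => (sc adj k s v,
      fun i => (univ : Finset V).val.map fun z => sc adj k s (Function.update v i z))

/-- Histogram of joint colours. -/
def jhist (adj : V → V → Bool) (k s : ℕ) : Multiset (JColor k s) :=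
  (univ : Finset (Fin k → V)).val.map (jc adj k s)

/-- Histogram of separate colours. -/
def shist (adj : V → V → Bool) (k s : ℕ) : Multiset (SColor k s) :=
  (univ : Finset (Fin k → V)).val.map (sc adj k s)

end defs

/-- A back-and-forth family for the bijective `t`-pebble game. -/
structure PebbleFam {V W : Type} [Fintype V] [DecidableEq V] [Fintype W] [DecidableEq W]
    (t : ℕ) (G : V → V → Bool) (H : W → W → Bool) where
  R : (Fin t → V) → (Fin t → W) → Prop
  atom : ∀ x x', R x x' → atT G x = atT H x'
  step : ∀ x x', R x x' → ∀ i : Fin t, ∃ f : V ≃ W, ∀ z : V,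
    R (Function.update x i z) (Function.update x' i (f z))

/-- A strategy of Duplicator by global bijections: every state `ψ` is a bijection `V ≃ W`, `ok ψ P`
says that it is valid for the set `P` of pebbled vertices; the answer depends only on the class of the
newly pebbled vertex. -/
structure Strat {V W : Type} [Fintype V] [DecidableEq V] [Fintype W] [DecidableEq W]
    (t : ℕ) (G : V → V → Bool) (H : W → W → Bool) where
  K : Type
  cls : V → K
  cls' : W → K
  St : Type
  map : St → (V ≃ W)
  map_cls : ∀ ψ a, cls' (map ψ a) = cls a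
  ok : St → Finset V → Prop
  mono : ∀ ψ P Q, Q ⊆ P → ok ψ P → ok ψ Q
  adj : ∀ ψ P, ok ψ P → ∀ a ∈ P, ∀ b ∈ P, G a b = H (map ψ a) (map ψ b)
  ext : ∀ ψ P, ok ψ P → P.card < t → ∀ κ : K, ∃ ψ' : St, (∀ a ∈ P, map ψ' a = map ψ a) ∧
    ∀ z : V, cls z = κ → ok ψ' (insert z P)
  init : ∃ ψ, ok ψ ∅

end Crest.Agent.WL
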