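import Crest.Agent.WL.XorGame

/-!
# Row 290: the book

Rows `0, ..., n` (ℕ), gaps `0, ..., n-1` (gap `k` lies between row `k` and row `k+1`; a word is a letter for every gap).
Columns: `none` = the centre, `some (i, j)` = column `j < L` of page `i` (`j = 0` next to the centre).
Inner edges `(i, j)`, `j < L`: between column `(i, j-1)` (the centre if `j = 0`) and column `(i, j)`;
the outer edge of page `i` leaves column `(i, L-1)`.

Row `m` of a word `σ` is labelled by the pair `(σ (m - 1), σ (min m (n - 1)))` (truncated subtraction).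
A check sits at (column, row, label pair).  Bits: horizontal gate bits `hb i j m a b` on inner edges, outer bits
`ob i m s t` labelled by projected pairs (only for open names), vertical bits `vb x k γ` (column `x`, gap `k`).
-/

set_option autoImplicit false

namespace Crest.Agent.WL

structure BookData where
  n : ℕ
  hn : 1 ≤ n
  L : ℕ
  hL : n + 3 ≤ L
  Γ : Type
  S : Type
  T : Type
  N : Type
  [decΓ : DecidableEq Γ]
  [decS : DecidableEq S]
  [decT : DecidableEq T]
  [decN : DecidableEq N]
  /-- gate name -/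
  nm : Γ → T
  /-- variable name -/
  vn : S → N
  pr : Fin 3 → Γ → S
  cn : T → Fin 3 → N
  hcn : ∀ i γ, vn (pr i γ) = cn (nm γ) i
  closed : Fin 3 → N → Prop
  [decClosed : ∀ i c, Decidable (closed i c)]
  odd : T → Prop
  [decOdd : ∀ τ, Decidable (odd τ)]
  /-- allowed label pairs of row `m` -/
  okl : ℕ → Γ → Γ → Prop
  okl_nm : ∀ m a b, okl m a b → nm a = nm b
  okl_first : ∀ a b, okl 0 a b → a = b
  okl_last : ∀ a b, okl n a b → a = b

attribute [instance] BookData.decΓ BookData.decS BookData.decT BookData.decN BookData.decClosed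
  BookData.decOdd

namespace BookData

variable (D : BookData)

/-- Columns. -/
abbrev Col := Option (Fin 3 × ℕ)

inductive Bit
  | hb (i : Fin 3) (j m : ℕ) (a b : D.Γ)
  | ob (i : Fin 3) (m : ℕ) (s t : D.S)
  | vb (x : Col) (k : ℕ) (γ : D.Γ)
  deriving DecidableEq

/-- A column is valid. -/
def ColOk : Col → Prop
  | none => True
  | some (_, j) => j < D.L

/-- Checks. -/
structure Chk where
  x : Col
  m : ℕ
  a : D.Γ
  b : D.Γ
  hx : D.ColOk x
  hm : m ≤ D.n
  hab : D.okl m a b

instance : DecidableEq D.Chk := fun c d =>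
  decidable_of_iff (c.x = d.x ∧ c.m = d.m ∧ c.a = d.a ∧ c.b = d.b) (by
    constructor
    · rintro ⟨h1, h2, h3, h4⟩; cases c; cases d; simp_all
    · rintro rfl; simp)

/-- Horizontal bits of a check. -/
def hInc (x : Col) (m : ℕ) (a b : D.Γ) : List D.Bit :=
  match x with
  | none => [Bit.hb 0 0 m a b, Bit.hb 1 0 m a b, Bit.hb 2 0 m a b]
  | some (i, j) => Bit.hb i j m a b ::
      (if j + 1 < D.L then [Bit.hb i (j + 1) m a b]
       else if D.closed i (D.vn (D.pr i a)) then [] else [Bit.ob i m (D.pr i a) (D.pr i b)])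

/-- Vertical bits of a check. -/
def vInc (x : Col) (m : ℕ) (a b : D.Γ) : List D.Bit :=
  (if m = 0 then [] else [Bit.vb x (m - 1) a]) ++ (if m = D.n then [] else [Bit.vb x m b])

/-- The parity system of the book: the parity is odd exactly at row `0` of the centre for odd names. -/
def xs : XSys D.Bit D.Chk where
  inc c := D.hInc c.x c.m c.a c.b ++ D.vInc c.x c.m c.a c.b
  par c := if c.x = none ∧ c.m = 0 ∧ D.odd (D.nm c.a) then 1 else 0

/-- Words over the gate letters are functions `ℕ → Γ` (only the values at gaps `< n` matter). -/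
def GWord (σ : ℕ → D.Γ) : Prop := ∀ m ≤ D.n, D.okl m (σ (m - 1)) (σ (min m (D.n - 1)))

/-- A set of variable words depends only on the letters at the gaps. -/
def Ext (K : Fin 3 → (ℕ → D.S) → Prop) : Prop :=
  ∀ i s s', (∀ k < D.n, s k = s' k) → K i s → K i s'

/-- Known variable words. -/
inductive Known : Fin 3 → (ℕ → D.S) → Prop
  | closed (i : Fin 3) (s : ℕ → D.S) (h : D.closed i (D.vn (s 0))) : Known i s
  | step (σ : ℕ → D.Γ) (hσ : D.GWord σ) (hodd : ¬ D.odd (D.nm (σ 0))) (i j l : Fin 3)
      (hij : i ≠ j) (hil : i ≠ l) (hjl : j ≠ l)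
      (hj : Known j (fun k => D.pr j (σ k))) (hl : Known l (fun k => D.pr l (σ k)))
      (s : ℕ → D.S) (hs : ∀ k < D.n, s k = D.pr i (σ k)) : Known i s

end BookData

end Crest.Agent.WL
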