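import Crest.Agent.WL.Book

/-!
# Row 290: vertical moves in the book (proof of `BookData.vert` of `BookFlow.lean`)

The definitions `dft`, `NSv`, `Agree` live in `BookFlow.lean`; here the statement is proved with the
definitions unfolded.
-/

set_option autoImplicit false

namespace Crest.Agent.WL.BookData

variable (D : BookData)

private theorem z2_add_self (x : ZMod 2) : x + x = 0 := by revert x; decide

/-- the translation -/
def vg (r₁ r₂ : ℕ) (v : D.T → Col → ZMod 2) : D.Bit → ZMod 2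
  | .hb _ _ _ _ _ => 0
  | .ob _ _ _ _ => 0
  | .vb x k γ => if min r₁ r₂ ≤ k ∧ k < max r₁ r₂ then v (D.nm γ) x else 0

private theorem vg_hInc (r₁ r₂ : ℕ) (v : D.T → Col → ZMod 2) (x : Col) (m : ℕ) (a b : D.Γ) :
    ∀ y ∈ D.hInc x m a b, D.vg r₁ r₂ v y = 0 := by
  intro y hy
  rcases x with _ | ⟨i, j⟩
  · simp only [hInc, List.mem_cons, List.not_mem_nil, or_false] at hy
    rcases hy with rfl | rfl | rfl <;> rfl
  · simp only [hInc, List.mem_cons] at hy
    rcases hy with rfl | hy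
    · rfl
    · split_ifs at hy
      · simp only [List.mem_cons, List.not_mem_nil, or_false] at hy
        subst hy; rfl
      · simp at hy
      · simp only [List.mem_cons, List.not_mem_nil, or_false] at hy
        subst hy; rfl

private theorem sum_map_zero {α : Type} (g : α → ZMod 2) (l : List α) (h : ∀ y ∈ l, g y = 0) :
    (l.map g).sum = 0 := by
  induction l with
  | nil => rfl
  | cons a l ih =>
    rw [List.map_cons, List.sum_cons, h a List.mem_cons_self,
      ih (fun y hy => h y (List.mem_cons_of_mem _ hy)), add_zero]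

private theorem vert_key (r₁ r₂ n m : ℕ) (h₁ : r₁ ≤ n) (h₂ : r₂ ≤ n) (w : ZMod 2) :
    (if m = 0 then 0 else if min r₁ r₂ ≤ m - 1 ∧ m - 1 < max r₁ r₂ then w else 0) +
      (if m = n then 0 else if min r₁ r₂ ≤ m ∧ m < max r₁ r₂ then w else 0) =
    w * ((if m = r₁ then 1 else 0) + (if m = r₂ then 1 else 0)) := by
  have hw := z2_add_self w
  have h11 : (1 : ZMod 2) + 1 = 0 := by decide
  split_ifs <;> first
    | (exfalso; omega)
    | simp [hw, h11]

theorem vert_sum (r₁ r₂ : ℕ) (h₁ : r₁ ≤ D.n) (h₂ : r₂ ≤ D.n) (v : D.T → Col → ZMod 2) (c : D.Chk) :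
    ((D.xs.inc c).map (D.vg r₁ r₂ v)).sum =
      v (D.nm c.a) c.x * ((if c.m = r₁ then 1 else 0) + (if c.m = r₂ then 1 else 0)) := by
  show ((D.hInc c.x c.m c.a c.b ++ D.vInc c.x c.m c.a c.b).map (D.vg r₁ r₂ v)).sum = _
  rw [List.map_append, List.sum_append, sum_map_zero _ _ (D.vg_hInc r₁ r₂ v c.x c.m c.a c.b), zero_add,
    vInc, List.map_append, List.sum_append]
  rw [← vert_key r₁ r₂ D.n c.m h₁ h₂ (v (D.nm c.a) c.x)]
  congr 1
  · by_cases h : c.m = 0
    · rw [if_pos h, if_pos h]; rfl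
    · rw [if_neg h, if_neg h]
      show D.vg r₁ r₂ v (.vb c.x (c.m - 1) c.a) + 0 = _
      rw [add_zero]; rfl
  · by_cases h : c.m = D.n
    · rw [if_pos h, if_pos h]; rfl
    · rw [if_neg h, if_neg h]
      show D.vg r₁ r₂ v (.vb c.x c.m c.b) + 0 = _
      rw [add_zero, D.okl_nm _ _ _ c.hab]; rfl

theorem vert_zero (r₁ r₂ : ℕ) (v : D.T → Col → ZMod 2) (p : D.Chk) (hp : v (D.nm p.a) p.x = 0) :
    ∀ y ∈ D.xs.inc p, D.vg r₁ r₂ v y = 0 := by
  intro y hy
  have hy' : y ∈ D.hInc p.x p.m p.a p.b ++ D.vInc p.x p.m p.a p.b := hy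
  rw [List.mem_append] at hy'
  rcases hy' with hy' | hy'
  · exact D.vg_hInc r₁ r₂ v _ _ _ _ y hy'
  · rw [vInc, List.mem_append] at hy'
    rcases hy' with hy' | hy'
    · split_ifs at hy' with h
      · simp at hy'
      · simp only [List.mem_cons, List.not_mem_nil, or_false] at hy'
        subst hy'
        show (if _ then v (D.nm p.a) p.x else 0) = (0 : ZMod 2)
        rw [hp]; split_ifs <;> rfl
    · split_ifs at hy' with h
      · simp at hy'
      · simp only [List.mem_cons, List.not_mem_nil, or_false] at hy'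
        subst hy'
        show (if _ then v (D.nm p.b) p.x else 0) = (0 : ZMod 2)
        rw [← D.okl_nm _ _ _ p.hab, hp]; split_ifs <;> rfl

theorem sum_map_add {α : Type} (f g : α → ZMod 2) (l : List α) :
    (l.map (fun x => f x + g x)).sum = (l.map f).sum + (l.map g).sum := by
  induction l with
  | nil => simp
  | cons a l ih => simp only [List.map_cons, List.sum_cons, ih]; ring

/-- `vert` with the definitions of `BookFlow.lean` unfolded. -/
theorem vert_proof (r₁ r₂ : ℕ) (h₁ : r₁ ≤ D.n) (h₂ : r₂ ≤ D.n) (f : D.Bit → ZMod 2)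
    (vio : D.T → Col → ℕ → ZMod 2)
    (hf : ∀ c : D.Chk, ((D.xs.inc c).map f).sum + D.xs.par c = vio (D.nm c.a) c.x c.m)
    (v : D.T → Col → ZMod 2) (Q : Finset D.Chk) (hQ : ∀ p ∈ Q, v (D.nm p.a) p.x = 0) :
    ∃ f' : D.Bit → ZMod 2, (∀ c : D.Chk, ((D.xs.inc c).map f').sum + D.xs.par c =
        vio (D.nm c.a) c.x c.m + v (D.nm c.a) c.x * ((if c.m = r₁ then 1 else 0) + (if c.m = r₂ then 1 else 0))) ∧
      ∀ p ∈ Q, ∀ x ∈ D.xs.inc p, f' x = f x := by
  refine ⟨fun x => f x + D.vg r₁ r₂ v x, ?_, ?_⟩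
  · intro c
    rw [sum_map_add, D.vert_sum r₁ r₂ h₁ h₂ v c, ← hf c]
    ring
  · intro p hp x hx
    show f x + D.vg r₁ r₂ v x = f x
    rw [D.vert_zero r₁ r₂ v p (hQ p hp) x hx, add_zero]

end Crest.Agent.WL.BookData
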