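import Crest.Agent.WL.Book
import Crest.Agent.WL.BookVert

/-!
# Row 290: flows in the book

Edges: `(i, j)` with `j < L` inner, `j = L` outer edge of page `i`.
`Inc x i j`: the edge `(i, j)` is incident with the column `x`.
`NSv f vio`: the defect of `f` at every check depends only on the gate name, the column and the row.
-/

set_option autoImplicit false

namespace Crest.Agent.WL.BookData

variable (D : BookData)

/-- The edge `(i, j)` is incident with the column `x`. -/
def EInc : Col → Fin 3 → ℕ → Prop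
  | none, _, j => j = 0
  | some (i', j'), i, j => i = i' ∧ (j = j' ∨ j = j' + 1)

/-- Boundary of an edge function. -/
def bd (n : Fin 3 → ℕ → ZMod 2) : Col → ZMod 2
  | none => n 0 0 + n 1 0 + n 2 0
  | some (i, j) => n i j + n i (j + 1)

/-- Defect of `f` at a check. -/
def dft (f : D.Bit → ZMod 2) (c : D.Chk) : ZMod 2 := ((D.xs.inc c).map f).sum + D.xs.par c

/-- Near-solutions with violations `vio name column row`. -/
def NSv (f : D.Bit → ZMod 2) (vio : D.T → Col → ℕ → ZMod 2) : Prop :=
  ∀ c : D.Chk, D.dft f c = vio (D.nm c.a) c.x c.m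

/-- `f'` agrees with `f` on all bits of the checks of `Q`. -/
def Agree (Q : Finset D.Chk) (f f' : D.Bit → ZMod 2) : Prop :=
  ∀ p ∈ Q, ∀ x ∈ D.xs.inc p, f' x = f x

/-- Admissible edge functions: the value on the outer edge depends only on the variable name and vanishes for
closed names. -/
def Adm (n : D.T → Fin 3 → ℕ → ZMod 2) : Prop :=
  ∃ o : Fin 3 → D.N → ZMod 2, (∀ τ i, n τ i D.L = o i (D.cn τ i)) ∧ ∀ i c, D.closed i c → o i c = 0

theorem zz (a : ZMod 2) : a + a = 0 := CharTwo.add_self_eq_zero a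

/-- The modification used in `flow`. -/
def flowG (k : ℕ) (n : D.T → Fin 3 → ℕ → ZMod 2) (ρ : D.T → Fin 3 → ℕ → D.Γ → ZMod 2) (r : Fin 3 → D.S → ZMod 2)
    (o : Fin 3 → D.N → ZMod 2) : D.Bit → ZMod 2
  | .hb i j m a b => if m = k then n (D.nm a) i j * (1 + ρ (D.nm a) i j b) else
      if m = k + 1 then n (D.nm a) i j * ρ (D.nm a) i j a else 0
  | .ob i m s t => if m = k then o i (D.vn s) * (1 + r i t) else
      if m = k + 1 then o i (D.vn s) * r i s else 0
  | .vb x k' γ => if k' = k then bd (fun i j => n (D.nm γ) i j * ρ (D.nm γ) i j γ) x else 0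

/-- Value on an edge in row `m`. -/
def flowH (k : ℕ) (n : D.T → Fin 3 → ℕ → ZMod 2) (ρ : D.T → Fin 3 → ℕ → D.Γ → ZMod 2) (m : ℕ) (a b : D.Γ)
    (i : Fin 3) (j : ℕ) : ZMod 2 :=
  if m = k then n (D.nm a) i j * (1 + ρ (D.nm a) i j b) else
      if m = k + 1 then n (D.nm a) i j * ρ (D.nm a) i j a else 0

section flowaux

variable (k : ℕ) (n : D.T → Fin 3 → ℕ → ZMod 2) (ρ : D.T → Fin 3 → ℕ → D.Γ → ZMod 2)
  (r : Fin 3 → D.S → ZMod 2) (o : Fin 3 → D.N → ZMod 2)

theorem flowG_ob (hr : ∀ i γ, ρ (D.nm γ) i D.L γ = r i (D.pr i γ)) (ho : ∀ τ i, n τ i D.L = o i (D.cn τ i))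
    (i : Fin 3) (m : ℕ) (a b : D.Γ) (hab : D.nm a = D.nm b) :
    D.flowG k n ρ r o (.ob i m (D.pr i a) (D.pr i b)) = D.flowH k n ρ m a b i D.L := by
  unfold flowG flowH
  simp only [D.hcn, ← ho]
  rw [← hr, ← hr, hab]

theorem flow_hsum (hr : ∀ i γ, ρ (D.nm γ) i D.L γ = r i (D.pr i γ)) (ho : ∀ τ i, n τ i D.L = o i (D.cn τ i))
    (hoc : ∀ i c, D.closed i c → o i c = 0) (x : Col) (hx : D.ColOk x) (m : ℕ) (a b : D.Γ)
    (hab : D.nm a = D.nm b) :
    ((D.hInc x m a b).map (D.flowG k n ρ r o)).sum = bd (D.flowH k n ρ m a b) x := by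
  cases x with
  | none =>
    simp only [hInc, bd, List.map_cons, List.map_nil, List.sum_cons, List.sum_nil, add_zero, add_assoc]
    rfl
  | some p =>
    obtain ⟨i, j⟩ := p
    simp only [ColOk] at hx
    simp only [hInc, bd, List.map_cons, List.sum_cons]
    congr 1
    split_ifs with h1 h2
    · simp only [List.map_cons, List.map_nil, List.sum_cons, List.sum_nil, add_zero]
      rfl
    · have hj : j + 1 = D.L := by omega
      rw [hj]
      have h0 : n (D.nm a) i D.L = 0 := by
        rw [ho]; apply hoc; rw [← D.hcn]; exact h2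
      simp [flowH, h0]
    · have hj : j + 1 = D.L := by omega
      rw [hj]
      simp only [List.map_cons, List.map_nil, List.sum_cons, List.sum_nil, add_zero]
      exact D.flowG_ob k n ρ r o hr ho i m a b hab

theorem flow_hmem (hr : ∀ i γ, ρ (D.nm γ) i D.L γ = r i (D.pr i γ)) (ho : ∀ τ i, n τ i D.L = o i (D.cn τ i))
    (x : Col) (hx : D.ColOk x) (m : ℕ) (a b : D.Γ)
    (hab : D.nm a = D.nm b) (hz : ∀ i j, EInc x i j → D.flowH k n ρ m a b i j = 0) :
    ∀ y ∈ D.hInc x m a b, D.flowG k n ρ r o y = 0 := by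
  cases x with
  | none =>
    intro y hy
    simp only [hInc, List.mem_cons, List.not_mem_nil, or_false] at hy
    rcases hy with rfl | rfl | rfl
    · exact hz 0 0 rfl
    · exact hz 1 0 rfl
    · exact hz 2 0 rfl
  | some p =>
    obtain ⟨i, j⟩ := p
    simp only [ColOk] at hx
    intro y hy
    simp only [hInc, List.mem_cons] at hy
    rcases hy with rfl | hy
    · exact hz i j ⟨rfl, Or.inl rfl⟩
    · split_ifs at hy with h1 h2
      · simp only [List.mem_cons, List.not_mem_nil, or_false] at hy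
        subst hy
        exact hz i (j + 1) ⟨rfl, Or.inr rfl⟩
      · simp at hy
      · simp only [List.mem_cons, List.not_mem_nil, or_false] at hy
        subst hy
        have hj : j + 1 = D.L := by omega
        rw [D.flowG_ob k n ρ r o hr ho i m a b hab, ← hj]
        exact hz i (j + 1) ⟨rfl, Or.inr rfl⟩

theorem flow_vsum (x : Col) (m : ℕ) (hm : m ≤ D.n) (hk : k < D.n) (a b : D.Γ) :
    ((D.vInc x m a b).map (D.flowG k n ρ r o)).sum =
      if m = k then bd (fun i j => n (D.nm b) i j * ρ (D.nm b) i j b) x else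
      if m = k + 1 then bd (fun i j => n (D.nm a) i j * ρ (D.nm a) i j a) x else 0 := by
  unfold vInc
  rw [List.map_append, List.sum_append]
  have e1 : (((if m = 0 then [] else [Bit.vb x (m - 1) a] : List D.Bit)).map (D.flowG k n ρ r o)).sum =
      if m = k + 1 then bd (fun i j => n (D.nm a) i j * ρ (D.nm a) i j a) x else 0 := by
    by_cases h0 : m = 0
    · subst h0; simp
    · simp only [h0, if_false, List.map_cons, List.map_nil, List.sum_cons, List.sum_nil, add_zero, flowG]
      have : (m - 1 = k) ↔ (m = k + 1) := by omega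
      simp only [this]
  have e2 : (((if m = D.n then [] else [Bit.vb x m b] : List D.Bit)).map (D.flowG k n ρ r o)).sum =
      if m = k then bd (fun i j => n (D.nm b) i j * ρ (D.nm b) i j b) x else 0 := by
    by_cases h0 : m = D.n
    · have : m ≠ k := by omega
      simp [h0, this]
      intro h; omega
    · simp only [h0, if_false, List.map_cons, List.map_nil, List.sum_cons, List.sum_nil, add_zero, flowG]
  rw [e1, e2]
  by_cases h1 : m = k
  · have : m ≠ k + 1 := by omega
    simp [h1]
  · simp [h1]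

theorem flow_vmem (x : Col) (m : ℕ) (a b : D.Γ)
    (h1 : m = k → bd (fun i j => n (D.nm b) i j * ρ (D.nm b) i j b) x = 0)
    (h2 : m = k + 1 → bd (fun i j => n (D.nm a) i j * ρ (D.nm a) i j a) x = 0) :
    ∀ y ∈ D.vInc x m a b, D.flowG k n ρ r o y = 0 := by
  intro y hy
  unfold vInc at hy
  rw [List.mem_append] at hy
  rcases hy with hy | hy
  · split_ifs at hy with h0
    · simp at hy
    · simp only [List.mem_cons, List.not_mem_nil, or_false] at hy
      subst hy
      simp only [flowG]
      split_ifs with h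
      · exact h2 (by omega)
      · rfl
  · split_ifs at hy with h0
    · simp at hy
    · simp only [List.mem_cons, List.not_mem_nil, or_false] at hy
      subst hy
      simp only [flowG]
      split_ifs with h
      · exact h1 h
      · rfl

theorem bd_congr {n₁ n₂ : Fin 3 → ℕ → ZMod 2} {x : Col} (h : ∀ i j, EInc x i j → n₁ i j = n₂ i j) :
    bd n₁ x = bd n₂ x := by
  cases x with
  | none =>
    simp only [bd]
    rw [h 0 0 rfl, h 1 0 rfl, h 2 0 rfl]
  | some p =>
    obtain ⟨i, j⟩ := p
    simp only [bd]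
    rw [h i j ⟨rfl, Or.inl rfl⟩, h i (j + 1) ⟨rfl, Or.inr rfl⟩]

theorem bd_add (n₁ n₂ : Fin 3 → ℕ → ZMod 2) (x : Col) :
    bd n₁ x + bd n₂ x = bd (fun i j => n₁ i j + n₂ i j) x := by
  cases x with
  | none => simp only [bd]; ring
  | some p => obtain ⟨i, j⟩ := p; simp only [bd]; ring

theorem bd_zero (x : Col) : bd (fun _ _ => 0) x = 0 := by
  cases x with
  | none => simp [bd]
  | some p => simp [bd]

end flowaux

/-- CHUNK R290-F1.  Flow in the rows `k`, `k + 1` with routing pattern `ρ` (row `k` carries `1 + ρ(right letter)`,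
row `k + 1` carries `ρ(left letter)`).
PROOF.  `f' = f + g` with (`τ = nm a`)
  `g (hb i j m a b) = if m = k then n τ i j * (1 + ρ τ i j b) else if m = k+1 then n τ i j * ρ τ i j a else 0`,
  `g (ob i m s t) = if m = k then o i (vn s) * (1 + r i t) else if m = k+1 then o i (vn s) * r i s else 0`,
  `g (vb x k' γ) = if k' = k then (sum over the edges e at x of n τ e * ρ τ e γ) else 0`, `τ = nm γ`
  (`x = none`: `∑ i, n τ i 0 * ρ τ i 0 γ`; `x = some (i,j)`: `n τ i j * ρ τ i j γ + n τ i (j+1) * ρ τ i (j+1) γ`).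
At a check of row `k`: horizontals `∑ n_e (1 + ρ_e b)` plus the vertical bit of gap `k`: `∑ n_e ρ_e b`, total `bd n`.
At a check of row `k+1`: `∑ n_e ρ_e a + ∑ n_e ρ_e a = 0`.  At the last column (`j + 1 = L`) the outer bit exists iff
the name is open, and for a closed name `n τ i L = 0`.  Pebbled checks: `hup`, `hlo`, `hbd` say that all bits of
`g` vanish. -/
theorem flow (k : ℕ) (hk : k < D.n) (f : D.Bit → ZMod 2) (vio : D.T → Col → ℕ → ZMod 2) (hf : D.NSv f vio)
    (n : D.T → Fin 3 → ℕ → ZMod 2) (hn : D.Adm n)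
    (ρ : D.T → Fin 3 → ℕ → D.Γ → ZMod 2) (r : Fin 3 → D.S → ZMod 2)
    (hr : ∀ i γ, ρ (D.nm γ) i D.L γ = r i (D.pr i γ)) (Q : Finset D.Chk)
    (hup : ∀ p ∈ Q, p.m = k → ∀ i j, EInc p.x i j → n (D.nm p.a) i j = 0 ∨ ρ (D.nm p.a) i j p.b = 1)
    (hlo : ∀ p ∈ Q, p.m = k + 1 → ∀ i j, EInc p.x i j → n (D.nm p.a) i j = 0 ∨ ρ (D.nm p.a) i j p.a = 0)
    (hbd : ∀ p ∈ Q, p.m = k → bd (n (D.nm p.a)) p.x = 0) :
    ∃ f', D.NSv f' (fun τ x m => vio τ x m + if m = k then bd (n τ) x else 0) ∧ D.Agree Q f f' := by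
  classical
  obtain ⟨o, ho, hoc⟩ := hn
  refine ⟨fun y => f y + D.flowG k n ρ r o y, ?_, ?_⟩
  · intro c
    have hab := D.okl_nm _ _ _ c.hab
    have h1 : D.dft (fun y => f y + D.flowG k n ρ r o y) c = D.dft f c +
        (((D.hInc c.x c.m c.a c.b).map (D.flowG k n ρ r o)).sum +
          ((D.vInc c.x c.m c.a c.b).map (D.flowG k n ρ r o)).sum) := by
      unfold dft xs
      simp only [List.map_append, List.sum_append, List.sum_map_add]
      ring
    rw [h1, hf c, D.flow_hsum k n ρ r o hr ho hoc c.x c.hx c.m c.a c.b hab,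
      D.flow_vsum k n ρ r o c.x c.m c.hm hk c.a c.b]
    congr 1
    by_cases h2 : c.m = k
    · simp only [h2, if_true]
      rw [bd_add]
      apply bd_congr
      intro i j _
      simp only [flowH, if_true, ← hab]
      rw [mul_add, mul_one, add_assoc, zz, add_zero]
    · simp only [h2, if_false]
      by_cases h3 : c.m = k + 1
      · simp only [h3, if_true]
        rw [bd_add]
        refine (bd_congr ?_).trans (bd_zero c.x)
        intro i j _
        simp only [flowH, if_true]
        rw [if_neg (by omega), zz]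
      · simp only [h3, if_false, add_zero]
        refine (bd_congr ?_).trans (bd_zero c.x)
        intro i j _
        simp only [flowH, h2, h3, if_false]
  · intro p hp y hy
    have hab := D.okl_nm _ _ _ p.hab
    have hy' : y ∈ D.hInc p.x p.m p.a p.b ++ D.vInc p.x p.m p.a p.b := hy
    suffices h : D.flowG k n ρ r o y = 0 by
      simp only [h, add_zero]
    rw [List.mem_append] at hy'
    have hone : ∀ c : ZMod 2, c = 1 → 1 + c = 0 := by decide
    rcases hy' with hy' | hy'
    · refine D.flow_hmem k n ρ r o hr ho p.x p.hx p.m p.a p.b hab ?_ y hy'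
      intro i j hij
      unfold flowH
      split_ifs with h2 h3
      · rcases hup p hp h2 i j hij with h | h
        · rw [h, zero_mul]
        · rw [hone _ h, mul_zero]
      · rcases hlo p hp h3 i j hij with h | h
        · rw [h, zero_mul]
        · rw [h, mul_zero]
      · rfl
    · refine D.flow_vmem k n ρ r o p.x p.m p.a p.b ?_ ?_ y hy'
      · intro h2
        rw [← hbd p hp h2, ← hab]
        apply bd_congr
        intro i j hij
        rcases hup p hp h2 i j hij with h | h
        · rw [h, zero_mul]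
        · rw [h, mul_one]
      · intro h2
        refine (bd_congr ?_).trans (bd_zero p.x)
        intro i j hij
        rcases hlo p hp h2 i j hij with h | h
        · rw [h, zero_mul]
        · rw [h, mul_zero]


/-- CHUNK R290-F2.  Vertical moves in columns free of pebbles.
PROOF.  `f' = f + g`, `g (vb x k γ) = if min r₁ r₂ ≤ k ∧ k < max r₁ r₂ then v (nm γ) x else 0`, `g = 0` on the other bits. -/
theorem vert (r₁ r₂ : ℕ) (h₁ : r₁ ≤ D.n) (h₂ : r₂ ≤ D.n) (f : D.Bit → ZMod 2)
    (vio : D.T → Col → ℕ → ZMod 2) (hf : D.NSv f vio) (v : D.T → Col → ZMod 2) (Q : Finset D.Chk)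
    (hQ : ∀ p ∈ Q, v (D.nm p.a) p.x = 0) :
    ∃ f', D.NSv f' (fun τ x m => vio τ x m + v τ x * ((if m = r₁ then 1 else 0) + (if m = r₂ then 1 else 0))) ∧
      D.Agree Q f f' := by
  exact D.vert_proof r₁ r₂ h₁ h₂ f vio hf v Q hQ

end Crest.Agent.WL.BookData
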