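import Crest.Agent.WL.BookLin

set_option autoImplicit false

namespace Crest.Agent.WL.BookData

variable (D : BookData)

theorem sp_rows_pp (b : D.Chk → ZMod 2) (σ : ℕ → D.Γ) (hσ : D.GWord σ) (i : Fin 3) :
    D.pp b σ hσ i = ∑ j : Fin D.L, D.wp b σ hσ (some (i, j.1)) j.2 := by
  have h1 : D.pp b σ hσ i = ∑ j ∈ Finset.range D.L,
      (if h : j < D.L then D.wp b σ hσ (some (i, j)) h else 0) := by
    unfold pp
    rw [← Finset.sum_attach (Finset.range D.L)
      (fun j => (if h : j < D.L then D.wp b σ hσ (some (i, j)) h else 0))]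
    refine Finset.sum_congr rfl ?_
    rintro ⟨j, hj⟩ _
    simp only
    rw [dif_pos (Finset.mem_range.1 hj)]
  rw [h1, Finset.sum_range]
  refine Finset.sum_congr rfl fun j _ => ?_
  rw [dif_pos j.2]

theorem sp_rows_rowB (b : D.Chk → ZMod 2) (σ : ℕ → D.Γ) (hσ : D.GWord σ) (m : ℕ) (hm : m ≤ D.n) :
    D.rowB b m (σ (m - 1)) (σ (min m (D.n - 1))) =
      b (D.wc σ hσ none trivial m) + ∑ i : Fin 3, ∑ j : Fin D.L, b (D.wc σ hσ (some (i, j.1)) j.2 m) := by
  unfold rowB wc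
  rw [dif_pos ⟨hm, hσ m hm⟩]
  simp only [dif_pos hm]

/-- CHUNK R290-L1.  The sheet parity is the sum of the row parities. -/
theorem sp_rows (b : D.Chk → ZMod 2) (σ : ℕ → D.Γ) (hσ : D.GWord σ) :
    D.sp b σ hσ = ∑ m ∈ Finset.range (D.n + 1), D.rowB b m (σ (m - 1)) (σ (min m (D.n - 1))) := by
  have h1 : ∑ m ∈ Finset.range (D.n + 1), D.rowB b m (σ (m - 1)) (σ (min m (D.n - 1))) =
      ∑ m ∈ Finset.range (D.n + 1), (b (D.wc σ hσ none trivial m) +
        ∑ i : Fin 3, ∑ j : Fin D.L, b (D.wc σ hσ (some (i, j.1)) j.2 m)) := by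
    refine Finset.sum_congr rfl fun m hm => ?_
    exact D.sp_rows_rowB b σ hσ m (by have := Finset.mem_range.1 hm; omega)
  rw [h1, Finset.sum_add_distrib]
  unfold sp
  congr 1
  rw [← Fin.sum_univ_three (fun i => D.pp b σ hσ i), Finset.sum_comm]
  refine Finset.sum_congr rfl fun i _ => ?_
  rw [Finset.sum_comm, D.sp_rows_pp b σ hσ i]
  rfl

end Crest.Agent.WL.BookData
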