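import Crest.Agent.WL.BookL1

set_option autoImplicit false

namespace Crest.Agent.WL.BookData

variable (D : BookData)

theorem three_arms (F : Fin 3 → ZMod 2) (i j l : Fin 3) (hij : i ≠ j) (hil : i ≠ l) (hjl : j ≠ l) :
    F 0 + F 1 + F 2 = F i + F j + F l := by
  fin_cases i <;> fin_cases j <;> fin_cases l <;> first
    | exact absurd rfl hij
    | exact absurd rfl hil
    | exact absurd rfl hjl
    | (simp only [Fin.zero_eta, Fin.mk_one, Fin.reduceFinMk]; done)
    | (simp only [Fin.zero_eta, Fin.mk_one, Fin.reduceFinMk]; ring)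

/-- CHUNK R290-L2.  Additivity.
PROOF.  Induction on `AddC`.  `closed`: `o = 0`.  `single`: `o 0 _ _ = φ i s₀` (`hφ`), other rows `0` (if there is no such gate
word everything is vacuous).  `step`: for a gate word `σ` of the cell put `σ' k = ς k (pr i (σ k))`: a gate word of name `τ` with
the same projection to page `i` at the gaps `< n`; by `hsum` for `σ'` (the three arms in the order `0, 1, 2`; sort out `i, j, l` by cases)
`φ i = φ j + φ l + sp b σ'`, and use the induction hypotheses for `σ'` and `sp_rows`: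
`o m s t = oj m (pr j s') (pr j t') + ol m (pr l s') (pr l t') + rowB b m s' t'` with `s' = ς (m - 1) s`,
`t' = ς (min m (n - 1)) t`. -/
theorem additive_of_addC (b : D.Chk → ZMod 2) (φ : Fin 3 → (ℕ → D.S) → ZMod 2)
    (hφ : ∀ (σ : ℕ → D.Γ) (_ : D.GWord σ) (i : Fin 3) (s : ℕ → D.S), (∀ k < D.n, s k = D.pr i (σ k)) →
        φ i s = φ i (fun k => D.pr i (σ k)))
    (hcl : ∀ (σ : ℕ → D.Γ) (_ : D.GWord σ) (i : Fin 3), D.closed i (D.vn (D.pr i (σ 0))) →
        φ i (fun k => D.pr i (σ k)) = 0)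
    (hsum : ∀ (σ : ℕ → D.Γ) (hσ : D.GWord σ), φ 0 (fun k => D.pr 0 (σ k)) + φ 1 (fun k => D.pr 1 (σ k)) +
        φ 2 (fun k => D.pr 2 (σ k)) = D.sp b σ hσ)
    (i : Fin 3) (c : D.N) (h : D.AddC i c) : D.Additive φ i c := by
  have hn := D.hn
  induction h with
  | closed i c hc =>
    refine ⟨fun _ _ _ => 0, fun σ hσ hcσ => ?_⟩
    rw [Finset.sum_const_zero]
    apply hcl σ hσ i
    rw [D.hcn, hcσ]
    exact hc
  | single i c s₀ hs =>
    refine ⟨fun m _ _ => if m = 0 then φ i s₀ else 0, fun σ hσ hcσ => ?_⟩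
    rw [Finset.sum_ite_eq' (Finset.range (D.n + 1)) 0 (fun _ => φ i s₀),
      if_pos (Finset.mem_range.2 (Nat.succ_pos _))]
    exact (hφ σ hσ i s₀ (fun k hk => (hs σ hσ hcσ k hk).symm)).symm
  | step i j l hij hil hjl c τ hc ς hς hok hj hl ihj ihl =>
    obtain ⟨oj, hoj⟩ := ihj
    obtain ⟨ol, hol⟩ := ihl
    refine ⟨fun m s t => oj m (D.pr j (ς (m - 1) s)) (D.pr j (ς (min m (D.n - 1)) t)) +
      ol m (D.pr l (ς (m - 1) s)) (D.pr l (ς (min m (D.n - 1)) t)) +
      D.rowB b m (ς (m - 1) s) (ς (min m (D.n - 1)) t), fun σ hσ hcσ => ?_⟩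
    have hσ' := hok σ hσ hcσ
    have hnm : D.nm (ς 0 (D.pr i (σ 0))) = τ := (hς σ hσ hcσ 0 (by omega)).1
    have h1 := hoj (fun k => ς k (D.pr i (σ k))) hσ' (by
      show D.cn (D.nm (ς 0 (D.pr i (σ 0)))) j = _
      rw [hnm])
    have h2 := hol (fun k => ς k (D.pr i (σ k))) hσ' (by
      show D.cn (D.nm (ς 0 (D.pr i (σ 0)))) l = _
      rw [hnm])
    have h3 := hsum (fun k => ς k (D.pr i (σ k))) hσ'
    rw [D.sp_rows b _ hσ'] at h3
    have h4 := three_arms (fun a => φ a (fun k => D.pr a (ς k (D.pr i (σ k))))) i j l hij hil hjl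
    have h5 := hφ _ hσ' i (fun k => D.pr i (σ k)) (fun k hk => ((hς σ hσ hcσ k hk).2).symm)
    beta_reduce at h1 h2 h3 h4 h5
    rw [h4, h1, h2] at h3
    rw [h5, Finset.sum_add_distrib, Finset.sum_add_distrib, ← h3]
    generalize (∑ m ∈ Finset.range (D.n + 1), oj m (D.pr j (ς (m - 1) (D.pr i (σ (m - 1)))))
      (D.pr j (ς (min m (D.n - 1)) (D.pr i (σ (min m (D.n - 1))))))) = A
    generalize (∑ m ∈ Finset.range (D.n + 1), ol m (D.pr l (ς (m - 1) (D.pr i (σ (m - 1)))))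
      (D.pr l (ς (min m (D.n - 1)) (D.pr i (σ (min m (D.n - 1))))))) = B
    generalize φ i (fun k => D.pr i (ς k (D.pr i (σ k)))) = x
    have : ∀ x A B : ZMod 2, x = A + B + (x + A + B) := by decide
    exact this x A B
  | stepc i j l hij hil hjl c τ hc ς hς hok s₀ hj hl ihl =>
    obtain ⟨ol, hol⟩ := ihl
    refine ⟨fun m s t => (if m = 0 then φ j s₀ else 0) +
      ol m (D.pr l (ς (m - 1) s)) (D.pr l (ς (min m (D.n - 1)) t)) +
      D.rowB b m (ς (m - 1) s) (ς (min m (D.n - 1)) t), fun σ hσ hcσ => ?_⟩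
    have hσ' := hok σ hσ hcσ
    have hnm : D.nm (ς 0 (D.pr i (σ 0))) = τ := (hς σ hσ hcσ 0 (by omega)).1
    have h1 := hφ _ hσ' j s₀ (fun k hk => (hj σ hσ hcσ k hk).symm)
    have h2 := hol (fun k => ς k (D.pr i (σ k))) hσ' (by
      show D.cn (D.nm (ς 0 (D.pr i (σ 0)))) l = _
      rw [hnm])
    have h3 := hsum (fun k => ς k (D.pr i (σ k))) hσ'
    rw [D.sp_rows b _ hσ'] at h3
    have h4 := three_arms (fun a => φ a (fun k => D.pr a (ς k (D.pr i (σ k))))) i j l hij hil hjl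
    have h5 := hφ _ hσ' i (fun k => D.pr i (σ k)) (fun k hk => ((hς σ hσ hcσ k hk).2).symm)
    beta_reduce at h1 h2 h3 h4 h5
    rw [h4, h2] at h3
    rw [h5, Finset.sum_add_distrib, Finset.sum_add_distrib, ← h3,
      Finset.sum_ite_eq' (Finset.range (D.n + 1)) 0 (fun _ => φ j s₀),
      if_pos (Finset.mem_range.2 (Nat.succ_pos _)), h1]
    generalize (∑ m ∈ Finset.range (D.n + 1), ol m (D.pr l (ς (m - 1) (D.pr i (σ (m - 1)))))
      (D.pr l (ς (min m (D.n - 1)) (D.pr i (σ (min m (D.n - 1))))))) = B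
    generalize φ i (fun k => D.pr i (ς k (D.pr i (σ k)))) = x
    generalize φ j (fun k => D.pr j (ς k (D.pr i (σ k)))) = A
    have : ∀ x A B : ZMod 2, x = A + B + (x + A + B) := by decide
    exact this x A B

end Crest.Agent.WL.BookData
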