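import Crest.Agent.WL.BookLin

set_option autoImplicit false

namespace Crest.Agent.WL.BookData

variable (D : BookData)

/-- Sum of the rows `0, ..., k` of a word. -/
noncomputable def rowSum (R : ℕ → D.Γ → D.Γ → ZMod 2) (k : ℕ) (σ : ℕ → D.Γ) : ZMod 2 :=
  ∑ m ∈ Finset.range (k + 1), R m (σ (m - 1)) (σ (min m (D.n - 1)))

theorem rowSum_eq_of_eq (R : ℕ → D.Γ → D.Γ → ZMod 2)
    (h0 : ∀ σ, D.GWord σ → ∑ m ∈ Finset.range (D.n + 1), R m (σ (m - 1)) (σ (min m (D.n - 1))) = 0)
    (σ σ' : ℕ → D.Γ) (hσ : D.GWord σ) (hσ' : D.GWord σ') (k : ℕ) (hk : k < D.n) (he : σ k = σ' k) :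
    D.rowSum R k σ = D.rowSum R k σ' := by
  set ρ : ℕ → D.Γ := fun j => if j ≤ k then σ j else σ' j with hρ
  have hlow : ∀ m ≤ k, ρ (m - 1) = σ (m - 1) ∧ ρ (min m (D.n - 1)) = σ (min m (D.n - 1)) := by
    intro m hm
    constructor
    · simp only [hρ]
      rw [if_pos (by omega)]
    · simp only [hρ]
      rw [if_pos (by omega)]
  have hge : ∀ j, k ≤ j → ρ j = σ' j := by
    intro j hj
    simp only [hρ]
    by_cases hjk : j ≤ k
    · have : j = k := le_antisymm hjk hj
      subst this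
      rw [if_pos le_rfl, he]
    · rw [if_neg hjk]
  have hhigh : ∀ m, k < m → m ≤ D.n →
      ρ (m - 1) = σ' (m - 1) ∧ ρ (min m (D.n - 1)) = σ' (min m (D.n - 1)) := by
    intro m hm hmn
    exact ⟨hge _ (by omega), hge _ (by omega)⟩
  have hρw : D.GWord ρ := by
    intro m hm
    by_cases hmk : m ≤ k
    · rw [(hlow m hmk).1, (hlow m hmk).2]
      exact hσ m hm
    · rw [(hhigh m (by omega) hm).1, (hhigh m (by omega) hm).2]
      exact hσ' m hm
  have hsplit : ∀ τ : ℕ → D.Γ,
      ∑ m ∈ Finset.range (D.n + 1), R m (τ (m - 1)) (τ (min m (D.n - 1))) =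
        D.rowSum R k τ +
          ∑ m ∈ Finset.Ico (k + 1) (D.n + 1), R m (τ (m - 1)) (τ (min m (D.n - 1))) := by
    intro τ
    unfold rowSum
    rw [Finset.range_eq_Ico, Finset.range_eq_Ico, Finset.sum_Ico_consecutive _ (Nat.zero_le _) (by omega)]
  have h1 := h0 ρ hρw
  have h2 := h0 σ' hσ'
  rw [hsplit] at h1 h2
  have h3 : D.rowSum R k ρ = D.rowSum R k σ := by
    unfold rowSum
    refine Finset.sum_congr rfl fun m hm => ?_
    have hm' : m ≤ k := by
      have := Finset.mem_range.mp hm; omega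
    rw [(hlow m hm').1, (hlow m hm').2]
  have h4 : ∑ m ∈ Finset.Ico (k + 1) (D.n + 1), R m (ρ (m - 1)) (ρ (min m (D.n - 1))) =
      ∑ m ∈ Finset.Ico (k + 1) (D.n + 1), R m (σ' (m - 1)) (σ' (min m (D.n - 1))) := by
    refine Finset.sum_congr rfl fun m hm => ?_
    have hm' := Finset.mem_Ico.mp hm
    rw [(hhigh m (by omega) (by omega)).1, (hhigh m (by omega) (by omega)).2]
  rw [h3, h4] at h1
  exact add_right_cancel (h1.trans h2.symm)

/-- CHUNK R290-L3.  Path sums zero imply coboundary.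
PROOF.  `V k c` := sum of `R` over the rows `0, ..., k` of some gate word `σ` with `σ k = c` (chosen; `0` if none).  For an
allowed pair `(a, a')` of row `m` (`1 ≤ m < n`) take (`Full`) a gate word `σ` through it, a gate word `σ₁` realising `V (m-1) a`, and
`σ₂` realising `V m a'`; the words `σ₁` up to gap `m-1` followed by `σ` from gap `m-1`, and `σ₂` up to gap `m` followed by `σ`, are gate
words (all rows see allowed pairs), so all their row sums vanish; subtract.  Rows `0` and `n` have `a = a'`. -/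
theorem coboundary (hF : D.Full) (R : ℕ → D.Γ → D.Γ → ZMod 2)
    (h0 : ∀ σ, D.GWord σ → ∑ m ∈ Finset.range (D.n + 1), R m (σ (m - 1)) (σ (min m (D.n - 1))) = 0) :
    ∃ V : ℕ → D.Γ → ZMod 2, ∀ m ≤ D.n, ∀ a a', D.okl m a a' →
      R m a a' = (if m = 0 then 0 else V (m - 1) a) + (if m = D.n then 0 else V m a') := by
  classical
  have hn := D.hn
  let V : ℕ → D.Γ → ZMod 2 := fun k c =>
    if h : ∃ σ, D.GWord σ ∧ σ k = c then D.rowSum R k h.choose else 0
  have hV : ∀ (σ : ℕ → D.Γ), D.GWord σ → ∀ k < D.n, V k (σ k) = D.rowSum R k σ := by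
    intro σ hσ k hk
    have h : ∃ σ', D.GWord σ' ∧ σ' k = σ k := ⟨σ, hσ, rfl⟩
    simp only [V]
    rw [dif_pos h]
    exact D.rowSum_eq_of_eq R h0 _ _ h.choose_spec.1 hσ k hk h.choose_spec.2
  refine ⟨V, ?_⟩
  intro m hm a a' hok
  obtain ⟨σ, hσ, ha, ha'⟩ := hF m hm a a' hok
  rcases Nat.eq_zero_or_pos m with hm0 | hm0
  · subst hm0
    have h1 : (0 : ℕ) ≠ D.n := by omega
    rw [if_pos rfl, if_neg h1, zero_add]
    have ha0 : σ 0 = a' := by
      rw [← ha']; congr 1
    have h2 : V 0 a' = D.rowSum R 0 σ := by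
      rw [← ha0]; exact hV σ hσ 0 (by omega)
    rw [h2]
    unfold rowSum
    rw [Finset.sum_range_one, ha, ha']
  · have hstep : ∑ j ∈ Finset.range (m + 1), R j (σ (j - 1)) (σ (min j (D.n - 1))) =
        D.rowSum R (m - 1) σ + R m a a' := by
      rw [Finset.sum_range_succ, ha, ha']
      unfold rowSum
      rw [Nat.sub_add_cancel hm0]
    rw [if_neg (by omega)]
    have hVa : V (m - 1) a = D.rowSum R (m - 1) σ := by
      rw [← ha]; exact hV σ hσ (m - 1) (by omega)
    rw [hVa]
    by_cases hmn : m = D.n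
    · rw [if_pos hmn, add_zero]
      have h2 : ∑ j ∈ Finset.range (m + 1), R j (σ (j - 1)) (σ (min j (D.n - 1))) = 0 := by
        have h2' := h0 σ hσ
        have h5 : Finset.range (m + 1) = Finset.range (D.n + 1) := by rw [hmn]
        rw [h5]; exact h2'
      rw [hstep] at h2
      have h3 : R m a a' = - D.rowSum R (m - 1) σ := by
        linear_combination h2
      rw [h3, ZMod.neg_eq_self_mod_two]
    · rw [if_neg hmn]
      have hlt : m < D.n := lt_of_le_of_ne hm hmn
      have ham : σ m = a' := by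
        rw [← ha']; congr 1; omega
      have hVm : V m a' = D.rowSum R m σ := by
        rw [← ham]; exact hV σ hσ m hlt
      rw [hVm]
      have h4 : D.rowSum R m σ = D.rowSum R (m - 1) σ + R m a a' := hstep
      rw [h4]
      have h5 : D.rowSum R (m - 1) σ + D.rowSum R (m - 1) σ = 0 := CharTwo.add_self_eq_zero _
      linear_combination -h5
end Crest.Agent.WL.BookData
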