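import Crest.Agent.WL.BookLin

set_option autoImplicit false

namespace Crest.Agent.WL.BookData

variable (D : BookData)

open Classical in
/-- the parity of the check at `(i, j)`, row `m`, labels `(a, a')` (`0` if there is no such check) -/
private noncomputable def l4B (b : D.Chk → ZMod 2) (i : Fin 3) (m : ℕ) (a a' : D.Γ) (j : ℕ) :
    ZMod 2 :=
  if h : j < D.L ∧ m ≤ D.n ∧ D.okl m a a' then
    b ⟨some (i, j), m, a, a', h.1, h.2.1, h.2.2⟩ else 0

private noncomputable def l4z (b : D.Chk → ZMod 2) (o : Fin 3 → ℕ → D.S → D.S → ZMod 2)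
    (V : ℕ → D.Γ → ZMod 2) : D.Bit → ZMod 2
  | Bit.ob i m s t => o i m s t
  | Bit.vb none k γ => V k γ
  | Bit.vb (some _) _ _ => 0
  | Bit.hb i j m a a' => o i m (D.pr i a) (D.pr i a') + ∑ j' ∈ Finset.Ico j D.L, l4B D b i m a a' j'

/-- CHUNK R290-L4.  Construction of the valuation of the bits.
Given outer values `o i m s t` (`0` for closed names) and `V` with, for allowed `(a, a')` in row `m`,
`rowB b m a a' + ∑_i o i m (pr i a) (pr i a') = V (m-1) a + V m a'` (border terms absent), put
`z (ob i m s t) = o i m s t`, `z (vb none k γ) = V k γ`, `z (vb (some _) k γ) = 0`,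
`z (hb i j m a a') = o' + ∑_{j ≤ j' < L} b (check at (i, j'), m, a, a')`, `o' = o i m (pr i a) (pr i a')`. -/
theorem build_z (b : D.Chk → ZMod 2) (o : Fin 3 → ℕ → D.S → D.S → ZMod 2)
    (hcl : ∀ i m s t, D.closed i (D.vn s) → o i m s t = 0) (V : ℕ → D.Γ → ZMod 2)
    (hV : ∀ m ≤ D.n, ∀ a a', D.okl m a a' →
      D.rowB b m a a' + (o 0 m (D.pr 0 a) (D.pr 0 a') + o 1 m (D.pr 1 a) (D.pr 1 a') +
        o 2 m (D.pr 2 a) (D.pr 2 a')) =
      (if m = 0 then 0 else V (m - 1) a) + (if m = D.n then 0 else V m a')) :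
    ∃ z : D.Bit → ZMod 2, ∀ c : D.Chk, ((D.xs.inc c).map z).sum = b c := by
  have h2 : ∀ x : ZMod 2, x + x = 0 := fun x => CharTwo.add_self_eq_zero x
  refine ⟨l4z D b o V, ?_⟩
  rintro ⟨x, m, a, a', hx, hm, hab⟩
  rcases x with _ | ⟨i, j⟩
  · have hv : ((D.vInc none m a a').map (l4z D b o V)).sum =
        (if m = 0 then 0 else V (m - 1) a) + (if m = D.n then 0 else V m a') := by
      unfold vInc
      rw [List.map_append, List.sum_append]
      split_ifs <;> simp [l4z]
    have hrow : D.rowB b m a a' = b ⟨none, m, a, a', hx, hm, hab⟩ +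
        ∑ i : Fin 3, ∑ j' ∈ Finset.Ico 0 D.L, l4B D b i m a a' j' := by
      unfold rowB
      rw [dif_pos ⟨hm, hab⟩]
      congr 1
      refine Finset.sum_congr rfl fun i _ => ?_
      rw [← Finset.range_eq_Ico, Finset.sum_range]
      refine Finset.sum_congr rfl fun j _ => ?_
      unfold l4B
      rw [dif_pos ⟨j.2, hm, hab⟩]
    have h := hV m hm a a' hab
    rw [← hv, hrow, Fin.sum_univ_three] at h
    have hh : ((D.hInc none m a a').map (l4z D b o V)).sum =
        (o 0 m (D.pr 0 a) (D.pr 0 a') + ∑ j' ∈ Finset.Ico 0 D.L, l4B D b 0 m a a' j') +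
        (o 1 m (D.pr 1 a) (D.pr 1 a') + ∑ j' ∈ Finset.Ico 0 D.L, l4B D b 1 m a a' j') +
        (o 2 m (D.pr 2 a) (D.pr 2 a') + ∑ j' ∈ Finset.Ico 0 D.L, l4B D b 2 m a a' j') := by
      simp [hInc, l4z, add_assoc]
    change ((D.hInc none m a a' ++ D.vInc none m a a').map (l4z D b o V)).sum = _
    rw [List.map_append, List.sum_append, hh, ← h]
    generalize b ⟨none, m, a, a', hx, hm, hab⟩ = y
    generalize o 0 m (D.pr 0 a) (D.pr 0 a') = o0
    generalize o 1 m (D.pr 1 a) (D.pr 1 a') = o1
    generalize o 2 m (D.pr 2 a) (D.pr 2 a') = o2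
    generalize ∑ j' ∈ Finset.Ico 0 D.L, l4B D b 0 m a a' j' = s0
    generalize ∑ j' ∈ Finset.Ico 0 D.L, l4B D b 1 m a a' j' = s1
    generalize ∑ j' ∈ Finset.Ico 0 D.L, l4B D b 2 m a a' j' = s2
    have : o0 + s0 + (o1 + s1) + (o2 + s2) + (y + (s0 + s1 + s2) + (o0 + o1 + o2)) =
        y + ((o0 + o0) + (s0 + s0) + (o1 + o1) + (s1 + s1) + (o2 + o2) + (s2 + s2)) := by ring
    rw [this]
    simp [h2]
  · have hj : j < D.L := hx
    have hv : ((D.vInc (some (i, j)) m a a').map (l4z D b o V)).sum = 0 := by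
      unfold vInc
      rw [List.map_append, List.sum_append]
      split_ifs <;> simp [l4z]
    have hB : l4B D b i m a a' j = b ⟨some (i, j), m, a, a', hx, hm, hab⟩ := by
      unfold l4B
      rw [dif_pos ⟨hj, hm, hab⟩]
    change ((D.hInc (some (i, j)) m a a' ++ D.vInc (some (i, j)) m a a').map (l4z D b o V)).sum = _
    rw [List.map_append, List.sum_append, hv, add_zero, ← hB]
    unfold hInc
    rw [List.map_cons, List.sum_cons]
    by_cases hj1 : j + 1 < D.L
    · rw [if_pos hj1]
      simp only [List.map_cons, List.map_nil, List.sum_cons, List.sum_nil, add_zero, l4z]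
      rw [Finset.sum_eq_sum_Ico_succ_bot hj]
      generalize o i m (D.pr i a) (D.pr i a') = o0
      generalize ∑ k ∈ Finset.Ico (j + 1) D.L, l4B D b i m a a' k = s0
      generalize l4B D b i m a a' j = y
      have : o0 + (y + s0) + (o0 + s0) = y + ((o0 + o0) + (s0 + s0)) := by ring
      rw [this]
      simp [h2]
    · rw [if_neg hj1]
      have hL : D.L = j + 1 := by omega
      have hs : ∑ k ∈ Finset.Ico j D.L, l4B D b i m a a' k = l4B D b i m a a' j := by
        rw [hL]
        simp
      split_ifs with hc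
      · simp only [List.map_nil, List.sum_nil, add_zero, l4z]
        rw [hcl i m _ _ hc, hs, zero_add]
      · simp only [List.map_cons, List.map_nil, List.sum_cons, List.sum_nil, add_zero, l4z]
        rw [hs]
        generalize o i m (D.pr i a) (D.pr i a') = o0
        generalize l4B D b i m a a' j = y
        have : o0 + y + o0 = y + (o0 + o0) := by ring
        rw [this]
        simp [h2]

end Crest.Agent.WL.BookData
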