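import Crest.Agent.WL.BookP7

set_option autoImplicit false

namespace Crest.Agent.WL.BookData

variable (D : BookData)

theorem known_val {b : D.Chk → ZMod 2} {i : Fin 3} {s : ℕ → D.S} (h : D.Known i s) :
    ∃ v, D.KnownV b i s v := by
  induction h with
  | closed i s h => exact ⟨0, KnownV.closed i s h⟩
  | step σ hσ hodd i j l hij hil hjl hj hl s hs ihj ihl =>
    obtain ⟨v, hv⟩ := ihj
    obtain ⟨w, hw⟩ := ihl
    exact ⟨_, KnownV.step σ hσ i j l hij hil hjl v w hv hw s hs⟩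

theorem knownV_ext {b : D.Chk → ZMod 2} {i : Fin 3} {s s' : ℕ → D.S} {v : ZMod 2}
    (h : D.KnownV b i s v) (hs : ∀ k < D.n, s k = s' k) : D.KnownV b i s' v := by
  cases h with
  | closed _ _ h => exact KnownV.closed i s' (by rw [← hs 0 D.hn]; exact h)
  | step σ hσ _ j l hij hil hjl v w hj hl _ hs' =>
    exact KnownV.step σ hσ i j l hij hil hjl v w hj hl s' fun k hk => by rw [← hs k hk, hs' k hk]

theorem knownV_unique {b : D.Chk → ZMod 2} (F : DFam (D.xsP b) (D.n + 2)) {i : Fin 3}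
    {s : ℕ → D.S} {v v' : ZMod 2} (h : D.KnownV b i s v) (h' : D.KnownV b i s v')
    (σ : ℕ → D.Γ) (hσ : D.GWord σ) (hs : ∀ k < D.n, s k = D.pr i (σ k)) : v = v' := by
  have hL : D.L - 1 < D.L := by have := D.hL; omega
  obtain ⟨g, hg⟩ := F.start (fun m => Sum.inr (D.wc σ hσ (some (i, D.L - 1)) hL m))
  rw [← D.val_forced F h σ hσ hs hL g hg, ← D.val_forced F h' σ hσ hs hL g hg]

/-- CHUNK R290-P9.  All variable words of gate words known, arbitrary parities: there is a valuation.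
PROOF.  `Known i s → ∃ v, KnownV b i s v` (induction); `φ i s := ` a chosen value if there is one, `0` otherwise.  Two values of
the same word (on the gaps `< n`) that is the projection of a gate word are equal by `val_forced` (position from `F.start`);
first show that `KnownV b i s v` only depends on `s` at the gaps (for `closed`: `s 0`; for `step`: clear).  Equations: `gate_eq`. -/
theorem phi_exists {b : D.Chk → ZMod 2} (F : DFam (D.xsP b) (D.n + 2))
    (hall : ∀ (σ : ℕ → D.Γ) (_ : D.GWord σ) (i : Fin 3), D.Known i (fun k => D.pr i (σ k))) :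
    ∃ φ : Fin 3 → (ℕ → D.S) → ZMod 2,
      (∀ (σ : ℕ → D.Γ) (_ : D.GWord σ) (i : Fin 3) (s : ℕ → D.S), (∀ k < D.n, s k = D.pr i (σ k)) →
        φ i s = φ i (fun k => D.pr i (σ k))) ∧
      (∀ (σ : ℕ → D.Γ) (_ : D.GWord σ) (i : Fin 3), D.closed i (D.vn (D.pr i (σ 0))) →
        φ i (fun k => D.pr i (σ k)) = 0) ∧
      (∀ (σ : ℕ → D.Γ) (hσ : D.GWord σ), φ 0 (fun k => D.pr 0 (σ k)) + φ 1 (fun k => D.pr 1 (σ k)) +
        φ 2 (fun k => D.pr 2 (σ k)) = D.sp b σ hσ) ∧
      (∀ (σ : ℕ → D.Γ) (hσ : D.GWord σ) (i : Fin 3) (hL : D.L - 1 < D.L) (g : D.Bit → ZMod 2),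
        F.F (D.wall σ hσ (some (i, D.L - 1)) hL) g →
        D.oflux g i (fun k => D.pr i (σ k)) = φ i (fun k => D.pr i (σ k))) := by
  classical
  let φ : Fin 3 → (ℕ → D.S) → ZMod 2 := fun i s =>
    if h : ∃ v, D.KnownV b i s v then h.choose else 0
  have hφ : ∀ i s, (∃ v, D.KnownV b i s v) → D.KnownV b i s (φ i s) := by
    intro i s h
    show D.KnownV b i s (if h : ∃ v, D.KnownV b i s v then h.choose else 0)
    rw [dif_pos h]
    exact h.choose_spec
  have hw : ∀ (σ : ℕ → D.Γ), D.GWord σ → ∀ i, D.KnownV b i (fun k => D.pr i (σ k))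
      (φ i (fun k => D.pr i (σ k))) := fun σ hσ i => hφ _ _ (D.known_val (hall σ hσ i))
  refine ⟨φ, ?_, ?_, ?_, ?_⟩
  · intro σ hσ i s hs
    have h1 : D.KnownV b i s (φ i (fun k => D.pr i (σ k))) :=
      D.knownV_ext (hw σ hσ i) fun k hk => (hs k hk).symm
    exact D.knownV_unique F (hφ i s ⟨_, h1⟩) h1 σ hσ hs
  · intro σ hσ i hc
    exact D.knownV_unique F (hw σ hσ i) (KnownV.closed i _ hc) σ hσ fun _ _ => rfl
  · intro σ hσ
    exact D.gate_eq F σ hσ (fun i => φ i (fun k => D.pr i (σ k))) fun i => hw σ hσ i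
  · intro σ hσ i hL g hg
    exact D.val_forced F (hw σ hσ i) σ hσ (fun _ _ => rfl) hL g hg

end Crest.Agent.WL.BookData
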