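import Crest.Agent.WL.BookL2
import Crest.Agent.WL.BookL3
import Crest.Agent.WL.BookL4
import Crest.Agent.WL.BookP9

set_option autoImplicit false

namespace Crest.Agent.WL.BookData

variable (D : BookData)

/-- All letters of a gate word carry the same gate name. -/
theorem gword_nm_const (σ : ℕ → D.Γ) (hσ : D.GWord σ) : ∀ k, k < D.n → D.nm (σ k) = D.nm (σ 0) := by
  intro k
  induction k with
  | zero => intro _; rfl
  | succ k ih =>
    intro hk
    have h := D.okl_nm _ _ _ (hσ (k + 1) (by omega))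
    have h1 : min (k + 1) (D.n - 1) = k + 1 := by omega
    rw [h1, Nat.add_sub_cancel] at h
    rw [← h]
    exact ih (by omega)

/-- CHUNK R290-L5.  MAIN THEOREM of the linear part: `phi_exists`, `additive_of_addC` for every cell (choose `o i m s t` from the
cell `(i, vn s)`, `0` if closed), `sp_rows`, `coboundary` for `R = rowB + ∑ o`, `build_z`. -/
theorem lin_main (hF : D.Full)
    (hall : ∀ (σ : ℕ → D.Γ) (_ : D.GWord σ) (i : Fin 3), D.Known i (fun k => D.pr i (σ k)))
    (hadd : ∀ τ i, D.AddC i (D.cn τ i)) (b : D.Chk → ZMod 2) (F : DFam (D.xsP b) (D.n + 2)) :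
    ∃ z : D.Bit → ZMod 2, ∀ c : D.Chk, ((D.xs.inc c).map z).sum = b c := by
  classical
  obtain ⟨φ, hφ, hcl, hsum, -⟩ := D.phi_exists F hall
  have hA : ∀ τ i, D.Additive φ i (D.cn τ i) := fun τ i =>
    D.additive_of_addC b φ hφ hcl hsum i (D.cn τ i) (hadd τ i)
  let oo : Fin 3 → D.N → ℕ → D.S → D.S → ZMod 2 := fun i c =>
    if h : D.Additive φ i c then h.choose else fun _ _ _ => 0
  have hoo : ∀ i c, D.Additive φ i c → ∀ σ, D.GWord σ → D.cn (D.nm (σ 0)) i = c →
      φ i (fun k => D.pr i (σ k)) =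
      ∑ m ∈ Finset.range (D.n + 1),
        oo i c m (D.pr i (σ (m - 1))) (D.pr i (σ (min m (D.n - 1)))) := by
    intro i c h
    have h1 : oo i c = h.choose := dif_pos h
    rw [h1]
    exact h.choose_spec
  let o : Fin 3 → ℕ → D.S → D.S → ZMod 2 := fun i m s t =>
    if D.closed i (D.vn s) then 0 else oo i (D.vn s) m s t
  have hclo : ∀ i m s t, D.closed i (D.vn s) → o i m s t = 0 := by
    intro i m s t h
    exact if_pos h
  have hvn : ∀ (σ : ℕ → D.Γ), D.GWord σ → ∀ i, ∀ k < D.n,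
      D.vn (D.pr i (σ k)) = D.cn (D.nm (σ 0)) i := by
    intro σ hσ i k hk
    rw [D.hcn, D.gword_nm_const σ hσ k hk]
  have hn := D.hn
  have hoφ : ∀ (σ : ℕ → D.Γ), D.GWord σ → ∀ i,
      ∑ m ∈ Finset.range (D.n + 1), o i m (D.pr i (σ (m - 1))) (D.pr i (σ (min m (D.n - 1)))) =
        φ i (fun k => D.pr i (σ k)) := by
    intro σ hσ i
    by_cases hc : D.closed i (D.cn (D.nm (σ 0)) i)
    · rw [hcl σ hσ i (by rw [hvn σ hσ i 0 (by omega)]; exact hc)]
      refine Finset.sum_eq_zero fun m hm => ?_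
      have hm' := Finset.mem_range.1 hm
      exact hclo i m _ _ (by rw [hvn σ hσ i (m - 1) (by omega)]; exact hc)
    · rw [hoo i _ (hA (D.nm (σ 0)) i) σ hσ rfl]
      refine Finset.sum_congr rfl fun m hm => ?_
      have hm' := Finset.mem_range.1 hm
      have hv := hvn σ hσ i (m - 1) (by omega)
      show (if D.closed i (D.vn (D.pr i (σ (m - 1)))) then 0 else
        oo i (D.vn (D.pr i (σ (m - 1)))) m _ _) = _
      rw [hv, if_neg hc]
  obtain ⟨V, hV⟩ := D.coboundary hF
    (fun m a a' => D.rowB b m a a' + (o 0 m (D.pr 0 a) (D.pr 0 a') + o 1 m (D.pr 1 a) (D.pr 1 a') +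
      o 2 m (D.pr 2 a) (D.pr 2 a'))) (by
    intro σ hσ
    rw [Finset.sum_add_distrib, Finset.sum_add_distrib, Finset.sum_add_distrib, hoφ σ hσ 0,
      hoφ σ hσ 1, hoφ σ hσ 2, hsum σ hσ, ← D.sp_rows b σ hσ]
    exact CharTwo.add_self_eq_zero _)
  exact D.build_z b o hclo V hV

end Crest.Agent.WL.BookData
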