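import Crest.Agent.WL.BookSp

/-!
# Row 290 (S0437): arbitrary parities that are not detected are boundaries
-/

set_option autoImplicit false

namespace Crest.Agent.WL.BookData

variable (D : BookData)

/-- Every allowed label pair occurs in a gate word. -/
def Full : Prop := ∀ m ≤ D.n, ∀ a b, D.okl m a b →
  ∃ σ, D.GWord σ ∧ σ (m - 1) = a ∧ σ (min m (D.n - 1)) = b

/-- `φ` is additive on the cell `(i, c)`. -/
def Additive (φ : Fin 3 → (ℕ → D.S) → ZMod 2) (i : Fin 3) (c : D.N) : Prop :=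
  ∃ o : ℕ → D.S → D.S → ZMod 2, ∀ σ, D.GWord σ → D.cn (D.nm (σ 0)) i = c →
    φ i (fun k => D.pr i (σ k)) =
      ∑ m ∈ Finset.range (D.n + 1), o m (D.pr i (σ (m - 1))) (D.pr i (σ (min m (D.n - 1))))

/-- Cells that are additive because of the form of the book: closed, one word only, or swept by a gate name with a
letter-to-letter section and additive other arms (`stepc`: one arm is a constant word). -/
inductive AddC : Fin 3 → D.N → Prop
  | closed (i : Fin 3) (c : D.N) (h : D.closed i c) : AddC i c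
  | single (i : Fin 3) (c : D.N) (s₀ : ℕ → D.S)
      (h : ∀ σ, D.GWord σ → D.cn (D.nm (σ 0)) i = c → ∀ k < D.n, D.pr i (σ k) = s₀ k) : AddC i c
  | step (i j l : Fin 3) (hij : i ≠ j) (hil : i ≠ l) (hjl : j ≠ l) (c : D.N) (τ : D.T) (hc : D.cn τ i = c)
      (ς : ℕ → D.S → D.Γ)
      (hς : ∀ σ, D.GWord σ → D.cn (D.nm (σ 0)) i = c → ∀ k < D.n,
        D.nm (ς k (D.pr i (σ k))) = τ ∧ D.pr i (ς k (D.pr i (σ k))) = D.pr i (σ k))
      (hok : ∀ σ, D.GWord σ → D.cn (D.nm (σ 0)) i = c → D.GWord (fun k => ς k (D.pr i (σ k))))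
      (hj : AddC j (D.cn τ j)) (hl : AddC l (D.cn τ l)) : AddC i c
  | stepc (i j l : Fin 3) (hij : i ≠ j) (hil : i ≠ l) (hjl : j ≠ l) (c : D.N) (τ : D.T) (hc : D.cn τ i = c)
      (ς : ℕ → D.S → D.Γ)
      (hς : ∀ σ, D.GWord σ → D.cn (D.nm (σ 0)) i = c → ∀ k < D.n,
        D.nm (ς k (D.pr i (σ k))) = τ ∧ D.pr i (ς k (D.pr i (σ k))) = D.pr i (σ k))
      (hok : ∀ σ, D.GWord σ → D.cn (D.nm (σ 0)) i = c → D.GWord (fun k => ς k (D.pr i (σ k))))
      (s₀ : ℕ → D.S)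
      (hj : ∀ σ, D.GWord σ → D.cn (D.nm (σ 0)) i = c → ∀ k < D.n, D.pr j (ς k (D.pr i (σ k))) = s₀ k)
      (hl : AddC l (D.cn τ l)) : AddC i c

/-- Total parity of the row `m` with labels `(a, b)`: centre plus all columns of the pages. -/
noncomputable def rowB (b : D.Chk → ZMod 2) (m : ℕ) (a a' : D.Γ) : ZMod 2 :=
  open Classical in
  if h : m ≤ D.n ∧ D.okl m a a' then
    b ⟨none, m, a, a', trivial, h.1, h.2⟩ +
      ∑ i : Fin 3, ∑ j : Fin D.L, b ⟨some (i, j.1), m, a, a', j.2, h.1, h.2⟩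
  else 0

end Crest.Agent.WL.BookData
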