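import Crest.Agent.WL.BookFlow

/-!
# Row 290: transitions of near-solutions away from the pebbles
-/

set_option autoImplicit false

namespace Crest.Agent.WL.BookData

variable (D : BookData)

/-- `p` (row `k`) and `q` (row `k + 1`) block the passage between them. -/
def Linked (p q : D.Chk) : Prop :=
  (p.b = q.a ∧ ∃ i j, j < D.L ∧ EInc p.x i j ∧ EInc q.x i j) ∨
    ∃ i, EInc p.x i D.L ∧ EInc q.x i D.L ∧ D.pr i p.b = D.pr i q.a

/-- A chain: one check in every row, consecutive ones linked. -/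
structure Chain (c : ℕ → D.Chk) : Prop where
  row : ∀ m ≤ D.n, (c m).m = m
  link : ∀ m < D.n, D.Linked (c m) (c (m + 1))

/-- The column lies on page `i` or is the centre. -/
def OnPage (i : Fin 3) : Col → Prop
  | none => True
  | some (i', _) => i' = i

/-- `Trans Q n`: the violations can be moved along the edge function `n` without touching the pebbled checks (the
violations being kept in row `0`). -/
def Trans (Q : Finset D.Chk) (n : D.T → Fin 3 → ℕ → ZMod 2) : Prop :=
  ∀ f vio, D.NSv f vio → ∃ f', D.NSv f' (fun τ x m => vio τ x m + if m = 0 then bd (n τ) x else 0) ∧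
    D.Agree Q f f'

theorem Trans.add {Q : Finset D.Chk} {n₁ n₂ : D.T → Fin 3 → ℕ → ZMod 2} (h₁ : D.Trans Q n₁)
    (h₂ : D.Trans Q n₂) : D.Trans Q (fun τ i j => n₁ τ i j + n₂ τ i j) := by
  intro f vio hf
  obtain ⟨f₁, hf₁, ha₁⟩ := h₁ f vio hf
  obtain ⟨f₂, hf₂, ha₂⟩ := h₂ f₁ _ hf₁
  refine ⟨f₂, ?_, fun p hp x hx => (ha₂ p hp x hx).trans (ha₁ p hp x hx)⟩
  intro c
  rw [hf₂ c]
  by_cases hm : c.m = 0
  · simp only [hm, if_true]
    rcases c.x with _ | ⟨i, j⟩ <;> simp only [bd] <;> ring
  · simp only [hm, if_false, add_zero]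

end Crest.Agent.WL.BookData
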