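import Crest.Agent.WL.BookMT

set_option autoImplicit false

namespace Crest.Agent.WL.BookData

variable (D : BookData)

/-- CHUNK R290-M1.  Row `r` is used; the pebbles of row `r` see no flow.
PROOF.  If `r < n`: `flow` with `k = r`, `ρ = 0`; if `r = n`: `flow` with `k = n - 1`, `ρ = 1` (`D.hn`).  Then `vert`
from row `k` to row `0` with `v τ x = bd (n τ) x`. -/
theorem mt_row (r : ℕ) (hr : r ≤ D.n) (Q : Finset D.Chk) (n : D.T → Fin 3 → ℕ → ZMod 2) (hn : D.Adm n)
    (hrow : ∀ p ∈ Q, p.m = r → ∀ i j, EInc p.x i j → n (D.nm p.a) i j = 0)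
    (hbd : ∀ p ∈ Q, bd (n (D.nm p.a)) p.x = 0) : D.Trans Q n := by
  intro f vio hf
  have key : ∃ k, k ≤ D.n ∧ ∃ f₁, D.NSv f₁ (fun τ x m => vio τ x m +
      if m = k then bd (n τ) x else 0) ∧ D.Agree Q f f₁ := by
    rcases lt_or_eq_of_le hr with hlt | heq
    · refine ⟨r, hr, ?_⟩
      exact D.flow r hlt f vio hf n hn (fun _ _ _ _ => 0) (fun _ _ => 0) (fun _ _ => rfl) Q
        (fun p hp hm i j he => Or.inl (hrow p hp hm i j he)) (fun _ _ _ _ _ _ => Or.inr rfl)
        (fun p hp _ => hbd p hp)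
    · have h1 := D.hn
      refine ⟨D.n - 1, by omega, ?_⟩
      exact D.flow (D.n - 1) (by omega) f vio hf n hn (fun _ _ _ _ => 1) (fun _ _ => 1)
        (fun _ _ => rfl) Q (fun _ _ _ _ _ _ => Or.inr rfl)
        (fun p hp hm i j he => Or.inl (hrow p hp (by omega) i j he)) (fun p hp _ => hbd p hp)
  obtain ⟨k, hk, f₁, hf₁, ha₁⟩ := key
  obtain ⟨f₂, hf₂, ha₂⟩ := D.vert k 0 hk (Nat.zero_le _) f₁ _ hf₁ (fun τ x => bd (n τ) x) Q hbd
  refine ⟨f₂, ?_, fun p hp x hx => (ha₂ p hp x hx).trans (ha₁ p hp x hx)⟩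
  intro c
  rw [hf₂ c]
  beta_reduce
  have h2 : ∀ y : ZMod 2, y + y = 0 := by decide
  generalize vio (D.nm c.a) c.x c.m = w
  generalize bd (n (D.nm c.a)) c.x = y
  by_cases hmk : c.m = k
  · by_cases hm0 : c.m = 0
    · simp only [if_pos hmk, if_pos hm0]
      have := h2 y
      calc w + y + y * (1 + 1) = w + y + (y + y) := by ring
        _ = w + y := by rw [this, add_zero]
    · simp only [if_pos hmk, if_neg hm0]
      have := h2 y
      calc w + y + y * (1 + 0) = w + (y + y) := by ring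
        _ = w + 0 := by rw [this]
  · by_cases hm0 : c.m = 0
    · simp only [if_neg hmk, if_pos hm0]
      ring
    · simp only [if_neg hmk, if_neg hm0]
      ring

end Crest.Agent.WL.BookData
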