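import Crest.Agent.WL.BookMT

set_option autoImplicit false

namespace Crest.Agent.WL.BookData

variable (D : BookData)

/-- CHUNK R290-M2.  An unlinked consecutive pair, alone in its rows.
PROOF.  `flow` with `k`, and (`τp = nm p.a`, `τq = nm q.a`) for `j ≠ L`:
  `ρ τ i j γ = if τ = τp ∧ EInc p.x i j then (if τ = τq ∧ EInc q.x i j then (if γ = p.b then 1 else 0) else 1) else 0`,
for `j = L`: `ρ τ i L γ = r i (pr i γ)` with
  `r i s = if vn s = cn τp i ∧ EInc p.x i L then (if vn s = cn τq i ∧ EInc q.x i L then (if s = pr i p.b then 1 else 0) else 1) else 0`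
(so define `ρ τ i j γ = if j = D.L then r i (pr i γ) else ...`).  `hup`, `hlo` by the definition of `Linked`
(note `nm p.a = nm p.b`; `EInc x i j` with `x` valid gives `j ≤ L`).  Then `vert` to row `0`. -/
theorem mt_pair (k : ℕ) (hk : k < D.n) (Q : Finset D.Chk) (p q : D.Chk) (hp : p ∈ Q) (hq : q ∈ Q)
    (hpm : p.m = k) (hqm : q.m = k + 1) (hp1 : ∀ p' ∈ Q, p'.m = k → p' = p)
    (hq1 : ∀ q' ∈ Q, q'.m = k + 1 → q' = q) (hl : ¬ D.Linked p q)
    (n : D.T → Fin 3 → ℕ → ZMod 2) (hn : D.Adm n)
    (hbd : ∀ p ∈ Q, bd (n (D.nm p.a)) p.x = 0) : D.Trans Q n := by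
  classical
  intro f vio hf
  have hpn : D.nm p.b = D.nm p.a := (D.okl_nm _ _ _ p.hab).symm
  have hle : ∀ (c : D.Chk) (i : Fin 3) (j : ℕ), EInc c.x i j → j ≤ D.L := by
    intro c i j h
    have hx := c.hx
    have hL := D.hL
    rcases hcx : c.x with _ | ⟨i', j'⟩
    · rw [hcx] at h
      simp only [EInc] at h
      omega
    · rw [hcx] at h hx
      simp only [EInc] at h
      simp only [ColOk] at hx
      rcases h.2 with h2 | h2 <;> omega
  let r : Fin 3 → D.S → ZMod 2 := fun i s =>
    if D.vn s = D.cn (D.nm p.a) i ∧ EInc p.x i D.L then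
      (if D.vn s = D.cn (D.nm q.a) i ∧ EInc q.x i D.L then (if s = D.pr i p.b then 1 else 0) else 1)
    else 0
  let ρ : D.T → Fin 3 → ℕ → D.Γ → ZMod 2 := fun τ i j γ =>
    if j = D.L then r i (D.pr i γ) else
      if τ = D.nm p.a ∧ EInc p.x i j then
        (if τ = D.nm q.a ∧ EInc q.x i j then (if γ = p.b then 1 else 0) else 1)
      else 0
  obtain ⟨f1, hf1, ha1⟩ := D.flow k hk f vio hf n hn ρ r (fun i γ => by simp [ρ]) Q
    (by
      intro p' hp' hm i j hE
      have := hp1 p' hp' hm
      subst this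
      right
      by_cases hj : j = D.L
      · subst hj
        have h1 : D.vn (D.pr i p'.b) = D.cn (D.nm p'.a) i := by rw [D.hcn, hpn]
        simp only [ρ, r, if_true, h1, hE, and_self, true_and]
        split_ifs <;> rfl
      · simp only [ρ, if_neg hj, hE, and_self, if_true]
        split_ifs <;> rfl)
    (by
      intro q' hq' hm i j hE
      have := hq1 q' hq' hm
      subst this
      right
      by_cases hj : j = D.L
      · subst hj
        have h1 : D.vn (D.pr i q'.a) = D.cn (D.nm q'.a) i := D.hcn i q'.a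
        by_cases hpE : EInc p.x i D.L
        · have hne : D.pr i q'.a ≠ D.pr i p.b := fun h => hl (Or.inr ⟨i, hpE, hE, h.symm⟩)
          simp only [ρ, r, if_true, h1, hE, and_self, hne, if_false]
          split_ifs <;> rfl
        · simp [ρ, r, hpE]
      · by_cases hpE : D.nm q'.a = D.nm p.a ∧ EInc p.x i j
        · have hjL : j < D.L := lt_of_le_of_ne (hle p i j hpE.2) hj
          have hne : q'.a ≠ p.b := fun h => hl (Or.inl ⟨h.symm, i, j, hjL, hpE.2, hE⟩)
          simp only [ρ, if_neg hj, hpE, hE, and_self, if_true, if_neg hne]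
        · simp only [ρ, if_neg hj, if_neg hpE])
    (fun p' hp' _ => hbd p' hp')
  obtain ⟨f2, hf2, ha2⟩ := D.vert k 0 hk.le (Nat.zero_le _) f1 _ hf1 (fun τ x => bd (n τ) x) Q
    (fun p' hp' => hbd p' hp')
  refine ⟨f2, ?_, ?_⟩
  · intro c
    rw [hf2 c]
    have h2 : ∀ z : ZMod 2, z + z = 0 := fun z => CharTwo.add_self_eq_zero z
    by_cases hk0 : c.m = k
    · by_cases h0 : c.m = 0
      · simp only [if_pos hk0, if_pos h0]
        have h3 : ((1 : ZMod 2) + 1) = 0 := h2 1
        rw [h3]
        ring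
      · simp only [if_pos hk0, if_neg h0]
        rw [add_zero, mul_one, add_assoc, h2]
    · by_cases h0 : c.m = 0
      · simp only [if_neg hk0, if_pos h0]
        ring
      · simp only [if_neg hk0, if_neg h0]
        ring
  · intro p' hp' x hx
    rw [ha2 p' hp' x hx, ha1 p' hp' x hx]

end Crest.Agent.WL.BookData
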