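import Crest.Agent.WL.BookMT1
import Crest.Agent.WL.BookMT2

set_option autoImplicit false

namespace Crest.Agent.WL.BookData

variable (D : BookData)

/-- CHUNK R290-M3.  No chain in `Q`, at most `n + 1` pebbles.
PROOF.  If some row has no pebble use `mt_row` for it.  Otherwise every row has exactly one pebble (`card ≤ n+1`),
these form no chain, so some consecutive pair is unlinked: `mt_pair`. -/
theorem mt_nochain (Q : Finset D.Chk) (hQ : Q.card ≤ D.n + 1)
    (hc : ¬ ∃ c, D.Chain c ∧ ∀ m ≤ D.n, c m ∈ Q)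
    (n : D.T → Fin 3 → ℕ → ZMod 2) (hn : D.Adm n)
    (hbd : ∀ p ∈ Q, bd (n (D.nm p.a)) p.x = 0) : D.Trans Q n := by
  classical
  by_cases hrow : ∃ r ≤ D.n, ∀ p ∈ Q, p.m ≠ r
  · obtain ⟨r, hr, hp⟩ := hrow
    exact D.mt_row r hr Q n hn (fun p hpQ hpm => absurd hpm (hp p hpQ)) hbd
  · push Not at hrow
    obtain ⟨p0, -, -⟩ := hrow 0 (Nat.zero_le _)
    have hex : ∀ r : ℕ, ∃ p : D.Chk, r ≤ D.n → (p ∈ Q ∧ p.m = r) := by
      intro r
      by_cases hr : r ≤ D.n
      · obtain ⟨p, hp, hpm⟩ := hrow r hr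
        exact ⟨p, fun _ => ⟨hp, hpm⟩⟩
      · exact ⟨p0, fun h => absurd h hr⟩
    choose c hcc using hex
    -- every pebble is one of the `c r`
    have himg : (Finset.range (D.n + 1)).image c = Q := by
      refine Finset.eq_of_subset_of_card_le ?_ ?_
      · intro p hp
        obtain ⟨r, hr, rfl⟩ := Finset.mem_image.1 hp
        exact (hcc r (by have := Finset.mem_range.1 hr; omega)).1
      · rw [Finset.card_image_of_injOn, Finset.card_range]
        · exact hQ
        · intro r hr s hs hrs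
          have hr' : r ≤ D.n := by have := Finset.mem_range.1 (Finset.mem_coe.1 hr); omega
          have hs' : s ≤ D.n := by have := Finset.mem_range.1 (Finset.mem_coe.1 hs); omega
          rw [← (hcc r hr').2, ← (hcc s hs').2, hrs]
    have huniq : ∀ k ≤ D.n, ∀ p ∈ Q, p.m = k → p = c k := by
      intro k _ p hp hpm
      rw [← himg] at hp
      obtain ⟨r, hr, rfl⟩ := Finset.mem_image.1 hp
      have hr' : r ≤ D.n := by have := Finset.mem_range.1 hr; omega
      rw [(hcc r hr').2] at hpm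
      rw [hpm]
    have hl : ∃ k < D.n, ¬ D.Linked (c k) (c (k + 1)) := by
      by_contra hcon
      push Not at hcon
      exact hc ⟨c, ⟨fun m hm => (hcc m hm).2, hcon⟩, fun m hm => (hcc m hm).1⟩
    obtain ⟨k, hk, hlk⟩ := hl
    exact D.mt_pair k hk Q (c k) (c (k + 1)) (hcc k hk.le).1 (hcc (k + 1) hk).1
      (hcc k hk.le).2 (hcc (k + 1) hk).2 (huniq k hk.le) (huniq (k + 1) hk) hlk n hn hbd

end Crest.Agent.WL.BookData
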