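import Crest.Agent.WL.BookMT1

set_option autoImplicit false

namespace Crest.Agent.WL.BookData

variable (D : BookData)

theorem m4_self (a : ZMod 2) : a + a = 0 := by revert a; decide

theorem m4_bd_add (n₁ n₂ : Fin 3 → ℕ → ZMod 2) (x : Col) :
    bd (fun i j => n₁ i j + n₂ i j) x = bd n₁ x + bd n₂ x := by
  rcases x with _ | ⟨i, j⟩
  · show n₁ 0 0 + n₂ 0 0 + (n₁ 1 0 + n₂ 1 0) + (n₁ 2 0 + n₂ 2 0) =
      n₁ 0 0 + n₁ 1 0 + n₁ 2 0 + (n₂ 0 0 + n₂ 1 0 + n₂ 2 0)
    ring
  · show n₁ i j + n₂ i j + (n₁ i (j + 1) + n₂ i (j + 1)) =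
      n₁ i j + n₁ i (j + 1) + (n₂ i j + n₂ i (j + 1))
    ring

/-- the part of the flow on page `i`, led back to the centre and out along page `l` -/
def m4n (n : D.T → Fin 3 → ℕ → ZMod 2) (i l : Fin 3) (z : ℕ) : D.T → Fin 3 → ℕ → ZMod 2 :=
  fun τ i' e => (if i' = i then n τ i' e else 0) +
    (if i' = l then (if e ≤ z then n τ i 0 else 0) else 0)

theorem m4_adm₁ {n : D.T → Fin 3 → ℕ → ZMod 2} (hn : D.Adm n) (i l : Fin 3) {z : ℕ} (hz : z < D.L) :
    D.Adm (D.m4n n i l z) := by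
  obtain ⟨o, ho1, ho2⟩ := hn
  refine ⟨fun i' c => if i' = i then o i' c else 0, fun τ i' => ?_, fun i' c hc => ?_⟩
  · unfold m4n
    rw [if_neg (show ¬ D.L ≤ z by omega), ite_self, add_zero]
    show (if i' = i then n τ i' D.L else 0) = if i' = i then o i' (D.cn τ i') else 0
    rw [ho1]
  · show (if i' = i then o i' c else 0) = 0
    rw [ho2 i' c hc, ite_self]

theorem m4_adm₂ {n n₁ : D.T → Fin 3 → ℕ → ZMod 2} (hn : D.Adm n) (hn₁ : D.Adm n₁) :
    D.Adm (fun τ i j => n τ i j + n₁ τ i j) := by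
  obtain ⟨o, ho1, ho2⟩ := hn
  obtain ⟨o', ho1', ho2'⟩ := hn₁
  refine ⟨fun i c => o i c + o' i c, fun τ i => ?_, fun i c hc => ?_⟩
  · show n τ i D.L + n₁ τ i D.L = _
    rw [ho1, ho1']
  · show o i c + o' i c = 0
    rw [ho2 i c hc, ho2' i c hc, add_zero]

theorem m4_bd (n : D.T → Fin 3 → ℕ → ZMod 2) {i l : Fin 3} (hil : l ≠ i) (z : ℕ) (τ : D.T)
    (x : Col) (hx : x ≠ some (l, z)) (hbd : bd (n τ) x = 0) : bd (D.m4n n i l z τ) x = 0 := by
  rcases x with _ | ⟨i', j'⟩
  · show D.m4n n i l z τ 0 0 + D.m4n n i l z τ 1 0 + D.m4n n i l z τ 2 0 = 0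
    rw [← Fin.sum_univ_three (fun i' => D.m4n n i l z τ i' 0)]
    unfold m4n
    rw [Finset.sum_add_distrib, Finset.sum_ite_eq' Finset.univ i, Finset.sum_ite_eq' Finset.univ l,
      if_pos (Finset.mem_univ _), if_pos (Finset.mem_univ _), if_pos (Nat.zero_le _)]
    exact m4_self _
  · show D.m4n n i l z τ i' j' + D.m4n n i l z τ i' (j' + 1) = 0
    unfold m4n
    by_cases h1 : i' = i
    · have h2 : i' ≠ l := fun h => hil (h.symm.trans h1)
      rw [if_pos h1, if_neg h2, if_pos h1, if_neg h2, add_zero, add_zero]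
      exact hbd
    · rw [if_neg h1, if_neg h1]
      by_cases h2 : i' = l
      · rw [if_pos h2, if_pos h2, zero_add, zero_add]
        have h3 : j' ≠ z := by
          intro h3
          apply hx
          rw [h2, h3]
        by_cases h4 : j' ≤ z
        · rw [if_pos h4, if_pos (show j' + 1 ≤ z by omega)]
          exact m4_self _
        · rw [if_neg h4, if_neg (show ¬ j' + 1 ≤ z by omega), add_zero]
      · rw [if_neg h2, if_neg h2]
        simp

/-- every row has exactly one pebble -/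
theorem m4_unique (Q : Finset D.Chk) (hQ : Q.card ≤ D.n + 1) (c : ℕ → D.Chk) (hc : D.Chain c)
    (hcQ : ∀ m ≤ D.n, c m ∈ Q) : ∀ p ∈ Q, p = c p.m := by
  classical
  have hinj : Set.InjOn c (Finset.range (D.n + 1) : Set ℕ) := by
    intro a ha b hb hab
    have ha' : a ≤ D.n := by
      have := Finset.mem_range.1 (Finset.mem_coe.1 ha); omega
    have hb' : b ≤ D.n := by
      have := Finset.mem_range.1 (Finset.mem_coe.1 hb); omega
    rw [← hc.row a ha', ← hc.row b hb', hab]
  have hsub : (Finset.range (D.n + 1)).image c ⊆ Q := by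
    intro p hp
    obtain ⟨m, hm, rfl⟩ := Finset.mem_image.1 hp
    exact hcQ m (by have := Finset.mem_range.1 hm; omega)
  have hcard : ((Finset.range (D.n + 1)).image c).card = D.n + 1 := by
    rw [Finset.card_image_of_injOn hinj, Finset.card_range]
  have heq : (Finset.range (D.n + 1)).image c = Q :=
    Finset.eq_of_subset_of_card_le hsub (by rw [hcard]; exact hQ)
  intro p hp
  rw [← heq] at hp
  obtain ⟨m, hm, rfl⟩ := Finset.mem_image.1 hp
  rw [hc.row m (by have := Finset.mem_range.1 hm; omega)]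

/-- CHUNK R290-M4.  `Q` is a chain with pebbles on two different pages.
PROOF.  Let `c r₁` lie on page `i` (column `some (i, _)`), `c r₂` on page `j ≠ i`, `l` the third page, `z < L` such that
the column `(l, z)` has no pebble (`n + 1 < L`).  Put `n₁ τ` = `n τ i ·` on page `i`, `n τ i 0` on the edges `(l, j')`,
`j' ≤ z`, `0` elsewhere; `n₂ = n - n₁`: on pages `j`, `l` it is `n τ` plus `n τ i 0` on the edges `(l, j')`, `j' ≤ z`, and
`0` on page `i`.  `bd (n₁ τ)` = `bd (n τ)` on page `i`, `0` at the centre, `n τ i 0` at `(l, z)`.  `mt_row` with row `r₂`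
for `n₁` (its pebble sees only edges of page `j`), `mt_row` with row `r₁` for `n₂`; `Trans.add`.  (Every row has exactly
one pebble.)  The centre is pebbled or not: `bd (n₁ τ) none = n τ i 0 + n τ i 0 = 0` in any case, and
`bd (n₂ τ) none = bd (n τ) none`. -/
theorem mt_cross (Q : Finset D.Chk) (hQ : Q.card ≤ D.n + 1) (c : ℕ → D.Chk) (hc : D.Chain c)
    (hcQ : ∀ m ≤ D.n, c m ∈ Q) (r₁ r₂ : ℕ) (h₁ : r₁ ≤ D.n) (h₂ : r₂ ≤ D.n) (i j : Fin 3) (hij : i ≠ j)
    (z₁ z₂ : ℕ) (hx₁ : (c r₁).x = some (i, z₁)) (hx₂ : (c r₂).x = some (j, z₂))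
    (n : D.T → Fin 3 → ℕ → ZMod 2) (hn : D.Adm n)
    (hbd : ∀ p ∈ Q, bd (n (D.nm p.a)) p.x = 0) : D.Trans Q n := by
  classical
  obtain ⟨l, hli, hlj⟩ : ∃ l : Fin 3, l ≠ i ∧ l ≠ j :=
    (by decide : ∀ i j : Fin 3, ∃ l : Fin 3, l ≠ i ∧ l ≠ j) i j
  have huniq := D.m4_unique Q hQ c hc hcQ
  -- a free column of page `l`
  obtain ⟨z, hz, hzQ⟩ : ∃ z < D.L, ∀ p ∈ Q, p.x ≠ some (l, z) := by
    by_contra hcon
    push Not at hcon
    have h1 : (Finset.range D.L).image (fun z => (some (l, z) : Col)) ⊆ Q.image (fun p => p.x) := by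
      intro x hx
      obtain ⟨z, hz, rfl⟩ := Finset.mem_image.1 hx
      obtain ⟨p, hp, hpx⟩ := hcon z (Finset.mem_range.1 hz)
      exact Finset.mem_image.2 ⟨p, hp, hpx⟩
    have h2 : ((Finset.range D.L).image (fun z => (some (l, z) : Col))).card = D.L := by
      rw [Finset.card_image_of_injective, Finset.card_range]
      intro a b hab
      simpa using hab
    have h3 := Finset.card_le_card h1
    have h4 : (Q.image (fun p => p.x)).card ≤ Q.card := Finset.card_image_le
    have h5 := D.hL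
    omega
  have hT₁ : D.Trans Q (D.m4n n i l z) := by
    refine D.mt_row r₂ h₂ Q _ (D.m4_adm₁ hn i l hz) ?_ ?_
    · intro p hp hpr i' j' hinc
      have e : p = c r₂ := by rw [huniq p hp, hpr]
      rw [e, hx₂] at hinc
      have hi' : i' = j := hinc.1
      subst hi'
      unfold m4n
      rw [if_neg (fun h => hij h.symm), if_neg (fun h => hlj h.symm), add_zero]
    · intro p hp
      exact D.m4_bd n hli z _ p.x (hzQ p hp) (hbd p hp)
  have hT₂ : D.Trans Q (fun τ i' j' => n τ i' j' + D.m4n n i l z τ i' j') := by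
    refine D.mt_row r₁ h₁ Q _ (D.m4_adm₂ hn (D.m4_adm₁ hn i l hz)) ?_ ?_
    · intro p hp hpr i' j' hinc
      have e : p = c r₁ := by rw [huniq p hp, hpr]
      rw [e, hx₁] at hinc
      have hi' : i' = i := hinc.1
      subst hi'
      unfold m4n
      rw [if_pos rfl, if_neg (fun h => hli h.symm), add_zero]
      exact m4_self _
    · intro p hp
      have h1 := m4_bd_add (n (D.nm p.a)) (D.m4n n i l z (D.nm p.a)) p.x
      rw [hbd p hp, D.m4_bd n hli z _ p.x (hzQ p hp) (hbd p hp), add_zero] at h1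
      exact h1
  have hT := Trans.add D hT₁ hT₂
  have e : (fun τ i' j' => D.m4n n i l z τ i' j' + (n τ i' j' + D.m4n n i l z τ i' j')) = n := by
    funext τ i' j'
    rw [add_left_comm, m4_self, add_zero]
  rw [e] at hT
  exact hT

end Crest.Agent.WL.BookData
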