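import Crest.Agent.WL.BookMT1

set_option autoImplicit false

namespace Crest.Agent.WL.BookData

variable (D : BookData)

/-- with at most `n + 1` pebbles containing a chain, every row has exactly one pebble -/
theorem mt5_unique (Q : Finset D.Chk) (hQ : Q.card ≤ D.n + 1) (c : ℕ → D.Chk) (hc : D.Chain c)
    (hcQ : ∀ m ≤ D.n, c m ∈ Q) (k : ℕ) (p : D.Chk) (hp : p ∈ Q) (hpm : p.m = k) : p = c k := by
  classical
  have himg : (Finset.range (D.n + 1)).image c = Q := by
    refine Finset.eq_of_subset_of_card_le ?_ ?_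
    · intro p hp
      obtain ⟨r, hr, rfl⟩ := Finset.mem_image.1 hp
      exact hcQ r (by have := Finset.mem_range.1 hr; omega)
    · rw [Finset.card_image_of_injOn, Finset.card_range]
      · exact hQ
      · intro r hr s hs hrs
        have hr' : r ≤ D.n := by have := Finset.mem_range.1 (Finset.mem_coe.1 hr); omega
        have hs' : s ≤ D.n := by have := Finset.mem_range.1 (Finset.mem_coe.1 hs); omega
        rw [← hc.row r hr', ← hc.row s hs', hrs]
  rw [← himg] at hp
  obtain ⟨r, hr, rfl⟩ := Finset.mem_image.1 hp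
  have hr' : r ≤ D.n := by have := Finset.mem_range.1 hr; omega
  rw [hc.row r hr'] at hpm
  rw [hpm]

/-- CHUNK R290-M5.  `Q` is a chain with a pebble on page `i`, and `n` vanishes on page `i`.
PROOF.  `mt_row` with the row `r` (its only pebble lies on page `i`). -/
theorem mt_page (Q : Finset D.Chk) (hQ : Q.card ≤ D.n + 1) (c : ℕ → D.Chk) (hc : D.Chain c)
    (hcQ : ∀ m ≤ D.n, c m ∈ Q) (r : ℕ) (hr : r ≤ D.n) (i : Fin 3) (z : ℕ) (hx : (c r).x = some (i, z))
    (n : D.T → Fin 3 → ℕ → ZMod 2) (hn : D.Adm n) (hi : ∀ τ j, n τ i j = 0)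
    (hbd : ∀ p ∈ Q, bd (n (D.nm p.a)) p.x = 0) : D.Trans Q n := by
  refine D.mt_row r hr Q n hn (fun p hp hpm i' j' hE => ?_) hbd
  obtain rfl := D.mt5_unique Q hQ c hc hcQ r p hp hpm
  rw [hx] at hE
  obtain rfl : i' = i := hE.1
  exact hi _ _

/-- (part of M5)  `Q` is a chain in the centre and `n` vanishes for its name: `mt_row` with row `0`. -/
theorem mt_centre (Q : Finset D.Chk) (hQ : Q.card ≤ D.n + 1) (c : ℕ → D.Chk) (hc : D.Chain c)
    (hcQ : ∀ m ≤ D.n, c m ∈ Q) (n : D.T → Fin 3 → ℕ → ZMod 2) (hn : D.Adm n)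
    (h0 : ∀ i j, n (D.nm (c 0).a) i j = 0)
    (hbd : ∀ p ∈ Q, bd (n (D.nm p.a)) p.x = 0) : D.Trans Q n := by
  refine D.mt_row 0 (Nat.zero_le _) Q n hn (fun p hp hpm i' j' _ => ?_) hbd
  obtain rfl := D.mt5_unique Q hQ c hc hcQ 0 p hp hpm
  exact h0 _ _

end Crest.Agent.WL.BookData
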