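import Crest.Agent.WL.BookSp

set_option autoImplicit false

namespace Crest.Agent.WL.BookData

variable (D : BookData)

private theorem P2_vert (σ : ℕ → D.Γ) (x : Col) (g : D.Bit → ZMod 2) :
    ∑ m ∈ Finset.range (D.n + 1),
      ((D.vInc x m (σ (m - 1)) (σ (min m (D.n - 1)))).map g).sum = 0 := by
  have hn := D.hn
  have e : ∀ m ∈ Finset.range (D.n + 1),
      ((D.vInc x m (σ (m - 1)) (σ (min m (D.n - 1)))).map g).sum =
      (if m = 0 then 0 else g (Bit.vb x (m - 1) (σ (m - 1)))) +
      (if m = D.n then 0 else g (Bit.vb x m (σ m))) := by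
    intro m hm
    have hm' : m ≤ D.n := by have := Finset.mem_range.1 hm; omega
    unfold vInc
    rw [List.map_append, List.sum_append]
    congr 1
    · by_cases h : m = 0
      · simp [h]
      · simp [h]
    · by_cases h : m = D.n
      · simp [h]
      · rw [if_neg h, if_neg h, show min m (D.n - 1) = m by omega]
        simp
  rw [Finset.sum_congr rfl e, Finset.sum_add_distrib, Finset.sum_range_succ', Finset.sum_range_succ]
  have e1 : ∑ k ∈ Finset.range D.n, (if k + 1 = 0 then (0 : ZMod 2)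
      else g (Bit.vb x (k + 1 - 1) (σ (k + 1 - 1)))) =
      ∑ k ∈ Finset.range D.n, g (Bit.vb x k (σ k)) :=
    Finset.sum_congr rfl fun k _ => by simp
  have e2 : ∑ m ∈ Finset.range D.n, (if m = D.n then (0 : ZMod 2) else g (Bit.vb x m (σ m))) =
      ∑ k ∈ Finset.range D.n, g (Bit.vb x k (σ k)) :=
    Finset.sum_congr rfl fun k hk => by
      rw [if_neg]
      have := Finset.mem_range.1 hk
      omega
  rw [e1, e2, if_pos rfl, if_pos rfl, add_zero]
  have h2 : ∀ y : ZMod 2, y + y = 0 := by decide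
  exact h2 _

private theorem P2_wp {b : D.Chk → ZMod 2} {t : ℕ} (F : DFam (D.xsP b) t) (σ : ℕ → D.Γ)
    (hσ : D.GWord σ) (x : Col) (hx : D.ColOk x) (g : D.Bit → ZMod 2)
    (hF : F.F (D.wall σ hσ x hx) g) :
    ∑ m ∈ Finset.range (D.n + 1),
      ((D.hInc x m (σ (m - 1)) (σ (min m (D.n - 1)))).map g).sum = D.wp b σ hσ x hx := by
  have key : ∀ m ∈ Finset.range (D.n + 1),
      ((D.hInc x m (σ (m - 1)) (σ (min m (D.n - 1)))).map g).sum +
      ((D.vInc x m (σ (m - 1)) (σ (min m (D.n - 1)))).map g).sum = b (D.wc σ hσ x hx m) := by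
    intro m hm
    have hm' : m ≤ D.n := by have := Finset.mem_range.1 hm; omega
    have hs := F.sat _ g hF (D.wc σ hσ x hx m) (Finset.mem_image.2 ⟨m, hm, rfl⟩)
    have hs' : ((D.hInc (D.wc σ hσ x hx m).x (D.wc σ hσ x hx m).m (D.wc σ hσ x hx m).a
        (D.wc σ hσ x hx m).b ++ D.vInc (D.wc σ hσ x hx m).x (D.wc σ hσ x hx m).m
        (D.wc σ hσ x hx m).a (D.wc σ hσ x hx m).b).map g).sum = b (D.wc σ hσ x hx m) := hs
    rw [List.map_append, List.sum_append] at hs'
    rw [← hs']
    unfold wc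
    rw [dif_pos hm']
  have h1 := Finset.sum_congr rfl key
  rw [Finset.sum_add_distrib, D.P2_vert σ x g, add_zero] at h1
  exact h1

/-- CHUNK R290-P2.  Column sums: all checks of a wall are satisfied, the vertical bits cancel
(`∑_{1 ≤ m ≤ n} g (vb x (m-1) (σ (m-1))) + ∑_{m < n} g (vb x m (σ m)) = 0`). -/
theorem col_centre {b : D.Chk → ZMod 2} {t : ℕ} (F : DFam (D.xsP b) t) (σ : ℕ → D.Γ) (hσ : D.GWord σ)
    (g : D.Bit → ZMod 2) (hF : F.F (D.wall σ hσ none trivial) g) :
    D.ef g σ 0 0 + D.ef g σ 1 0 + D.ef g σ 2 0 = D.wp b σ hσ none trivial := by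
  rw [← D.P2_wp F σ hσ none trivial g hF]
  unfold ef
  rw [← Finset.sum_add_distrib, ← Finset.sum_add_distrib]
  refine Finset.sum_congr rfl fun m _ => ?_
  simp only [hInc, List.map_cons, List.map_nil, List.sum_cons, List.sum_nil, add_zero]
  ring

private theorem P2_nm (σ : ℕ → D.Γ) (hσ : D.GWord σ) (k : ℕ) (hk : k ≤ D.n - 1) :
    D.nm (σ k) = D.nm (σ 0) := by
  have hn := D.hn
  induction k with
  | zero => rfl
  | succ k ih =>
    have h := D.okl_nm _ _ _ (hσ (k + 1) (by omega))
    rw [show k + 1 - 1 = k by omega, show min (k + 1) (D.n - 1) = k + 1 by omega] at h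
    rw [← h]
    exact ih (by omega)

theorem col_page {b : D.Chk → ZMod 2} {t : ℕ} (F : DFam (D.xsP b) t) (σ : ℕ → D.Γ) (hσ : D.GWord σ)
    (i : Fin 3) (j : ℕ) (hj : j < D.L) (g : D.Bit → ZMod 2) (hF : F.F (D.wall σ hσ (some (i, j)) hj) g) :
    D.ef g σ i j + (if j + 1 < D.L then D.ef g σ i (j + 1) else D.oflux g i (fun k => D.pr i (σ k))) =
      D.wp b σ hσ (some (i, j)) hj := by
  rw [← D.P2_wp F σ hσ (some (i, j)) hj g hF]
  by_cases h1 : j + 1 < D.L
  · rw [if_pos h1]
    unfold ef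
    rw [← Finset.sum_add_distrib]
    refine Finset.sum_congr rfl fun m _ => ?_
    simp only [hInc, if_pos h1, List.map_cons, List.map_nil, List.sum_cons, List.sum_nil, add_zero]
  · rw [if_neg h1]
    have hcl : ∀ m ≤ D.n, (D.closed i (D.vn (D.pr i (σ (m - 1)))) ↔
        D.closed i (D.vn (D.pr i (σ 0)))) := by
      intro m hm
      rw [D.hcn, D.hcn, D.P2_nm σ hσ (m - 1) (by omega)]
    unfold ef oflux
    by_cases h2 : D.closed i (D.vn (D.pr i (σ 0)))
    · rw [if_pos h2, add_zero]
      refine Finset.sum_congr rfl fun m hm => ?_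
      have hm' : m ≤ D.n := by have := Finset.mem_range.1 hm; omega
      simp only [hInc, if_neg h1, if_pos ((hcl m hm').2 h2), List.map_cons, List.map_nil,
        List.sum_cons, List.sum_nil, add_zero]
    · rw [if_neg h2, ← Finset.sum_add_distrib]
      refine Finset.sum_congr rfl fun m hm => ?_
      have hm' : m ≤ D.n := by have := Finset.mem_range.1 hm; omega
      simp only [hInc, if_neg h1, if_neg (fun h => h2 ((hcl m hm').1 h)), List.map_cons,
        List.map_nil, List.sum_cons, List.sum_nil, add_zero]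

end Crest.Agent.WL.BookData
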