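import Crest.Agent.WL.BookP2

set_option autoImplicit false

namespace Crest.Agent.WL.BookData

variable (D : BookData)

private theorem p3_add_self (x : ZMod 2) : x + x = 0 := by revert x; decide

private theorem wc_eq (σ : ℕ → D.Γ) (hσ : D.GWord σ) (x : Col) (hx : D.ColOk x) (m : ℕ) (h : m ≤ D.n) :
    D.wc σ hσ x hx m = ⟨x, m, σ (m - 1), σ (min m (D.n - 1)), hx, h, hσ m h⟩ := dif_pos h

private theorem cov_none (b : D.Chk → ZMod 2) (σ : ℕ → D.Γ) (hσ : D.GWord σ) (i : Fin 3) (m : ℕ) (h : m ≤ D.n) :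
    (D.xsP b).Cov {Sum.inr (D.wc σ hσ none trivial m)} (Bit.hb i 0 m (σ (m - 1)) (σ (min m (D.n - 1)))) := by
  refine Or.inr ⟨_, Finset.mem_singleton_self _, ?_⟩
  rw [wc_eq D σ hσ none trivial m h]
  refine List.mem_append_left _ ?_
  simp only [hInc]
  fin_cases i <;> simp

private theorem cov_head (b : D.Chk → ZMod 2) (σ : ℕ → D.Γ) (hσ : D.GWord σ) (i : Fin 3) (j : ℕ) (hj : j < D.L)
    (m : ℕ) (h : m ≤ D.n) :
    (D.xsP b).Cov {Sum.inr (D.wc σ hσ (some (i, j)) hj m)}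
      (Bit.hb i j m (σ (m - 1)) (σ (min m (D.n - 1)))) := by
  refine Or.inr ⟨_, Finset.mem_singleton_self _, ?_⟩
  rw [wc_eq D σ hσ (some (i, j)) hj m h]
  refine List.mem_append_left _ ?_
  simp [hInc]

private theorem cov_next (b : D.Chk → ZMod 2) (σ : ℕ → D.Γ) (hσ : D.GWord σ) (i : Fin 3) (j : ℕ) (hj : j < D.L)
    (hj1 : j + 1 < D.L) (m : ℕ) (h : m ≤ D.n) :
    (D.xsP b).Cov {Sum.inr (D.wc σ hσ (some (i, j)) hj m)}
      (Bit.hb i (j + 1) m (σ (m - 1)) (σ (min m (D.n - 1)))) := by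
  refine Or.inr ⟨_, Finset.mem_singleton_self _, ?_⟩
  rw [wc_eq D σ hσ (some (i, j)) hj m h]
  refine List.mem_append_left _ ?_
  simp [hInc, hj1]

/-- CHUNK R290-P3.  From the centre to the end of page `i`.
PROOF.  `sweep` from `none` to `some (i, 0)` (common bits `hb i 0`), then from `some (i, j)` to `some (i, j + 1)`
(common bits `hb i (j+1)`), by induction on `j`, with `col_page`. -/
theorem to_outer {b : D.Chk → ZMod 2} (F : DFam (D.xsP b) (D.n + 2)) (σ : ℕ → D.Γ) (hσ : D.GWord σ) (i : Fin 3)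
    (hL : D.L - 1 < D.L) (g : D.Bit → ZMod 2) (hF : F.F (D.wall σ hσ none trivial) g) :
    ∃ g', F.F (D.wall σ hσ (some (i, D.L - 1)) hL) g' ∧
      D.oflux g' i (fun k => D.pr i (σ k)) = D.ef g σ i 0 + D.pp b σ hσ i := by
  let w : ℕ → ZMod 2 := fun j => if h : j < D.L then D.wp b σ hσ (some (i, j)) h else 0
  have hw : ∀ j (h : j < D.L), D.wp b σ hσ (some (i, j)) h = w j := fun j h => (dif_pos h).symm
  have key : ∀ j (hj : j < D.L), ∃ g', F.F (D.wall σ hσ (some (i, j)) hj) g' ∧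
      D.ef g' σ i j = D.ef g σ i 0 + ∑ k ∈ Finset.range j, w k := by
    intro j
    induction j with
    | zero =>
      intro hj
      obtain ⟨g', h1, h2⟩ := F.sweep
        (fun m => Sum.inr (D.wc σ hσ none trivial m))
        (fun m => Sum.inr (D.wc σ hσ (some (i, 0)) hj m))
        (fun m => Bit.hb i 0 m (σ (m - 1)) (σ (min m (D.n - 1))))
        (fun m hm => D.cov_none b σ hσ i m hm)
        (fun m hm => D.cov_head b σ hσ i 0 hj m hm) g hF
      refine ⟨g', h1, ?_⟩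
      rw [Finset.range_zero, Finset.sum_empty, add_zero]
      refine Finset.sum_congr rfl fun m hm => ?_
      exact h2 m (Nat.lt_succ_iff.1 (Finset.mem_range.1 hm))
    | succ j ih =>
      intro hj1
      obtain ⟨g₀, h0, he⟩ := ih (Nat.lt_of_succ_lt hj1)
      obtain ⟨g', h1, h2⟩ := F.sweep
        (fun m => Sum.inr (D.wc σ hσ (some (i, j)) (Nat.lt_of_succ_lt hj1) m))
        (fun m => Sum.inr (D.wc σ hσ (some (i, j + 1)) hj1 m))
        (fun m => Bit.hb i (j + 1) m (σ (m - 1)) (σ (min m (D.n - 1))))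
        (fun m hm => D.cov_next b σ hσ i j _ hj1 m hm)
        (fun m hm => D.cov_head b σ hσ i (j + 1) hj1 m hm) g₀ h0
      refine ⟨g', h1, ?_⟩
      have e1 : D.ef g' σ i (j + 1) = D.ef g₀ σ i (j + 1) :=
        Finset.sum_congr rfl fun m hm => h2 m (Nat.lt_succ_iff.1 (Finset.mem_range.1 hm))
      have e2 := D.col_page F σ hσ i j (Nat.lt_of_succ_lt hj1) g₀ h0
      rw [if_pos hj1, hw, he] at e2
      rw [e1, Finset.sum_range_succ]
      linear_combination e2 - p3_add_self (D.ef g σ i 0 + ∑ k ∈ Finset.range j, w k)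
  obtain ⟨g', h1, h2⟩ := key (D.L - 1) hL
  refine ⟨g', h1, ?_⟩
  have e2 := D.col_page F σ hσ i (D.L - 1) hL g' h1
  rw [if_neg (by omega), hw, h2] at e2
  have e3 : D.pp b σ hσ i = ∑ k ∈ Finset.range D.L, w k := by
    unfold pp
    rw [← Finset.sum_attach (Finset.range D.L) w]
    exact Finset.sum_congr rfl fun j _ => hw j.1 _
  have e4 : ∑ k ∈ Finset.range D.L, w k = ∑ k ∈ Finset.range (D.L - 1), w k + w (D.L - 1) := by
    rw [← Finset.sum_range_succ]
    congr 2
    omega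
  rw [e3, e4]
  linear_combination e2 - p3_add_self (D.ef g σ i 0 + ∑ k ∈ Finset.range (D.L - 1), w k)

end Crest.Agent.WL.BookData
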