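import Crest.Agent.WL.BookP2

set_option autoImplicit false

namespace Crest.Agent.WL.BookData

variable (D : BookData)

/-- the central bit `hb i 0` is shown by the wall of the centre -/
theorem from_outer_cov_none {b : D.Chk → ZMod 2} (σ : ℕ → D.Γ) (hσ : D.GWord σ) (i : Fin 3) (m : ℕ)
    (hm : m ≤ D.n) :
    (D.xsP b).Cov {Sum.inr (D.wc σ hσ none trivial m)}
      (Bit.hb i 0 m (σ (m - 1)) (σ (min m (D.n - 1)))) := by
  refine Or.inr ⟨_, Finset.mem_singleton_self _, ?_⟩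
  unfold wc
  rw [dif_pos hm]
  show _ ∈ D.hInc _ _ _ _ ++ D.vInc _ _ _ _
  refine List.mem_append_left _ ?_
  show _ ∈ [Bit.hb 0 0 m _ _, Bit.hb 1 0 m _ _, Bit.hb 2 0 m _ _]
  fin_cases i <;> simp

/-- the inner bit `hb i j` is shown by the wall of the column `j` -/
theorem from_outer_cov_left {b : D.Chk → ZMod 2} (σ : ℕ → D.Γ) (hσ : D.GWord σ) (i : Fin 3) (j : ℕ)
    (hj : j < D.L) (m : ℕ) (hm : m ≤ D.n) :
    (D.xsP b).Cov {Sum.inr (D.wc σ hσ (some (i, j)) hj m)}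
      (Bit.hb i j m (σ (m - 1)) (σ (min m (D.n - 1)))) := by
  refine Or.inr ⟨_, Finset.mem_singleton_self _, ?_⟩
  unfold wc
  rw [dif_pos hm]
  show _ ∈ D.hInc _ _ _ _ ++ D.vInc _ _ _ _
  refine List.mem_append_left _ ?_
  exact List.mem_cons_self

/-- the inner bit `hb i (j + 1)` is shown by the wall of the column `j` -/
theorem from_outer_cov_right {b : D.Chk → ZMod 2} (σ : ℕ → D.Γ) (hσ : D.GWord σ) (i : Fin 3) (j : ℕ)
    (hj : j < D.L) (hj1 : j + 1 < D.L) (m : ℕ) (hm : m ≤ D.n) :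
    (D.xsP b).Cov {Sum.inr (D.wc σ hσ (some (i, j)) hj m)}
      (Bit.hb i (j + 1) m (σ (m - 1)) (σ (min m (D.n - 1)))) := by
  refine Or.inr ⟨_, Finset.mem_singleton_self _, ?_⟩
  unfold wc
  rw [dif_pos hm]
  show _ ∈ D.hInc _ _ _ _ ++ D.vInc _ _ _ _
  refine List.mem_append_left _ ?_
  unfold hInc
  simp only
  rw [if_pos hj1]
  exact List.mem_cons_of_mem _ List.mem_cons_self

/-- parity of the column `j` (0 for `j ≥ L`) -/
def from_outer_W (b : D.Chk → ZMod 2) (σ : ℕ → D.Γ) (hσ : D.GWord σ) (i : Fin 3) (j : ℕ) : ZMod 2 :=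
  if h : j < D.L then D.wp b σ hσ (some (i, j)) h else 0

theorem from_outer_pp (b : D.Chk → ZMod 2) (σ : ℕ → D.Γ) (hσ : D.GWord σ) (i : Fin 3) :
    D.pp b σ hσ i = ∑ j ∈ Finset.range D.L, D.from_outer_W b σ hσ i j := by
  unfold pp
  rw [← Finset.sum_attach (Finset.range D.L) (fun j => D.from_outer_W b σ hσ i j)]
  refine Finset.sum_congr rfl ?_
  rintro ⟨j, hj⟩ _
  unfold from_outer_W
  rw [dif_pos (Finset.mem_range.1 hj)]

theorem from_outer_aux {b : D.Chk → ZMod 2} (F : DFam (D.xsP b) (D.n + 2)) (σ : ℕ → D.Γ) (hσ : D.GWord σ)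
    (i : Fin 3) (j : ℕ) : ∀ (hj : j < D.L) (g : D.Bit → ZMod 2),
    F.F (D.wall σ hσ (some (i, j)) hj) g →
    ∃ g', F.F (D.wall σ hσ none trivial) g' ∧
      D.ef g' σ i 0 = D.ef g σ i j + ∑ k ∈ Finset.range j, D.from_outer_W b σ hσ i k := by
  induction j with
  | zero =>
    intro hj g hF
    obtain ⟨g', h1, h2⟩ := F.sweep (fun m => Sum.inr (D.wc σ hσ (some (i, 0)) hj m))
      (fun m => Sum.inr (D.wc σ hσ none trivial m))
      (fun m => Bit.hb i 0 m (σ (m - 1)) (σ (min m (D.n - 1))))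
      (fun m hm => D.from_outer_cov_left σ hσ i 0 hj m hm)
      (fun m hm => D.from_outer_cov_none σ hσ i m hm) g hF
    refine ⟨g', h1, ?_⟩
    rw [Finset.sum_range_zero, add_zero]
    unfold ef
    refine Finset.sum_congr rfl fun m hm => ?_
    exact h2 m (by have := Finset.mem_range.1 hm; omega)
  | succ j ih =>
    intro hj g hF
    have hj0 : j < D.L := by omega
    obtain ⟨g₁, h1, h2⟩ := F.sweep (fun m => Sum.inr (D.wc σ hσ (some (i, j + 1)) hj m))
      (fun m => Sum.inr (D.wc σ hσ (some (i, j)) hj0 m))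
      (fun m => Bit.hb i (j + 1) m (σ (m - 1)) (σ (min m (D.n - 1))))
      (fun m hm => D.from_outer_cov_left σ hσ i (j + 1) hj m hm)
      (fun m hm => D.from_outer_cov_right σ hσ i j hj0 hj m hm) g hF
    have h3 : D.ef g₁ σ i (j + 1) = D.ef g σ i (j + 1) := by
      unfold ef
      refine Finset.sum_congr rfl fun m hm => ?_
      exact h2 m (by have := Finset.mem_range.1 hm; omega)
    have h4 := D.col_page F σ hσ i j hj0 g₁ h1
    rw [if_pos hj, h3] at h4
    obtain ⟨g', h5, h6⟩ := ih hj0 g₁ h1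
    refine ⟨g', h5, ?_⟩
    have h7 : D.from_outer_W b σ hσ i j = D.wp b σ hσ (some (i, j)) hj0 := by
      unfold from_outer_W
      rw [dif_pos hj0]
    have h8 : D.ef g₁ σ i j = D.ef g σ i (j + 1) + D.wp b σ hσ (some (i, j)) hj0 := by
      rw [← h4]
      have : D.ef g σ i (j + 1) + (D.ef g₁ σ i j + D.ef g σ i (j + 1)) =
        D.ef g₁ σ i j + (D.ef g σ i (j + 1) + D.ef g σ i (j + 1)) := by ring
      rw [this, CharTwo.add_self_eq_zero, add_zero]
    rw [h6, h8, Finset.sum_range_succ, h7]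
    ring

/-- CHUNK R290-P4.  From the end of page `i` to the centre (same, inwards). -/
theorem from_outer {b : D.Chk → ZMod 2} (F : DFam (D.xsP b) (D.n + 2)) (σ : ℕ → D.Γ) (hσ : D.GWord σ) (i : Fin 3)
    (hL : D.L - 1 < D.L) (g : D.Bit → ZMod 2) (hF : F.F (D.wall σ hσ (some (i, D.L - 1)) hL) g) :
    ∃ g', F.F (D.wall σ hσ none trivial) g' ∧
      D.ef g' σ i 0 = D.oflux g i (fun k => D.pr i (σ k)) + D.pp b σ hσ i := by
  obtain ⟨g', h1, h2⟩ := D.from_outer_aux F σ hσ i (D.L - 1) hL g hF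
  refine ⟨g', h1, ?_⟩
  have h3 := D.col_page F σ hσ i (D.L - 1) hL g hF
  rw [if_neg (by omega)] at h3
  have h4 : D.from_outer_W b σ hσ i (D.L - 1) = D.wp b σ hσ (some (i, D.L - 1)) hL := by
    unfold from_outer_W
    rw [dif_pos hL]
  have h5 : D.pp b σ hσ i = ∑ j ∈ Finset.range (D.L - 1), D.from_outer_W b σ hσ i j +
      D.wp b σ hσ (some (i, D.L - 1)) hL := by
    rw [D.from_outer_pp, ← h4, ← Finset.sum_range_succ]
    congr 2
    omega
  have h6 : D.ef g σ i (D.L - 1) = D.oflux g i (fun k => D.pr i (σ k)) +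
      D.wp b σ hσ (some (i, D.L - 1)) hL := by
    rw [← h3]
    have : D.oflux g i (fun k => D.pr i (σ k)) + (D.ef g σ i (D.L - 1) +
        D.oflux g i (fun k => D.pr i (σ k))) =
      D.ef g σ i (D.L - 1) + (D.oflux g i (fun k => D.pr i (σ k)) +
        D.oflux g i (fun k => D.pr i (σ k))) := by ring
    rw [this, CharTwo.add_self_eq_zero, add_zero]
  rw [h2, h6, h5]
  ring

end Crest.Agent.WL.BookData
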