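import Crest.Agent.WL.BookSp

set_option autoImplicit false

namespace Crest.Agent.WL.BookData

variable (D : BookData)

/-- the gate name of a word is constant -/
theorem p5_nm {σ : ℕ → D.Γ} (hσ : D.GWord σ) : ∀ k < D.n, D.nm (σ k) = D.nm (σ 0) := by
  intro k
  induction k with
  | zero => intro _; rfl
  | succ k ih =>
    intro hk
    have h1 := D.okl_nm _ _ _ (hσ (k + 1) (by omega))
    have h2 : min (k + 1) (D.n - 1) = k + 1 := by omega
    rw [h2, Nat.add_sub_cancel] at h1
    rw [← h1]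
    exact ih (by omega)

/-- the outer bit is shown by the wall at the end of page `i` -/
theorem p5_cov {b : D.Chk → ZMod 2} {σ : ℕ → D.Γ} (hσ : D.GWord σ) (i : Fin 3) (hL : D.L - 1 < D.L)
    (hc : ¬ D.closed i (D.vn (D.pr i (σ 0)))) (m : ℕ) (hm : m ≤ D.n) :
    (D.xsP b).Cov {Sum.inr (D.wc σ hσ (some (i, D.L - 1)) hL m)}
      (Bit.ob i m (D.pr i (σ (m - 1))) (D.pr i (σ (min m (D.n - 1))))) := by
  refine Or.inr ⟨_, Finset.mem_singleton_self _, ?_⟩
  have hn := D.hn
  have h1 : ¬ D.closed i (D.vn (D.pr i (σ (m - 1)))) := by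
    rw [D.hcn, D.p5_nm hσ (m - 1) (by omega), ← D.hcn]
    exact hc
  have h2 : ¬ D.L - 1 + 1 < D.L := by omega
  unfold wc
  rw [dif_pos hm]
  show _ ∈ D.hInc (some (i, D.L - 1)) m (σ (m - 1)) (σ (min m (D.n - 1))) ++ D.vInc _ _ _ _
  rw [List.mem_append]
  left
  simp only [hInc, if_neg h1, if_neg h2]
  exact List.mem_cons_of_mem _ (List.mem_cons_self)

/-- CHUNK R290-P5.  Change of the gate word at the end of page `i`.
PROOF.  For an open name `sweep` from the wall of `σ` to that of `σ'` with the outer bits as common bits (they depend only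
on the projected letters at the gaps); for a closed name both fluxes are `0` (use `DFam.start`-like extension: `sweep` with any
common bits is not available, so simply `F.start` for the new wall). -/
theorem switch {b : D.Chk → ZMod 2} (F : DFam (D.xsP b) (D.n + 2)) (σ σ' : ℕ → D.Γ) (hσ : D.GWord σ)
    (hσ' : D.GWord σ') (i : Fin 3) (hp : ∀ k < D.n, D.pr i (σ k) = D.pr i (σ' k)) (hL : D.L - 1 < D.L)
    (g : D.Bit → ZMod 2) (hF : F.F (D.wall σ hσ (some (i, D.L - 1)) hL) g) :
    ∃ g', F.F (D.wall σ' hσ' (some (i, D.L - 1)) hL) g' ∧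
      D.oflux g' i (fun k => D.pr i (σ' k)) = D.oflux g i (fun k => D.pr i (σ k)) := by
  have hn := D.hn
  have h0 : D.pr i (σ 0) = D.pr i (σ' 0) := hp 0 (by omega)
  by_cases hc : D.closed i (D.vn (D.pr i (σ 0)))
  · obtain ⟨g', hg'⟩ := F.start (fun m => Sum.inr (D.wc σ' hσ' (some (i, D.L - 1)) hL m))
    refine ⟨g', hg', ?_⟩
    have hc' : D.closed i (D.vn (D.pr i (σ' 0))) := h0 ▸ hc
    unfold oflux
    rw [if_pos hc, if_pos hc']
  · have hc' : ¬ D.closed i (D.vn (D.pr i (σ' 0))) := h0 ▸ hc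
    have he : ∀ m ≤ D.n, (Bit.ob i m (D.pr i (σ (m - 1))) (D.pr i (σ (min m (D.n - 1)))) : D.Bit) =
        Bit.ob i m (D.pr i (σ' (m - 1))) (D.pr i (σ' (min m (D.n - 1)))) := by
      intro m hm
      rw [hp (m - 1) (by omega), hp (min m (D.n - 1)) (by omega)]
    obtain ⟨g', hg', hbit⟩ := F.sweep (fun m => Sum.inr (D.wc σ hσ (some (i, D.L - 1)) hL m))
      (fun m => Sum.inr (D.wc σ' hσ' (some (i, D.L - 1)) hL m))
      (fun m => Bit.ob i m (D.pr i (σ (m - 1))) (D.pr i (σ (min m (D.n - 1)))))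
      (fun m hm => D.p5_cov hσ i hL hc m hm)
      (fun m hm => by
        show (D.xsP b).Cov _ (Bit.ob i m (D.pr i (σ (m - 1))) (D.pr i (σ (min m (D.n - 1)))))
        rw [he m hm]
        exact D.p5_cov hσ' i hL hc' m hm) g hF
    refine ⟨g', hg', ?_⟩
    unfold oflux
    rw [if_neg hc, if_neg hc']
    refine Finset.sum_congr rfl fun m hm => ?_
    have hm' : m ≤ D.n := by
      have := Finset.mem_range.1 hm
      omega
    rw [← he m hm']
    exact hbit m hm'

end Crest.Agent.WL.BookData
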