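import Crest.Agent.WL.BookP3
import Crest.Agent.WL.BookP4
import Crest.Agent.WL.BookP5

set_option autoImplicit false

namespace Crest.Agent.WL.BookData

theorem sum3_perm (f : Fin 3 → ZMod 2) (i j l : Fin 3) (hij : i ≠ j) (hil : i ≠ l) (hjl : j ≠ l) :
    f 0 + f 1 + f 2 = f i + f j + f l := by
  fin_cases i <;> fin_cases j <;> fin_cases l <;>
    first
      | exact absurd rfl hij
      | exact absurd rfl hil
      | exact absurd rfl hjl
      | (simp only [Fin.zero_eta, Fin.mk_one, Fin.reduceFinMk]; done)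
      | (simp only [Fin.zero_eta, Fin.mk_one, Fin.reduceFinMk]; ring)

variable (D : BookData)

/-- CHUNK R290-P6.  Known values are forced.
PROOF.  Induction on `KnownV` (generalising `σ`, `g`).  `closed`: `oflux = 0` by definition (`s 0 = pr i (σ 0)` as `0 < n`).
`step` with the gate word `σ'`: `switch` to `σ'`, `from_outer` to the centre, from this position `to_outer` on page `j` and on
page `l` (induction hypotheses), `col_centre`. -/
theorem val_forced {b : D.Chk → ZMod 2} (F : DFam (D.xsP b) (D.n + 2)) {i : Fin 3} {s : ℕ → D.S} {v : ZMod 2}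
    (hv : D.KnownV b i s v) (σ : ℕ → D.Γ) (hσ : D.GWord σ) (hs : ∀ k < D.n, s k = D.pr i (σ k))
    (hL : D.L - 1 < D.L) (g : D.Bit → ZMod 2) (hF : F.F (D.wall σ hσ (some (i, D.L - 1)) hL) g) :
    D.oflux g i (fun k => D.pr i (σ k)) = v := by
  induction hv generalizing σ g with
  | closed i s h =>
    have h0 : s 0 = D.pr i (σ 0) := hs 0 D.hn
    unfold oflux
    have h1 : D.closed i (D.vn (D.pr i (σ 0))) := by rw [← h0]; exact h
    exact if_pos h1
  | step σ' hσ' i j l hij hil hjl v w hj hl s hs' ihj ihl =>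
    obtain ⟨g1, hF1, h1⟩ := D.switch F σ σ' hσ hσ' i
      (fun k hk => (hs k hk).symm.trans (hs' k hk)) hL g hF
    obtain ⟨g2, hF2, h2⟩ := D.from_outer F σ' hσ' i hL g1 hF1
    obtain ⟨g3, hF3, h3⟩ := D.to_outer F σ' hσ' j hL g2 hF2
    obtain ⟨g4, hF4, h4⟩ := D.to_outer F σ' hσ' l hL g2 hF2
    have e3 := ihj σ' hσ' (fun _ _ => rfl) g3 hF3
    have e4 := ihl σ' hσ' (fun _ _ => rfl) g4 hF4
    have h5 := D.col_centre F σ' hσ' g2 hF2
    rw [sum3_perm (fun i => D.ef g2 σ' i 0) i j l hij hil hjl] at h5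
    have h6 := sum3_perm (fun i => D.pp b σ' hσ' i) i j l hij hil hjl
    have two : (2 : ZMod 2) = 0 := by decide
    rw [e3] at h3
    rw [e4] at h4
    unfold sp
    rw [h6, ← h5, h3, h4, ← h1]
    linear_combination (-1 : ZMod 2) * h2 - (D.ef g2 σ' j 0 + D.ef g2 σ' l 0 + D.pp b σ' hσ' i +
      D.pp b σ' hσ' j + D.pp b σ' hσ' l) * two

end Crest.Agent.WL.BookData
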