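import Crest.Agent.WL.BookP6

set_option autoImplicit false

namespace Crest.Agent.WL.BookData

variable (D : BookData)

/-- CHUNK R290-P7.  Every gate equation holds for known values: start at the centre (`DFam.start`), `to_outer` on all pages,
`val_forced`, `col_centre`. -/
theorem gate_eq {b : D.Chk → ZMod 2} (F : DFam (D.xsP b) (D.n + 2)) (σ : ℕ → D.Γ) (hσ : D.GWord σ)
    (v : Fin 3 → ZMod 2) (hv : ∀ i, D.KnownV b i (fun k => D.pr i (σ k)) (v i)) :
    v 0 + v 1 + v 2 = D.sp b σ hσ := by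
  obtain ⟨g, hg⟩ := F.start (fun m => Sum.inr (D.wc σ hσ none trivial m))
  have hg' : F.F (D.wall σ hσ none trivial) g := hg
  have hL : D.L - 1 < D.L := by
    have := D.hL
    omega
  have hvi : ∀ i, v i = D.ef g σ i 0 + D.pp b σ hσ i := by
    intro i
    obtain ⟨g', h1, h2⟩ := D.to_outer F σ hσ i hL g hg'
    rw [← h2]
    exact (D.val_forced F (hv i) σ hσ (fun _ _ => rfl) hL g' h1).symm
  have hc := D.col_centre F σ hσ g hg'
  rw [hvi 0, hvi 1, hvi 2]
  unfold sp
  rw [← hc]
  ring

end Crest.Agent.WL.BookData
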