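import Crest.Agent.WL.BookSp

set_option autoImplicit false

namespace Crest.Agent.WL.BookData

variable (D : BookData)

/-- (part of P7)  parity of the sheets of the book itself: `xs.par` is nonzero only in row `0` of the centre. -/
theorem sp_par (σ : ℕ → D.Γ) (hσ : D.GWord σ) :
    D.sp D.xs.par σ hσ = if D.odd (D.nm (σ 0)) then 1 else 0 := by
  have hwx : ∀ (x : Col) (hx : D.ColOk x) (m : ℕ), (D.wc σ hσ x hx m).x = x := by
    intro x hx m
    unfold wc
    split_ifs <;> rfl
  have hpp : ∀ i, D.pp D.xs.par σ hσ i = 0 := by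
    intro i
    unfold pp wp
    refine Finset.sum_eq_zero fun j _ => Finset.sum_eq_zero fun m _ => ?_
    unfold xs
    refine if_neg ?_
    rintro ⟨h, -⟩
    rw [hwx] at h
    exact absurd h (by simp)
  have hwp : D.wp D.xs.par σ hσ none trivial = if D.odd (D.nm (σ 0)) then 1 else 0 := by
    unfold wp
    rw [Finset.sum_eq_single 0]
    · have h0 : D.wc σ hσ none trivial 0 =
          ⟨none, 0, σ (0 - 1), σ (min 0 (D.n - 1)), trivial, Nat.zero_le _, hσ 0 (Nat.zero_le _)⟩ := by
        unfold wc
        rw [dif_pos (Nat.zero_le _)]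
      rw [h0]
      unfold xs
      by_cases ho : D.odd (D.nm (σ 0))
      · rw [if_pos ho]
        exact if_pos ⟨rfl, rfl, ho⟩
      · rw [if_neg ho]
        exact if_neg fun h => ho h.2.2
    · intro m hm hm0
      have hm' : m ≤ D.n := Nat.lt_succ_iff.1 (Finset.mem_range.1 hm)
      have h0 : (D.wc σ hσ none trivial m).m = m := by
        unfold wc
        rw [dif_pos hm']
      unfold xs
      refine if_neg ?_
      rintro ⟨-, h, -⟩
      rw [h0] at h
      exact hm0 h
    · intro h
      exact absurd (Finset.mem_range.2 (Nat.succ_pos _)) h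
  unfold sp
  rw [hwp, hpp, hpp, hpp]
  simp

end Crest.Agent.WL.BookData
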