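import Crest.Agent.WL.BookP7
import Crest.Agent.WL.BookPs

set_option autoImplicit false

namespace Crest.Agent.WL.BookData

variable (D : BookData)

private theorem known_zero {i : Fin 3} {s : ℕ → D.S} (h : D.Known i s) :
    D.KnownV D.xs.par i s 0 := by
  induction h with
  | closed i s h => exact KnownV.closed i s h
  | step σ hσ hodd i j l hij hil hjl _ _ s hs ihj ihl =>
    have h1 := KnownV.step (b := D.xs.par) σ hσ i j l hij hil hjl 0 0 ihj ihl s hs
    rwa [sp_par, if_neg hodd, add_zero, add_zero] at h1

/-- CHUNK R290-P8.  MAIN THEOREM, Spoiler.  PROOF.  `Known i s → KnownV xs.par i s 0` (induction, `sp_par`), then `gate_eq`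
for the odd gate word: `0 = 1`. -/
theorem core_sp (σ : ℕ → D.Γ) (hσ : D.GWord σ) (hodd : D.odd (D.nm (σ 0)))
    (hk : ∀ i, D.Known i (fun k => D.pr i (σ k))) (F : DFam D.xs (D.n + 2)) : False := by
  have h := D.gate_eq (b := D.xs.par) F σ hσ (fun _ => 0) (fun i => known_zero D (hk i))
  rw [sp_par, if_pos hodd] at h
  exact absurd h (by decide)

end Crest.Agent.WL.BookData
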