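import Crest.Agent.WL.BookState

set_option autoImplicit false

namespace Crest.Agent.WL.BookData

variable (D : BookData)

theorem s1_bey_L (l : Option Col) (h : ∀ x, l = some x → D.ColOk x) (i : Fin 3) :
    bey l i D.L = 0 := by
  rcases l with _ | (_ | ⟨i', j'⟩)
  · rfl
  · rfl
  · have h1 : j' < D.L := h _ rfl
    simp only [bey]
    rw [if_neg]
    rintro ⟨-, h2⟩
    omega

theorem s1_bey_none (l : Option Col) :
    bey l 0 0 + bey l 1 0 + bey l 2 0 + (if l.isSome then (1 : ZMod 2) else 0) =
      if l = some none then 1 else 0 := by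
  rcases l with _ | (_ | ⟨i', j'⟩)
  · simp [bey]
  · simp [bey]
  · simp only [bey, Nat.zero_le, and_true, Option.isSome_some, if_true]
    have h0 : ¬ (some (some (i', j')) : Option Col) = some none := by simp
    rw [if_neg h0]
    clear h0
    revert i'
    decide

theorem s1_bey_some (l : Option Col) (i : Fin 3) (j : ℕ) :
    bey l i j + bey l i (j + 1) = if l = some (some (i, j)) then 1 else 0 := by
  rcases l with _ | (_ | ⟨i', j'⟩)
  · simp [bey]
  · simp [bey]
  · simp only [bey, Option.some.injEq, Prod.mk.injEq]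
    have h11 : (1 : ZMod 2) + 1 = 0 := by decide
    by_cases hi : i = i'
    · subst hi
      simp only [true_and]
      split_ifs <;> first
        | (exfalso; omega)
        | simp [h11]
    · have hi' : ¬ i' = i := fun h => hi h.symm
      simp [hi, hi']

/-- CHUNK R290-S1 (1): `nst` is admissible. -/
theorem nst_adm {e e' : Fin 3 → D.N → ZMod 2} {loc loc' : D.T → Option Col} (h : D.Con e loc)
    (h' : D.Con e' loc') : D.Adm (D.nst e e' loc loc') := by
  refine ⟨fun i c => e i c + e' i c, ?_, ?_⟩
  · intro τ i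
    simp only [nst]
    rw [D.s1_bey_L (loc τ) (h.lo τ) i, D.s1_bey_L (loc' τ) (h'.lo τ) i, add_zero, add_zero]
  · intro i c hc
    show e i c + e' i c = 0
    rw [h.cl i c hc, h'.cl i c hc, add_zero]

/-- (2): its boundary. PROOF: case `x = some (i, j)`: telescoping of `bey`; case `x = none`: by `pc` for both states. -/
theorem nst_bd {e e' : Fin 3 → D.N → ZMod 2} {loc loc' : D.T → Option Col} (h : D.Con e loc)
    (h' : D.Con e' loc') (τ : D.T) (x : Col) : bd (D.nst e e' loc loc' τ) x =
      (if loc τ = some x then 1 else 0) + (if loc' τ = some x then 1 else 0) := by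
  rcases x with _ | ⟨i, j⟩
  · have h1 := h.pc τ
    have h2 := h'.pc τ
    rw [← s1_bey_none (loc τ), ← s1_bey_none (loc' τ), ← h1, ← h2]
    simp only [bd, nst, gp]
    have h3 := zz (if D.odd τ then (1 : ZMod 2) else 0)
    linear_combination (-1 : ZMod 2) * h3
  · rw [← s1_bey_some (loc τ), ← s1_bey_some (loc' τ)]
    simp only [bd, nst]
    have h3 := zz (e i (D.cn τ i) + e' i (D.cn τ i))
    linear_combination h3

/-- (3): transition of near-solutions. -/
theorem nsl_trans {e e' : Fin 3 → D.N → ZMod 2} {loc loc' : D.T → Option Col} (h : D.Con e loc)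
    (h' : D.Con e' loc') (Q : Finset D.Chk) (hT : D.Trans Q (D.nst e e' loc loc')) (f : D.Bit → ZMod 2)
    (hf : D.NSl f loc) : ∃ f', D.NSl f' loc' ∧ D.Agree Q f f' := by
  obtain ⟨f', hf', ha⟩ := hT f _ hf
  refine ⟨f', ?_, ha⟩
  intro c
  rw [hf' c]
  simp only
  rw [D.nst_bd h h']
  by_cases hm : c.m = 0
  · simp only [hm, if_true, true_and]
    rw [← add_assoc, zz, zero_add]
  · simp only [hm, if_false, false_and, add_zero]

end Crest.Agent.WL.BookData
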