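import Crest.Agent.WL.BookState

set_option autoImplicit false

namespace Crest.Agent.WL.BookData

variable (D : BookData)
variable (K : Fin 3 → (ℕ → D.S) → Prop)

/-- CHUNK R290-S2.  Fluxes for an arbitrary `P` with at most `n + 2` pebbles.
PROOF.  If there is no central chain in `P` with an odd name take `e' = 0`.  Otherwise let `c₀` be one, `τ₀ = nm (c₀ 0).a`,
`σ k = (c₀ k).b` (`cen_gword`), choose `i` with `¬ K i (vw i c₀)` (`KHyp.odd`) and put `e' i' x = 1` iff `i' = i` and `x = cn τ₀ i`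
(this name is not closed by `KHyp.closed`).  `GK`: a chain on page `i` in `P` has the same word as `c₀` (`same_word`, `Ext`).
`GC`: central chains in `P` have the same gate letters (`same_gate`), hence the same name (`nm (c 0).a = nm (c 0).b`). -/
theorem flux_any (hK : D.KHyp K) (P : Finset D.Chk) (hP : P.card ≤ D.n + 2) :
    ∃ e', (∀ i c, D.closed i c → e' i c = 0) ∧ D.GK K P e' ∧ D.GC P e' := by
  classical
  by_cases hex : ∃ c, D.ChainIn P c ∧ D.Cen c ∧ D.odd (D.nm (c 0).a)
  · obtain ⟨c₀, h₀, hc₀, hodd⟩ := hex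
    have hn := D.hn
    have hnm0 : D.nm (c₀ 0).a = D.nm (c₀ 0).b := D.okl_nm _ _ _ (c₀ 0).hab
    have hgw := D.cen_gword h₀ hc₀
    have hno := hK.odd (fun k => (c₀ k).b) hgw (by rw [← hnm0]; exact hodd)
    push Not at hno
    obtain ⟨i, hi⟩ := hno
    have hi' : ¬ K i (D.vw i c₀) := hi
    refine ⟨fun i' x => if i' = i ∧ x = D.cn (D.nm (c₀ 0).a) i then 1 else 0, ?_, ?_, ?_⟩
    · intro i' x hcl
      show (if i' = i ∧ x = D.cn (D.nm (c₀ 0).a) i then (1 : ZMod 2) else 0) = 0
      rw [if_neg]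
      rintro ⟨rfl, rfl⟩
      apply hi'
      apply hK.closed
      show D.closed i' (D.vn (D.pr i' (c₀ 0).b))
      rw [D.hcn, ← hnm0]
      exact hcl
    · intro c hc i' hon hKc
      show (if i' = i ∧ D.cn (D.nm (c 0).a) i' = D.cn (D.nm (c₀ 0).a) i then (1 : ZMod 2) else 0) = 0
      rw [if_neg]
      rintro ⟨rfl, -⟩
      apply hi'
      exact hK.ext i' _ _ (fun k hk => D.same_word hP hc h₀ hon (Cen.onP D hc₀ i') k hk) hKc
    · intro c hc hcen
      have hg := D.same_gate hP hc h₀ hcen hc₀ 0 (by omega)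
      have hnm : D.nm (c 0).a = D.nm (c₀ 0).a := by
        rw [hnm0, ← hg]
        exact D.okl_nm _ _ _ (c 0).hab
      rw [hnm]
      unfold gp
      rw [if_pos hodd]
      fin_cases i
      · simp
        decide
      · simp
        decide
      · simp
        decide
  · refine ⟨fun _ _ => 0, fun _ _ _ => rfl, fun _ _ _ _ _ => rfl, ?_⟩
    intro c hc hcen
    unfold gp
    rw [if_neg (fun h => hex ⟨c, hc, hcen, h⟩)]
    simp

end Crest.Agent.WL.BookData
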