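import Crest.Agent.WL.BookState

set_option autoImplicit false

namespace Crest.Agent.WL.BookData

variable (D : BookData)
variable (K : Fin 3 → (ℕ → D.S) → Prop)

/-- names along a check agree -/
private theorem nm_ab (p : D.Chk) : D.nm p.a = D.nm p.b := D.okl_nm _ _ _ p.hab

/-- the variable name of a chain is read off its word -/
private theorem cn_vw (i : Fin 3) (c : ℕ → D.Chk) :
    D.cn (D.nm (c 0).a) i = D.vn (D.vw i c 0) := by
  rw [nm_ab, ← D.hcn]
  rfl

private theorem same_cn {P : Finset D.Chk} (hP : P.card ≤ D.n + 2) {c c' : ℕ → D.Chk}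
    (h : D.ChainIn P c) (h' : D.ChainIn P c') {i : Fin 3} (hi : D.OnP i c) (hi' : D.OnP i c') :
    D.cn (D.nm (c 0).a) i = D.cn (D.nm (c' 0).a) i := by
  rw [cn_vw, cn_vw, D.same_word hP h h' hi hi' 0 (by have := D.hn; omega)]

private theorem same_nm {P : Finset D.Chk} (hP : P.card ≤ D.n + 2) {c c' : ℕ → D.Chk}
    (h : D.ChainIn P c) (h' : D.ChainIn P c') (hc : D.Cen c) (hc' : D.Cen c') :
    D.nm (c 0).a = D.nm (c' 0).a := by
  rw [nm_ab, nm_ab, D.same_gate hP h h' hc hc' 0 (by have := D.hn; omega)]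

private theorem sum3_one (F : Fin 3 → ZMod 2) (i₀ : Fin 3) (h : ∀ l, l ≠ i₀ → F l = 0) :
    F 0 + F 1 + F 2 = F i₀ := by
  have h' : ∑ l, F l = F i₀ := Finset.sum_eq_single i₀ (fun l _ hl => h l hl) (by simp)
  rw [← h', Fin.sum_univ_three]

private theorem sum3_two (F : Fin 3 → ZMod 2) (i₀ j : Fin 3) (hj : j ≠ i₀)
    (h : ∀ l, l ≠ i₀ → l ≠ j → F l = 0) : F 0 + F 1 + F 2 = F i₀ + F j := by
  have h' : ∑ l, F l = F i₀ + F j :=
    Finset.sum_eq_add (s := Finset.univ) i₀ j hj.symm (fun l _ hl => h l hl.1 hl.2) (by simp)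
      (by simp)
  rw [← h', Fin.sum_univ_three]

/-- CHUNK R290-S3.  Fluxes when a non-central chain `c₁` on page `i₀` inside `P` keeps its flux.
PROOF.  If there is no central chain in `P`: `e' i x = if i = i₀ then e i₀ x else 0`.  Otherwise let `c₀` be one, `τ₀` its name;
if `(odd τ₀) + e i₀ (cn τ₀ i₀) = 0` take the same `e'`; if it is `1`, there is `j ≠ i₀` with `¬ K j (vw j c₀)` (otherwise
`KHyp.two` gives `K i₀ (vw i₀ c₀)`, hence by `same_word` `K i₀ (vw i₀ c₁)`, so `e i₀ (cn τ₀ i₀) = 0` by `hg`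
(names: `same_word` gives the same variable name of page `i₀`), so `τ₀` is odd, contradiction to `KHyp.odd`), and
`e'` has in addition the value `1` at `(j, cn τ₀ j)`.  `GK` for page `i₀`: `same_word` with `c₁` and `hg`; for the other pages
as in `flux_any`.  `GC`: `same_gate`. -/
theorem flux_page (hK : D.KHyp K) (P : Finset D.Chk) (hP : P.card ≤ D.n + 2) (c₁ : ℕ → D.Chk)
    (h₁ : D.ChainIn P c₁) (i₀ : Fin 3) (hi₀ : D.OnP i₀ c₁) (e : Fin 3 → D.N → ZMod 2)
    (hcl : ∀ i c, D.closed i c → e i c = 0)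
    (hg : K i₀ (D.vw i₀ c₁) → e i₀ (D.cn (D.nm (c₁ 0).a) i₀) = 0) :
    ∃ e', (∀ i c, D.closed i c → e' i c = 0) ∧ (∀ c, e' i₀ c = e i₀ c) ∧ D.GK K P e' ∧ D.GC P e' := by
  classical
  -- chains of page `i₀` with a known word
  have hpage : ∀ c, D.ChainIn P c → D.OnP i₀ c → K i₀ (D.vw i₀ c) →
      e i₀ (D.cn (D.nm (c 0).a) i₀) = 0 := by
    intro c hc hic hkc
    rw [same_cn D hP hc h₁ hic hi₀]
    exact hg (hK.ext i₀ _ _ (fun k hk => D.same_word hP hc h₁ hic hi₀ k hk) hkc)
  -- the simple choice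
  have hsimple : (∀ c, D.ChainIn P c → D.Cen c →
      (if D.odd (D.nm (c 0).a) then (1 : ZMod 2) else 0) + e i₀ (D.cn (D.nm (c 0).a) i₀) = 0) →
      ∃ e', (∀ i c, D.closed i c → e' i c = 0) ∧ (∀ c, e' i₀ c = e i₀ c) ∧ D.GK K P e' ∧
        D.GC P e' := by
    intro hz
    refine ⟨fun i x => if i = i₀ then e i₀ x else 0, ?_, ?_, ?_, ?_⟩
    · intro i c hc
      by_cases hi : i = i₀
      · subst hi
        simpa using hcl i c hc
      · simp [hi]
    · intro c
      simp
    · intro c hc i hi hk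
      by_cases hii : i = i₀
      · subst hii
        simpa using hpage c hc hi hk
      · simp [hii]
    · intro c hc hcen
      unfold gp
      rw [sum3_one (fun i => if i = i₀ then e i₀ (D.cn (D.nm (c 0).a) i) else 0) i₀
        (fun l hl => by simp [hl])]
      simpa using hz c hc hcen
  by_cases hex : ∃ c₀, D.ChainIn P c₀ ∧ D.Cen c₀
  · obtain ⟨c₀, hc₀, hcen₀⟩ := hex
    set τ₀ := D.nm (c₀ 0).a with hτ₀
    by_cases hpar : (if D.odd τ₀ then (1 : ZMod 2) else 0) + e i₀ (D.cn τ₀ i₀) = 0
    · refine hsimple fun c hc hcen => ?_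
      rw [same_nm D hP hc hc₀ hcen hcen₀]
      exact hpar
    · have hgw := D.cen_gword hc₀ hcen₀
      have hτb : D.nm (c₀ 0).b = τ₀ := by rw [hτ₀, nm_ab]
      have hj : ∃ j, j ≠ i₀ ∧ ¬ K j (D.vw j c₀) := by
        by_contra hcon
        push Not at hcon
        have hki : K i₀ (D.vw i₀ c₀) := by
          obtain ⟨j, l, hij, hil, hjl⟩ : ∃ j l : Fin 3, i₀ ≠ j ∧ i₀ ≠ l ∧ j ≠ l := by
            revert i₀
            intro i₀ _ _ _ _ _ _
            fin_cases i₀
            · exact ⟨1, 2, by decide, by decide, by decide⟩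
            · exact ⟨0, 2, by decide, by decide, by decide⟩
            · exact ⟨0, 1, by decide, by decide, by decide⟩
          exact hK.two _ hgw i₀ j l hij hil hjl (hcon j hij.symm) (hcon l hil.symm)
        have he0 := hpage c₀ hc₀ (Cen.onP D hcen₀ i₀) hki
        rw [← hτ₀] at he0
        rw [he0, add_zero] at hpar
        have hodd : D.odd τ₀ := by
          by_contra hno
          exact hpar (by simp [hno])
        refine hK.odd _ hgw (by rw [hτb]; exact hodd) fun i => ?_
        by_cases hi : i = i₀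
        · subst hi
          exact hki
        · exact hcon i hi
      obtain ⟨j, hji, hkj⟩ := hj
      have hpar1 : (if D.odd τ₀ then (1 : ZMod 2) else 0) + e i₀ (D.cn τ₀ i₀) = 1 := by
        have : ∀ x : ZMod 2, x ≠ 0 → x = 1 := by decide
        exact this _ hpar
      refine ⟨fun i x => if i = i₀ then e i₀ x else if i = j ∧ x = D.cn τ₀ j then 1 else 0,
        ?_, ?_, ?_, ?_⟩
      · intro i c hc
        by_cases hi : i = i₀
        · subst hi
          simpa using hcl i c hc
        · by_cases hij : i = j ∧ c = D.cn τ₀ j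
          · exfalso
            obtain ⟨rfl, rfl⟩ := hij
            refine hkj (hK.closed i _ ?_)
            rw [← cn_vw]
            exact hc
          · simp [hi, hij]
      · intro c
        simp
      · intro c hc i hi hk
        by_cases hii : i = i₀
        · subst hii
          simpa using hpage c hc hi hk
        · by_cases hij : i = j
          · exfalso
            subst hij
            exact hkj (hK.ext i _ _
              (fun k hkn => D.same_word hP hc hc₀ hi (Cen.onP D hcen₀ i) k hkn) hk)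
          · simp [hii, hij]
      · intro c hc hcen
        have hnm := same_nm D hP hc hc₀ hcen hcen₀
        unfold gp
        rw [hnm, ← hτ₀]
        rw [sum3_two (fun i => if i = i₀ then e i₀ (D.cn τ₀ i)
          else if i = j ∧ D.cn τ₀ i = D.cn τ₀ j then (1 : ZMod 2) else 0) i₀ j hji
          (fun l hl hlj => by simp [hl, hlj])]
        simp only [if_true, if_neg hji, and_self]
        rw [← add_assoc, hpar1]
        decide
  · refine hsimple fun c hc hcen => ?_
    exact absurd ⟨c, hc, hcen⟩ hex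

end Crest.Agent.WL.BookData
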