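import Crest.Agent.WL.BookState

set_option autoImplicit false

namespace Crest.Agent.WL.BookData

variable (D : BookData)
variable (K : Fin 3 → (ℕ → D.S) → Prop)

/-- CHUNK R290-S4.  If `P` contains a central chain `c₁` with good fluxes `e`, then `e` is good for all of `P`
(`same_word`, `same_gate`, names). -/
theorem flux_centre (hK : D.KHyp K) (P : Finset D.Chk) (hP : P.card ≤ D.n + 2) (c₁ : ℕ → D.Chk)
    (h₁ : D.ChainIn P c₁) (hc₁ : D.Cen c₁) (e : Fin 3 → D.N → ZMod 2)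
    (hg : ∀ i, K i (D.vw i c₁) → e i (D.cn (D.nm (c₁ 0).a) i) = 0)
    (hp : D.gp e (D.nm (c₁ 0).a) = 0) : D.GK K P e ∧ D.GC P e := by
  have h0 : 0 < D.n := D.hn
  have hnab : ∀ c : ℕ → D.Chk, D.nm (c 0).a = D.nm (c 0).b := fun c =>
    D.okl_nm _ _ _ (c 0).hab
  refine ⟨?_, ?_⟩
  · intro c hc i hi hKc
    have hsw : ∀ k < D.n, D.vw i c k = D.vw i c₁ k := fun k hk =>
      D.same_word hP hc h₁ hi (Cen.onP D hc₁ i) k hk
    have hK1 : K i (D.vw i c₁) := hK.ext i _ _ hsw hKc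
    have hn : D.cn (D.nm (c 0).a) i = D.cn (D.nm (c₁ 0).a) i := by
      rw [hnab c, hnab c₁, ← D.hcn i (c 0).b, ← D.hcn i (c₁ 0).b]
      have := hsw 0 h0
      unfold vw at this
      rw [this]
    rw [hn]
    exact hg i hK1
  · intro c hc hcen
    have := D.same_gate hP hc h₁ hcen hc₁ 0 h0
    rw [hnab c, this, ← hnab c₁]
    exact hp

end Crest.Agent.WL.BookData
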