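import Crest.Agent.WL.BookS1

set_option autoImplicit false

namespace Crest.Agent.WL.BookData

variable (D : BookData)
variable (K : Fin 3 → (ℕ → D.S) → Prop)

/-- CHUNK R290-S5.  One step: from fluxes `e'` to a good state for the larger set.
`hT` is used for the `loc'` constructed here: `loc' τ = some (some (l, z))` if `gp e' τ = 1`, `none` otherwise, where `l` is
given by `third_page` and `z` by `free_col`. -/
theorem step_state (P : Finset D.Chk) (hP : P.card ≤ D.n + 2) (Q : Finset D.Chk) (hQ : Q ⊆ P)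
    (f : D.Bit → ZMod 2) (e : Fin 3 → D.N → ZMod 2) (loc : D.T → Option Col) (hG : D.Good K Q f e loc)
    (e' : Fin 3 → D.N → ZMod 2) (hcl : ∀ i c, D.closed i c → e' i c = 0) (hk : D.GK K P e') (hc : D.GC P e')
    (hT : ∀ (l : Fin 3) (z : ℕ) (loc' : D.T → Option Col), (∀ c, D.ChainIn P c → D.OnP l c → D.Cen c) →
      (∀ τ, loc' τ = if D.gp e' τ = 1 then some (some (l, z)) else none) → D.Con e' loc' →
      (∀ p ∈ Q, ∀ τ, loc' τ ≠ some p.x) → D.Trans Q (D.nst e e' loc loc')) :
    ∃ f' loc', D.Good K P f' e' loc' ∧ D.Agree Q f f' := by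
  obtain ⟨l, hl⟩ := D.third_page hP
  obtain ⟨z, hz, hfree⟩ := D.free_col hP l
  set loc' : D.T → Option Col := fun τ => if D.gp e' τ = 1 then some (some (l, z)) else none with hloc
  have hlocv : ∀ τ, loc' τ = if D.gp e' τ = 1 then some (some (l, z)) else none := fun τ => rfl
  have hsome : ∀ τ x, loc' τ = some x → x = some (l, z) := by
    intro τ x h
    rw [hlocv] at h
    split_ifs at h with h1
    exact (Option.some.inj h).symm
  have hfr : ∀ p ∈ P, ∀ τ, loc' τ ≠ some p.x := fun p hp τ h => hfree p hp (hsome τ p.x h)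
  have hcon : D.Con e' loc' := by
    refine ⟨hcl, ?_, ?_⟩
    · intro τ
      rw [hlocv]
      have h01 : ∀ a : ZMod 2, a = 1 ∨ a = 0 := by decide
      rcases h01 (D.gp e' τ) with h | h
      · simp [h]
      · simp [h]
    · intro τ x h
      rw [hsome τ x h]
      exact hz
  have htr := hT l z loc' hl hlocv hcon (fun p hp τ => hfr p (hQ hp) τ)
  obtain ⟨f', hf', hag⟩ := D.nsl_trans hG.con hcon Q htr f hG.ns
  refine ⟨f', loc', ⟨hcon, hf', hfr, hk, hc, ?_⟩, hag⟩
  intro c hcP hncen i hi τ j h
  have := hsome τ _ h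
  have hil : i = l := by
    have h2 := Option.some.inj this
    exact (Prod.mk.inj h2).1
  subst hil
  exact hncen (hl c hcP hi)

end Crest.Agent.WL.BookData
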