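import Crest.Agent.WL.BookS2
import Crest.Agent.WL.BookS3
import Crest.Agent.WL.BookS4
import Crest.Agent.WL.BookS5
import Crest.Agent.WL.BookMT3
import Crest.Agent.WL.BookMT4
import Crest.Agent.WL.BookMT5

set_option autoImplicit false

namespace Crest.Agent.WL.BookData

variable (D : BookData)
variable (K : Fin 3 → (ℕ → D.S) → Prop)

theorem s6_self (a : ZMod 2) : a + a = 0 := by revert a; decide

/-- the boundary of the edge function vanishes at the pebbles -/
theorem s6_bd {Q : Finset D.Chk} {f : D.Bit → ZMod 2} {e e' : Fin 3 → D.N → ZMod 2}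
    {loc loc' : D.T → Option Col} (hG : D.Good K Q f e loc) (hc' : D.Con e' loc')
    (hf' : ∀ p ∈ Q, ∀ τ, loc' τ ≠ some p.x) :
    ∀ p ∈ Q, bd (D.nst e e' loc loc' (D.nm p.a)) p.x = 0 := by
  intro p hp
  rw [D.nst_bd hG.con hc', if_neg (hG.free p hp _), if_neg (hf' p hp _), add_zero]

theorem s6_bey_none (i : Fin 3) (j : ℕ) : bey (none : Option Col) i j = 0 := rfl

theorem s6_bey_page (y : Option Col) (i : Fin 3) (j : ℕ) (h : ∀ j', y ≠ some (some (i, j'))) :
    bey y i j = 0 := by
  rcases y with _ | _ | ⟨i', j'⟩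
  · rfl
  · rfl
  · show (if i = i' ∧ j ≤ j' then (1 : ZMod 2) else 0) = 0
    rw [if_neg]
    rintro ⟨rfl, -⟩
    exact h j' rfl

/-- CHUNK R290-S6.  The extension step.
PROOF.  `P = insert κ Q`, `card Q ≤ n + 1`.
(1) `Q` contains no chain: `flux_any` for `P`, `step_state`, `mt_nochain` (`hbd` from `nst_bd` and `free`).
(2) `Q` contains a chain `c` (`page_or_cross`): crossing: `flux_any`, `step_state`, `mt_cross`;
    on page `i₀`, not central: `flux_page` with `c₁ = c` (`hg` from `hG.gk`), `step_state`, `mt_page` (`nst` vanishes on page `i₀`: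
    `e' = e` there, `loc` avoids page `i₀` by `hG.av`, `loc'` is on page `l ≠ i₀` because `c` is a non-central chain on `i₀`);
    central: `flux_centre` with `e' = e`, `step_state`, `mt_centre` (`gp e τ₀ = 0`, so `loc τ₀ = none` by `Con.pc`, and
    `loc' τ₀ = none`). -/
theorem ext_state (hK : D.KHyp K) (Q : Finset D.Chk) (hQ : Q.card ≤ D.n + 1) (κ : D.Chk)
    (f : D.Bit → ZMod 2) (e : Fin 3 → D.N → ZMod 2) (loc : D.T → Option Col) (hG : D.Good K Q f e loc) :
    ∃ f' e' loc', D.Good K (insert κ Q) f' e' loc' ∧ D.Agree Q f f' := by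
  classical
  have hP : (insert κ Q).card ≤ D.n + 2 := by
    have := Finset.card_insert_le κ Q
    omega
  have hsub : Q ⊆ insert κ Q := Finset.subset_insert κ Q
  by_cases hch : ∃ c, D.Chain c ∧ ∀ m ≤ D.n, c m ∈ Q
  · obtain ⟨c, hc, hcQ⟩ := hch
    have hin : D.ChainIn Q c := ⟨hc, hcQ⟩
    have hinP : D.ChainIn (insert κ Q) c := ⟨hc, fun m hm => hsub (hcQ m hm)⟩
    rcases D.page_or_cross c with ⟨i₀, hi₀⟩ | ⟨r₁, h₁, r₂, h₂, i, j, z₁, z₂, hij, hx₁, hx₂⟩
    · by_cases hcen : D.Cen c
      · -- central
        obtain ⟨hk, hgc⟩ := D.flux_centre K hK (insert κ Q) hP c hinP hcen e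
          (fun i => hG.gk c hin i (Cen.onP D hcen i)) (hG.gc c hin hcen)
        obtain ⟨f', loc', h⟩ := D.step_state K (insert κ Q) hP Q hsub f e loc hG e hG.con.cl hk hgc
          (fun l z loc' _ hloc' hcon' hfr' => by
            refine D.mt_centre Q hQ c hc hcQ _ (D.nst_adm hG.con hcon') ?_
              (D.s6_bd K hG hcon' hfr')
            intro i j
            have h0 : D.gp e (D.nm (c 0).a) = 0 := hG.gc c hin hcen
            have h1 : loc (D.nm (c 0).a) = none := by
              have h2 := hG.con.pc (D.nm (c 0).a)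
              rw [h0] at h2
              rcases h3 : loc (D.nm (c 0).a) with _ | x
              · rfl
              · rw [h3] at h2
                simp at h2
            have h4 : loc' (D.nm (c 0).a) = none := by
              rw [hloc', h0, if_neg (by decide)]
            show (e i _ + e i _) + (bey (loc _) i j + bey (loc' _) i j) = 0
            rw [h1, h4, s6_self, s6_self, add_zero])
        exact ⟨f', e, loc', h⟩
      · -- a page
        have hr : ∃ r ≤ D.n, (c r).x ≠ none := by
          by_contra hcon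
          push Not at hcon
          exact hcen hcon
        obtain ⟨r, hr, hxr⟩ := hr
        obtain ⟨z, hx⟩ : ∃ z, (c r).x = some (i₀, z) := by
          have h1 := hi₀ r hr
          rcases h2 : (c r).x with _ | ⟨i', z⟩
          · exact absurd h2 hxr
          · rw [h2] at h1
            have h3 : i' = i₀ := h1
            exact ⟨z, by rw [h3]⟩
        obtain ⟨e', hcl, he', hk, hgc⟩ := D.flux_page K hK (insert κ Q) hP c hinP i₀ hi₀ e hG.con.cl
          (hG.gk c hin i₀ hi₀)
        obtain ⟨f', loc', h⟩ := D.step_state K (insert κ Q) hP Q hsub f e loc hG e' hcl hk hgc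
          (fun l z' loc' hl hloc' hcon' hfr' => by
            refine D.mt_page Q hQ c hc hcQ r hr i₀ z hx _ (D.nst_adm hG.con hcon') ?_
              (D.s6_bd K hG hcon' hfr')
            intro τ j
            have hli : l ≠ i₀ := by
              rintro rfl
              exact hcen (hl c hinP hi₀)
            have h1 : bey (loc τ) i₀ j = 0 :=
              s6_bey_page _ _ _ (fun j' => hG.av c hin hcen i₀ hi₀ τ j')
            have h2 : bey (loc' τ) i₀ j = 0 := by
              apply s6_bey_page
              intro j' h3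
              rw [hloc'] at h3
              split_ifs at h3
              simp only [Option.some.injEq, Prod.mk.injEq] at h3
              exact hli h3.1
            show (e i₀ _ + e' i₀ _) + (bey (loc τ) i₀ j + bey (loc' τ) i₀ j) = 0
            rw [h1, h2, he', s6_self, add_zero, add_zero])
        exact ⟨f', e', loc', h⟩
    · -- crossing
      obtain ⟨e', hcl, hk, hgc⟩ := D.flux_any K hK (insert κ Q) hP
      obtain ⟨f', loc', h⟩ := D.step_state K (insert κ Q) hP Q hsub f e loc hG e' hcl hk hgc
        (fun l z loc' _ _ hcon' hfr' => D.mt_cross Q hQ c hc hcQ r₁ r₂ h₁ h₂ i j hij z₁ z₂ hx₁ hx₂ _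
          (D.nst_adm hG.con hcon') (D.s6_bd K hG hcon' hfr'))
      exact ⟨f', e', loc', h⟩
  · obtain ⟨e', hcl, hk, hgc⟩ := D.flux_any K hK (insert κ Q) hP
    obtain ⟨f', loc', h⟩ := D.step_state K (insert κ Q) hP Q hsub f e loc hG e' hcl hk hgc
      (fun l z loc' _ _ hcon' hfr' => D.mt_nochain Q hQ hch _ (D.nst_adm hG.con hcon')
        (D.s6_bd K hG hcon' hfr'))
    exact ⟨f', e', loc', h⟩

end Crest.Agent.WL.BookData
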