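import Crest.Agent.WL.BookS6

set_option autoImplicit false

namespace Crest.Agent.WL.BookData

variable (D : BookData)
variable (K : Fin 3 → (ℕ → D.S) → Prop)

/-- CHUNK R290-S7.  Start: `f = 0`, `e = 0`, `loc τ = some none` for odd names, `none` otherwise. -/
theorem init_state : ∃ f e loc, D.Good K ∅ f e loc := by
  refine ⟨fun _ => 0, fun _ _ => 0, fun τ => if D.odd τ then some none else none, ?_⟩
  have hno : ∀ c, ¬ D.ChainIn ∅ c := fun c h => absurd (h.2 0 (Nat.zero_le _)) (Finset.notMem_empty _)
  refine ⟨⟨fun _ _ _ => rfl, ?_, ?_⟩, ?_, ?_, ?_, ?_, ?_⟩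
  · intro τ
    unfold gp
    by_cases h : D.odd τ
    · simp [h]
    · simp [h]
  · intro τ x h
    have h' : (if D.odd τ then some (none : Col) else none) = some x := h
    split_ifs at h' with h1
    rw [← Option.some.inj h']
    trivial
  · intro c
    have h0 : D.dft (fun _ => 0) c = D.xs.par c := by
      unfold dft
      have : ((D.xs.inc c).map (fun _ => (0 : ZMod 2))).sum = 0 := by
        rw [List.map_const']
        simp
      rw [this, zero_add]
    rw [h0]
    show (if c.x = none ∧ c.m = 0 ∧ D.odd (D.nm c.a) then (1 : ZMod 2) else 0)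
      = if c.m = 0 ∧ (if D.odd (D.nm c.a) then some (none : Col) else none) = some c.x then 1 else 0
    by_cases h1 : D.odd (D.nm c.a)
    · simp only [h1, if_true, and_true, Option.some.injEq]
      by_cases h2 : c.m = 0
      · simp only [h2, and_true, true_and]
        by_cases h3 : c.x = none
        · simp [h3]
        · rw [if_neg h3, if_neg (fun h => h3 h.symm)]
      · simp [h2]
    · simp [h1]
  · intro p hp
    exact absurd hp (Finset.notMem_empty _)
  · intro c hc i _ _
    rfl
  · intro c hc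
    exact absurd hc (hno c)
  · intro c hc
    exact absurd hc (hno c)

theorem Good.mono {P Q : Finset D.Chk} {f : D.Bit → ZMod 2} {e : Fin 3 → D.N → ZMod 2}
    {loc : D.T → Option Col} (h : D.Good K P f e loc) (hQ : Q ⊆ P) : D.Good K Q f e loc := by
  have hch : ∀ c, D.ChainIn Q c → D.ChainIn P c := fun c hc => ⟨hc.1, fun m hm => hQ (hc.2 m hm)⟩
  exact ⟨h.con, h.ns, fun p hp => h.free p (hQ hp), fun c hc => h.gk c (hch c hc),
    fun c hc => h.gc c (hch c hc), fun c hc => h.av c (hch c hc)⟩

/-- (part of S7)  MAIN THEOREM, Duplicator. -/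
theorem core_dup (hK : D.KHyp K) : Nonempty (CFam D.xs (D.n + 2)) := by
  refine ⟨{ F := fun P g => ∃ e loc, D.Good K P g e loc
            restr := ?_, sat := ?_, ext := ?_, ne := ?_ }⟩
  · rintro P Q g ⟨e, loc, h⟩ hQ
    exact ⟨e, loc, Good.mono D K h hQ⟩
  · rintro P g ⟨e, loc, h⟩ c hc
    have h2 := h.free c hc (D.nm c.a)
    have h1 : D.dft g c = if c.m = 0 ∧ loc (D.nm c.a) = some c.x then 1 else 0 := h.ns c
    rw [if_neg (fun h3 => h2 h3.2)] at h1
    unfold dft at h1
    unfold XSys.Sat
    have key : ∀ a b : ZMod 2, a + b = 0 → a = b := by decide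
    exact key _ _ h1
  · rintro P g ⟨e, loc, h⟩ hP c
    obtain ⟨f', e', loc', hG, hag⟩ := D.ext_state K hK P (by omega) c g e loc h
    exact ⟨f', hag, e', loc', hG⟩
  · obtain ⟨f, e, loc, h⟩ := D.init_state K
    exact ⟨f, e, loc, h⟩

end Crest.Agent.WL.BookData
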