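import Crest.Agent.WL.Book

/-!
# Row 290: Spoiler in the book, for an arbitrary parity function `b`
-/

set_option autoImplicit false

namespace Crest.Agent.WL

variable {B C : Type} [DecidableEq B] [DecidableEq C]

/-- CHUNK R290-P1.  SWEEP: replace the pebbled objects `o 0, ..., o n` one after the other by `o' 0, ..., o' n`; the bits
`h m` shown by both `o m` and `o' m` keep their values.
PROOF.  Induction on `r ≤ n + 1` with the set `{o' m : m < r} ∪ {o m : r ≤ m ≤ n}` (at most `n + 1` objects):
extend by `o' r` (`ext`, `card < n + 2`), then `restr` to the next set; all bits `h m`, `m ≤ n`, are covered all the time. -/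
theorem DFam.sweep {X : XSys B C} {n : ℕ} (F : DFam X (n + 2)) (o o' : ℕ → B ⊕ C) (h : ℕ → B)
    (ho : ∀ m ≤ n, X.Cov {o m} (h m)) (ho' : ∀ m ≤ n, X.Cov {o' m} (h m)) (g : B → ZMod 2)
    (hF : F.F ((Finset.range (n + 1)).image o) g) :
    ∃ g', F.F ((Finset.range (n + 1)).image o') g' ∧ ∀ m ≤ n, g' (h m) = g (h m) := by
  have key : ∀ r ≤ n + 1, ∃ g', F.F ((Finset.range (n + 1)).image
      (fun m => if m < r then o' m else o m)) g' ∧ ∀ m ≤ n, g' (h m) = g (h m) := by
    intro r
    induction r with
    | zero => intro _; exact ⟨g, by simpa using hF, fun m _ => rfl⟩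
    | succ r ih =>
      intro hr
      obtain ⟨g', hg', hh'⟩ := ih (by omega)
      have hc : ((Finset.range (n + 1)).image (fun m => if m < r then o' m else o m)).card
          < n + 2 := by
        refine lt_of_le_of_lt Finset.card_image_le ?_
        simp
      obtain ⟨g'', hag, hg''⟩ := F.ext _ _ hg' hc (o' r)
      refine ⟨g'', F.restr _ _ _ hg'' ?_, fun m hm => ?_⟩
      · intro x hx
        rw [Finset.mem_image] at hx
        obtain ⟨m, hm, rfl⟩ := hx
        rw [Finset.mem_insert]
        rcases lt_trichotomy m r with hlt | heq | hgt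
        · right
          rw [Finset.mem_image]
          refine ⟨m, hm, ?_⟩
          rw [if_pos hlt, if_pos (by omega)]
        · left
          subst heq
          rw [if_pos (by omega)]
        · right
          rw [Finset.mem_image]
          refine ⟨m, hm, ?_⟩
          rw [if_neg (by omega), if_neg (by omega)]
      · rw [hag (h m) ?_, hh' m hm]
        have hmem : (fun m => if m < r then o' m else o m) m ∈
            (Finset.range (n + 1)).image (fun m => if m < r then o' m else o m) :=
          Finset.mem_image_of_mem _ (by simp; omega)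
        have hcov : X.Cov {(fun m => if m < r then o' m else o m) m} (h m) := by
          by_cases hlt : m < r
          · simpa [hlt] using ho' m hm
          · simpa [hlt] using ho m hm
        rcases hcov with h1 | ⟨c, h1, h2⟩
        · left
          rw [Finset.mem_singleton] at h1
          rw [h1]; exact hmem
        · right
          rw [Finset.mem_singleton] at h1
          exact ⟨c, by rw [h1]; exact hmem, h2⟩
  obtain ⟨g', hg', hh'⟩ := key (n + 1) le_rfl
  refine ⟨g', ?_, hh'⟩
  have himg : (Finset.range (n + 1)).image (fun m => if m < n + 1 then o' m else o m) =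
      (Finset.range (n + 1)).image o' := by
    refine Finset.image_congr ?_
    intro m hm
    rw [Finset.coe_range, Set.mem_Iio] at hm
    simp only [if_pos hm]
  rwa [himg] at hg'

/-- (part of P1)  Any `n + 2` objects can be pebbled. -/
theorem DFam.start {X : XSys B C} {n : ℕ} (F : DFam X (n + 2)) (o : ℕ → B ⊕ C) :
    ∃ g, F.F ((Finset.range (n + 1)).image o) g := by
  have key : ∀ k ≤ n + 1, ∃ g, F.F ((Finset.range k).image o) g := by
    intro k
    induction k with
    | zero => intro _; simpa using F.ne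
    | succ k ih =>
      intro hk
      obtain ⟨g, hg⟩ := ih (by omega)
      obtain ⟨g', -, hg'⟩ := F.ext _ _ hg
        (lt_of_le_of_lt Finset.card_image_le (by simp; omega)) (o k)
      refine ⟨g', ?_⟩
      rwa [Finset.range_add_one, Finset.image_insert]
  exact key (n + 1) le_rfl

namespace BookData

variable (D : BookData)

/-- The book with parities `b`. -/
def xsP (b : D.Chk → ZMod 2) : XSys D.Bit D.Chk := ⟨D.xs.inc, b⟩

/-- The checks of the word `σ` in column `x` (row `0` for `m > n`). -/
def wc (σ : ℕ → D.Γ) (hσ : D.GWord σ) (x : Col) (hx : D.ColOk x) (m : ℕ) : D.Chk :=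
  if h : m ≤ D.n then ⟨x, m, σ (m - 1), σ (min m (D.n - 1)), hx, h, hσ m h⟩
  else ⟨x, 0, σ (0 - 1), σ (min 0 (D.n - 1)), hx, Nat.zero_le _, hσ 0 (Nat.zero_le _)⟩

/-- The wall of `σ` in column `x`. -/
def wall (σ : ℕ → D.Γ) (hσ : D.GWord σ) (x : Col) (hx : D.ColOk x) : Finset (D.Bit ⊕ D.Chk) :=
  (Finset.range (D.n + 1)).image (fun m => Sum.inr (D.wc σ hσ x hx m))

/-- Flux across the inner edge `(i, j)` along `σ`. -/
def ef (g : D.Bit → ZMod 2) (σ : ℕ → D.Γ) (i : Fin 3) (j : ℕ) : ZMod 2 :=
  ∑ m ∈ Finset.range (D.n + 1), g (Bit.hb i j m (σ (m - 1)) (σ (min m (D.n - 1))))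

/-- Flux across the outer edge of page `i` along the variable word `s`. -/
def oflux (g : D.Bit → ZMod 2) (i : Fin 3) (s : ℕ → D.S) : ZMod 2 :=
  if D.closed i (D.vn (s 0)) then 0
  else ∑ m ∈ Finset.range (D.n + 1), g (Bit.ob i m (s (m - 1)) (s (min m (D.n - 1))))

/-- Parity of the wall of `σ` in column `x`. -/
def wp (b : D.Chk → ZMod 2) (σ : ℕ → D.Γ) (hσ : D.GWord σ) (x : Col) (hx : D.ColOk x) : ZMod 2 :=
  ∑ m ∈ Finset.range (D.n + 1), b (D.wc σ hσ x hx m)

/-- Parity of page `i` of the sheet `σ`. -/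
def pp (b : D.Chk → ZMod 2) (σ : ℕ → D.Γ) (hσ : D.GWord σ) (i : Fin 3) : ZMod 2 :=
  ∑ j ∈ (Finset.range D.L).attach, D.wp b σ hσ (some (i, j.1)) (Finset.mem_range.1 j.2)

/-- Parity of the whole sheet `σ`. -/
def sp (b : D.Chk → ZMod 2) (σ : ℕ → D.Γ) (hσ : D.GWord σ) : ZMod 2 :=
  D.wp b σ hσ none trivial + (D.pp b σ hσ 0 + D.pp b σ hσ 1 + D.pp b σ hσ 2)

/-- Known variable words with values, for the parities `b` (all gates may be used). -/
inductive KnownV (b : D.Chk → ZMod 2) : Fin 3 → (ℕ → D.S) → ZMod 2 → Prop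
  | closed (i : Fin 3) (s : ℕ → D.S) (h : D.closed i (D.vn (s 0))) : KnownV b i s 0
  | step (σ : ℕ → D.Γ) (hσ : D.GWord σ) (i j l : Fin 3)
      (hij : i ≠ j) (hil : i ≠ l) (hjl : j ≠ l) (v w : ZMod 2)
      (hj : KnownV b j (fun k => D.pr j (σ k)) v) (hl : KnownV b l (fun k => D.pr l (σ k)) w)
      (s : ℕ → D.S) (hs : ∀ k < D.n, s k = D.pr i (σ k)) : KnownV b i s (v + w + D.sp b σ hσ)

end BookData

end Crest.Agent.WL
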