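import Crest.Agent.WL.BookWall

/-!
# Row 290: the states of Duplicator in the book game
-/

set_option autoImplicit false

namespace Crest.Agent.WL.BookData

variable (D : BookData)

/-- parity of a gate name with the fluxes `e` -/
def gp (e : Fin 3 → D.N → ZMod 2) (τ : D.T) : ZMod 2 :=
  (if D.odd τ then 1 else 0) + (e 0 (D.cn τ 0) + e 1 (D.cn τ 1) + e 2 (D.cn τ 2))

/-- flow across the edge `(i, j)` caused by a violation in column `x` -/
def bey : Option Col → Fin 3 → ℕ → ZMod 2
  | some (some (i', j')), i, j => if i = i' ∧ j ≤ j' then 1 else 0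
  | _, _, _ => 0

/-- the edge function of a change of state -/
def nst (e e' : Fin 3 → D.N → ZMod 2) (loc loc' : D.T → Option Col) (τ : D.T) (i : Fin 3) (j : ℕ) : ZMod 2 :=
  (e i (D.cn τ i) + e' i (D.cn τ i)) + (bey (loc τ) i j + bey (loc' τ) i j)

/-- near-solutions: one violation (all labels of the name, row `0`, column `loc`) -/
def NSl (f : D.Bit → ZMod 2) (loc : D.T → Option Col) : Prop :=
  D.NSv f (fun τ x m => if m = 0 ∧ loc τ = some x then 1 else 0)

/-- consistency of `(e, loc)` -/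
structure Con (e : Fin 3 → D.N → ZMod 2) (loc : D.T → Option Col) : Prop where
  cl : ∀ i c, D.closed i c → e i c = 0
  pc : ∀ τ, D.gp e τ = if (loc τ).isSome then 1 else 0
  lo : ∀ τ x, loc τ = some x → D.ColOk x

variable (K : Fin 3 → (ℕ → D.S) → Prop)

/-- hypotheses on the set `K` of known words -/
structure KHyp : Prop where
  ext : D.Ext K
  closed : ∀ i s, D.closed i (D.vn (s 0)) → K i s
  two : ∀ σ, D.GWord σ → ∀ i j l : Fin 3, i ≠ j → i ≠ l → j ≠ l → K j (fun k => D.pr j (σ k)) →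
    K l (fun k => D.pr l (σ k)) → K i (fun k => D.pr i (σ k))
  odd : ∀ σ, D.GWord σ → D.odd (D.nm (σ 0)) → ¬ ∀ i, K i (fun k => D.pr i (σ k))

/-- conditions (E2) on `e`: a chain on page `i` with a known word has flux `0`. -/
def GK (P : Finset D.Chk) (e : Fin 3 → D.N → ZMod 2) : Prop :=
  ∀ c, D.ChainIn P c → ∀ i, D.OnP i c → K i (D.vw i c) → e i (D.cn (D.nm (c 0).a) i) = 0

/-- (E3): central chains have parity `0`. -/
def GC (P : Finset D.Chk) (e : Fin 3 → D.N → ZMod 2) : Prop :=
  ∀ c, D.ChainIn P c → D.Cen c → D.gp e (D.nm (c 0).a) = 0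

/-- The state of Duplicator is good for the pebbles `P`. -/
structure Good (P : Finset D.Chk) (f : D.Bit → ZMod 2) (e : Fin 3 → D.N → ZMod 2) (loc : D.T → Option Col) :
    Prop where
  con : D.Con e loc
  ns : D.NSl f loc
  free : ∀ p ∈ P, ∀ τ, loc τ ≠ some p.x
  gk : D.GK K P e
  gc : D.GC P e
  av : ∀ c, D.ChainIn P c → ¬ D.Cen c → ∀ i, D.OnP i c → ∀ τ j, loc τ ≠ some (some (i, j))

end Crest.Agent.WL.BookData
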