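import Crest.Agent.WL.BookMT

/-!
# Row 290: chains inside a set of at most `n + 2` pebbles
-/

set_option autoImplicit false

namespace Crest.Agent.WL.BookData

variable (D : BookData)

/-- `c` is a chain inside `P`. -/
def ChainIn (P : Finset D.Chk) (c : ℕ → D.Chk) : Prop := D.Chain c ∧ ∀ m ≤ D.n, c m ∈ P

/-- All columns of `c` lie on page `i` or in the centre. -/
def OnP (i : Fin 3) (c : ℕ → D.Chk) : Prop := ∀ m ≤ D.n, OnPage i (c m).x

/-- All columns of `c` are the centre. -/
def Cen (c : ℕ → D.Chk) : Prop := ∀ m ≤ D.n, (c m).x = none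

/-- The variable word of a chain on page `i`. -/
def vw (i : Fin 3) (c : ℕ → D.Chk) : ℕ → D.S := fun k => D.pr i (c k).b

/-- CHUNK R290-W1 (1). -/
theorem Cen.onP {c : ℕ → D.Chk} (h : D.Cen c) (i : Fin 3) : D.OnP i c := by
  intro m hm
  rw [h m hm]
  trivial

/-- (2)  PROOF.  Definition of `Linked`; in its second case the column is `some (i', L-1)` (a valid column incident with
the edge `(i', L)`), and `i' = i` by `OnP`. -/
theorem link_pr {P : Finset D.Chk} {c : ℕ → D.Chk} (h : D.ChainIn P c) {i : Fin 3} (hi : D.OnP i c) (k : ℕ)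
    (hk : k < D.n) : D.pr i (c k).b = D.pr i (c (k + 1)).a := by
  rcases h.1.link k hk with h1 | ⟨i', h1, -, h3⟩
  · rw [h1.1]
  · have hx := hi k hk.le
    have hii : i' = i := by
      rcases hcx : (c k).x with _ | ⟨i'', j'⟩
      · rw [hcx] at h1
        have h2 : D.L = 0 := h1
        have := D.hL
        omega
      · rw [hcx] at h1 hx
        exact h1.1.trans hx
    subst hii
    exact h3

/-- (3)  names along a chain on page `i`: the variable name of page `i` is constant. -/
theorem chain_cn {P : Finset D.Chk} {c : ℕ → D.Chk} (h : D.ChainIn P c) {i : Fin 3} (hi : D.OnP i c) (k : ℕ)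
    (hk : k ≤ D.n) : D.cn (D.nm (c k).a) i = D.cn (D.nm (c 0).a) i := by
  induction k with
  | zero => rfl
  | succ k ih =>
    rw [← ih (by omega), ← D.hcn, ← D.link_pr h hi k (by omega), D.hcn,
      ← D.okl_nm _ _ _ (c k).hab]

/-- (4)  gate words of central chains. -/
theorem cen_gword {P : Finset D.Chk} {c : ℕ → D.Chk} (h : D.ChainIn P c) (hc : D.Cen c) :
    D.GWord (fun k => (c k).b) := by
  have hn := D.hn
  have hb : ∀ k < D.n, (c k).b = (c (k + 1)).a := by
    intro k hk
    rcases h.1.link k hk with h1 | ⟨i, h1, -, -⟩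
    · exact h1.1
    · exfalso
      rw [hc k hk.le] at h1
      have h2 : D.L = 0 := h1
      have := D.hL
      omega
  intro m hm
  have hab := (c m).hab
  rw [h.1.row m hm] at hab
  show D.okl m (c (m - 1)).b (c (min m (D.n - 1))).b
  rcases Nat.eq_zero_or_pos m with h0 | h0
  · subst h0
    have e := D.okl_first _ _ hab
    rw [e] at hab
    simpa using hab
  · have e1 : (c (m - 1)).b = (c m).a := by
      have := hb (m - 1) (by omega)
      rwa [show m - 1 + 1 = m by omega] at this
    rcases lt_or_eq_of_le hm with h1 | h1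
    · rw [e1, show min m (D.n - 1) = m by omega]
      exact hab
    · subst h1
      have e := D.okl_last _ _ hab
      rw [show min D.n (D.n - 1) = D.n - 1 by omega, e1]
      rw [← e] at hab
      exact hab

/-- CHUNK R290-W2 (1).  Two chains in `P`, `card P ≤ n + 2`, differ in at most one row.
PROOF.  Every row contains a pebble, so at most one row contains two. -/
theorem differ_one {P : Finset D.Chk} (hP : P.card ≤ D.n + 2) {c c' : ℕ → D.Chk} (h : D.ChainIn P c)
    (h' : D.ChainIn P c') (r r' : ℕ) (hr : r ≤ D.n) (hr' : r' ≤ D.n) (h1 : c r ≠ c' r) (h2 : c r' ≠ c' r') :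
    r = r' := by
  classical
  by_contra hne
  set I := (Finset.range (D.n + 1)).image c with hI
  have hrow : ∀ m ≤ D.n, (c m).m = m := h.1.row
  have hrow' : ∀ m ≤ D.n, (c' m).m = m := h'.1.row
  have hIcard : I.card = D.n + 1 := by
    rw [hI, Finset.card_image_of_injOn, Finset.card_range]
    intro a ha b hb hab
    have ha' : a ≤ D.n := by
      have := Finset.mem_range.mp (Finset.mem_coe.mp ha); omega
    have hb' : b ≤ D.n := by
      have := Finset.mem_range.mp (Finset.mem_coe.mp hb); omega
    have hab' : c a = c b := hab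
    rw [← hrow a ha', ← hrow b hb', hab']
  have hnot : ∀ s ≤ D.n, c s ≠ c' s → c' s ∉ I := by
    intro s hs hcs hmem
    rw [hI, Finset.mem_image] at hmem
    obtain ⟨m, hm, hcm⟩ := hmem
    have hm' : m ≤ D.n := by
      have := Finset.mem_range.mp hm; omega
    have : m = s := by
      rw [← hrow m hm', hcm, hrow' s hs]
    subst this
    exact hcs hcm
  have h3 : c' r' ∉ I := hnot r' hr' h2
  have h4 : c' r ∉ insert (c' r') I := by
    rw [Finset.mem_insert]
    rintro (h5 | h5)
    · apply hne
      rw [← hrow' r hr, h5, hrow' r' hr']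
    · exact hnot r hr h1 h5
  have hsub : insert (c' r) (insert (c' r') I) ⊆ P := by
    intro y hy
    rw [Finset.mem_insert, Finset.mem_insert] at hy
    rcases hy with rfl | rfl | hy
    · exact h'.2 r hr
    · exact h'.2 r' hr'
    · rw [hI, Finset.mem_image] at hy
      obtain ⟨m, hm, rfl⟩ := hy
      have hm' : m ≤ D.n := by
        have := Finset.mem_range.mp hm; omega
      exact h.2 m hm'
  have hcard := Finset.card_le_card hsub
  rw [Finset.card_insert_of_notMem h4, Finset.card_insert_of_notMem h3, hIcard] at hcard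
  omega

/-- (2)  same variable word on the same page.
PROOF.  For `k < n`: if `c k = c' k` clear; otherwise `c (k+1) = c' (k+1)` by `differ_one` and use `link_pr` twice. -/
theorem same_word {P : Finset D.Chk} (hP : P.card ≤ D.n + 2) {c c' : ℕ → D.Chk} (h : D.ChainIn P c)
    (h' : D.ChainIn P c') {i : Fin 3} (hi : D.OnP i c) (hi' : D.OnP i c') (k : ℕ) (hk : k < D.n) :
    D.vw i c k = D.vw i c' k := by
  by_cases hck : c k = c' k
  · unfold vw
    rw [hck]
  · have hck1 : c (k + 1) = c' (k + 1) := by
      by_contra hne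
      have := D.differ_one hP h h' k (k + 1) (by omega) (by omega) hck hne
      omega
    unfold vw
    rw [D.link_pr h hi k hk, D.link_pr h' hi' k hk, hck1]

/-- (3)  two central chains have the same gate letters. -/
theorem same_gate {P : Finset D.Chk} (hP : P.card ≤ D.n + 2) {c c' : ℕ → D.Chk} (h : D.ChainIn P c)
    (h' : D.ChainIn P c') (hc : D.Cen c) (hc' : D.Cen c') (k : ℕ) (hk : k < D.n) : (c k).b = (c' k).b := by
  by_cases hck : c k = c' k
  · rw [hck]
  · have hck1 : c (k + 1) = c' (k + 1) := by
      by_contra hne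
      have := D.differ_one hP h h' k (k + 1) (by omega) (by omega) hck hne
      omega
    have hb : ∀ d : ℕ → D.Chk, D.ChainIn P d → D.Cen d → (d k).b = (d (k + 1)).a := by
      intro d hd hdc
      rcases hd.1.link k hk with h1 | ⟨i, h1, -, -⟩
      · exact h1.1
      · exfalso
        rw [hdc k hk.le] at h1
        have h2 : D.L = 0 := h1
        have := D.hL
        omega
    rw [hb c h hc, hb c' h' hc', hck1]

/-- CHUNK R290-W3.  Some page carries no non-central chain.
PROOF.  Otherwise take for every page `i` a chain `c i` on page `i` with a non-central check in row `r i`; on page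
`i' ≠ i` the chain `c i'` differs from `c i` in row `r i`, so by `differ_one` all `r i` are equal to one `r`; the three checks
`c i r` are distinct and in the same row, so `card P ≥ n + 3`. -/
theorem third_page {P : Finset D.Chk} (hP : P.card ≤ D.n + 2) :
    ∃ l : Fin 3, ∀ c, D.ChainIn P c → D.OnP l c → D.Cen c := by
  classical
  by_contra hcon
  push Not at hcon
  have hch : ∀ l : Fin 3, ∃ (c : ℕ → D.Chk) (r : ℕ) (z : ℕ), D.ChainIn P c ∧ D.OnP l c ∧ r ≤ D.n ∧
      (c r).x = some (l, z) := by
    intro l
    obtain ⟨c, hc, hl, hcen⟩ := hcon l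
    have : ∃ r ≤ D.n, (c r).x ≠ none := by
      by_contra h
      push Not at h
      exact hcen h
    obtain ⟨r, hr, hx⟩ := this
    have hp := hl r hr
    rcases hxr : (c r).x with _ | ⟨i, z⟩
    · exact absurd hxr hx
    · rw [hxr] at hp
      have hi : i = l := hp
      subst hi
      exact ⟨c, r, z, hc, hl, hr, hxr⟩
  choose c r z hc hl hr hx using hch
  have hdiff : ∀ i j : Fin 3, i ≠ j → c i (r i) ≠ c j (r i) := by
    intro i j hij he
    have h1 := hl j (r i) (hr i)
    rw [← he, hx i] at h1
    exact hij h1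
  have hrr : ∀ i j : Fin 3, i ≠ j → r i = r j := by
    intro i j hij
    exact D.differ_one hP (hc i) (hc j) (r i) (r j) (hr i) (hr j) (hdiff i j hij)
      (fun h => hdiff j i (Ne.symm hij) h.symm)
  set I := (Finset.range (D.n + 1)).image (c 0) with hI
  have hrow : ∀ i, ∀ m ≤ D.n, (c i m).m = m := fun i => (hc i).1.row
  have hIcard : I.card = D.n + 1 := by
    rw [hI, Finset.card_image_of_injOn, Finset.card_range]
    intro a ha b hb hab
    have ha' : a ≤ D.n := by
      have := Finset.mem_range.mp (Finset.mem_coe.mp ha); omega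
    have hb' : b ≤ D.n := by
      have := Finset.mem_range.mp (Finset.mem_coe.mp hb); omega
    have hab' : c 0 a = c 0 b := hab
    rw [← hrow 0 a ha', ← hrow 0 b hb', hab']
  have hnot : ∀ i : Fin 3, i ≠ 0 → c i (r i) ∉ I := by
    intro i hi hmem
    rw [hI, Finset.mem_image] at hmem
    obtain ⟨m, hm, hcm⟩ := hmem
    have hm' : m ≤ D.n := by
      have := Finset.mem_range.mp hm; omega
    have hmr : m = r i := by
      rw [← hrow 0 m hm', hcm, hrow i (r i) (hr i)]
    rw [hmr] at hcm
    exact hdiff i 0 hi hcm.symm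
  have h12 : c 1 (r 1) ≠ c 2 (r 2) := by
    rw [← hrr 1 2 (by decide)]
    exact hdiff 1 2 (by decide)
  have h3 : c 2 (r 2) ∉ I := hnot 2 (by decide)
  have h4 : c 1 (r 1) ∉ insert (c 2 (r 2)) I := by
    rw [Finset.mem_insert]
    rintro (h5 | h5)
    · exact h12 h5
    · exact hnot 1 (by decide) h5
  have hsub : insert (c 1 (r 1)) (insert (c 2 (r 2)) I) ⊆ P := by
    intro y hy
    rw [Finset.mem_insert, Finset.mem_insert] at hy
    rcases hy with rfl | rfl | hy
    · exact (hc 1).2 _ (hr 1)
    · exact (hc 2).2 _ (hr 2)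
    · rw [hI, Finset.mem_image] at hy
      obtain ⟨m, hm, rfl⟩ := hy
      have hm' : m ≤ D.n := by
        have := Finset.mem_range.mp hm; omega
      exact (hc 0).2 m hm'
  have hcard := Finset.card_le_card hsub
  rw [Finset.card_insert_of_notMem h4, Finset.card_insert_of_notMem h3, hIcard] at hcard
  omega

/-- (part of W3)  A free column on page `l`. -/
theorem free_col {P : Finset D.Chk} (hP : P.card ≤ D.n + 2) (l : Fin 3) :
    ∃ z < D.L, ∀ p ∈ P, p.x ≠ some (l, z) := by
  classical
  by_contra hcon
  push Not at hcon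
  have hsub : Finset.range D.L ⊆ P.image (fun p => match p.x with | none => 0 | some (_, z) => z) := by
    intro z hz
    obtain ⟨p, hp, hpx⟩ := hcon z (Finset.mem_range.mp hz)
    rw [Finset.mem_image]
    exact ⟨p, hp, by rw [hpx]⟩
  have h1 := Finset.card_le_card hsub
  rw [Finset.card_range] at h1
  have h2 : (P.image (fun p : D.Chk => match p.x with | none => 0 | some (_, z) => z)).card ≤ P.card :=
    Finset.card_image_le
  have := D.hL
  omega

/-- (part of W3)  A chain is on one page or has checks on two different pages. -/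
theorem page_or_cross (c : ℕ → D.Chk) : (∃ i, D.OnP i c) ∨
    ∃ r₁ ≤ D.n, ∃ r₂ ≤ D.n, ∃ (i j : Fin 3) (z₁ z₂ : ℕ), i ≠ j ∧ (c r₁).x = some (i, z₁) ∧ (c r₂).x = some (j, z₂) := by
  by_cases hall : ∀ m ≤ D.n, (c m).x = none
  · left
    refine ⟨0, fun m hm => ?_⟩
    rw [hall m hm]
    trivial
  · push Not at hall
    obtain ⟨m, hm, hmx⟩ := hall
    rcases hx : (c m).x with _ | ⟨i, z⟩
    · exact absurd hx hmx
    · by_cases hi : D.OnP i c
      · exact Or.inl ⟨i, hi⟩
      · right
        unfold OnP at hi
        push Not at hi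
        obtain ⟨m', hm', hmx'⟩ := hi
        rcases hx' : (c m').x with _ | ⟨i', z'⟩
        · rw [hx'] at hmx'
          exact absurd trivial hmx'
        · rw [hx'] at hmx'
          exact ⟨m, hm, m', hm', i, i', z, z', fun h => hmx' h.symm, hx, hx'⟩

end Crest.Agent.WL.BookData
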