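import Crest.Agent.WL.Transfer

/-!
# CHUNK WL-A2: pebble families give equal histograms

(1) `hist_of_color_j` : the colour of ONE tuple at round `s + k` determines the histogram of all tuples at
round `s`: the round-`(s+k)` colour of `v` gives the multiset over `z₁` of the round-`(s+k-1)` colours of
`v[1 := z₁]`, each of which gives the multiset over `z₂` of the round-`(s+k-2)` colours of
`v[1 := z₁, 2 := z₂]`, ... ; after `k` steps all coordinates are replaced.  (Suggestion: prove for `j ≤ k` that
the colour at round `s + j` determines the multiset over all `w : Fin k → V` of the colours at round `s` of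
the tuple equal to `w` on the last `j` coordinates and to `v` elsewhere, with multiplicity `(card V)^(k-j)`;
or use an induction over a `Finset` of coordinates and `Multiset.bind`.)

(2) `fam_joint` : for a pebble family with `t = k + 1` pebbles put
`S v v' := ∃ z z', R (Fin.snoc v z) (Fin.snoc v' z')`.  Then `S v v'` implies equality of all colours:
replace the last pebble by `z` through the bijection `f`: `R (v,z) (v',f z)`; replace coordinate `i` by a second
pebble on `z`: the bijection `g` of that step satisfies `g z = f z` because the last coordinate (equal to `z`) is
kept and `atT` remembers equality; hence `S (update v i z) (update v' i (f z))`.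

(3) `fam_sep` : with `t = k` pebbles directly.
-/

set_option autoImplicit false
set_option linter.unusedSectionVars false

namespace Crest.Agent.WL

open Crest.WLRefine Crest.WLRefine.ParityLift Finset

variable {V W : Type} [Fintype V] [DecidableEq V] [Fintype W] [DecidableEq W]

/-- iterated sum over the coordinates of a list -/
def family_it {N : Type} [AddCommMonoid N] {k : ℕ} (F : (Fin k → V) → N) :
    List (Fin k) → (Fin k → V) → N
  | [], v => F v
  | i :: l, v => ∑ z : V, family_it F l (Function.update v i z)

theorem family_it_eq {N : Type} [AddCommMonoid N] {k : ℕ} (F : (Fin k → V) → N) (l : List (Fin k))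
    (hl : l.Nodup) (v : Fin k → V) :
    family_it F l v = ∑ w ∈ univ.filter (fun w : Fin k → V => ∀ i, i ∉ l → w i = v i), F w := by
  induction l generalizing v with
  | nil =>
    have : univ.filter (fun w : Fin k → V => ∀ i, i ∉ ([] : List (Fin k)) → w i = v i) = {v} := by
      ext w
      simp only [mem_filter, mem_univ, true_and, mem_singleton, List.not_mem_nil,
        not_false_eq_true, forall_true_left]
      exact ⟨fun h => funext h, fun h i => by rw [h]⟩
    rw [this, sum_singleton]
    rfl
  | cons i l ih =>
    rw [List.nodup_cons] at hl
    rw [family_it, ← sum_fiberwise (univ.filter _) (fun w : Fin k → V => w i)]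
    refine sum_congr rfl fun z _ => ?_
    rw [ih hl.2]
    refine sum_congr ?_ fun _ _ => rfl
    ext w
    simp only [mem_filter, mem_univ, true_and, List.mem_cons, not_or]
    constructor
    · intro h
      refine ⟨fun j hj => ?_, ?_⟩
      · rw [h j hj.2, Function.update_of_ne hj.1]
      · rw [h i hl.1, Function.update_self]
    · rintro ⟨h1, h2⟩ j hj
      rcases eq_or_ne j i with rfl | hne
      · rw [h2, Function.update_self]
      · rw [Function.update_of_ne hne]
        exact h1 j ⟨hne, hj⟩

theorem family_it_finRange {C : Type} {k : ℕ} (f : (Fin k → V) → C) (v : Fin k → V) :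
    family_it (fun w => ({f w} : Multiset C)) (List.finRange k) v =
      (univ : Finset (Fin k → V)).val.map f := by
  rw [family_it_eq _ _ (List.nodup_finRange k)]
  have : univ.filter (fun w : Fin k → V => ∀ i, i ∉ List.finRange k → w i = v i) = univ := by
    ext w
    simp
  rw [this]
  show ((univ : Finset (Fin k → V)).val.map fun w => ({f w} : Multiset C)).sum = _
  rw [← Multiset.sum_map_singleton ((univ : Finset (Fin k → V)).val.map f), Multiset.map_map]
  rfl

theorem family_sum_eq {C N : Type} [AddCommMonoid N] (f : V → C) (g : W → C)
    (h : (univ : Finset V).val.map f = (univ : Finset W).val.map g) (a : V → N) (b : W → N)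
    (hab : ∀ x y, f x = g y → a x = b y) : ∑ x, a x = ∑ y, b y := by
  have h1 : Multiset.Rel (fun x y => f x = g y) (univ : Finset V).val (univ : Finset W).val := by
    rw [← Multiset.rel_eq, Multiset.rel_map] at h
    exact h
  have h2 : Multiset.Rel (fun x y => a x = b y) (univ : Finset V).val (univ : Finset W).val :=
    h1.mono fun x _ y _ hxy => hab x y hxy
  have h3 : (univ : Finset V).val.map a = (univ : Finset W).val.map b := by
    rw [← Multiset.rel_eq, Multiset.rel_map]
    exact h2
  show ((univ : Finset V).val.map a).sum = ((univ : Finset W).val.map b).sum
  rw [h3]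

theorem family_map_equiv {C : Type} (f : V ≃ W) (a : V → C) (b : W → C) (h : ∀ z, a z = b (f z)) :
    (univ : Finset V).val.map a = (univ : Finset W).val.map b := by
  have h1 : a = b ∘ f := funext h
  rw [h1, ← Multiset.map_map, Multiset.map_univ_val_equiv]

theorem hist_of_color_j (G : V → V → Bool) (H : W → W → Bool) (k s : ℕ) (v : Fin k → V) (v' : Fin k → W)
    (h : jc G k (s + k) v = jc H k (s + k) v') (hk : 0 < k) : jhist G k s = jhist H k s := by
  have key : ∀ (l : List (Fin k)) (v : Fin k → V) (v' : Fin k → W),
      jc G k (s + l.length) v = jc H k (s + l.length) v' →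
        family_it (fun w => ({jc G k s w} : Multiset (JColor k s))) l v =
          family_it (fun w => ({jc H k s w} : Multiset (JColor k s))) l v' := by
    intro l
    induction l with
    | nil =>
      intro v v' h
      show ({jc G k s v} : Multiset (JColor k s)) = {jc H k s v'}
      have h' : jc G k s v = jc H k s v' := h
      rw [h']
    | cons i l ih =>
      intro v v' h
      have h1 : (univ : Finset V).val.map
            (fun z => fun i => jc G k (s + l.length) (Function.update v i z)) =
          (univ : Finset W).val.map
            (fun z => fun i => jc H k (s + l.length) (Function.update v' i z)) :=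
        congrArg Prod.snd h
      have h2 := congrArg (Multiset.map (fun c : Fin k → JColor k (s + l.length) => c i)) h1
      rw [Multiset.map_map, Multiset.map_map] at h2
      exact family_sum_eq _ _ h2 _ _ fun x y hxy => ih _ _ hxy
  have h3 := key (List.finRange k) v v' (by rw [List.length_finRange]; exact h)
  rw [family_it_finRange, family_it_finRange] at h3
  exact h3

theorem hist_of_color_s (G : V → V → Bool) (H : W → W → Bool) (k s : ℕ) (v : Fin k → V) (v' : Fin k → W)
    (h : sc G k (s + k) v = sc H k (s + k) v') (hk : 0 < k) : shist G k s = shist H k s := by
  have key : ∀ (l : List (Fin k)) (v : Fin k → V) (v' : Fin k → W),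
      sc G k (s + l.length) v = sc H k (s + l.length) v' →
        family_it (fun w => ({sc G k s w} : Multiset (SColor k s))) l v =
          family_it (fun w => ({sc H k s w} : Multiset (SColor k s))) l v' := by
    intro l
    induction l with
    | nil =>
      intro v v' h
      show ({sc G k s v} : Multiset (SColor k s)) = {sc H k s v'}
      have h' : sc G k s v = sc H k s v' := h
      rw [h']
    | cons i l ih =>
      intro v v' h
      have h1 : (fun i => (univ : Finset V).val.map
            (fun z => sc G k (s + l.length) (Function.update v i z))) =
          (fun i => (univ : Finset W).val.map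
            (fun z => sc H k (s + l.length) (Function.update v' i z))) :=
        congrArg Prod.snd h
      have h2 := congrFun h1 i
      exact family_sum_eq _ _ h2 _ _ fun x y hxy => ih _ _ hxy
  have h3 := key (List.finRange k) v v' (by rw [List.length_finRange]; exact h)
  rw [family_it_finRange, family_it_finRange] at h3
  exact h3

theorem family_snoc_last {k : ℕ} (v : Fin k → V) (a z : V) :
    Function.update (Fin.snoc v a : Fin (k + 1) → V) (Fin.last k) z = Fin.snoc v z := by
  funext j
  refine Fin.lastCases ?_ (fun j => ?_) j
  · rw [Function.update_self, Fin.snoc_last]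
  · rw [Function.update_of_ne (Fin.castSucc_lt_last j).ne, Fin.snoc_castSucc, Fin.snoc_castSucc]

theorem family_snoc_castSucc {k : ℕ} (v : Fin k → V) (a z : V) (i : Fin k) :
    Function.update (Fin.snoc v a : Fin (k + 1) → V) i.castSucc z =
      Fin.snoc (Function.update v i z) a := by
  simp

theorem fam_joint {k : ℕ} {G : V → V → Bool} {H : W → W → Bool} (F : PebbleFam (k + 1) G H)
    (x : Fin (k + 1) → V) (x' : Fin (k + 1) → W) (hx : F.R x x') (s : ℕ) :
    jc G k s (fun i => x i.castSucc) = jc H k s (fun i => x' i.castSucc) := by
  have key : ∀ (s : ℕ) (v : Fin k → V) (v' : Fin k → W) (a : V) (a' : W),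
      F.R (Fin.snoc v a : Fin (k + 1) → V) (Fin.snoc v' a' : Fin (k + 1) → W) →
        jc G k s v = jc H k s v' := by
    intro s
    induction s with
    | zero =>
      intro v v' a a' h
      have h1 := F.atom _ _ h
      have h2 := congrArg Prod.fst h1
      have h3 := congrArg Prod.snd h1
      show atT G v = atT H v'
      refine Prod.ext ?_ ?_
      · funext i j
        have := congrFun (congrFun h2 i.castSucc) j.castSucc
        simpa [atT] using this
      · funext i j
        have := congrFun (congrFun h3 i.castSucc) j.castSucc
        simpa [atT] using this
    | succ s ih =>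
      intro v v' a a' h
      show (jc G k s v, (univ : Finset V).val.map
          fun z => fun i => jc G k s (Function.update v i z)) =
        (jc H k s v', (univ : Finset W).val.map
          fun z => fun i => jc H k s (Function.update v' i z))
      refine Prod.ext (ih v v' a a' h) ?_
      obtain ⟨f, hf⟩ := F.step _ _ h (Fin.last k)
      refine family_map_equiv f _ _ fun z => funext fun i => ?_
      have h1 := hf z
      rw [family_snoc_last, family_snoc_last] at h1
      obtain ⟨g, hg⟩ := F.step _ _ h1 i.castSucc
      have h2 := hg z
      rw [family_snoc_castSucc, family_snoc_castSucc] at h2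
      have h3 := F.atom _ _ h2
      have h4 := congrFun (congrFun (congrArg Prod.fst h3) i.castSucc) (Fin.last k)
      have h5 : g z = f z := by
        simp only [atT, Fin.snoc_castSucc, Fin.snoc_last, Function.update_self,
          decide_true] at h4
        exact of_decide_eq_true h4.symm
      rw [h5] at h2
      exact ih _ _ _ _ h2
  refine key s _ _ (x (Fin.last k)) (x' (Fin.last k)) ?_
  have e1 : (Fin.snoc (fun i : Fin k => x i.castSucc) (x (Fin.last k)) : Fin (k + 1) → V) = x :=
    Fin.snoc_init_self x
  have e2 : (Fin.snoc (fun i : Fin k => x' i.castSucc) (x' (Fin.last k)) : Fin (k + 1) → W) = x' :=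
    Fin.snoc_init_self x'
  rw [e1, e2]
  exact hx

theorem fam_sep {k : ℕ} {G : V → V → Bool} {H : W → W → Bool} (F : PebbleFam k G H)
    (x : Fin k → V) (x' : Fin k → W) (hx : F.R x x') (s : ℕ) :
    sc G k s x = sc H k s x' := by
  induction s generalizing x x' with
  | zero => exact F.atom _ _ hx
  | succ s ih =>
    show (sc G k s x, fun i => (univ : Finset V).val.map
        fun z => sc G k s (Function.update x i z)) =
      (sc H k s x', fun i => (univ : Finset W).val.map
        fun z => sc H k s (Function.update x' i z))
    refine Prod.ext (ih x x' hx) (funext fun i => ?_)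
    obtain ⟨f, hf⟩ := F.step _ _ hx i
    exact family_map_equiv f _ _ fun z => ih _ _ (hf z)

end Crest.Agent.WL
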