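import Crest.Agent.WL.IdMain

/-!
# Row 290: `CoreD` (S0437) from the finite system
-/

set_option autoImplicit false

namespace Crest.Agent.WL

open Crest.Agent.CHR Crest.CountHier Crest.Agent.WLM Crest.Agent.WLD Crest.Agent.WLX Crest.WLRefine
open Crest.Agent.WLH

theorem coreD_of (hUP : SysUP (fun T N b => WLH.bsys T N b) (fun T N b => WLH.btw T N b)) :
    CoreD := by
  intro T hT d
  let N : W → ℕ := fun x => (x.length + d) ^ d + x.length + 3
  have hN : UN N := (((UN.powC ((UN.len CHR.PT.id).add (UN.const d)) d).add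
    (UN.len CHR.PT.id)).add (UN.const 3))
  obtain ⟨m, A, A', hm, hA, hA', h⟩ := graphs_of_sys hUP (zf := fun x => x) (cf := fun _ => tc T)
    (N := N) (b := fun _ => 1) CHR.PT.id (CHR.PT.const (tc T)) hN (UN.const 1)
  refine ⟨fun x => N x + 1, m, A, hN.add (UN.const 1), hm, hA, fun x => ?_⟩
  have hN1 : 1 ≤ N x := by show 1 ≤ (x.length + d) ^ d + x.length + 3; omega
  obtain ⟨hmx, e, he, -⟩ := h x T hT rfl hN1
  have hTx : (inpT x T).Ok := inpT_ok hT
  have hc : (WLH.bsys (inpT x T) (N x) 1).C := (WLH.bsys (inpT x T) (N x) 1).eC.symm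
    ⟨0, V_pos (inpT x T) (N x) 1⟩
  refine ⟨by show 1 ≤ N x + 1; omega, (e.symm (V0.co hc 0 0, 0)).pos, ⟨fun u v => ?_, fun u => ?_⟩,
    2 ^ N x - x.length - 2, ?_, ?_⟩
  · rw [he, he]; exact X.adj_symm _ _ _
  · rw [he]; exact X.adj_irrefl _ _
  · have h1 : 2 ^ N x = 2 ^ ((x.length + d) ^ d) * (2 ^ x.length * 8) := by
      show 2 ^ ((x.length + d) ^ d + x.length + 3) = _
      rw [pow_add, pow_add]; ring
    have h2 : x.length < 2 ^ x.length := Nat.lt_two_pow_self
    have h3 : 1 ≤ 2 ^ ((x.length + d) ^ d) := Nat.one_le_two_pow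
    have h4 : 2 ^ ((x.length + d) ^ d) * 1 + x.length * 1 + 2 ≤
        2 ^ ((x.length + d) ^ d) * (2 ^ x.length * 8) := by
      nlinarith
    omega
  · rw [ident_iff (inpT x T) hTx (N x) 1 hN1 le_rfl (m x) _ e he]
    have h2 : x.length < 2 ^ x.length := Nat.lt_two_pow_self
    have h5 : 2 + x.length ≤ (1 + 1) ^ N x := by
      have h6 : 2 ^ (x.length + 3) ≤ 2 ^ N x := Nat.pow_le_pow_right (by norm_num)
        (by show x.length + 3 ≤ (x.length + d) ^ d + x.length + 3; omega)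
      have h7 : 2 ^ (x.length + 3) = 2 ^ x.length * 8 := by rw [pow_add]; norm_num
      show 2 + x.length ≤ 2 ^ N x
      omega
    have h8 := not_acc_iff hT x h5
    have h9 : (∃ t, t + 1 < (1 + 1) ^ N x ∧ (inpT x T).Acc [] t) ↔
        ¬ ∀ t, t + 1 < (1 + 1) ^ N x → ¬ (inpT x T).Acc [] t := by
      push Not
      rfl
    rw [h9, h8, not_not]

end Crest.Agent.WL
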