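import Crest.Agent.WL.Sys
import Mathlib.Tactic.DeriveFintype
import Mathlib.Data.Fintype.Prod

/-!
# Row 290: the subcubic connected graph `X S b` of an XOR system

Vertices of the core `V0 S`:
* `co c a s` : core of check `c`, `a : Fin 4 → ZMod 2` = the values of slots `0..3` (the value of slot 4 is
  `b c + ∑ a`, see `full`), `s : Fin 5` = port; `co c a 0 - co c a 1 - ... - co c a 4` is a path.
* `t0 c s x`, `t1 c s x y`, `t2 c s x y z` : binary tree of port `s` of check `c`: the values of slots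
  `s`, `s+1`, `s+2` (mod 5) are `x`, `y`, `z`; `t2 c s x y z` is joined to the two `co c a s` with
  `full b c a s = x`, `full b c a (s+1) = y`, `full b c a (s+2) = z`.
* `rl e n x` : rail of bit `e` with value `x`, a path `n = 0 .. 10 nC`; the node `n = 2 (5 c + s)` is joined to
  `t0 c s x` if slot `s` of check `c` is `e`.
* `tp e` : joined to `rl e 0 0` and `rl e 0 1`.
Vertices of the whole graph: `V0 S × Fin (M + 3)`: `(v,0)` = `v`; `(v,1) , (v,2)` = spine (a path through all
`v`, in the order of `idx`); `(v,3) .. (v,2+len v)` = pendant path attached to `v` (its length `len v` marks the class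
of `v`), `(v,3+len v) .. (v,M+2)` = pendant path attached to `(v,2)`.  `(v,1)` is joined to `(v,0)` for the tops
`tp e` and for the junk vertices (vertices of absent checks), which have no other edge.
-/

set_option autoImplicit false

namespace Crest.Agent.WL

inductive V0 (S : Sys) : Type
  | co (c : S.C) (a : Fin 4 → ZMod 2) (s : Fin 5) : V0 S
  | t0 (c : S.C) (s : Fin 5) (x : ZMod 2) : V0 S
  | t1 (c : S.C) (s : Fin 5) (x y : ZMod 2) : V0 S
  | t2 (c : S.C) (s : Fin 5) (x y z : ZMod 2) : V0 S
  | rl (e : S.E) (n : Fin (10 * S.nC + 1)) (x : ZMod 2) : V0 S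
  | tp (e : S.E) : V0 S
  deriving DecidableEq, Fintype

namespace X

variable (S : Sys) (b : S.C → ZMod 2)

/-- The full assignment of the five slots. -/
def full (c : S.C) (a : Fin 4 → ZMod 2) (s : Fin 5) : ZMod 2 :=
  if h : s.val < 4 then a ⟨s.val, h⟩ else b c + (a 0 + a 1 + a 2 + a 3)

/-- Number of the incidence `(c, s)`. -/
def inc (c : S.C) (s : Fin 5) : ℕ := 5 * (S.eC c).val + s.val

/-- Total number of core vertices. -/
def N0 : ℕ := 150 * S.nC + (20 * S.nC + 2) * S.nE + S.nE

/-- Number of a vertex of the core (`< N0`). -/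
def idx : V0 S → ℕ
  | V0.co c a s => 150 * (S.eC c).val + 30 * s.val +
      ((a 0).val * 8 + (a 1).val * 4 + (a 2).val * 2 + (a 3).val)
  | V0.t0 c s x => 150 * (S.eC c).val + 30 * s.val + (16 + x.val)
  | V0.t1 c s x y => 150 * (S.eC c).val + 30 * s.val + (18 + (x.val * 2 + y.val))
  | V0.t2 c s x y z => 150 * (S.eC c).val + 30 * s.val + (22 + (x.val * 4 + y.val * 2 + z.val))
  | V0.rl e n x => 150 * S.nC + ((20 * S.nC + 2) * (S.eE e).val + 2 * n.val + x.val)
  | V0.tp e => 150 * S.nC + (20 * S.nC + 2) * S.nE + (S.eE e).val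

/-- Junk vertices: those of absent checks. -/
def junk : V0 S → Bool
  | V0.co c _ _ => !S.al c
  | V0.t0 c _ _ => !S.al c
  | V0.t1 c _ _ _ => !S.al c
  | V0.t2 c _ _ _ _ => !S.al c
  | V0.rl _ _ _ => false
  | V0.tp _ => false

/-- Upper bound for the lengths of marks. -/
def N1 : ℕ := 3 + 11 * S.nC + (10 * S.nC + 1) * S.nE

/-- Length of the mark: `0` = no mark, else a number in `[3, N1)` which determines the class. -/
def len : V0 S → ℕ
  | V0.co c _ s => if S.al c = true ∧ s = 0 then 3 + (S.eC c).val else 0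
  | V0.t0 c s x => if S.al c = true ∧ S.slot c s = none then
      3 + S.nC + (10 * S.nC + 1) * S.nE + (2 * inc S c s + x.val) else 0
  | V0.t1 _ _ _ _ => 0
  | V0.t2 _ _ _ _ _ => 0
  | V0.rl e n _ => if n.val % 2 = 1 then 3 + S.nC + ((10 * S.nC + 1) * (S.eE e).val + n.val) else 0
  | V0.tp _ => 0

def M : ℕ := 2 * N1 S

/-- Oriented edges of the core. -/
def step : V0 S → V0 S → Bool
  | V0.co c a s, V0.co c' a' s' => S.al c && decide (c = c' ∧ a = a' ∧ s'.val = s.val + 1)
  | V0.t2 c s x y z, V0.co c' a s' => S.al c && decide (c = c' ∧ s = s' ∧ full S b c a s = x ∧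
      full S b c a (s + 1) = y ∧ full S b c a (s + 2) = z)
  | V0.t1 c s x y, V0.t2 c' s' x' y' _ => S.al c && decide (c = c' ∧ s = s' ∧ x = x' ∧ y = y')
  | V0.t0 c s x, V0.t1 c' s' x' _ => S.al c && decide (c = c' ∧ s = s' ∧ x = x')
  | V0.rl e n x, V0.t0 c s x' => S.al c && decide (S.slot c s = some e ∧ n.val = 2 * inc S c s ∧ x = x')
  | V0.rl e n x, V0.rl e' n' x' => decide (e = e' ∧ x = x' ∧ n'.val = n.val + 1)
  | V0.tp e, V0.rl e' n _ => decide (e = e' ∧ n.val = 0)
  | _, _ => false

/-- Adjacency of the core. -/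
def adj0 (u v : V0 S) : Bool := step S b u v || step S b v u

abbrev V (S : Sys) : Type := V0 S × Fin (M S + 3)

/-- Oriented edges of the whole graph. -/
def stepX (p q : V S) : Bool :=
  -- edges of the core
  (decide (p.2.val = 0 ∧ q.2.val = 0) && step S b p.1 q.1) ||
  -- the spine
  decide (p.1 = q.1 ∧ p.2.val = 1 ∧ q.2.val = 2) ||
  decide (idx S q.1 = idx S p.1 + 1 ∧ p.2.val = 2 ∧ q.2.val = 1) ||
  -- attachment of tops and junk
  decide (p.1 = q.1 ∧ p.2.val = 0 ∧ q.2.val = 1 ∧ (junk S p.1 = true ∨ ∃ e, p.1 = V0.tp e)) ||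
  -- pendant path attached to `v`
  decide (p.1 = q.1 ∧ p.2.val = 0 ∧ q.2.val = 3 ∧ 0 < len S p.1) ||
  -- pendant path attached to the spine
  decide (p.1 = q.1 ∧ p.2.val = 2 ∧ q.2.val = 3 + len S p.1) ||
  -- inner edges of the two pendant paths
  decide (p.1 = q.1 ∧ 3 ≤ p.2.val ∧ q.2.val = p.2.val + 1 ∧ q.2.val ≠ 3 + len S p.1)

/-- The graph of the system `S` with right-hand side `b`. -/
def adj (p q : V S) : Bool := stepX S b p q || stepX S b q p

/-- The equation lemmas are generated in this file (so that importing files share them). -/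
theorem eqns_here : True := by
  have h1 := @step.eq_8
  have h2 := @step.eq_1
  have h3 := @junk.eq_1
  have h4 := @len.eq_1
  have h5 := @stepX.eq_1
  have h6 := @inc.eq_1
  have h7 := @full.eq_1
  trivial

end X

end Crest.Agent.WL
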