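import Mathlib

/-!
# Row 290: parity systems and the abstract pebble game (graph free)

`XSys B C`: bits `B`, checks `C`; a check `c` says that the sum of the bits in the list `inc c` is `par c`
(`par` = parity difference between the two graphs).  Objects of the game are bits and checks; a pebble on a bit
shows the bit, a pebble on a check shows all its bits.
* `DFam X t`: a winning strategy of Duplicator with `t` pebbles on objects.
* `CFam X t`: the same with pebbles on checks only.
-/

set_option autoImplicit false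

namespace Crest.Agent.WL

/-- A system of parity checks. -/
structure XSys (B C : Type) where
  inc : C → List B
  par : C → ZMod 2

variable {B C : Type} [DecidableEq B] [DecidableEq C]

/-- Bits shown by a set of objects. -/
def XSys.Cov (X : XSys B C) (P : Finset (B ⊕ C)) (x : B) : Prop :=
  Sum.inl x ∈ P ∨ ∃ c, Sum.inr c ∈ P ∧ x ∈ X.inc c

/-- The check `c` is satisfied by `g`. -/
def XSys.Sat (X : XSys B C) (g : B → ZMod 2) (c : C) : Prop := ((X.inc c).map g).sum = X.par c

/-- Duplicator's winning families, pebbles on bits and checks. -/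
structure DFam (X : XSys B C) (t : ℕ) where
  F : Finset (B ⊕ C) → (B → ZMod 2) → Prop
  restr : ∀ P Q g, F P g → Q ⊆ P → F Q g
  sat : ∀ P g, F P g → ∀ c, Sum.inr c ∈ P → X.Sat g c
  ext : ∀ P g, F P g → P.card < t → ∀ o, ∃ g', (∀ x, X.Cov P x → g' x = g x) ∧ F (insert o P) g'
  ne : ∃ g, F ∅ g

/-- Duplicator's winning families, pebbles on checks only. -/
structure CFam (X : XSys B C) (t : ℕ) where
  F : Finset C → (B → ZMod 2) → Prop
  restr : ∀ P Q g, F P g → Q ⊆ P → F Q g
  sat : ∀ P g, F P g → ∀ c ∈ P, X.Sat g c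
  ext : ∀ P g, F P g → P.card < t → ∀ c, ∃ g', (∀ c' ∈ P, ∀ x ∈ X.inc c', g' x = g x) ∧ F (insert c P) g'
  ne : ∃ g, F ∅ g

open Classical in
/-- the check standing for a pebble on an object -/
noncomputable def CFam.pick (X : XSys B C) : B ⊕ C → Option C
  | .inr c => some c
  | .inl x => if h : ∃ c, x ∈ X.inc c then some h.choose else none

/-- the checks standing for a set of pebbled objects -/
noncomputable def CFam.PK (X : XSys B C) (P : Finset (B ⊕ C)) : Finset C :=
  Finset.eraseNone (P.image (CFam.pick X))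

omit [DecidableEq B] in
theorem CFam.mem_PK {X : XSys B C} {P : Finset (B ⊕ C)} {c : C} :
    c ∈ CFam.PK X P ↔ ∃ o ∈ P, CFam.pick X o = some c := by
  unfold CFam.PK
  rw [Finset.mem_eraseNone, Finset.mem_image]

omit [DecidableEq B] in
theorem CFam.card_PK (X : XSys B C) (P : Finset (B ⊕ C)) : (CFam.PK X P).card ≤ P.card := by
  unfold CFam.PK
  refine le_trans ?_ (Finset.card_image_le (s := P) (f := CFam.pick X))
  rw [← Finset.card_map (Function.Embedding.some : C ↪ Option C)]
  refine Finset.card_le_card ?_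
  intro o ho
  rw [Finset.mem_map] at ho
  obtain ⟨c, hc, rfl⟩ := ho
  exact Finset.mem_eraseNone.1 hc

/-- Pebbles on checks are as good as pebbles on bits: a pebble on the bit `x` is treated as a pebble on some check
containing `x` (bits in no check are irrelevant).
PROOF.  `pick : B ⊕ C → Option C` (`inr c ↦ c`, `inl x ↦` a chosen check containing `x`, if any).
`F' P g := ∃ Q g₀, Q.card ≤ P.card ∧ F Q g₀ ∧ (∀ c ∈ Q, ∀ x ∈ X.inc c, g₀ x = g x) ∧ (∀ o ∈ P, ∀ c, pick o = some c → c ∈ Q)`.
`restr`: take for `Q'` the picks of the smaller set.  `ext`: if `pick o = none` keep `Q, g`; otherwise extend in `F`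
from `g₀` to `g₀'` and put `g' x := g₀' x` if `x` occurs in some check, `g' x := g x` otherwise. -/
theorem CFam.toDFam {X : XSys B C} {t : ℕ} (F : CFam X t) : Nonempty (DFam X t) := by
  classical
  have hcov : ∀ (P : Finset (B ⊕ C)) (x : B), X.Cov P x → (∃ c, x ∈ X.inc c) →
      ∃ c ∈ CFam.PK X P, x ∈ X.inc c := by
    rintro P x (hx | ⟨c, hc, hxc⟩) hex
    · refine ⟨hex.choose, CFam.mem_PK.2 ⟨Sum.inl x, hx, ?_⟩, hex.choose_spec⟩
      exact dif_pos hex
    · exact ⟨c, CFam.mem_PK.2 ⟨Sum.inr c, hc, rfl⟩, hxc⟩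
  refine ⟨{ F := fun P g => ∃ g₀, F.F (CFam.PK X P) g₀ ∧
              ∀ c ∈ CFam.PK X P, ∀ x ∈ X.inc c, g₀ x = g x
            restr := ?_, sat := ?_, ext := ?_, ne := ?_ }⟩
  · rintro P Q g ⟨g₀, h1, h2⟩ hQ
    have hsub : CFam.PK X Q ⊆ CFam.PK X P := by
      intro c hc
      obtain ⟨o, ho, hoc⟩ := CFam.mem_PK.1 hc
      exact CFam.mem_PK.2 ⟨o, hQ ho, hoc⟩
    exact ⟨g₀, F.restr _ _ _ h1 hsub, fun c hc => h2 c (hsub hc)⟩
  · rintro P g ⟨g₀, h1, h2⟩ c hc
    have hc' : c ∈ CFam.PK X P := CFam.mem_PK.2 ⟨Sum.inr c, hc, rfl⟩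
    have := F.sat _ _ h1 c hc'
    unfold XSys.Sat at this ⊢
    rw [← this]
    congr 1
    exact List.map_congr_left fun x hx => (h2 c hc' x hx).symm
  · rintro P g ⟨g₀, h1, h2⟩ hP o
    rcases ho : CFam.pick X o with _ | c
    · have hPK : CFam.PK X (insert o P) = CFam.PK X P := by
        ext c
        rw [CFam.mem_PK, CFam.mem_PK]
        constructor
        · rintro ⟨o', ho', hoc⟩
          rcases Finset.mem_insert.1 ho' with rfl | h
          · rw [ho] at hoc
            exact absurd hoc (by simp)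
          · exact ⟨o', h, hoc⟩
        · rintro ⟨o', ho', hoc⟩
          exact ⟨o', Finset.mem_insert_of_mem ho', hoc⟩
      refine ⟨g, fun _ _ => rfl, g₀, ?_, ?_⟩
      · rw [hPK]; exact h1
      · rw [hPK]; exact h2
    · have hPK : CFam.PK X (insert o P) = insert c (CFam.PK X P) := by
        ext c'
        rw [Finset.mem_insert, CFam.mem_PK, CFam.mem_PK]
        constructor
        · rintro ⟨o', ho', hoc⟩
          rcases Finset.mem_insert.1 ho' with rfl | h
          · rw [ho] at hoc
            exact Or.inl (Option.some_injective _ hoc).symm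
          · exact Or.inr ⟨o', h, hoc⟩
        · rintro (rfl | ⟨o', ho', hoc⟩)
          · exact ⟨o, Finset.mem_insert_self _ _, ho⟩
          · exact ⟨o', Finset.mem_insert_of_mem ho', hoc⟩
      obtain ⟨g₀', hg1, hg2⟩ := F.ext _ _ h1 (lt_of_le_of_lt (CFam.card_PK X P) hP) c
      refine ⟨fun x => if ∃ c, x ∈ X.inc c then g₀' x else g x, ?_, g₀', ?_, ?_⟩
      · intro x hx
        by_cases hex : ∃ c, x ∈ X.inc c
        · simp only [if_pos hex]
          obtain ⟨c', hc', hxc'⟩ := hcov P x hx hex
          rw [hg1 c' hc' x hxc', h2 c' hc' x hxc']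
        · simp only [if_neg hex]
      · rw [hPK]; exact hg2
      · intro c' _ x hx
        have hex : ∃ c, x ∈ X.inc c := ⟨c', hx⟩
        simp only [if_pos hex]
  · obtain ⟨g, hg⟩ := F.ne
    have hPK : CFam.PK X (∅ : Finset (B ⊕ C)) = ∅ := by
      ext c
      rw [CFam.mem_PK]
      simp
    refine ⟨g, g, ?_, ?_⟩
    · rw [hPK]; exact hg
    · intro c _ x _; rfl

end Crest.Agent.WL
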