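import Crest.Agent.WL.Sys
import Crest.Agent.WL.XorGame

/-!
# CHUNK R290-XB: dictionary between a finite system `S` and a parity system `X : XSys B C`

`Dict`: present checks of `S` correspond to all checks of `X`, the bits in the slots of a present check are
(up to order) the list `inc`, injectively on the bits.
(1) a check family on `X` gives a base strategy on `S`: `St := B → ZMod 2` with `val g e := g (fE e)`,
    `ok g P := X-family at the image of the present checks of P`;
    sums: `∑ s, sv (val g) c s = ((inc (fC c)).map g).sum` by `hinc` (`List.Perm`).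
(2) a base family on `S` gives a check family on `X`: `F P g := ∃ δ, Fam.F (preimage of P) δ ∧` for every check `c` of
    the preimage and every slot `s` with bit `e`: `g (fE e) = δ c s`.  Extension: `g'` = the values of `δ'` on covered
    bits (consistent by `cons`), `0` elsewhere (`open Classical`).
-/

set_option autoImplicit false

namespace Crest.Agent.WL

/-- Dictionary. -/
structure Dict (S : Sys) {B C : Type} (X : XSys B C) where
  fC : {c : S.C // S.al c = true} ≃ C
  fE : S.E → B
  inj : ∀ c c' s s' e e', S.al c = true → S.al c' = true → S.slot c s = some e →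
    S.slot c' s' = some e' → fE e = fE e' → e = e'
  hinc : ∀ c, ((List.finRange 5).filterMap (fun s => (S.slot c.1 s).map fE)).Perm (X.inc (fC c))

variable {S : Sys} {B C : Type} [DecidableEq B] [DecidableEq C]

section aux

theorem xb_filterMap_sum {α β : Type} (f : α → Option β) (g : β → ZMod 2) (l : List α) :
    ((l.filterMap f).map g).sum = (l.map (fun s => (match f s with
      | none => (0 : ZMod 2)
      | some b => g b))).sum := by
  induction l with
  | nil => rfl
  | cons a l ih =>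
    rw [List.map_cons, List.sum_cons, ← ih]
    rcases h : f a with _ | b
    · rw [List.filterMap_cons_none h]; simp
    · rw [List.filterMap_cons_some h, List.map_cons, List.sum_cons]

omit [DecidableEq B] [DecidableEq C] in
theorem Dict.sum_eq {X : XSys B C} (D : Dict S X) (g : B → ZMod 2) (c : {c : S.C // S.al c = true}) :
    ((X.inc (D.fC c)).map g).sum = ∑ s : Fin 5, (match S.slot c.1 s with
      | none => (0 : ZMod 2)
      | some e => g (D.fE e)) := by
  rw [← ((D.hinc c).map g).sum_eq, xb_filterMap_sum, Fin.sum_univ_def]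
  congr 1
  apply List.map_congr_left
  intro s _
  rcases S.slot c.1 s with _ | e <;> rfl

omit [DecidableEq B] [DecidableEq C] in
theorem Dict.mem_inc {X : XSys B C} (D : Dict S X) (c : {c : S.C // S.al c = true}) (x : B) :
    x ∈ X.inc (D.fC c) ↔ ∃ s e, S.slot c.1 s = some e ∧ D.fE e = x := by
  rw [← (D.hinc c).mem_iff, List.mem_filterMap]
  constructor
  · rintro ⟨s, _, hs⟩
    rcases h : S.slot c.1 s with _ | e
    · rw [h] at hs; simp at hs
    · rw [h] at hs
      exact ⟨s, e, h, by simpa using hs⟩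
  · rintro ⟨s, e, h1, h2⟩
    exact ⟨s, List.mem_finRange s, by rw [h1]; simpa using h2⟩

/-- image of the present checks -/
def Dict.img {X : XSys B C} (D : Dict S X) (P : Finset S.C) : Finset C :=
  (P.subtype (fun c => S.al c = true)).map D.fC.toEmbedding

omit [DecidableEq B] [DecidableEq C] in
theorem Dict.mem_img {X : XSys B C} (D : Dict S X) (P : Finset S.C) (c' : C) :
    c' ∈ D.img P ↔ ∃ c : {c : S.C // S.al c = true}, c.1 ∈ P ∧ D.fC c = c' := by
  unfold Dict.img
  rw [Finset.mem_map]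
  constructor
  · rintro ⟨c, hc, h⟩
    exact ⟨c, Finset.mem_subtype.1 hc, h⟩
  · rintro ⟨c, hc, h⟩
    exact ⟨c, Finset.mem_subtype.2 hc, h⟩

omit [DecidableEq B] [DecidableEq C] in
theorem Dict.card_img {X : XSys B C} (D : Dict S X) (P : Finset S.C) : (D.img P).card ≤ P.card := by
  unfold Dict.img
  rw [Finset.card_map, Finset.card_subtype]
  exact Finset.card_filter_le _ _

/-- preimage -/
def Dict.pre {X : XSys B C} (D : Dict S X) (P : Finset C) : Finset S.C :=
  (P.map D.fC.symm.toEmbedding).map (Function.Embedding.subtype _)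

omit [DecidableEq B] [DecidableEq C] in
theorem Dict.mem_pre {X : XSys B C} (D : Dict S X) (P : Finset C) (c : S.C) :
    c ∈ D.pre P ↔ ∃ h : S.al c = true, D.fC ⟨c, h⟩ ∈ P := by
  unfold Dict.pre
  rw [Finset.mem_map]
  constructor
  · rintro ⟨d, hd, rfl⟩
    rw [Finset.mem_map] at hd
    obtain ⟨e, he, rfl⟩ := hd
    refine ⟨(D.fC.symm e).2, ?_⟩
    have : D.fC ⟨(D.fC.symm e).1, (D.fC.symm e).2⟩ = e := D.fC.apply_symm_apply e
    show D.fC ⟨(D.fC.symm e).1, (D.fC.symm e).2⟩ ∈ P
    rw [this]; exact he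
  · rintro ⟨h, hP⟩
    refine ⟨⟨c, h⟩, ?_, rfl⟩
    rw [Finset.mem_map]
    exact ⟨_, hP, D.fC.symm_apply_apply _⟩

omit [DecidableEq B] [DecidableEq C] in
theorem Dict.card_pre {X : XSys B C} (D : Dict S X) (P : Finset C) : (D.pre P).card = P.card := by
  unfold Dict.pre
  rw [Finset.card_map, Finset.card_map]

end aux

theorem Dict.bstrat {X : XSys B C} (D : Dict S X) {t : ℕ} (F : CFam X t) (tw : S.C → ZMod 2)
    (htw : ∀ c, tw c.1 = X.par (D.fC c)) : Nonempty (BStrat S t tw) := by
  refine ⟨{ St := B → ZMod 2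
            val := fun g e => g (D.fE e)
            ok := fun g P => F.F (D.img P) g
            mono := ?_, sat := ?_, ext := ?_, init := ?_ }⟩
  · intro g P Q hQ h
    refine F.restr _ _ _ h ?_
    intro c' hc'
    obtain ⟨c, hc, rfl⟩ := (D.mem_img Q _).1 hc'
    exact (D.mem_img P _).2 ⟨c, hQ hc, rfl⟩
  · intro g P h c hc hal
    have h1 := F.sat _ _ h (D.fC ⟨c, hal⟩) ((D.mem_img P _).2 ⟨⟨c, hal⟩, hc, rfl⟩)
    unfold XSys.Sat at h1
    rw [D.sum_eq, ← htw] at h1
    rw [← h1]
    unfold Sys.bd Sys.sv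
    rfl
  · intro g P h hP c
    by_cases hal : S.al c = true
    · obtain ⟨g', h1, h2⟩ := F.ext _ _ h (lt_of_le_of_lt (D.card_img P) hP) (D.fC ⟨c, hal⟩)
      refine ⟨g', ?_, ?_⟩
      · have : D.img (insert c P) = insert (D.fC ⟨c, hal⟩) (D.img P) := by
          ext c'
          rw [Finset.mem_insert, D.mem_img, D.mem_img]
          constructor
          · rintro ⟨d, hd, rfl⟩
            rcases Finset.mem_insert.1 hd with h3 | h3
            · exact Or.inl (congrArg D.fC (Subtype.ext h3))
            · exact Or.inr ⟨d, h3, rfl⟩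
          · rintro (rfl | ⟨d, hd, rfl⟩)
            · exact ⟨⟨c, hal⟩, Finset.mem_insert_self _ _, rfl⟩
            · exact ⟨d, Finset.mem_insert_of_mem hd, rfl⟩
        rw [this]; exact h2
      · intro c' hc' hal' s e hs
        exact h1 _ ((D.mem_img P _).2 ⟨⟨c', hal'⟩, hc', rfl⟩) _
          ((D.mem_inc ⟨c', hal'⟩ _).2 ⟨s, e, hs, rfl⟩)
    · refine ⟨g, ?_, fun _ _ _ _ _ _ => rfl⟩
      have : D.img (insert c P) = D.img P := by
        ext c'
        rw [D.mem_img, D.mem_img]
        constructor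
        · rintro ⟨d, hd, rfl⟩
          rcases Finset.mem_insert.1 hd with h3 | h3
          · exact absurd (h3 ▸ d.2) hal
          · exact ⟨d, h3, rfl⟩
        · rintro ⟨d, hd, rfl⟩
          exact ⟨d, Finset.mem_insert_of_mem hd, rfl⟩
      rw [this]; exact h
  · obtain ⟨g, hg⟩ := F.ne
    refine ⟨g, ?_⟩
    have : D.img (∅ : Finset S.C) = ∅ := by
      ext c'
      rw [D.mem_img]
      simp
    rw [this]; exact hg

theorem Dict.cfam {X : XSys B C} (D : Dict S X) {t : ℕ} (tw : S.C → ZMod 2) (F : BFam S t tw)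
    (htw : ∀ c, tw c.1 = X.par (D.fC c)) : Nonempty (CFam X t) := by
  classical
  refine ⟨{ F := fun P g => ∃ δ, F.F (D.pre P) δ ∧
              ∀ c ∈ D.pre P, ∀ s e, S.slot c s = some e → g (D.fE e) = δ c s
            restr := ?_, sat := ?_, ext := ?_, ne := ?_ }⟩
  · rintro P Q g ⟨δ, h1, h2⟩ hQ
    have hsub : D.pre Q ⊆ D.pre P := by
      intro c hc
      obtain ⟨h, hc'⟩ := (D.mem_pre Q c).1 hc
      exact (D.mem_pre P c).2 ⟨h, hQ hc'⟩
    exact ⟨δ, F.sub _ _ _ h1 hsub, fun c hc => h2 c (hsub hc)⟩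
  · rintro P g ⟨δ, h1, h2⟩ c' hc'
    obtain ⟨c, rfl⟩ := D.fC.surjective c'
    have hc : c.1 ∈ D.pre P := (D.mem_pre P _).2 ⟨c.2, hc'⟩
    unfold XSys.Sat
    rw [D.sum_eq, ← htw, ← F.par _ _ h1 c.1 hc]
    refine Finset.sum_congr rfl fun s _ => ?_
    rcases hs : S.slot c.1 s with _ | e
    · exact (F.miss _ _ h1 c.1 hc s hs).symm
    · exact h2 c.1 hc s e hs
  · rintro P g ⟨δ, h1, h2⟩ hP c'
    obtain ⟨c, rfl⟩ := D.fC.surjective c'
    obtain ⟨δ', h3, h4⟩ := F.ext _ _ h1 (by rw [D.card_pre]; exact hP) c.1 c.2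
    have hpre : D.pre (insert (D.fC c) P) = insert c.1 (D.pre P) := by
      ext d
      rw [Finset.mem_insert, D.mem_pre, D.mem_pre]
      constructor
      · rintro ⟨h, hd⟩
        rcases Finset.mem_insert.1 hd with h5 | h5
        · left
          have := D.fC.injective h5
          exact congrArg Subtype.val this
        · exact Or.inr ⟨h, h5⟩
      · rintro (rfl | ⟨h, hd⟩)
        · exact ⟨c.2, Finset.mem_insert_self _ _⟩
        · exact ⟨h, Finset.mem_insert_of_mem hd⟩
    have hal : ∀ d ∈ insert c.1 (D.pre P), S.al d = true := by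
      intro d hd
      rw [← hpre] at hd
      exact ((D.mem_pre _ d).1 hd).1
    let g' : B → ZMod 2 := fun x =>
      if h : ∃ q : S.C × Fin 5 × S.E, q.1 ∈ insert c.1 (D.pre P) ∧ S.slot q.1 q.2.1 = some q.2.2 ∧
        D.fE q.2.2 = x then δ' h.choose.1 h.choose.2.1 else 0
    have hg' : ∀ d ∈ insert c.1 (D.pre P), ∀ s e, S.slot d s = some e → g' (D.fE e) = δ' d s := by
      intro d hd s e hs
      have hex : ∃ q : S.C × Fin 5 × S.E, q.1 ∈ insert c.1 (D.pre P) ∧
          S.slot q.1 q.2.1 = some q.2.2 ∧ D.fE q.2.2 = D.fE e := ⟨(d, s, e), hd, hs, rfl⟩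
      have e1 : g' (D.fE e) = δ' hex.choose.1 hex.choose.2.1 := dif_pos hex
      obtain ⟨q1, q2, q3⟩ := hex.choose_spec
      have e2 : hex.choose.2.2 = e := D.inj _ _ _ _ _ _ (hal _ q1) (hal _ hd) q2 hs q3
      rw [e1]
      refine F.cons _ _ h3 _ q1 _ hd _ _ e ?_ hs
      rw [q2, e2]
    refine ⟨g', ?_, δ', ?_, ?_⟩
    · intro c'' hc'' x hx
      obtain ⟨d, rfl⟩ := D.fC.surjective c''
      have hd : d.1 ∈ D.pre P := (D.mem_pre P _).2 ⟨d.2, hc''⟩
      obtain ⟨s, e, hs, rfl⟩ := (D.mem_inc d x).1 hx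
      rw [hg' d.1 (Finset.mem_insert_of_mem hd) s e hs, h4 d.1 hd, h2 d.1 hd s e hs]
    · rw [hpre]; exact h3
    · rw [hpre]; exact hg'
  · obtain ⟨δ, hδ⟩ := F.init
    have hpre : D.pre (∅ : Finset C) = ∅ := by
      ext c
      rw [D.mem_pre]
      simp
    refine ⟨fun _ => 0, δ, ?_, ?_⟩
    · rw [hpre]; exact hδ
    · intro c hc
      rw [hpre] at hc
      simp at hc

end Crest.Agent.WL
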