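import Crest.Agent.WL.Family

/-!
# CHUNK WL-A3: a strategy gives equal histograms, also in the disjoint union

`S.toFam : PebbleFam t G H` with `R x x' := ∃ ψ, S.ok ψ (image x univ) ∧ ∀ i, x' i = S.map ψ (x i)`.
Step at coordinate `i`: let `P = image of the other coordinates` (card < t); for every class `κ` choose `ψ'_κ`
by `ext`; `f z := map ψ'_{cls z} z` is a bijection because `map_cls` says that each `map ψ'` preserves classes
(inverse: `z' ↦ (map ψ'_{cls' z'}).symm z'`).

Disjoint union: `pjL = pjR` at every round.  Use the pebble family for `(U, U)`, `U = uAdj G H`: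
`R X X'` iff there are states `ψ₁ ψ₂` with `ok ψ₁ (pebbles in V)`, `ok ψ₂ ((map ψ₂).symm '' (pebbles in W))` and `X'` is
obtained from `X` by `inl a ↦ inr (map ψ₁ a)`, `inr c ↦ inl ((map ψ₂).symm c)`.  (Edges across are absent on both
sides.)  Start: all pebbles on one vertex.  Then `jc U k s (inl ∘ v) = jc U k s (inr ∘ v')` whenever
`R (inl ∘ v) (inr ∘ v')`, and the colour of one pure tuple determines the pure histogram: the pure tuples
of the first part containing... simplest: directly build a bijection `(Fin k → V) ≃ (Fin k → W)` as follows: the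
relation `R` restricted to pure tuples, `t ≥ k` pebbles, pebble one coordinate after the other (start from a
constant tuple, `k` steps, each given by a bijection).
-/

set_option autoImplicit false

namespace Crest.Agent.WL

open Crest.WLRefine Crest.WLRefine.ParityLift Finset

variable {V W : Type} [Fintype V] [DecidableEq V] [Fintype W] [DecidableEq W]

/-- The relation of the pebble family of a strategy. -/
def Strat.Rel {t : ℕ} {G : V → V → Bool} {H : W → W → Bool} (S : Strat t G H)
    (x : Fin t → V) (x' : Fin t → W) : Prop :=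
  ∃ ψ, S.ok ψ (univ.image x) ∧ ∀ i, x' i = S.map ψ (x i)

theorem Strat.rel_step {t : ℕ} {G : V → V → Bool} {H : W → W → Bool} (S : Strat t G H)
    (x : Fin t → V) (x' : Fin t → W) (h : S.Rel x x') (i : Fin t) :
    ∃ f : V ≃ W, ∀ z : V, S.Rel (Function.update x i z) (Function.update x' i (f z)) := by
  classical
  obtain ⟨ψ, hok, hx'⟩ := h
  set P : Finset V := (univ.erase i).image x with hP
  have hPsub : P ⊆ univ.image x := Finset.image_subset_image (Finset.subset_univ _)
  have hPok : S.ok ψ P := S.mono ψ _ P hPsub hok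
  have hcard : P.card < t := by
    calc P.card ≤ (univ.erase i).card := Finset.card_image_le
      _ = t - 1 := by rw [Finset.card_erase_of_mem (Finset.mem_univ i)]; simp
      _ < t := Nat.sub_lt (lt_of_le_of_lt (Nat.zero_le _) i.isLt) Nat.one_pos
  choose ψ' h1 h2 using fun κ : S.K => S.ext ψ P hPok hcard κ
  let f0 : V → W := fun z => S.map (ψ' (S.cls z)) z
  have hinj : Function.Injective f0 := by
    intro z w hzw
    have hc : S.cls z = S.cls w := by
      rw [← S.map_cls (ψ' (S.cls z)) z, ← S.map_cls (ψ' (S.cls w)) w]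
      exact congrArg S.cls' hzw
    have hzw' : S.map (ψ' (S.cls z)) z = S.map (ψ' (S.cls w)) w := hzw
    rw [hc] at hzw'
    exact (S.map (ψ' (S.cls w))).injective hzw'
  have hbij : Function.Bijective f0 :=
    (Fintype.bijective_iff_injective_and_card f0).mpr ⟨hinj, Fintype.card_congr (S.map ψ)⟩
  refine ⟨Equiv.ofBijective f0 hbij, fun z => ⟨ψ' (S.cls z), ?_, ?_⟩⟩
  · refine S.mono _ (insert z P) _ ?_ (h2 (S.cls z) z rfl)
    intro a ha
    obtain ⟨j, -, rfl⟩ := Finset.mem_image.mp ha
    by_cases hj : j = i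
    · subst hj
      simp
    · rw [Function.update_of_ne hj]
      exact Finset.mem_insert_of_mem
        (Finset.mem_image_of_mem x (Finset.mem_erase.mpr ⟨hj, Finset.mem_univ _⟩))
  · intro j
    by_cases hj : j = i
    · subst hj
      simp [f0]
    · rw [Function.update_of_ne hj, Function.update_of_ne hj, hx' j]
      exact (h1 (S.cls z) (x j)
        (Finset.mem_image_of_mem x (Finset.mem_erase.mpr ⟨hj, Finset.mem_univ _⟩))).symm

/-- The pebble family of a strategy. -/
def Strat.toFam {t : ℕ} {G : V → V → Bool} {H : W → W → Bool} (S : Strat t G H) :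
    PebbleFam t G H where
  R := S.Rel
  atom := by
    rintro x x' ⟨ψ, hok, hx'⟩
    unfold atT
    refine Prod.ext ?_ ?_
    · funext i j
      simp only [hx', (S.map ψ).injective.eq_iff]
    · funext i j
      simp only [hx']
      exact S.adj ψ _ hok _ (Finset.mem_image_of_mem x (Finset.mem_univ i)) _
        (Finset.mem_image_of_mem x (Finset.mem_univ j))
  step := fun x x' h i => S.rel_step x x' h i

theorem Strat.rel_const {t : ℕ} (ht : 0 < t) {G : V → V → Bool} {H : W → W → Bool}
    (S : Strat t G H) (a : V) : ∃ x' : Fin t → W, S.Rel (fun _ => a) x' := by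
  obtain ⟨ψ, hψ⟩ := S.init
  obtain ⟨ψ', -, h2⟩ := S.ext ψ ∅ hψ (by simpa using ht) (S.cls a)
  refine ⟨fun _ => S.map ψ' a, ψ', ?_, fun _ => rfl⟩
  refine S.mono _ (insert a ∅) _ ?_ (h2 a rfl)
  intro b hb
  obtain ⟨j, -, rfl⟩ := Finset.mem_image.mp hb
  simp

theorem Strat.jhist_eq {k : ℕ} (hk : 0 < k) {G : V → V → Bool} {H : W → W → Bool} (S : Strat (k + 1) G H)
    (s : ℕ) : jhist G k s = jhist H k s := by
  classical
  rcases isEmpty_or_nonempty V with hV | ⟨⟨a⟩⟩
  · obtain ⟨ψ, -⟩ := S.init
    have : IsEmpty W := ⟨fun w => hV.false ((S.map ψ).symm w)⟩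
    have : Nonempty (Fin k) := ⟨⟨0, hk⟩⟩
    unfold jhist
    rw [Finset.univ_eq_empty, Finset.univ_eq_empty]
    rfl
  · obtain ⟨x', hx'⟩ := S.rel_const (Nat.succ_pos k) a
    exact hist_of_color_j G H k s _ _ (fam_joint S.toFam (fun _ => a) x' hx' (s + k)) hk

theorem Strat.shist_eq {k : ℕ} (hk : 0 < k) {G : V → V → Bool} {H : W → W → Bool} (S : Strat k G H)
    (s : ℕ) : shist G k s = shist H k s := by
  classical
  rcases isEmpty_or_nonempty V with hV | ⟨⟨a⟩⟩
  · obtain ⟨ψ, -⟩ := S.init
    have : IsEmpty W := ⟨fun w => hV.false ((S.map ψ).symm w)⟩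
    have : Nonempty (Fin k) := ⟨⟨0, hk⟩⟩
    unfold shist
    rw [Finset.univ_eq_empty, Finset.univ_eq_empty]
    rfl
  · obtain ⟨x', hx'⟩ := S.rel_const hk a
    exact hist_of_color_s G H k s _ _ (fam_sep S.toFam (fun _ => a) x' hx' (s + k)) hk

end Crest.Agent.WL
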