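import Crest.Agent.WL.StratPure
import Crest.Agent.WL.StratFam
import Crest.Agent.WLD.BF

/-!
# CHUNK R290-XE: strategies / families on types versus `JEquiv`, `SEquiv`, `CREquiv` on numbered vertices

(1),(2): `Strat.jhist_eq`, `jhist_iso`, `jequiv_iff`.
(3): `R x x' :=` the atomic types of the `(k+1)`-tuples agree and for every coordinate `i` the `k`-tuples without `i`
(`Fin.succAbove`) are `JStab`-related.  Step at coordinate `i`: `jstab_iff` for the tuples without `i` gives `f` with
`JStab (update (x ∘ i.succAbove) j z) (update (x' ∘ i.succAbove) j (f z))` for all `j`; the tuple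
`(update x i z) ∘ l.succAbove`, `l ≠ i`, is a permutation of such a tuple: prove `JStab v w → JStab (v ∘ π) (w ∘ π)` for
permutations `π` (induction on the round or `JStab.of_rel`).  Every pair of coordinates lies in a `k`-subtuple
(`2 ≤ k`), which gives the atomic types.
(4): `R := SStab`.
(5): colour refinement from `t ≥ 2` pebbles: by induction on the round, `R x x'` implies equal `crcolor` of `x i`, `x' i`
(move another pebble; neighbours correspond).
-/

set_option autoImplicit false

namespace Crest.Agent.WL

open Crest.WLRefine Finset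

variable {V W : Type} [Fintype V] [DecidableEq V] [Fintype W] [DecidableEq W]

/-! ### auxiliary lemmas -/

/-- transport of a family along bijections of the vertex sets -/
def xeqTr {V V' W W' : Type} [Fintype V] [DecidableEq V] [Fintype W] [DecidableEq W]
    [Fintype V'] [DecidableEq V'] [Fintype W'] [DecidableEq W']
    {t : ℕ} {G : V → V → Bool} {H : W → W → Bool} (eV : V' ≃ V) (eW : W' ≃ W)
    (F : PebbleFam t G H) :
    PebbleFam t (fun u v => G (eV u) (eV v)) (fun u v => H (eW u) (eW v)) where
  R x x' := F.R (fun i => eV (x i)) (fun i => eW (x' i))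
  atom x x' h := by
    have h1 := F.atom _ _ h
    have e1 := Transfer_at (fun u v => G (eV u) (eV v)) G eV (fun _ _ => rfl) x
    have e2 := Transfer_at (fun u v => H (eW u) (eW v)) H eW (fun _ _ => rfl) x'
    rw [← e1, ← e2]
    exact h1
  step x x' h i := by
    obtain ⟨f, hf⟩ := F.step _ _ h i
    refine ⟨eV.trans (f.trans eW.symm), fun z => ?_⟩
    have h1 := hf (eV z)
    have e1 : (fun j => eV (Function.update x i z j)) =
        Function.update (fun j => eV (x j)) i (eV z) := (Transfer_update eV x i z).symm
    have e2 : (fun j => eW (Function.update x' i ((eV.trans (f.trans eW.symm)) z) j)) =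
        Function.update (fun j => eW (x' j)) i (f (eV z)) := by
      rw [← Transfer_update eW x' i]
      congr 1
      simp
    show F.R _ _
    rw [e1, e2]
    exact h1

theorem xeq_perm {k n m : ℕ} {G : Fin n → Fin n → Bool} {H : Fin m → Fin m → Bool}
    {v : Fin k → Fin n} {w : Fin k → Fin m} (h : Crest.Agent.WLD.JStab k G H v w)
    (π : Fin k → Fin k) (hπ : Function.Injective π) :
    Crest.Agent.WLD.JStab k G H (v ∘ π) (w ∘ π) := by
  refine Crest.Agent.WLD.JStab.of_rel
    (fun a b => ∃ v w, Crest.Agent.WLD.JStab k G H v w ∧ a = v ∘ π ∧ b = w ∘ π) ?_ ?_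
    ⟨v, w, h, rfl, rfl⟩
  · rintro _ _ ⟨v, w, h, rfl, rfl⟩
    have h0 := h 0
    change atomicType G v = atomicType H w at h0
    refine Prod.ext ?_ ?_
    · funext i j
      exact congrFun (congrFun (congrArg Prod.fst h0) (π i)) (π j)
    · funext i j
      exact congrFun (congrFun (congrArg Prod.snd h0) (π i)) (π j)
  · rintro _ _ ⟨v, w, h, rfl, rfl⟩
    obtain ⟨-, f, hf⟩ := (Crest.Agent.WLD.jstab_iff v w).1 h
    refine ⟨f, fun z i => ⟨_, _, hf z (π i), ?_, ?_⟩⟩
    · exact (Function.update_comp_eq_of_injective v hπ i z).symm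
    · exact (Function.update_comp_eq_of_injective w hπ i (f z)).symm

/-- the index map between the tuples without `l` (with `i` replaced) and without `i` (with `l` replaced) -/
theorem xeq_index {k : ℕ} (i l : Fin (k + 1)) (hli : l ≠ i) :
    ∃ (j : Fin k) (π : Fin k → Fin k), Function.Injective π ∧
      ∀ (X : Type) (x : Fin (k + 1) → X) (z : X),
        (fun a => Function.update x i z (l.succAbove a)) =
          (Function.update (fun a => x (i.succAbove a)) j z) ∘ π := by
  obtain ⟨j, hj⟩ := Fin.exists_succAbove_eq hli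
  have hex : ∀ a : Fin k, ∃ b : Fin k, (l.succAbove a = i ∧ b = j) ∨
      (l.succAbove a ≠ i ∧ i.succAbove b = l.succAbove a) := by
    intro a
    by_cases h : l.succAbove a = i
    · exact ⟨j, Or.inl ⟨h, rfl⟩⟩
    · obtain ⟨b, hb⟩ := Fin.exists_succAbove_eq h
      exact ⟨b, Or.inr ⟨h, hb⟩⟩
  choose π hπ using hex
  have hne : ∀ a, l.succAbove a ≠ i → π a ≠ j := by
    intro a ha hc
    rcases hπ a with ⟨h1, -⟩ | ⟨-, h2⟩
    · exact ha h1
    · rw [hc, hj] at h2
      exact (Fin.succAbove_ne l a) h2.symm
  refine ⟨j, π, ?_, ?_⟩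
  · intro a b hab
    rcases hπ a with ⟨h1, h1'⟩ | ⟨h1, h1'⟩
    · by_cases hb : l.succAbove b = i
      · exact Fin.succAbove_right_injective (h1.trans hb.symm)
      · exact absurd (hab.symm.trans h1') (hne b hb)
    · rcases hπ b with ⟨h2, h2'⟩ | ⟨h2, h2'⟩
      · exact absurd (hab.trans h2') (hne a h1)
      · rw [hab] at h1'
        exact Fin.succAbove_right_injective (h1'.symm.trans h2')
  · intro X x z
    funext a
    rw [Function.comp_apply]
    rcases hπ a with ⟨h1, h1'⟩ | ⟨h1, h1'⟩
    · rw [h1, h1', Function.update_self, Function.update_self]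
    · rw [Function.update_of_ne h1, Function.update_of_ne (hne a h1), h1']

/-- (1) -/
theorem jequiv_of_strat {k n m : ℕ} (hk : 0 < k) {G : V → V → Bool} {H : W → W → Bool}
    (Str : Strat (k + 1) G H) (eV : Fin n ≃ V) (eW : Fin m ≃ W) :
    JEquiv k (fun u v => G (eV u) (eV v)) (fun u v => H (eW u) (eW v)) := by
  refine (jequiv_iff k _ _).2 fun s => ?_
  rw [← jhist_iso (fun u v => G (eV u) (eV v)) G eV (fun _ _ => rfl) k s,
    ← jhist_iso (fun u v => H (eW u) (eW v)) H eW (fun _ _ => rfl) k s]
  exact Str.jhist_eq hk s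

/-- (2) -/
theorem sequiv_of_strat {k n m : ℕ} (hk : 0 < k) {G : V → V → Bool} {H : W → W → Bool}
    (Str : Strat k G H) (eV : Fin n ≃ V) (eW : Fin m ≃ W) :
    SEquiv k (fun u v => G (eV u) (eV v)) (fun u v => H (eW u) (eW v)) := by
  refine (sequiv_iff k _ _).2 fun s => ?_
  rw [← shist_iso (fun u v => G (eV u) (eV v)) G eV (fun _ _ => rfl) k s,
    ← shist_iso (fun u v => H (eW u) (eW v)) H eW (fun _ _ => rfl) k s]
  exact Str.shist_eq hk s

/-- (3) -/
theorem fam_of_jequiv {k n m : ℕ} (hk : 2 ≤ k) (hn : 0 < n) {G : Fin n → Fin n → Bool}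
    {H : Fin m → Fin m → Bool} (h : JEquiv k G H) :
    ∃ F : PebbleFam (k + 1) G H, ∃ x x', F.R x x' := by
  have hpair : ∀ a b : Fin (k + 1), ∃ l : Fin (k + 1), a ≠ l ∧ b ≠ l := by
    intro a b
    have hc : ({a, b} : Finset (Fin (k + 1))).card < (univ : Finset (Fin (k + 1))).card := by
      have h1 : ({a, b} : Finset (Fin (k + 1))).card ≤ 2 := Finset.card_le_two
      rw [Finset.card_univ, Fintype.card_fin]
      omega
    obtain ⟨l, -, hl⟩ := Finset.exists_mem_notMem_of_card_lt_card hc
    simp only [Finset.mem_insert, Finset.mem_singleton, not_or] at hl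
    exact ⟨l, fun e => hl.1 e.symm, fun e => hl.2 e.symm⟩
  let F : PebbleFam (k + 1) G H :=
    { R := fun x x' => ∀ l : Fin (k + 1), Crest.Agent.WLD.JStab k G H
        (fun a => x (l.succAbove a)) (fun a => x' (l.succAbove a))
      atom := by
        intro x x' hR
        have key : ∀ a b : Fin (k + 1), decide (x a = x b) = decide (x' a = x' b) ∧
            G (x a) (x b) = H (x' a) (x' b) := by
          intro a b
          obtain ⟨l, hal, hbl⟩ := hpair a b
          obtain ⟨a', rfl⟩ := Fin.exists_succAbove_eq hal
          obtain ⟨b', rfl⟩ := Fin.exists_succAbove_eq hbl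
          have h0 := hR l 0
          change atomicType G _ = atomicType H _ at h0
          exact ⟨congrFun (congrFun (congrArg Prod.fst h0) a') b',
            congrFun (congrFun (congrArg Prod.snd h0) a') b'⟩
        refine Prod.ext ?_ ?_
        · funext a b
          exact (key a b).1
        · funext a b
          exact (key a b).2
      step := by
        intro x x' hR i
        obtain ⟨-, f, hf⟩ := (Crest.Agent.WLD.jstab_iff _ _).1 (hR i)
        refine ⟨f, fun z l => ?_⟩
        by_cases hl : l = i
        · subst hl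
          have e1 : (fun a => Function.update x l z (l.succAbove a)) =
              fun a => x (l.succAbove a) := by
            funext a
            exact Function.update_of_ne (Fin.succAbove_ne l a) _ _
          have e2 : (fun a => Function.update x' l (f z) (l.succAbove a)) =
              fun a => x' (l.succAbove a) := by
            funext a
            exact Function.update_of_ne (Fin.succAbove_ne l a) _ _
          rw [e1, e2]
          exact hR l
        · obtain ⟨j, π, hπ, he⟩ := xeq_index i l hl
          rw [he, he]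
          exact xeq_perm (hf z j) π hπ }
  obtain ⟨B, hB⟩ := Crest.Agent.WLD.JEquiv.exists_bij h
  have h1 := hB (fun _ => ⟨0, hn⟩)
  set w0 := B (fun _ => ⟨0, hn⟩) with hw0
  have hw : ∀ a b, w0 a = w0 b := by
    intro a b
    have h0 := h1 0
    change atomicType G _ = atomicType H _ at h0
    have h2 := congrFun (congrFun (congrArg Prod.fst h0) a) b
    simp only [atomicType, decide_true] at h2
    exact of_decide_eq_true h2.symm
  refine ⟨F, fun _ => ⟨0, hn⟩, fun _ => w0 ⟨0, by omega⟩, fun l => ?_⟩
  have e : (fun _ : Fin k => w0 ⟨0, by omega⟩) = w0 := by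
    funext a
    exact hw _ _
  show Crest.Agent.WLD.JStab k G H (fun _ => ⟨0, hn⟩) (fun _ : Fin k => w0 ⟨0, by omega⟩)
  rw [e]
  exact h1

/-- (4) -/
theorem fam_of_sequiv {k n m : ℕ} (hk : 2 ≤ k) (hn : 0 < n) {G : Fin n → Fin n → Bool}
    {H : Fin m → Fin m → Bool} (h : SEquiv k G H) :
    ∃ F : PebbleFam k G H, ∃ x x', F.R x x' := by
  obtain ⟨B, hB⟩ := Crest.Agent.WLD.SEquiv.exists_bij h
  exact ⟨{ R := Crest.Agent.WLD.SStab k G H
           atom := fun x x' hR => ((Crest.Agent.WLD.sstab_iff x x').1 hR).1
           step := fun x x' hR => ((Crest.Agent.WLD.sstab_iff x x').1 hR).2 },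
    fun _ => ⟨0, hn⟩, B (fun _ => ⟨0, hn⟩), hB _⟩

/-- (4b) transport of a family to types -/
theorem fam_transport {t n m : ℕ} {G : V → V → Bool} {H : W → W → Bool} (eV : Fin n ≃ V)
    (eW : Fin m ≃ W)
    (h : ∃ F : PebbleFam t (fun u v => G (eV u) (eV v)) (fun u v => H (eW u) (eW v)),
      ∃ x x', F.R x x') :
    ∃ F : PebbleFam t G H, ∃ x x', F.R x x' := by
  obtain ⟨F, x, x', hR⟩ := h
  have h1 : ∃ F' : PebbleFam t (fun u v => (fun u v => G (eV u) (eV v)) (eV.symm u) (eV.symm v))
      (fun u v => (fun u v => H (eW u) (eW v)) (eW.symm u) (eW.symm v)), ∃ x x', F'.R x x' := by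
    refine ⟨xeqTr eV.symm eW.symm F, fun i => eV (x i), fun i => eW (x' i), ?_⟩
    show F.R _ _
    simpa using hR
  have e1 : (fun u v => G (eV (eV.symm u)) (eV (eV.symm v))) = G := by
    funext u v
    rw [Equiv.apply_symm_apply, Equiv.apply_symm_apply]
  have e2 : (fun u v => H (eW (eW.symm u)) (eW (eW.symm v))) = H := by
    funext u v
    rw [Equiv.apply_symm_apply, Equiv.apply_symm_apply]
  change ∃ F' : PebbleFam t (fun u v => G (eV (eV.symm u)) (eV (eV.symm v)))
      (fun u v => H (eW (eW.symm u)) (eW (eW.symm v))), ∃ x x', F'.R x x' at h1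
  rw [e1, e2] at h1
  exact h1

/-- (5) -/
theorem crequiv_of_strat {t n m : ℕ} (ht : 2 ≤ t) {G : V → V → Bool} {H : W → W → Bool}
    (Str : Strat t G H) (eV : Fin n ≃ V) (eW : Fin m ≃ W) :
    CREquiv (fun u v => G (eV u) (eV v)) (fun u v => H (eW u) (eW v)) := by
  intro s
  rcases Nat.eq_zero_or_pos n with hn | hn
  · subst hn
    obtain ⟨ψ, -⟩ := Str.init
    have e : Fin 0 ≃ Fin m := eV.trans ((Str.map ψ).trans eW.symm)
    have hm : m = 0 := by
      have := Fintype.card_congr e
      simpa using this.symm
    subst hm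
    rfl
  · let F := xeqTr eV eW Str.toFam
    have key : ∀ (s : ℕ) (x : Fin t → Fin n) (x' : Fin t → Fin m), F.R x x' → ∀ i,
        crcolor (fun u v => G (eV u) (eV v)) s (x i) =
          crcolor (fun u v => H (eW u) (eW v)) s (x' i) := by
      intro s
      induction s with
      | zero => intro _ _ _ _; rfl
      | succ s ih =>
        intro x x' hR i
        refine Prod.ext (ih x x' hR i) ?_
        obtain ⟨j, hj⟩ : ∃ j : Fin t, j ≠ i := by
          have : Nontrivial (Fin t) := Fin.nontrivial_iff_two_le.2 ht
          exact exists_ne i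
        obtain ⟨f, hf⟩ := F.step x x' hR j
        have hcol : ∀ z, crcolor (fun u v => G (eV u) (eV v)) s z =
            crcolor (fun u v => H (eW u) (eW v)) s (f z) := by
          intro z
          have := ih _ _ (hf z) j
          rwa [Function.update_self, Function.update_self] at this
        have hadj : ∀ z, G (eV (x i)) (eV z) = H (eW (x' i)) (eW (f z)) := by
          intro z
          have h1 := congrFun (congrFun (congrArg Prod.snd (F.atom _ _ (hf z))) i) j
          simp only [atT, Function.update_self, Function.update_of_ne hj.symm] at h1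
          exact h1
        show ((univ : Finset (Fin n)).filter fun w => G (eV (x i)) (eV w) = true).val.map
            (crcolor (fun u v => G (eV u) (eV v)) s) =
          ((univ : Finset (Fin m)).filter fun w => H (eW (x' i)) (eW w) = true).val.map
            (crcolor (fun u v => H (eW u) (eW v)) s)
        have hset : ((univ : Finset (Fin m)).filter fun w => H (eW (x' i)) (eW w) = true) =
            ((univ : Finset (Fin n)).filter fun w => G (eV (x i)) (eV w) = true).map
              f.toEmbedding := by
          ext w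
          simp only [Finset.mem_filter, Finset.mem_univ, true_and, Finset.mem_map,
            Equiv.coe_toEmbedding]
          constructor
          · intro hw
            refine ⟨f.symm w, ?_, by simp⟩
            rw [hadj, Equiv.apply_symm_apply]
            exact hw
          · rintro ⟨z, hz, rfl⟩
            rw [← hadj]
            exact hz
        rw [hset, Finset.map_val, Multiset.map_map]
        exact Multiset.map_congr rfl fun z _ => hcol z
    obtain ⟨x', hx'⟩ := Str.rel_const (by omega : 0 < t) (eV ⟨0, hn⟩)
    have hR : F.R (fun _ => ⟨0, hn⟩) (fun i => eW.symm (x' i)) := by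
      show Str.Rel (fun _ => eV ⟨0, hn⟩) (fun i => eW (eW.symm (x' i)))
      simpa using hx'
    obtain ⟨f, hf⟩ := F.step _ _ hR ⟨0, by omega⟩
    refine Crest.Agent.WLD.map_univ_eq_of_equiv _ _ f fun z => ?_
    have := key s _ _ (hf z) ⟨0, by omega⟩
    rwa [Function.update_self, Function.update_self] at this

/-- (6) fewer pebbles -/
theorem strat_mono {t t' : ℕ} (h : t' ≤ t) {G : V → V → Bool} {H : W → W → Bool}
    (Str : Strat t G H) : Nonempty (Strat t' G H) :=
  ⟨{ K := Str.K
     cls := Str.cls
     cls' := Str.cls'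
     St := Str.St
     map := Str.map
     map_cls := Str.map_cls
     ok := Str.ok
     mono := Str.mono
     adj := Str.adj
     ext := fun ψ P hok hc κ => Str.ext ψ P hok (lt_of_lt_of_le hc h) κ
     init := Str.init }⟩

end Crest.Agent.WL
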