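import Crest.Agent.WL.XF5

/-!
# Row 290, class recognition (XF6, chunk R290-XF-GAD): the classes of the gadget of a present check
-/

set_option autoImplicit false
set_option linter.unusedSectionVars false

namespace Crest.Agent.WL

namespace X

open Finset

variable {S : Sys} {b b' : S.C → ZMod 2} {t : ℕ}

def cT0 (c : S.C) (s : Fin 5) (p : V S) : Prop := p.2.val = 0 ∧ ∃ x, p.1 = V0.t0 c s x
def cT1 (c : S.C) (s : Fin 5) (p : V S) : Prop := p.2.val = 0 ∧ ∃ x y, p.1 = V0.t1 c s x y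
def cT2 (c : S.C) (s : Fin 5) (p : V S) : Prop := p.2.val = 0 ∧ ∃ x y z, p.1 = V0.t2 c s x y z
def cCo (c : S.C) (s : Fin 5) (p : V S) : Prop := p.2.val = 0 ∧ ∃ a, p.1 = V0.co c a s

/-- the vertex `(v, 0)` -/
def z0 (v : V0 S) : V S := (v, ⟨0, Nat.succ_pos _⟩)

theorem at_z0 (v : V0 S) : At v 0 (z0 v) := ⟨rfl, rfl⟩

theorem at_self {p : V S} (h : p.2.val = 0) : At p.1 0 p := ⟨rfl, h⟩

theorem eq_of_fst {p q : V S} (hp : p.2.val = 0) (hq : q.2.val = 0) (h : p.1 = q.1) : p = q := by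
  refine Prod.ext h (Fin.ext ?_)
  rw [hp, hq]

theorem pr1_cond {F : PebbleFam t (adj S b) (adj S b')} {A A' : V S → Prop} (P : Prop)
    (h : P → Pr1 F A A') : Pr1 F (fun u => P ∧ A u) (fun u => P ∧ A' u) := by
  intro x x' hx i
  constructor
  · rintro ⟨hP, ha⟩
    exact ⟨hP, (h hP x x' hx i).1 ha⟩
  · rintro ⟨hP, ha⟩
    exact ⟨hP, (h hP x x' hx i).2 ha⟩

theorem inc_lt (c : S.C) (s : Fin 5) : 2 * inc S c s + 1 < 10 * S.nC + 1 := by
  have h1 := (S.eC c).isLt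
  have h2 := s.isLt
  unfold inc
  omega

theorem inc_inj {c c' : S.C} {s s' : Fin 5} (h : inc S c s = inc S c' s') : c = c' ∧ s = s' := by
  have h2 := s.isLt
  have h3 := s'.isLt
  unfold inc at h
  have h4 : (S.eC c).val = (S.eC c').val := by omega
  refine ⟨S.eC.injective (Fin.ext h4), Fin.ext (by omega)⟩

theorem nC_pos (c : S.C) : 0 < S.nC := lt_of_le_of_lt (Nat.zero_le _) (S.eC c).isLt

/-- neighbours in the core, for vertices which are not junk and not tops and unmarked -/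
theorem adj_core (b : S.C → ZMod 2) {v : V0 S} {p q : V S} (hp : At v 0 p) (hj : ¬ Jt v)
    (hl : len S v = 0) : adj S b p q = true ↔ q.2.val = 0 ∧ adj0 S b v q.1 = true := by
  rw [adj_zero b hp]
  constructor
  · rintro (h | h | h)
    · exact h
    · exact absurd h.2 hj
    · exact absurd h.2 (by omega)
  · intro h
    exact Or.inl h

theorem adj_of_core (b : S.C → ZMod 2) {v : V0 S} {p q : V S} (hp : At v 0 p)
    (hq : q.2.val = 0) (h : adj0 S b v q.1 = true) : adj S b p q = true := by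
  rw [adj_zero b hp]
  exact Or.inl ⟨hq, h⟩

theorem not_jt_rl (e : S.E) (n : Fin (10 * S.nC + 1)) (x : ZMod 2) :
    ¬ Jt (V0.rl e n x : V0 S) := by
  rintro (h | ⟨e', h⟩)
  · simp [junk] at h
  · cases h

theorem not_jt_t0 {c : S.C} (hc : S.al c = true) (s : Fin 5) (x : ZMod 2) :
    ¬ Jt (V0.t0 c s x : V0 S) := by
  rintro (h | ⟨e', h⟩)
  · simp [junk, hc] at h
  · cases h

theorem not_jt_t1 {c : S.C} (hc : S.al c = true) (s : Fin 5) (x y : ZMod 2) :
    ¬ Jt (V0.t1 c s x y : V0 S) := by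
  rintro (h | ⟨e', h⟩)
  · simp [junk, hc] at h
  · cases h

theorem not_jt_t2 {c : S.C} (hc : S.al c = true) (s : Fin 5) (x y z : ZMod 2) :
    ¬ Jt (V0.t2 c s x y z : V0 S) := by
  rintro (h | ⟨e', h⟩)
  · simp [junk, hc] at h
  · cases h

theorem t0_char (b : S.C → ZMod 2) (c : S.C) (hc : S.al c = true) (s : Fin 5) (e : S.E)
    (hs : S.slot c s = some e) (p : V S) :
    cT0 c s p ↔ (((∃ z, adj S b p z = true ∧ cR e (2 * inc S c s) z) ∧
      ¬ cR e (2 * inc S c s + 1) p) ∧ ¬ (0 < 2 * inc S c s ∧ cR e (2 * inc S c s - 1) p)) ∧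
      ¬ ∃ z w, z ≠ w ∧ adj S b p z = true ∧ adj S b p w = true ∧
        cR e (2 * inc S c s) z ∧ cR e (2 * inc S c s) w := by
  have hn := inc_lt c s
  constructor
  · rintro ⟨h0, x, hx⟩
    have hp : At (V0.t0 c s x) 0 p := ⟨hx, h0⟩
    refine ⟨⟨⟨⟨z0 (V0.rl e ⟨2 * inc S c s, by omega⟩ x), ?_, rfl, _, x, rfl, rfl⟩, ?_⟩, ?_⟩, ?_⟩
    · refine adj_of_core b hp rfl ?_
      rw [adj0_t0]
      exact ⟨hc, Or.inr ⟨e, _, rfl, hs, rfl⟩⟩
    · rintro ⟨_, m, y, _, hy⟩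
      rw [hx] at hy; cases hy
    · rintro ⟨_, _, m, y, _, hy⟩
      rw [hx] at hy; cases hy
    · rintro ⟨z, w, hne, hz, hw, ⟨hz0, m, y, hm, hy⟩, ⟨hw0, m', y', hm', hy'⟩⟩
      have key : ∀ (q : V S) (m : Fin (10 * S.nC + 1)) (y : ZMod 2), adj S b p q = true →
          q.2.val = 0 → q.1 = V0.rl e m y → y = x := by
        intro q m y hq hq0 hq1
        rw [adj_zero b hp] at hq
        rcases hq with ⟨_, h⟩ | ⟨h, _⟩ | ⟨h, _⟩
        · rw [adj0_t0] at h
          rcases h.2 with ⟨y', h⟩ | ⟨e', n', h, _⟩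
          · rw [hq1] at h; cases h
          · rw [hq1] at h; cases h; rfl
        · have h' := h.2; omega
        · have h' := h.2; omega
      have h1 := key z m y hz hz0 hy
      have h2 := key w m' y' hw hw0 hy'
      refine hne (eq_of_fst hz0 hw0 ?_)
      rw [hy, hy', h1, h2]
      have : m = m' := Fin.ext (by rw [hm, hm'])
      rw [this]
  · rintro ⟨⟨⟨⟨z, hpz, hz0, m, x, hm, hz1⟩, h1⟩, h2⟩, h3⟩
    rw [adj_comm] at hpz
    have hl : len S (V0.rl e m x : V0 S) = 0 := by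
      have : ¬ (m.val % 2 = 1) := by omega
      simp [len, this]
    rw [adj_core b (v := V0.rl e m x) ⟨hz1, hz0⟩ (not_jt_rl e m x) hl, adj0_rl] at hpz
    obtain ⟨hp0, ⟨n', hp1, hn'⟩ | ⟨c', s', hp1, _, _, hinc⟩ | ⟨hp1, hm0⟩⟩ := hpz
    · exfalso
      rcases hn' with hn' | hn'
      · exact h1 ⟨hp0, n', x, by omega, hp1⟩
      · exact h2 ⟨by omega, hp0, n', x, by omega, hp1⟩
    · obtain ⟨e1, e2⟩ := inc_inj (S := S) (c := c') (c' := c) (s := s') (s' := s) (by omega)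
      subst e1; subst e2
      exact ⟨hp0, x, hp1⟩
    · exfalso
      refine h3 ⟨z0 (V0.rl e m 0), z0 (V0.rl e m 1), ?_, ?_, ?_, ⟨rfl, m, 0, hm, rfl⟩,
        ⟨rfl, m, 1, hm, rfl⟩⟩
      · intro h
        have := congrArg Prod.fst h
        simp [z0] at this
      · exact adj_of_core b (v := V0.tp e) ⟨hp1, hp0⟩ rfl
          ((adj0_tp b e _).2 ⟨m, 0, rfl, hm0⟩)
      · exact adj_of_core b (v := V0.tp e) ⟨hp1, hp0⟩ rfl
          ((adj0_tp b e _).2 ⟨m, 1, rfl, hm0⟩)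

/-- CHUNK R290-XF-GAD. missing slot: `pr_t0_none` for both values.  Slot `e`: with `n = 2 inc c s < 10 nC`: adjacent to
`cR e n`, not in `cR e (n+1)`, not in `cR e (n-1)` (if `n > 0`), `NP`, and NOT adjacent to two different vertices of
`cR e n` (this excludes `tp e` for `n = 0`). -/
theorem pr_t0 (ht : 3 ≤ t) (F : PebbleFam t (adj S b) (adj S b')) (c : S.C) (hc : S.al c = true)
    (s : Fin 5) : Pr1 F (cT0 c s) (cT0 c s) := by
  have hn := inc_lt c s
  have h0 := nC_pos c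
  cases hs : S.slot c s with
  | none =>
    have h := Pr1.iEx (F := F) (fun x => pr_t0_none ht F c hc s hs x)
    refine h.congr (fun u => ?_) (fun u => ?_)
    · constructor
      · rintro ⟨h1, x, h2⟩; exact ⟨x, h2, h1⟩
      · rintro ⟨x, h2, h1⟩; exact ⟨h1, x, h2⟩
    · constructor
      · rintro ⟨h1, x, h2⟩; exact ⟨x, h2, h1⟩
      · rintro ⟨x, h2, h1⟩; exact ⟨h1, x, h2⟩
  | some e =>
    have hR := pr_rl ht F h0 e (2 * inc S c s) (by omega)
    have hA := ((Pr1.nb ht hR).and (pr_rl ht F h0 e (2 * inc S c s + 1) (by omega)).not).and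
      (pr1_cond (F := F) (0 < 2 * inc S c s)
        (fun _ => pr_rl ht F h0 e (2 * inc S c s - 1) (by omega))).not
    have hB := hA.and (Pr1.two ht hR).not
    exact hB.congr (fun u => t0_char b c hc s e hs u) (fun u => t0_char b' c hc s e hs u)

theorem t1_char (b : S.C → ZMod 2) (c : S.C) (hc : S.al c = true) (s : Fin 5) (p : V S) :
    cT1 c s p ↔ ((∃ z, adj S b p z = true ∧ cT0 c s z) ∧ NP p) ∧
      ∀ e, S.slot c s = some e → ¬ cR e (2 * inc S c s) p := by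
  constructor
  · rintro ⟨h0, x, y, hx⟩
    refine ⟨⟨⟨z0 (V0.t0 c s x), ?_, rfl, x, rfl⟩, ?_⟩, ?_⟩
    · refine adj_of_core b (v := V0.t1 c s x y) ⟨hx, h0⟩ rfl ?_
      rw [adj0_t1]
      exact ⟨hc, Or.inl rfl⟩
    · rintro ⟨h, _⟩
      omega
    · rintro e _ ⟨_, m, y', _, hy⟩
      rw [hx] at hy; cases hy
  · rintro ⟨⟨⟨z, hpz, hz0, x, hz1⟩, hNP⟩, hR⟩
    rw [adj_comm, adj_zero b (v := V0.t0 c s x) ⟨hz1, hz0⟩] at hpz
    rcases hpz with ⟨hp0, h⟩ | ⟨_, h⟩ | ⟨⟨hp1, hp3⟩, h⟩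
    · rw [adj0_t0] at h
      rcases h.2 with ⟨y, h⟩ | ⟨e, n, h, hs, hn⟩
      · exact ⟨hp0, x, y, h⟩
      · exact absurd ⟨hp0, n, x, hn, h⟩ (hR e hs)
    · exact absurd h (not_jt_t0 hc s x)
    · exfalso
      apply hNP
      have h3 := len_pos_three (S := S) p.1
      have h4 := len_lt' (S := S) p.1
      rw [← hp1] at h
      have hpos : pos p = len S p.1 := by
        unfold pos
        rw [if_pos (by omega)]
        omega
      refine ⟨by omega, by omega, ?_⟩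
      rw [hpos]
      unfold M
      omega

/-- CHUNK R290-XF-GAD. adjacent to `cT0 c s`, `NP`, and not in `cR e (2 inc c s)` if slot `s` of `c` is `e` -/
theorem pr_t1 (ht : 3 ≤ t) (F : PebbleFam t (adj S b) (adj S b')) (c : S.C) (hc : S.al c = true)
    (s : Fin 5) : Pr1 F (cT1 c s) (cT1 c s) := by
  have hn := inc_lt c s
  have h0 := nC_pos c
  have h1 := (Pr1.nb ht (pr_t0 ht F c hc s)).and (pr_NP ht F)
  have h2 : Pr1 F (fun p => ∀ e, S.slot c s = some e → ¬ cR e (2 * inc S c s) p)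
      (fun p => ∀ e, S.slot c s = some e → ¬ cR e (2 * inc S c s) p) := by
    intro x x' hx i
    refine forall_congr' fun e => ?_
    refine imp_congr_right fun _ => ?_
    exact not_congr (pr_rl ht F h0 e (2 * inc S c s) (by omega) x x' hx i)
  exact (h1.and h2).congr (fun u => t1_char b c hc s u) (fun u => t1_char b' c hc s u)

theorem t2_char (b : S.C → ZMod 2) (c : S.C) (hc : S.al c = true) (s : Fin 5) (p : V S) :
    cT2 c s p ↔ (∃ z, adj S b p z = true ∧ cT1 c s z) ∧ ¬ cT0 c s p := by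
  constructor
  · rintro ⟨h0, x, y, z, hx⟩
    refine ⟨⟨z0 (V0.t1 c s x y), ?_, rfl, x, y, rfl⟩, ?_⟩
    · refine adj_of_core b (v := V0.t2 c s x y z) ⟨hx, h0⟩ rfl ?_
      rw [adj0_t2]
      exact ⟨hc, Or.inl rfl⟩
    · rintro ⟨_, x', hx'⟩
      rw [hx] at hx'; cases hx'
  · rintro ⟨⟨q, hpq, hq0, x, y, hq1⟩, h0⟩
    rw [adj_comm, adj_core b (v := V0.t1 c s x y) ⟨hq1, hq0⟩ (not_jt_t1 hc s x y) rfl,
      adj0_t1] at hpq
    obtain ⟨hp0, _, h | ⟨z, h⟩⟩ := hpq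
    · exact absurd ⟨hp0, x, h⟩ h0
    · exact ⟨hp0, x, y, z, h⟩

/-- CHUNK R290-XF-GAD. adjacent to `cT1 c s`, not in `cT0 c s` -/
theorem pr_t2 (ht : 3 ≤ t) (F : PebbleFam t (adj S b) (adj S b')) (c : S.C) (hc : S.al c = true)
    (s : Fin 5) : Pr1 F (cT2 c s) (cT2 c s) :=
  ((Pr1.nb ht (pr_t1 ht F c hc s)).and (pr_t0 ht F c hc s).not).congr
    (fun u => t2_char b c hc s u) (fun u => t2_char b' c hc s u)

theorem co_char (b : S.C → ZMod 2) (c : S.C) (hc : S.al c = true) (s : Fin 5) (p : V S) :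
    cCo c s p ↔ (∃ z, adj S b p z = true ∧ cT2 c s z) ∧ ¬ cT1 c s p := by
  constructor
  · rintro ⟨h0, a, hx⟩
    refine ⟨⟨z0 (V0.t2 c s (full S b c a s) (full S b c a (s + 1)) (full S b c a (s + 2))),
      ?_, rfl, _, _, _, rfl⟩, ?_⟩
    · refine adj_of_core b (v := V0.co c a s) ⟨hx, h0⟩ rfl ?_
      rw [adj0_co]
      exact ⟨hc, Or.inr rfl⟩
    · rintro ⟨_, x', y', hx'⟩
      rw [hx] at hx'; cases hx'
  · rintro ⟨⟨q, hpq, hq0, x, y, z, hq1⟩, h0⟩
    rw [adj_comm, adj_core b (v := V0.t2 c s x y z) ⟨hq1, hq0⟩ (not_jt_t2 hc s x y z) rfl,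
      adj0_t2] at hpq
    obtain ⟨hp0, _, h | ⟨a, h, _⟩⟩ := hpq
    · exact absurd ⟨hp0, x, y, h⟩ h0
    · exact ⟨hp0, a, h⟩

/-- CHUNK R290-XF-GAD. adjacent to `cT2 c s`, not in `cT1 c s` -/
theorem pr_co (ht : 3 ≤ t) (F : PebbleFam t (adj S b) (adj S b')) (c : S.C) (hc : S.al c = true)
    (s : Fin 5) : Pr1 F (cCo c s) (cCo c s) :=
  ((Pr1.nb ht (pr_t2 ht F c hc s)).and (pr_t1 ht F c hc s).not).congr
    (fun u => co_char b c hc s u) (fun u => co_char b' c hc s u)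

end X

end Crest.Agent.WL
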