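import Crest.Agent.WL.GraphX
import Mathlib.Logic.Equiv.Basic
import Mathlib.Algebra.BigOperators.Fin

/-!
# CHUNK R290-XS0: the shift of the graph `X` given by a valuation of the bits

`z : S.E → ZMod 2` valuation, `tw` the difference of the right-hand sides.  `sh z tw c s` = shift of slot `s` of the
check `c`: the value of the bit, corrected in the slot `s0 c` so that the total is `tw c`.
`mp z tw` shifts every vertex by its local shift (absent checks: identity; bits which occur in no present check:
identity).  `mpV` is the extension to the whole graph.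
-/

set_option autoImplicit false

namespace Crest.Agent.WL

namespace X

open Finset

variable (S : Sys)

open Classical in
/-- A slot holding a bit. -/
noncomputable def s0 (c : S.C) : Fin 5 :=
  if h : S.al c = true then (S.slot_ex c h).choose else 0

/-- Local shift of a check. -/
noncomputable def sh (z : S.E → ZMod 2) (tw : S.C → ZMod 2) (c : S.C) (s : Fin 5) : ZMod 2 :=
  S.sv z c s + if s = s0 S c then S.bd z c + tw c else 0

/-- A bit is used if it occurs in a present check. -/
def Used (e : S.E) : Prop := ∃ c s, S.al c = true ∧ S.slot c s = some e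

open Classical in
/-- Shift of a bit. -/
noncomputable def zu (z : S.E → ZMod 2) (e : S.E) : ZMod 2 := if Used S e then z e else 0

/-- The shift on the core. -/
noncomputable def mp (z : S.E → ZMod 2) (tw : S.C → ZMod 2) : V0 S → V0 S
  | V0.co c a s => if S.al c = true then
      V0.co c (fun i => a i + sh S z tw c ⟨i.val, by omega⟩) s else V0.co c a s
  | V0.t0 c s x => if S.al c = true then V0.t0 c s (x + sh S z tw c s) else V0.t0 c s x
  | V0.t1 c s x y => if S.al c = true then
      V0.t1 c s (x + sh S z tw c s) (y + sh S z tw c (s + 1)) else V0.t1 c s x y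
  | V0.t2 c s x y y' => if S.al c = true then
      V0.t2 c s (x + sh S z tw c s) (y + sh S z tw c (s + 1)) (y' + sh S z tw c (s + 2))
      else V0.t2 c s x y y'
  | V0.rl e n x => V0.rl e n (x + zu S z e)
  | V0.tp e => V0.tp e

/-- The shift on the whole graph: `v` and its own pendant path move, the rest is fixed. -/
noncomputable def mpV (z : S.E → ZMod 2) (tw : S.C → ZMod 2) (p : V S) : V S :=
  if p.2.val = 0 ∨ (3 ≤ p.2.val ∧ p.2.val < 3 + len S p.1) then (mp S z tw p.1, p.2) else p

/-- Class of a vertex of the core: assignment erased. -/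
def cls0 : V0 S → V0 S
  | V0.co c _ s => V0.co c 0 s
  | V0.t0 c s _ => V0.t0 c s 0
  | V0.t1 c s _ _ => V0.t1 c s 0 0
  | V0.t2 c s _ _ _ => V0.t2 c s 0 0 0
  | V0.rl e n _ => V0.rl e n 0
  | V0.tp e => V0.tp e

/-- Class of a vertex. -/
def cls (p : V S) : V S := (cls0 S p.1, p.2)

variable {S}

theorem s0_spec (c : S.C) (h : S.al c = true) : ∃ e, S.slot c (s0 S c) = some e := by
  unfold s0
  rw [dif_pos h]
  exact (S.slot_ex c h).choose_spec

theorem sum_sh (z : S.E → ZMod 2) (tw : S.C → ZMod 2) (c : S.C) :
    ∑ s, sh S z tw c s = tw c := by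
  unfold sh
  rw [Finset.sum_add_distrib, Finset.sum_ite_eq' Finset.univ (s0 S c) (fun _ => S.bd z c + tw c),
    if_pos (Finset.mem_univ _)]
  change S.bd z c + (S.bd z c + tw c) = tw c
  rw [← add_assoc, CharTwo.add_self_eq_zero, zero_add]

theorem sh_miss (z : S.E → ZMod 2) (tw : S.C → ZMod 2) (c : S.C) (h : S.al c = true) (s : Fin 5)
    (hs : S.slot c s = none) : sh S z tw c s = 0 := by
  have hne : s ≠ s0 S c := by
    intro he
    obtain ⟨e, h'⟩ := s0_spec c h
    rw [← he, hs] at h'
    cases h'
  unfold sh
  rw [if_neg hne, add_zero]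
  unfold Sys.sv
  rw [hs]

theorem sh_sat (z : S.E → ZMod 2) (tw : S.C → ZMod 2) (c : S.C) (s : Fin 5) (e : S.E)
    (hs : S.slot c s = some e) (hb : S.bd z c = tw c) : sh S z tw c s = z e := by
  unfold sh
  rw [hb, CharTwo.add_self_eq_zero, ite_self, add_zero]
  unfold Sys.sv
  rw [hs]

theorem aa2 (x y : ZMod 2) : x + y + y = x := by
  rw [add_assoc, CharTwo.add_self_eq_zero, add_zero]

theorem mp_invol (z : S.E → ZMod 2) (tw : S.C → ZMod 2) : Function.Involutive (mp S z tw) := by
  intro v
  cases v with
  | co c a s => by_cases h : S.al c = true <;> simp [mp, h, aa2]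
  | t0 c s x => by_cases h : S.al c = true <;> simp [mp, h, aa2]
  | t1 c s x y => by_cases h : S.al c = true <;> simp [mp, h, aa2]
  | t2 c s x y y' => by_cases h : S.al c = true <;> simp [mp, h, aa2]
  | rl e n x => simp [mp, aa2]
  | tp e => simp [mp]

theorem full_mp (b : S.C → ZMod 2) (z : S.E → ZMod 2) (tw : S.C → ZMod 2) (c : S.C)
    (a : Fin 4 → ZMod 2) (s : Fin 5) :
    full S (fun c => b c + tw c) c (fun i => a i + sh S z tw c ⟨i.val, by omega⟩) s =
      full S b c a s + sh S z tw c s := by
  unfold full
  by_cases h : s.val < 4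
  · rw [dif_pos h, dif_pos h]
  · rw [dif_neg h, dif_neg h]
    have hs : s = 4 := by
      apply Fin.ext
      have := s.isLt
      show s.val = 4
      omega
    have h5 := sum_sh (S := S) z tw c
    rw [Fin.sum_univ_five] at h5
    subst hs
    show b c + tw c + ((a 0 + sh S z tw c 0) + (a 1 + sh S z tw c 1) + (a 2 + sh S z tw c 2) +
      (a 3 + sh S z tw c 3)) = b c + (a 0 + a 1 + a 2 + a 3) + sh S z tw c 4
    rw [← h5]
    generalize sh S z tw c 0 = x0
    generalize sh S z tw c 1 = x1
    generalize sh S z tw c 2 = x2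
    generalize sh S z tw c 3 = x3
    generalize sh S z tw c 4 = x4
    generalize a 0 = a0
    generalize a 1 = a1
    generalize a 2 = a2
    generalize a 3 = a3
    generalize b c = bc
    have h0 := CharTwo.add_self_eq_zero x0
    have h1 := CharTwo.add_self_eq_zero x1
    have h2 := CharTwo.add_self_eq_zero x2
    have h3 := CharTwo.add_self_eq_zero x3
    linear_combination h0 + h1 + h2 + h3

theorem len_mp (z : S.E → ZMod 2) (tw : S.C → ZMod 2) (v : V0 S) : len S (mp S z tw v) = len S v := by
  cases v with
  | co c a s => by_cases h : S.al c = true <;> simp [mp, h, len]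
  | t0 c s x =>
    by_cases h : S.al c = true
    · by_cases hn : S.slot c s = none
      · have := sh_miss z tw c h s hn
        simp [mp, h, len, this]
      · simp [mp, h, len, hn]
    · simp [mp, h, len]
  | t1 c s x y => by_cases h : S.al c = true <;> simp [mp, h, len]
  | t2 c s x y y' => by_cases h : S.al c = true <;> simp [mp, h, len]
  | rl e n x => simp [mp, len]
  | tp e => simp [mp, len]

theorem junk_mp (z : S.E → ZMod 2) (tw : S.C → ZMod 2) (v : V0 S) :
    junk S (mp S z tw v) = junk S v := by
  cases v with
  | co c a s => by_cases h : S.al c = true <;> simp [mp, h, junk]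
  | t0 c s x => by_cases h : S.al c = true <;> simp [mp, h, junk]
  | t1 c s x y => by_cases h : S.al c = true <;> simp [mp, h, junk]
  | t2 c s x y y' => by_cases h : S.al c = true <;> simp [mp, h, junk]
  | rl e n x => simp [mp, junk]
  | tp e => simp [mp, junk]

theorem mp_junk (z : S.E → ZMod 2) (tw : S.C → ZMod 2) (v : V0 S) (h : junk S v = true) :
    mp S z tw v = v := by
  cases v with
  | co c a s =>
    have h' : S.al c = false := by simpa [junk] using h
    simp [mp, h']
  | t0 c s x =>
    have h' : S.al c = false := by simpa [junk] using h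
    simp [mp, h']
  | t1 c s x y =>
    have h' : S.al c = false := by simpa [junk] using h
    simp [mp, h']
  | t2 c s x y y' =>
    have h' : S.al c = false := by simpa [junk] using h
    simp [mp, h']
  | rl e n x => simp [junk] at h
  | tp e => simp [junk] at h

theorem cls0_mp (z : S.E → ZMod 2) (tw : S.C → ZMod 2) (v : V0 S) :
    cls0 S (mp S z tw v) = cls0 S v := by
  cases v with
  | co c a s => by_cases h : S.al c = true <;> simp [mp, h, cls0]
  | t0 c s x => by_cases h : S.al c = true <;> simp [mp, h, cls0]
  | t1 c s x y => by_cases h : S.al c = true <;> simp [mp, h, cls0]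
  | t2 c s x y y' => by_cases h : S.al c = true <;> simp [mp, h, cls0]
  | rl e n x => simp [mp, cls0]
  | tp e => simp [mp, cls0]

theorem mpV_invol (z : S.E → ZMod 2) (tw : S.C → ZMod 2) : Function.Involutive (mpV S z tw) := by
  intro p
  by_cases h : p.2.val = 0 ∨ (3 ≤ p.2.val ∧ p.2.val < 3 + len S p.1)
  · have h1 : mpV S z tw p = (mp S z tw p.1, p.2) := by
      unfold mpV
      rw [if_pos h]
    rw [h1]
    unfold mpV
    rw [if_pos (by simpa [len_mp] using h)]
    show (mp S z tw (mp S z tw p.1), p.2) = p
    rw [mp_invol z tw p.1]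
  · have h1 : mpV S z tw p = p := by
      unfold mpV
      rw [if_neg h]
    rw [h1, h1]

theorem cls_mpV (z : S.E → ZMod 2) (tw : S.C → ZMod 2) (p : V S) :
    cls S (mpV S z tw p) = cls S p := by
  unfold mpV
  split_ifs
  · unfold cls
    show (cls0 S (mp S z tw p.1), p.2) = _
    rw [cls0_mp]
  · rfl

/-- The only edges that are not preserved join a rail vertex and a tree root of a violated check. -/
def Risk (z : S.E → ZMod 2) (tw : S.C → ZMod 2) (p q : V S) : Prop :=
  p.2.val = 0 ∧ q.2.val = 0 ∧ ∃ e n x c s x', p.1 = V0.rl e n x ∧ q.1 = V0.t0 c s x' ∧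
    S.al c = true ∧ S.slot c s = some e ∧ S.bd z c ≠ tw c

end X

end Crest.Agent.WL
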