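import Crest.Agent.WL.GraphX
import Crest.Agent.WL.XStrat0

/-!
# Row 290, class recognition in the graph `X`: definitions used outside
-/

set_option autoImplicit false

namespace Crest.Agent.WL

namespace X

open Finset

variable {S : Sys}

/-- Shift between two core vertices. -/
def dl (b b' : S.C → ZMod 2) (c : S.C) (a a' : Fin 4 → ZMod 2) (s : Fin 5) : ZMod 2 :=
  full S b c a s + full S b' c a' s

/-- Shift of a vertex of the gadget of `c` (or of a rail of one of its bits) by `δ : Fin 5 → ZMod 2`. -/
def shG (c : S.C) (δ : Fin 5 → ZMod 2) : V0 S → V0 S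
  | V0.co c' a s => if c' = c then V0.co c' (fun i => a i + δ ⟨i.val, by omega⟩) s else V0.co c' a s
  | V0.t0 c' s x => if c' = c then V0.t0 c' s (x + δ s) else V0.t0 c' s x
  | V0.t1 c' s x y => if c' = c then V0.t1 c' s (x + δ s) (y + δ (s + 1)) else V0.t1 c' s x y
  | V0.t2 c' s x y z => if c' = c then V0.t2 c' s (x + δ s) (y + δ (s + 1)) (z + δ (s + 2))
      else V0.t2 c' s x y z
  | V0.rl e n x => V0.rl e n (x + ∑ s : Fin 5, if S.slot c s = some e then δ s else 0)
  | V0.tp e => V0.tp e

/-- Vertices controlled by a pebble on a core of `c`: its gadget and the rails of its bits. -/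
def Loc (c : S.C) : V0 S → Prop
  | V0.co c' _ _ => c' = c
  | V0.t0 c' _ _ => c' = c
  | V0.t1 c' _ _ _ => c' = c
  | V0.t2 c' _ _ _ _ => c' = c
  | V0.rl e _ _ => ∃ s, S.slot c s = some e
  | V0.tp _ => False

open Classical in
/-- Refined class of a vertex: junk, missing roots, tops, the spine and the spine's pendant paths are rigid. -/
noncomputable def clX (p : V S) : V S :=
  if junk S p.1 = true ∨ (∃ c s x, p.1 = V0.t0 c s x ∧ S.slot c s = none) ∨
      ¬ (p.2.val = 0 ∨ (3 ≤ p.2.val ∧ p.2.val < 3 + len S p.1)) then p else (cls0 S p.1, p.2)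

end X

end Crest.Agent.WL
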