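import Crest.Agent.WL.XF11
import Crest.Agent.WL.XF6
import Crest.Agent.WL.XFDefs

/-!
# Row 290, class recognition (XF12, chunk R290-XF-CLX): all refined classes are preserved
-/

set_option autoImplicit false
set_option linter.unusedSectionVars false

namespace Crest.Agent.WL

namespace X

open Finset

variable {S : Sys} {t : ℕ}

/-- missing root -/
def xf12Miss (v : V0 S) : Prop := ∃ c s x, v = V0.t0 c s x ∧ S.slot c s = none

/-- rigid vertices -/
def xf12Rig (p : V S) : Prop := junk S p.1 = true ∨ xf12Miss p.1 ∨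
      ¬ (p.2.val = 0 ∨ (3 ≤ p.2.val ∧ p.2.val < 3 + len S p.1))

theorem xf12_of_rig {p : V S} (h : xf12Rig p) : clX p = p := by
  unfold clX
  exact if_pos h

theorem xf12_of_not {p : V S} (h : ¬ xf12Rig p) : clX p = (cls0 S p.1, p.2) := by
  unfold clX
  exact if_neg h

theorem xf12_junk_cls0 (v : V0 S) : junk S (cls0 S v) = junk S v := by
  cases v <;> rfl

theorem xf12_miss_cls0 (v : V0 S) : xf12Miss (cls0 S v) ↔ xf12Miss v := by
  unfold xf12Miss
  cases v <;> simp [cls0]

theorem xf12_len_cls0 (v : V0 S) (h : ¬ xf12Miss v) : len S (cls0 S v) = len S v := by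
  cases v with
  | co c a s => rfl
  | t0 c s x =>
    have hs : S.slot c s ≠ none := fun hs => h ⟨c, s, x, rfl, hs⟩
    simp [len, cls0, hs]
  | t1 c s x y => rfl
  | t2 c s x y z => rfl
  | rl e n x => rfl
  | tp e => rfl

theorem xf12_len_junk (v : V0 S) (h : junk S v = true) : len S v = 0 := by
  cases v with
  | co c a s =>
    have : S.al c ≠ true := by
      simp only [junk] at h
      intro h'
      rw [h'] at h
      cases h
    simp [len, this]
  | t0 c s x =>
    have : S.al c ≠ true := by
      simp only [junk] at h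
      intro h'
      rw [h'] at h
      cases h
    simp [len, this]
  | t1 c s x y => rfl
  | t2 c s x y z => rfl
  | rl e n x => cases h
  | tp e => rfl

theorem xf12_same {p q : V S} (hp : ¬ xf12Rig p) (h2 : q.2.val = p.2.val)
    (hc : cls0 S q.1 = cls0 S p.1) : clX q = clX p := by
  have hq : ¬ xf12Rig q := by
    intro h
    apply hp
    have hj : junk S q.1 = junk S p.1 := by
      rw [← xf12_junk_cls0 q.1, hc, xf12_junk_cls0]
    have hm : xf12Miss q.1 ↔ xf12Miss p.1 := by
      rw [← xf12_miss_cls0 q.1, hc, xf12_miss_cls0]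
    rcases h with h | h | h
    · exact Or.inl (hj ▸ h)
    · exact Or.inr (Or.inl (hm.1 h))
    · by_cases hmp : xf12Miss p.1
      · exact Or.inr (Or.inl hmp)
      · have hl : len S q.1 = len S p.1 := by
          rw [← xf12_len_cls0 q.1 (fun h => hmp (hm.1 h)), hc, xf12_len_cls0 p.1 hmp]
        rw [h2, hl] at h
        exact Or.inr (Or.inr h)
  rw [xf12_of_not hp, xf12_of_not hq, hc]
  exact Prod.ext rfl (Fin.ext h2)

theorem xf12_rigid {b b' : S.C → ZMod 2} {F : PebbleFam t (adj S b) (adj S b')}
    {x x' : Fin t → V S} (hx : F.R x x') (i : Fin t) (v : V0 S) (n : ℕ) (hi : At v n (x i))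
    (h : Pr1 F (At v n) (At v n)) : x' i = x i := by
  have h1 := (h x x' hx i).1 hi
  exact Prod.ext (h1.1.trans hi.1.symm) (Fin.ext (h1.2.trans hi.2.symm))

theorem xf12_al {c : S.C} (h : ¬ (!S.al c) = true) : S.al c = true := by
  cases hh : S.al c with
  | true => rfl
  | false => rw [hh] at h; exact absurd rfl h

theorem xf12_gen (ht : 3 ≤ t) (b b' : S.C → ZMod 2)
    (F : PebbleFam t (adj S b) (adj S b'))
    (hrl : ∀ e n, n < 10 * S.nC + 1 → Pr1 F (cR e n) (cR e n))
    (x x' : Fin t → V S) (hx : F.R x x') (i : Fin t) :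
    clX (x' i) = clX (x i) := by
  have hlt := (x i).2.isLt
  by_cases hr : xf12Rig (x i)
  · suffices hs : x' i = x i by rw [hs]
    by_cases h0 : (x i).2.val = 0
    · rcases hr with hj | ⟨c, s, y, hv, hs⟩ | h
      · exact xf12_rigid hx i (x i).1 0 ⟨rfl, h0⟩ (pr_jt ht F _ (Or.inl hj))
      · by_cases hc : S.al c = true
        · exact xf12_rigid hx i (V0.t0 c s y) 0 ⟨hv, h0⟩ (pr_t0_none ht F c hc s hs y)
        · have hj : junk S (x i).1 = true := by
            rw [hv]
            simp only [junk]
            simp [hc]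
          exact xf12_rigid hx i (x i).1 0 ⟨rfl, h0⟩ (pr_jt ht F _ (Or.inl hj))
      · exact absurd (Or.inl h0) h
    · by_cases h1 : (x i).2.val = 1
      · exact xf12_rigid hx i (x i).1 1 ⟨rfl, h1⟩ (pr_at_one_two ht F _).1
      by_cases h2 : (x i).2.val = 2
      · exact xf12_rigid hx i (x i).1 2 ⟨rfl, h2⟩ (pr_at_one_two ht F _).2
      by_cases hl : (x i).2.val < 3 + len S (x i).1
      · rcases hr with hj | ⟨c, s, y, hv, hs⟩ | h
        · have := xf12_len_junk _ hj
          omega
        · by_cases hc : S.al c = true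
          · have hlen := len_pos_three (S := S) (x i).1
            have h3 := pr_own_pend ht F (fun w => w = V0.t0 c s y) (len S (V0.t0 c s y))
              (by rw [hv] at hl hlen; omega) (fun v hv => by rw [hv])
              ((pr_t0_none ht F c hc s hs y).congr (fun u => and_comm) (fun u => and_comm))
              ((x i).2.val - 3) (by rw [hv] at hl; omega)
            refine xf12_rigid hx i (V0.t0 c s y) (3 + ((x i).2.val - 3)) ⟨hv, by omega⟩ ?_
            exact h3.congr (fun u => and_comm) (fun u => and_comm)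
          · have hj : junk S (x i).1 = true := by
              rw [hv]
              simp only [junk]
              simp [hc]
            have := xf12_len_junk _ hj
            omega
        · exact absurd (Or.inr ⟨by omega, hl⟩) h
      · exact xf12_rigid hx i (x i).1 (3 + len S (x i).1 + ((x i).2.val - (3 + len S (x i).1)))
          ⟨rfl, by omega⟩ (pr_spine_pend ht F _ _ (by omega))
  · have hnj : ¬ junk S (x i).1 = true := fun h => hr (Or.inl h)
    have hnm : ¬ xf12Miss (x i).1 := fun h => hr (Or.inr (Or.inl h))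
    have hn : (x i).2.val = 0 ∨ (3 ≤ (x i).2.val ∧ (x i).2.val < 3 + len S (x i).1) := by
      by_contra h
      exact hr (Or.inr (Or.inr h))
    rcases hn with h0 | ⟨h3, hl⟩
    · rcases hv : (x i).1 with ⟨c, a, s⟩ | ⟨c, s, y⟩ | ⟨c, s, y, z⟩ | ⟨c, s, y, z, w⟩ |
        ⟨e, n, y⟩ | ⟨e⟩
      · have hc : S.al c = true := by
          rw [hv] at hnj
          exact xf12_al hnj
        obtain ⟨h0', a', hv'⟩ := (pr_co ht F c hc s x x' hx i).1 ⟨h0, a, hv⟩
        exact xf12_same hr (h0'.trans h0.symm) (by rw [hv', hv]; rfl)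
      · have hc : S.al c = true := by
          rw [hv] at hnj
          exact xf12_al hnj
        obtain ⟨h0', a', hv'⟩ := (pr_t0 ht F c hc s x x' hx i).1 ⟨h0, y, hv⟩
        exact xf12_same hr (h0'.trans h0.symm) (by rw [hv', hv]; rfl)
      · have hc : S.al c = true := by
          rw [hv] at hnj
          exact xf12_al hnj
        obtain ⟨h0', a', a'', hv'⟩ := (pr_t1 ht F c hc s x x' hx i).1 ⟨h0, y, z, hv⟩
        exact xf12_same hr (h0'.trans h0.symm) (by rw [hv', hv]; rfl)
      · have hc : S.al c = true := by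
          rw [hv] at hnj
          exact xf12_al hnj
        obtain ⟨h0', a', a'', a3, hv'⟩ := (pr_t2 ht F c hc s x x' hx i).1 ⟨h0, y, z, w, hv⟩
        exact xf12_same hr (h0'.trans h0.symm) (by rw [hv', hv]; rfl)
      · obtain ⟨h0', m', y', hm', hv'⟩ := (hrl e n.val n.isLt x x' hx i).1 ⟨h0, n, y, rfl, hv⟩
        have hmn : m' = n := Fin.ext hm'
        exact xf12_same hr (h0'.trans h0.symm) (by rw [hv', hv, hmn]; rfl)
      · have h4 := xf12_rigid hx i (V0.tp e) 0 ⟨hv, h0⟩ (pr_jt ht F _ (Or.inr ⟨e, rfl⟩))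
        rw [h4]
    · rcases hv : (x i).1 with ⟨c, a, s⟩ | ⟨c, s, y⟩ | ⟨c, s, y, z⟩ | ⟨c, s, y, z, w⟩ |
        ⟨e, n, y⟩ | ⟨e⟩
      · have hc : S.al c = true := by
          rw [hv] at hnj
          exact xf12_al hnj
        have hs : s = 0 := by
          by_contra hs
          rw [hv] at hl
          simp only [len, hs, and_false, if_false] at hl
          omega
        subst hs
        have hlen : len S (V0.co c a 0 : V0 S) = 3 + (S.eC c).val := by
          simp [len, hc]
        have h5 := pr_own_pend ht F (fun w => ∃ a, w = V0.co c a 0) (3 + (S.eC c).val)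
          (by omega) (by rintro v ⟨a, rfl⟩; simp [len, hc]) (pr_co ht F c hc 0)
          ((x i).2.val - 3) (by rw [hv, hlen] at hl; omega)
        obtain ⟨h0', a', hv'⟩ := (h5 x x' hx i).1 ⟨by omega, a, hv⟩
        exact xf12_same hr (by omega) (by rw [hv', hv]; rfl)
      · exfalso
        rw [hv] at hl
        have hs : S.slot c s ≠ none := fun hs => hnm ⟨c, s, y, hv, hs⟩
        simp only [len, hs, and_false, if_false] at hl
        omega
      · exfalso
        rw [hv] at hl
        simp only [len] at hl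
        omega
      · exfalso
        rw [hv] at hl
        simp only [len] at hl
        omega
      · have hodd : n.val % 2 = 1 := by
          by_contra hodd
          rw [hv] at hl
          simp only [len, hodd, if_false] at hl
          omega
        have hlen : len S (V0.rl e n y : V0 S) =
            3 + S.nC + ((10 * S.nC + 1) * (S.eE e).val + n.val) := by
          simp [len, hodd]
        have h5 := pr_own_pend ht F
          (fun w => ∃ (m : Fin (10 * S.nC + 1)) (x : ZMod 2), m.val = n.val ∧ w = V0.rl e m x)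
          (3 + S.nC + ((10 * S.nC + 1) * (S.eE e).val + n.val))
          (by omega) (by
            rintro v ⟨m, y, hm, rfl⟩
            have hmn : m = n := Fin.ext hm
            rw [hmn]
            simp [len, hodd]) (hrl e n.val n.isLt)
          ((x i).2.val - 3) (by rw [hv, hlen] at hl; omega)
        obtain ⟨h0', m', y', hm', hv'⟩ := (h5 x x' hx i).1 ⟨by omega, n, y, rfl, hv⟩
        have hmn : m' = n := Fin.ext hm'
        exact xf12_same hr (by omega) (by rw [hv', hv, hmn]; rfl)
      · exfalso
        rw [hv] at hl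
        simp only [len] at hl
        omega

/-- CHUNK R290-XF-CLX. PROOF.  Let `p = x i = (v, n)`.  RIGID `p` (first case of `clX`): then `x' i = p`:
`n = 1, 2`: `pr_at_one_two`; `n ≥ 3 + len v`: `pr_spine_pend`; `n = 0`, `v` junk: `pr_jt`; `v = t0 c s y` with a missing slot
(present `c`): `n = 0`: `pr_t0_none`; `3 ≤ n < 3 + len v`: `pr_own_pend` with `K = (· = v)`; junk `v` has `len v = 0`.
NOT RIGID: `n = 0`: `co`: `pr_co`; `t0` : `pr_t0`; `t1`, `t2`: `pr_t1`, `pr_t2`; `rl`: `pr_rl` (`0 < nC`); `tp`: `pr_jt`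
(so `x' i = x i`); `3 ≤ n < 3 + len v`: `v = co c a 0` or `v = rl e m y`, `m` odd: `pr_own_pend` with `K` = the class.
In all these cases `clX (x' i) = clX (x i)` by unfolding. -/
theorem clX_pres' (h0 : 0 < S.nC) (ht : 3 ≤ t) (b b' : S.C → ZMod 2)
    (F : PebbleFam t (adj S b) (adj S b')) (x x' : Fin t → V S) (hx : F.R x x') (i : Fin t) :
    clX (x' i) = clX (x i) :=
  xf12_gen ht b b' F (fun e n hn => pr_rl ht F h0 e n hn) x x' hx i

/-- CHUNK R290-XF-CLX. the case `nC = 0`: rails consist of `rl e 0 y`, adjacent to `(tp e, 0)` and different from `(tp e, 1)` -/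
theorem clX_pres {t : ℕ} (ht : 3 ≤ t) (b b' : S.C → ZMod 2)
    (F : PebbleFam t (adj S b) (adj S b')) (x x' : Fin t → V S) (hx : F.R x x') (i : Fin t) :
    clX (x' i) = clX (x i) := by
  by_cases h0 : 0 < S.nC
  · exact clX_pres' h0 ht b b' F x x' hx i
  · refine xf12_gen ht b b' F (fun e n hn => ?_) x x' hx i
    have hn0 : n = 0 := by omega
    subst hn0
    have key : ∀ (b : S.C → ZMod 2) (p : V S), cR e 0 p ↔
        (∃ z, adj S b p z = true ∧ At (V0.tp e) 0 z) ∧ ¬ At (V0.tp e) 1 p := by
      intro b p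
      constructor
      · rintro ⟨hp0, m, y, hm, hp1⟩
        refine ⟨⟨z0 (V0.tp e), ?_, rfl, rfl⟩, ?_⟩
        · rw [adj_comm, adj_zero b (at_z0 (V0.tp e))]
          exact Or.inl ⟨hp0, (adj0_tp b e _).2 ⟨m, y, hp1, hm⟩⟩
        · rintro ⟨_, h1⟩
          omega
      · rintro ⟨⟨z, hz, hz'⟩, h1⟩
        rw [adj_comm, adj_zero b hz'] at hz
        rcases hz with ⟨hp0, h⟩ | ⟨h, _⟩ | ⟨_, h⟩
        · obtain ⟨m, y, hp1, hm⟩ := (adj0_tp b e _).1 h
          exact ⟨hp0, m, y, hm, hp1⟩
        · exact absurd h h1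
        · simp only [len] at h
          omega
    have h1 := (Pr1.nb ht (pr_jt ht F (V0.tp e) (Or.inr ⟨e, rfl⟩))).and
      (pr_at_one_two ht F (V0.tp e)).1.not
    exact h1.congr (key b) (key b')

end X

end Crest.Agent.WL
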