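import Crest.Agent.WL.XF9

/-!
# Row 290, class recognition (XF9b, chunk R290-XF-REL2): relations to a core
-/

set_option autoImplicit false
set_option linter.unusedSectionVars false

namespace Crest.Agent.WL

namespace X

open Finset

variable {S : Sys} {t : ℕ}

/-- some core (port `s`) adjacent to `q` has the value of the core `p` in slot `σ` -/
def TV (b : S.C → ZMod 2) (c : S.C) (s σ : Fin 5) (p q : V S) : Prop :=
  ∃ z, SV b c s σ p z ∧ (cCo c s z ∧ adj S b z q = true)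

/-- the same, with a `t2` vertex in between -/
def TW (b : S.C → ZMod 2) (c : S.C) (s σ : Fin 5) (p q : V S) : Prop :=
  ∃ z, TV b c s σ p z ∧ (cT2 c s z ∧ adj S b z q = true)

theorem pr_TV {b b' : S.C → ZMod 2} (ht : 3 ≤ t) (F : PebbleFam t (adj S b) (adj S b')) (c : S.C)
    (hc : S.al c = true) (s σ : Fin 5) : Pr2 F (TV b c s σ) (TV b' c s σ) :=
  Pr2.comp ht (pr_SV ht F c hc s σ) ((pr_co ht F c hc s).left.and pr_adj)

theorem pr_TW {b b' : S.C → ZMod 2} (ht : 3 ≤ t) (F : PebbleFam t (adj S b) (adj S b')) (c : S.C)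
    (hc : S.al c = true) (s σ : Fin 5) : Pr2 F (TW b c s σ) (TW b' c s σ) :=
  Pr2.comp ht (pr_TV ht F c hc s σ) ((pr_t2 ht F c hc s).left.and pr_adj)

theorem TV_iff (b : S.C → ZMod 2) {c : S.C} (hc : S.al c = true) (s σ : Fin 5)
    (a : Fin 4 → ZMod 2) (y0 y1 y2 y : ZMod 2)
    (hσ : ∀ d : Fin 4 → ZMod 2, full S b c d s = y0 → full S b c d (s + 1) = y1 →
      full S b c d (s + 2) = y2 → full S b c d σ = y) (p q : V S)
    (hp : At (V0.co c a 0) 0 p) (hq : At (V0.t2 c s y0 y1 y2) 0 q) :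
    TV b c s σ p q ↔ full S b c a σ = y := by
  constructor
  · rintro ⟨z, ⟨a1, d, h1, h2, h3⟩, -, h4⟩
    have e1 := core_inj h1 hp
    subst e1
    rw [adj_comm, adj_core b hq (not_jt_t2 hc s y0 y1 y2) rfl, adj0_t2] at h4
    obtain ⟨-, -, h4 | ⟨d', h4, h5, h6, h7⟩⟩ := h4
    · rw [h2.1] at h4; cases h4
    · rw [h2.1] at h4
      injection h4 with _ e2 _
      subst e2
      rw [h3]
      exact hσ _ h5 h6 h7
  · intro h
    obtain ⟨d, h5, h6, h7⟩ := exists_full b c s y0 y1 y2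
    refine ⟨z0 (V0.co c d s), ⟨a, d, hp, at_z0 _, ?_⟩, ⟨rfl, d, rfl⟩, ?_⟩
    · rw [h, hσ d h5 h6 h7]
    · rw [adj_comm]
      refine adj_of_core b hq rfl ?_
      rw [adj0_t2]
      exact ⟨hc, Or.inr ⟨d, rfl, h5, h6, h7⟩⟩

theorem TW_iff (b : S.C → ZMod 2) {c : S.C} (hc : S.al c = true) (s σ : Fin 5)
    (a : Fin 4 → ZMod 2) (y0 y1 y : ZMod 2)
    (hσ : ∀ d : Fin 4 → ZMod 2, full S b c d s = y0 → full S b c d (s + 1) = y1 →
      full S b c d σ = y) (p q : V S)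
    (hp : At (V0.co c a 0) 0 p) (hq : At (V0.t1 c s y0 y1) 0 q) :
    TW b c s σ p q ↔ full S b c a σ = y := by
  constructor
  · rintro ⟨z, h1, ⟨h20, x1, x2, x3, h2⟩, h4⟩
    rw [adj_comm, adj_core b hq (not_jt_t1 hc s y0 y1) rfl, adj0_t1] at h4
    obtain ⟨-, -, h4 | ⟨y2, h4⟩⟩ := h4
    · rw [h2] at h4; cases h4
    · exact (TV_iff b hc s σ a y0 y1 y2 y (fun d h5 h6 _ => hσ d h5 h6) p z hp ⟨h4, h20⟩).1 h1
  · intro h
    refine ⟨z0 (V0.t2 c s y0 y1 0), ?_, ⟨rfl, _, _, _, rfl⟩, ?_⟩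
    · exact (TV_iff b hc s σ a y0 y1 0 y (fun d h5 h6 _ => hσ d h5 h6) p _ hp (at_z0 _)).2 h
    · rw [adj_comm]
      refine adj_of_core b hq rfl ?_
      rw [adj0_t1]
      exact ⟨hc, Or.inr ⟨0, rfl⟩⟩

theorem shift_eq : ∀ u u' y y' : ZMod 2, (u = y ↔ u' = y') → y' = y + (u + u') := by decide

/-- CHUNK R290-XF-REL2. class `cT2 c s` (`pr_t2`).  For `σ ∈ {s, s+1, s+2}` the relation
`∃ z, SV b c s σ p z ∧ (cCo c s z ∧ cT2 c s q ∧ adj z q)` between `x i` and `x j = t2 c s y0 y1 y2` says that `full b c a σ`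
equals the corresponding `y` (`adj0_t2`, `exists_full`). -/
theorem rel_t2 {b b' : S.C → ZMod 2} (ht : 3 ≤ t) (F : PebbleFam t (adj S b) (adj S b'))
    (x x' : Fin t → V S) (hx : F.R x x') (i j : Fin t) (c : S.C) (hc : S.al c = true)
    (a a' : Fin 4 → ZMod 2) (hi : At (V0.co c a 0) 0 (x i)) (hi' : At (V0.co c a' 0) 0 (x' i))
    (s : Fin 5) (y0 y1 y2 : ZMod 2) (hj : At (V0.t2 c s y0 y1 y2) 0 (x j)) :
    At (shG c (dl b b' c a a') (V0.t2 c s y0 y1 y2)) 0 (x' j) := by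
  obtain ⟨h0, y0', y1', y2', h1⟩ := (pr_t2 ht F c hc s x x' hx j).1 ⟨hj.2, _, _, _, hj.1⟩
  have hj' : At (V0.t2 c s y0' y1' y2') 0 (x' j) := ⟨h1, h0⟩
  have k0 : y0' = y0 + dl b b' c a a' s := by
    refine shift_eq _ _ _ _ ?_
    rw [← TV_iff b hc s s a y0 y1 y2 y0 (fun d h _ _ => h) _ _ hi hj,
      ← TV_iff b' hc s s a' y0' y1' y2' y0' (fun d h _ _ => h) _ _ hi' hj']
    exact pr_TV ht F c hc s s x x' hx i j
  have k1 : y1' = y1 + dl b b' c a a' (s + 1) := by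
    refine shift_eq _ _ _ _ ?_
    rw [← TV_iff b hc s (s + 1) a y0 y1 y2 y1 (fun d _ h _ => h) _ _ hi hj,
      ← TV_iff b' hc s (s + 1) a' y0' y1' y2' y1' (fun d _ h _ => h) _ _ hi' hj']
    exact pr_TV ht F c hc s (s + 1) x x' hx i j
  have k2 : y2' = y2 + dl b b' c a a' (s + 2) := by
    refine shift_eq _ _ _ _ ?_
    rw [← TV_iff b hc s (s + 2) a y0 y1 y2 y2 (fun d _ _ h => h) _ _ hi hj,
      ← TV_iff b' hc s (s + 2) a' y0' y1' y2' y2' (fun d _ _ h => h) _ _ hi' hj']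
    exact pr_TV ht F c hc s (s + 2) x x' hx i j
  refine ⟨?_, h0⟩
  rw [h1, k0, k1, k2]
  simp only [shG, if_true]

/-- CHUNK R290-XF-REL2. class `cT1 c s` (`pr_t1`).  Same with a `t2` vertex between (`adj0_t1`). -/
theorem rel_t1 {b b' : S.C → ZMod 2} (ht : 3 ≤ t) (F : PebbleFam t (adj S b) (adj S b'))
    (x x' : Fin t → V S) (hx : F.R x x') (i j : Fin t) (c : S.C) (hc : S.al c = true)
    (a a' : Fin 4 → ZMod 2) (hi : At (V0.co c a 0) 0 (x i)) (hi' : At (V0.co c a' 0) 0 (x' i))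
    (s : Fin 5) (y0 y1 : ZMod 2) (hj : At (V0.t1 c s y0 y1) 0 (x j)) :
    At (shG c (dl b b' c a a') (V0.t1 c s y0 y1)) 0 (x' j) := by
  obtain ⟨h0, y0', y1', h1⟩ := (pr_t1 ht F c hc s x x' hx j).1 ⟨hj.2, _, _, hj.1⟩
  have hj' : At (V0.t1 c s y0' y1') 0 (x' j) := ⟨h1, h0⟩
  have k0 : y0' = y0 + dl b b' c a a' s := by
    refine shift_eq _ _ _ _ ?_
    rw [← TW_iff b hc s s a y0 y1 y0 (fun d h _ => h) _ _ hi hj,
      ← TW_iff b' hc s s a' y0' y1' y0' (fun d h _ => h) _ _ hi' hj']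
    exact pr_TW ht F c hc s s x x' hx i j
  have k1 : y1' = y1 + dl b b' c a a' (s + 1) := by
    refine shift_eq _ _ _ _ ?_
    rw [← TW_iff b hc s (s + 1) a y0 y1 y1 (fun d _ h => h) _ _ hi hj,
      ← TW_iff b' hc s (s + 1) a' y0' y1' y1' (fun d _ h => h) _ _ hi' hj']
    exact pr_TW ht F c hc s (s + 1) x x' hx i j
  refine ⟨?_, h0⟩
  rw [h1, k0, k1]
  simp only [shG, if_true]

/-- CHUNK R290-XF-REL2. assembly: `core_image`, `core_miss`, `rel_co`, `rel_t0`, `rel_rl`, `rel_t1`, `rel_t2`. -/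
theorem rel {t : ℕ} (ht : 3 ≤ t) (b b' : S.C → ZMod 2)
    (F : PebbleFam t (adj S b) (adj S b')) (x x' : Fin t → V S) (hx : F.R x x') (i : Fin t)
    (c : S.C) (hc : S.al c = true) (a : Fin 4 → ZMod 2) (t0 : Fin (M S + 3)) (ht0 : t0.val = 0)
    (hi : x i = (V0.co c a 0, t0)) :
    ∃ a' : Fin 4 → ZMod 2, x' i = (V0.co c a' 0, t0) ∧
      (∀ s, S.slot c s = none → dl b b' c a a' s = 0) ∧
      ∀ (j : Fin t) (v : V0 S), Loc c v → x j = (v, t0) → x' j = (shG c (dl b b' c a a') v, t0) := by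
  have hi1 : At (V0.co c a 0) 0 (x i) := by rw [hi]; exact ⟨rfl, ht0⟩
  obtain ⟨a', hi'⟩ := core_image ht F x x' hx i c hc a hi1
  have conv : ∀ (v : V0 S) (p : V S), At v 0 p → p = (v, t0) := fun v p h =>
    Prod.ext h.1 (Fin.ext (h.2.trans ht0.symm))
  refine ⟨a', conv _ _ hi', ?_, ?_⟩
  · intro s hs
    unfold dl
    rw [core_miss ht F x x' hx i c hc a a' hi1 hi' s hs]
    generalize full S b' c a' s = u
    revert u
    decide
  · intro j v hv hj
    have hj1 : At v 0 (x j) := by rw [hj]; exact ⟨rfl, ht0⟩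
    refine conv _ _ ?_
    cases v with
    | co c' d s =>
      have : c' = c := hv
      subst this
      exact rel_co ht F x x' hx i j c' hc a a' hi1 hi' d s hj1
    | t0 c' s y =>
      have : c' = c := hv
      subst this
      exact rel_t0 ht F x x' hx i j c' hc a a' hi1 hi' s y hj1
    | t1 c' s y0 y1 =>
      have : c' = c := hv
      subst this
      exact rel_t1 ht F x x' hx i j c' hc a a' hi1 hi' s y0 y1 hj1
    | t2 c' s y0 y1 y2 =>
      have : c' = c := hv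
      subst this
      exact rel_t2 ht F x x' hx i j c' hc a a' hi1 hi' s y0 y1 y2 hj1
    | rl e m y =>
      obtain ⟨s, hs⟩ := hv
      exact rel_rl ht F x x' hx i j c hc a a' hi1 hi' s e hs m y hj1
    | tp e => exact absurd hv id

end X

end Crest.Agent.WL
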