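import Crest.Agent.WL.XF8
import Crest.Agent.WL.XF9b
import Crest.Agent.WL.XF12
import Crest.Agent.WL.Family

/-!
# Row 290, class recognition in the graph `X` (owner: helper42)

`F : PebbleFam t (adj S b) (adj S b')`, `3 ≤ t`.  The main theorems are `rel` (XF9b.lean), `exists_fam` (below) and
`clX_pres` (XF12.lean); definitions `dl`, `shG`, `Loc`, `clX` in XFDefs.lean.
-/

set_option autoImplicit false

namespace Crest.Agent.WL

namespace X

open Finset

variable {S : Sys}

/-- Spoiler's family on the system. -/
theorem exists_fam {t : ℕ} (ht : 3 ≤ t) (b b' : S.C → ZMod 2)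
    (F : PebbleFam t (adj S b) (adj S b')) (x x' : Fin t → V S) (hx : F.R x x') :
    Nonempty (BFam S t (fun c => b c + b' c)) :=
  exists_fam_aux ht b b' F x x' hx

end X

end Crest.Agent.WL
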