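import Crest.Agent.WL.XStrat1

/-!
# CHUNK R290-XS: Duplicator's strategy on the graph from the strategy on the system

`owner p : Option S.C` = the check that stands for a pebble on `p`: `co, t0, t1, t2` of a present check `c` (and
their own pendant vertices `3 ≤ t < 3 + len`): `c`; rail vertices (and their own pendant vertices): a chosen
present check containing the bit (if there is one); everything else: none.
`ok ψ P := B.ok ψ (owners of P)`; `map ψ := mpV (B.val ψ) tw` (an involution, hence an equivalence).
* `adj`: a risky pair has the violated check `c` as owner of one of the two vertices, contradiction with `B.sat`.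
* `ext`: `κ` is a class; if no vertex of class `κ` has an owner keep the state, else extend by the owner (the owner
  depends only on the class).  Agreement on `P`: for a check `c` in the owners both valuations satisfy `c` and
  agree on its bits, so `sh` agrees (`sh_sat`, `sh_miss`); for a rail vertex the value of the bit is kept because
  the owner contains the bit.
* card: `(owners of P).card ≤ P.card`.
-/

set_option autoImplicit false

namespace Crest.Agent.WL

namespace X

variable {S : Sys}

open Classical in
/-- The check standing for a core vertex. -/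
noncomputable def owner0 (S : Sys) : V0 S → Option S.C
  | V0.co c _ _ => if S.al c = true then some c else none
  | V0.t0 c _ _ => if S.al c = true then some c else none
  | V0.t1 c _ _ _ => if S.al c = true then some c else none
  | V0.t2 c _ _ _ _ => if S.al c = true then some c else none
  | V0.rl e _ _ => if h : Used S e then some h.choose else none
  | V0.tp _ => none

/-- The check standing for a vertex. -/
noncomputable def owner (S : Sys) (p : V S) : Option S.C :=
  if p.2.val = 0 ∨ (3 ≤ p.2.val ∧ p.2.val < 3 + len S p.1) then owner0 S p.1 else none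

/-- The checks standing for a set of vertices. -/
noncomputable def owners (S : Sys) (P : Finset (V S)) : Finset S.C :=
  Finset.eraseNone (P.image (owner S))

theorem mem_owners {P : Finset (V S)} {c : S.C} : c ∈ owners S P ↔ ∃ p ∈ P, owner S p = some c := by
  unfold owners
  rw [Finset.mem_eraseNone, Finset.mem_image]

theorem card_owners (P : Finset (V S)) : (owners S P).card ≤ P.card := by
  unfold owners
  refine le_trans ?_ (Finset.card_image_le (s := P) (f := owner S))
  rw [← Finset.card_map (Function.Embedding.some : S.C ↪ Option S.C)]
  refine Finset.card_le_card ?_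
  intro o ho
  rw [Finset.mem_map] at ho
  obtain ⟨c, hc, rfl⟩ := ho
  exact Finset.mem_eraseNone.1 hc

theorem owners_mono {P Q : Finset (V S)} (h : Q ⊆ P) : owners S Q ⊆ owners S P := by
  intro c hc
  obtain ⟨p, hp, hpc⟩ := mem_owners.1 hc
  exact mem_owners.2 ⟨p, h hp, hpc⟩

theorem owner0_cls (u v : V0 S) (h : cls0 S u = cls0 S v) : owner0 S u = owner0 S v := by
  cases u <;> cases v <;> simp_all [cls0, owner0]
  obtain ⟨rfl, -⟩ := h
  rfl

theorem owner_cls (p q : V S) (h : cls S p = cls S q) {c d : S.C} (hp : owner S p = some c)
    (hq : owner S q = some d) : c = d := by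
  unfold cls at h
  have h1 : cls0 S p.1 = cls0 S q.1 := congrArg Prod.fst h
  have h2 := owner0_cls _ _ h1
  unfold owner at hp hq
  split_ifs at hp hq
  rw [hp, hq] at h2
  exact Option.some_injective _ h2

theorem owners_insert_none {P : Finset (V S)} {z : V S} (h : owner S z = none) :
    owners S (insert z P) = owners S P := by
  ext c
  rw [mem_owners, mem_owners]
  constructor
  · rintro ⟨p, hp, hpc⟩
    rcases Finset.mem_insert.1 hp with rfl | hp
    · rw [h] at hpc
      exact absurd hpc (by simp)
    · exact ⟨p, hp, hpc⟩
  · rintro ⟨p, hp, hpc⟩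
    exact ⟨p, Finset.mem_insert_of_mem hp, hpc⟩

theorem owners_insert_subset {P : Finset (V S)} {z : V S} {c : S.C}
    (h : ∀ d, owner S z = some d → d = c) :
    owners S (insert z P) ⊆ insert c (owners S P) := by
  intro d hd
  obtain ⟨p, hp, hpc⟩ := mem_owners.1 hd
  rcases Finset.mem_insert.1 hp with rfl | hp
  · rw [h d hpc]
    exact Finset.mem_insert_self _ _
  · exact Finset.mem_insert_of_mem (mem_owners.2 ⟨p, hp, hpc⟩)

/-- two valuations which agree on the owner of `p` move `p` in the same way -/
theorem mpV_congr (z z' : S.E → ZMod 2) (tw : S.C → ZMod 2) (p : V S)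
    (h : ∀ c, owner S p = some c → S.al c = true → S.bd z c = tw c ∧ S.bd z' c = tw c ∧
      ∀ s e, S.slot c s = some e → z' e = z e) :
    mpV S z' tw p = mpV S z tw p := by
  unfold mpV
  split_ifs with hp
  · have hsh : ∀ c, owner S p = some c → S.al c = true → ∀ s, sh S z' tw c s = sh S z tw c s := by
      intro c hc hal s
      obtain ⟨h1, h2, h3⟩ := h c hc hal
      rcases hs : S.slot c s with _ | e
      · rw [sh_miss _ _ _ hal _ hs, sh_miss _ _ _ hal _ hs]
      · rw [sh_sat _ _ _ _ _ hs h2, sh_sat _ _ _ _ _ hs h1, h3 s e hs]
    have hown : owner S p = owner0 S p.1 := by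
      unfold owner
      rw [if_pos hp]
    rw [hown] at hsh h
    refine Prod.ext ?_ rfl
    show mp S z' tw p.1 = mp S z tw p.1
    generalize p.1 = v at hsh h
    cases v with
    | co c a s =>
      by_cases hal : S.al c = true
      · have := hsh c (by simp [owner0, hal]) hal
        simp only [mp, this]
      · simp only [mp, if_neg hal]
    | t0 c s x =>
      by_cases hal : S.al c = true
      · have := hsh c (by simp [owner0, hal]) hal
        simp only [mp, this]
      · simp only [mp, if_neg hal]
    | t1 c s x y =>
      by_cases hal : S.al c = true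
      · have := hsh c (by simp [owner0, hal]) hal
        simp only [mp, this]
      · simp only [mp, if_neg hal]
    | t2 c s x y y' =>
      by_cases hal : S.al c = true
      · have := hsh c (by simp [owner0, hal]) hal
        simp only [mp, this]
      · simp only [mp, if_neg hal]
    | rl e n x =>
      by_cases hU : Used S e
      · obtain ⟨s, hal, hs⟩ := hU.choose_spec
        have h3 := (h hU.choose (by simp [owner0, hU]) hal).2.2 s e hs
        simp only [mp, zu, if_pos hU, h3]
      · simp only [mp, zu, if_neg hU]
    | tp e => rfl
  · rfl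

theorem not_risk {t : ℕ} {tw : S.C → ZMod 2} (B : BStrat S t tw) (ψ : B.St) (P : Finset (V S))
    (hok : B.ok ψ (owners S P)) (p q : V S) (hq : q ∈ P) : ¬ Risk (B.val ψ) tw p q := by
  rintro ⟨-, hq0, e, n, x, c, s, x', -, hq1, hal, -, hbd⟩
  refine hbd (B.sat ψ _ hok c (mem_owners.2 ⟨q, hq, ?_⟩) hal)
  unfold owner
  rw [if_pos (Or.inl hq0), hq1]
  simp [owner0, hal]

theorem exists_strat {t : ℕ} {tw : S.C → ZMod 2} (B : BStrat S t tw) (b : S.C → ZMod 2) :
    Nonempty (Strat t (adj S b) (adj S (fun c => b c + tw c))) := by
  classical
  refine ⟨{ K := V S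
            cls := cls S
            cls' := cls S
            St := B.St
            map := fun ψ => (mpV_invol (S := S) (B.val ψ) tw).toPerm (mpV S (B.val ψ) tw)
            map_cls := fun ψ a => cls_mpV _ _ a
            ok := fun ψ P => B.ok ψ (owners S P)
            mono := fun ψ P Q hQ hok => B.mono ψ _ _ (owners_mono hQ) hok
            adj := ?_
            ext := ?_
            init := ?_ }⟩
  · intro ψ P hok p hp q hq
    exact adj_mpV b (B.val ψ) tw p q (not_risk B ψ P hok p q hq) (not_risk B ψ P hok q p hp)
  · intro ψ P hok hP κ
    by_cases hex : ∃ z c, cls S z = κ ∧ owner S z = some c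
    · obtain ⟨z₀, c, hz₀, hc⟩ := hex
      obtain ⟨ψ', hok', hag⟩ := B.ext ψ _ hok (lt_of_le_of_lt (card_owners P) hP) c
      refine ⟨ψ', fun a ha => ?_, fun z hz => ?_⟩
      · refine mpV_congr _ _ _ _ fun d hd hal => ?_
        have hdP : d ∈ owners S P := mem_owners.2 ⟨a, ha, hd⟩
        exact ⟨B.sat ψ _ hok d hdP hal, B.sat ψ' _ hok' d (Finset.mem_insert_of_mem hdP) hal,
          hag d hdP hal⟩
      · refine B.mono ψ' _ _ (owners_insert_subset fun d hd => ?_) hok'
        exact owner_cls z z₀ (hz.trans hz₀.symm) hd hc
    · refine ⟨ψ, fun _ _ => rfl, fun z hz => ?_⟩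
      have hnone : owner S z = none := by
        rcases h : owner S z with _ | c
        · rfl
        · exact absurd ⟨z, c, hz, h⟩ hex
      show B.ok ψ (owners S (insert z P))
      rw [owners_insert_none hnone]
      exact hok
  · obtain ⟨ψ, hψ⟩ := B.init
    refine ⟨ψ, ?_⟩
    have : owners S (∅ : Finset (V S)) = ∅ := by
      ext c
      rw [mem_owners]
      simp
    show B.ok ψ (owners S ∅)
    rw [this]
    exact hψ

end X

end Crest.Agent.WL
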