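import Crest.Agent.WLX.Glue
import Crest.Agent.WL.XStrat
import Crest.Agent.WL.XEq
import Crest.Agent.WL.XBridge
import Crest.Agent.WL.BookS7
import Crest.Agent.WL.BookP8
import Crest.Agent.WLH.Inst
import Crest.Agent.WL.XFam

/-!
# Row 290: `SysEqJ`, `SysEqS` from the core theorems
-/

set_option autoImplicit false

namespace Crest.Agent.WL

open Crest.Agent.WLM Crest.Agent.WLH Crest.Agent.WLX Crest.WLRefine

/-- Dictionary between the finite systems `bsys` and the books. -/
structure BDict (bsys : Tab → ℕ → ℕ → Sys) (btw : ∀ T N b, (bsys T N b).C → ZMod 2) where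
  D : ∀ (T : Tab) (N b : ℕ) (hN : 1 ≤ N), Dict (bsys T N b) (book T N b hN).xs
  htw : ∀ (T : Tab) (N b : ℕ) (hN : 1 ≤ N) (c : {c : (bsys T N b).C // (bsys T N b).al c = true}),
    btw T N b c.1 = (book T N b hN).xs.par ((D T N b hN).fC c)

variable {bsys : Tab → ℕ → ℕ → Sys} {btw : ∀ T N b, (bsys T N b).C → ZMod 2}

theorem strat_reject (B : BDict bsys btw) (T : Tab) (hT : T.Ok) (N b : ℕ) (hN : 1 ≤ N)
    (h : ∀ t, t + 1 < (b + 1) ^ N → ¬ T.Acc [] t) :
    Nonempty (Strat (N + 2) (X.adj (bsys T N b) (fun _ => 0)) (X.adj (bsys T N b) (btw T N b))) := by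
  obtain ⟨K, hK⟩ := book_reject hT hN h
  obtain ⟨F⟩ := BookData.core_dup (book T N b hN) K hK
  obtain ⟨Bs⟩ := (B.D T N b hN).bstrat F (btw T N b) (B.htw T N b hN)
  obtain ⟨Str⟩ := X.exists_strat Bs (fun _ => 0)
  have e : (fun c => (0 : ZMod 2) + btw T N b c) = btw T N b := by
    funext c; rw [zero_add]
  rw [e] at Str
  exact ⟨Str⟩

theorem no_fam (B : BDict bsys btw) (T : Tab) (hT : T.Ok) (N b : ℕ) (hN : 1 ≤ N) {t : ℕ}
    (ht : t + 1 < (b + 1) ^ N) (hacc : T.Acc [] t)
    (h : ∃ F : PebbleFam (N + 2) (X.adj (bsys T N b) (fun _ => 0))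
      (X.adj (bsys T N b) (btw T N b)), ∃ x x', F.R x x') : False := by
  obtain ⟨F, x, x', hx⟩ := h
  obtain ⟨Bf⟩ := X.exists_fam (show 3 ≤ N + 2 by omega) (fun _ => 0) (btw T N b) F x x' hx
  have e : (fun c => (0 : ZMod 2) + btw T N b c) = btw T N b := by
    funext c; rw [zero_add]
  rw [e] at Bf
  obtain ⟨Cf⟩ := (B.D T N b hN).cfam (btw T N b) Bf (B.htw T N b hN)
  obtain ⟨Df⟩ := Cf.toDFam
  obtain ⟨h1, h2⟩ := odd_gword (T := T) (b := b) hN
  exact BookData.core_sp (book T N b hN) (fun _ => .o 2) h1 h2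
    (fun i => book_accept hT hN ht hacc _ h1 i) Df

theorem sysEqJ_of (B : BDict bsys btw) (hpos : ∀ T : Tab, ∀ N b, 1 ≤ N → 0 < (bsys T N b).nC) :
    SysEqJ bsys btw := by
  intro T hT N b hN m G H e hG hH
  have hG' : G = fun u v => X.adj (bsys T N b) (fun _ => 0) (e u) (e v) := by
    funext u v; exact hG u v
  have hH' : H = fun u v => X.adj (bsys T N b) (btw T N b) (e u) (e v) := by
    funext u v; exact hH u v
  constructor
  · intro hJ t ht hacc
    have hm : 0 < m := by
      have hc : (bsys T N b).C := (bsys T N b).eC.symm ⟨0, hpos T N b hN⟩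
      exact (e.symm (V0.co hc 0 0, 0)).pos
    rw [hG', hH'] at hJ
    have h1 := fam_of_jequiv (show 2 ≤ N + 1 by omega) hm hJ
    exact no_fam B T hT N b hN ht hacc (fam_transport e e h1)
  · intro h
    obtain ⟨Str⟩ := strat_reject B T hT N b hN h
    rw [hG', hH']
    exact jequiv_of_strat (Nat.succ_pos N) Str e e

theorem sysEqS_of (B : BDict bsys btw) (hpos : ∀ T : Tab, ∀ N b, 1 ≤ N → 0 < (bsys T N b).nC) :
    SysEqS bsys btw := by
  intro T hT N b hN m G H e hG hH
  have hG' : G = fun u v => X.adj (bsys T N b) (fun _ => 0) (e u) (e v) := by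
    funext u v; exact hG u v
  have hH' : H = fun u v => X.adj (bsys T N b) (btw T N b) (e u) (e v) := by
    funext u v; exact hH u v
  constructor
  · intro hJ t ht hacc
    have hm : 0 < m := by
      have hc : (bsys T N b).C := (bsys T N b).eC.symm ⟨0, hpos T N b hN⟩
      exact (e.symm (V0.co hc 0 0, 0)).pos
    rw [hG', hH'] at hJ
    have h1 := fam_of_sequiv (show 2 ≤ N + 2 by omega) hm hJ
    exact no_fam B T hT N b hN ht hacc (fam_transport e e h1)
  · intro h
    obtain ⟨Str⟩ := strat_reject B T hT N b hN h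
    rw [hG', hH']
    exact sequiv_of_strat (show 0 < N + 2 by omega) Str e e

end Crest.Agent.WL
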