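import Crest.Agent.WL.XStrat1

/-!
# CHUNK R290-XI: coboundaries give isomorphic graphs

`mpV z (bd z)` as an equivalence: no risky pairs.
-/

set_option autoImplicit false

namespace Crest.Agent.WL

namespace X

variable {S : Sys}

theorem full_congr_al {b b' : S.C → ZMod 2} (c : S.C) (h : b' c = b c) (a : Fin 4 → ZMod 2)
    (s : Fin 5) : full S b' c a s = full S b c a s := by
  unfold full
  rw [h]

theorem step_congr_al {b b' : S.C → ZMod 2} (h : ∀ c, S.al c = true → b' c = b c) (u v : V0 S) :
    step S b' u v = step S b u v := by
  cases u with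
  | t2 c s x y z =>
    cases v with
    | co c' a s' =>
      show (S.al c && decide (c = c' ∧ s = s' ∧ full S b' c a s = x ∧ full S b' c a (s + 1) = y
          ∧ full S b' c a (s + 2) = z)) = (S.al c && decide (c = c' ∧ s = s' ∧
          full S b c a s = x ∧ full S b c a (s + 1) = y ∧ full S b c a (s + 2) = z))
      by_cases hc : S.al c = true
      · rw [full_congr_al c (h c hc), full_congr_al c (h c hc), full_congr_al c (h c hc)]
      · have h2 : S.al c = false := by simpa using hc
        rw [h2, Bool.false_and, Bool.false_and]
    | _ => rfl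
  | co c a s => cases v <;> rfl
  | t0 c s x => cases v <;> rfl
  | t1 c s x y => cases v <;> rfl
  | rl e n x => cases v <;> rfl
  | tp e => cases v <;> rfl

theorem adj_congr_al {b b' : S.C → ZMod 2} (h : ∀ c, S.al c = true → b' c = b c) (p q : V S) :
    adj S b' p q = adj S b p q := by
  unfold adj stepX
  rw [step_congr_al h, step_congr_al h]

/-- If the right-hand sides differ by a boundary on the present checks, the graphs are isomorphic.
(For absent checks the value of `b` is irrelevant: `adj` does not depend on it; first replace `b'` by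
`b + bd z` everywhere.) -/
theorem iso_of_bd (b b' : S.C → ZMod 2) (z : S.E → ZMod 2)
    (h : ∀ c, S.al c = true → b' c = b c + S.bd z c) :
    ∃ e : V S ≃ V S, ∀ p q, adj S b' (e p) (e q) = adj S b p q := by
  refine ⟨(mpV_invol (S := S) z (S.bd z)).toPerm, fun p q => ?_⟩
  change adj S b' (mpV S z (S.bd z) p) (mpV S z (S.bd z) q) = _
  rw [adj_congr_al (b := fun c => b c + S.bd z c) (b' := b') h]
  have hr : ∀ p q : V S, ¬ Risk z (S.bd z) p q := by
    rintro p q ⟨_, _, e, n, x, c, s, x', _, _, _, _, hne⟩
    exact hne rfl
  exact (adj_mpV b z (S.bd z) p q (hr p q) (hr q p)).symm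

end X

end Crest.Agent.WL
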