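import Crest.Agent.WL.GraphX
import Mathlib.Logic.Relation

/-!
# Row 290: the graph `X` is simple, has maximum degree at most 3, is connected (chunks R290-XH1, XH2, XH3)

XH1 (this file): `adj_symm`, `adj_irrefl`; `idx` is a bijection onto `[0, N0)`.
Degrees (XH2, file XDeg.lean): list of neighbours for every kind of vertex:
* `(tp e, 0)`: `rl e 0 0`, `rl e 0 1`, `(tp e, 1)`;
* `(rl e n x, 0)`: `rl e (n±1) x`, and `tp e` if `n = 0`, `t0 c s x` if `n = 2 inc c s` and `slot c s = some e` (then `n` is
  even; the incidence is determined by `n`), own pendant vertex if `n` is odd (`n = 0` has no `n - 1`);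
* `(t0 c s x, 0)`: two `t1`; the rail vertex (present slot) or the pendant vertex (missing slot);
* `(t1 .., 0)`: one `t0`, two `t2`;  `(t2 .., 0)`: one `t1`, exactly two `co c a s` (the three values
  `full a s, full a (s+1), full a (s+2)` are three independent coordinates of the four-dimensional space of `a`);
* `(co c a s, 0)`: `co c a (s±1)`, one `t2`, and for `s = 0` (no `s - 1`) the pendant vertex;
* junk `(v, 0)`: only `(v, 1)`;
* `(v, 1)`: `(v, 2)`, `(v⁻, 2)` with `idx v⁻ = idx v - 1`, and `(v, 0)` if `v` is junk or a top;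
* `(v, 2)`: `(v, 1)`, `(v⁺, 1)`, `(v, 3 + len v)`;
* `(v, t)`, `t ≥ 3`: at most `t - 1` and `t + 1` (or the attachment).
Connectedness (XH3, file XConn.lean): the spine is connected; every pendant path is attached to `v` or to the spine;
tops and junk are joined to the spine; rails go down to `rl e 0 x` and `tp e`; for a present check `c` choose a slot `s`
holding a bit (`slot_ex`): `t0 c s x` is joined to the rail; every core path reaches `co c a s`, `t2 c s`, `t1 c s`,
`t0 c s`; every `t0 c s' x`, `t1`, `t2` is joined downwards to a core (`∃ a` with prescribed `full` values at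
`s', s'+1, s'+2`).
-/

set_option autoImplicit false

namespace Crest.Agent.WL

namespace X

variable {S : Sys}

private theorem zlt (x : ZMod 2) : x.val < 2 := ZMod.val_lt x

private theorem zinj {x y : ZMod 2} (h : x.val = y.val) : x = y := ZMod.val_injective 2 h

private theorem znat (n : ℕ) : ((n : ZMod 2)).val = n % 2 := ZMod.val_natCast 2 n

theorem adj_symm (b : S.C → ZMod 2) (p q : V S) : adj S b p q = adj S b q p := by
  unfold adj
  exact Bool.or_comm _ _

theorem step_irrefl (b : S.C → ZMod 2) (v : V0 S) : step S b v v = false := by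
  cases v <;> simp [step]

private theorem stepX_irrefl (b : S.C → ZMod 2) (p : V S) : stepX S b p p = false := by
  unfold stepX
  rw [step_irrefl, Bool.and_false]
  have h1 : ¬ (p.1 = p.1 ∧ p.2.val = 1 ∧ p.2.val = 2) := fun h => by omega
  have h2 : ¬ (idx S p.1 = idx S p.1 + 1 ∧ p.2.val = 2 ∧ p.2.val = 1) := fun h => by omega
  have h3 : ¬ (p.1 = p.1 ∧ p.2.val = 0 ∧ p.2.val = 1 ∧
    (junk S p.1 = true ∨ ∃ e, p.1 = V0.tp e)) := fun h => by omega
  have h4 : ¬ (p.1 = p.1 ∧ p.2.val = 0 ∧ p.2.val = 3 ∧ 0 < len S p.1) := fun h => by omega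
  have h5 : ¬ (p.1 = p.1 ∧ p.2.val = 2 ∧ p.2.val = 3 + len S p.1) := fun h => by omega
  have h6 : ¬ (p.1 = p.1 ∧ 3 ≤ p.2.val ∧ p.2.val = p.2.val + 1 ∧ p.2.val ≠ 3 + len S p.1) :=
    fun h => by omega
  rw [decide_eq_false h1, decide_eq_false h2, decide_eq_false h3, decide_eq_false h4,
    decide_eq_false h5, decide_eq_false h6]
  rfl

theorem adj_irrefl (b : S.C → ZMod 2) (p : V S) : adj S b p p = false := by
  unfold adj
  rw [stepX_irrefl]
  rfl

private theorem rail_lt (e m : ℕ) (he : e < S.nE) (hm : m < 20 * S.nC + 2) :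
    (20 * S.nC + 2) * e + m < (20 * S.nC + 2) * S.nE := by
  have h1 : (20 * S.nC + 2) * (e + 1) ≤ (20 * S.nC + 2) * S.nE := Nat.mul_le_mul_left _ he
  rw [Nat.mul_add, Nat.mul_one] at h1
  omega

/-- the part of the number below `150 nC` -/
private theorem idx_co (c : S.C) (a : Fin 4 → ZMod 2) (s : Fin 5) :
    idx S (V0.co c a s) = 150 * (S.eC c).val + 30 * s.val +
      ((a 0).val * 8 + (a 1).val * 4 + (a 2).val * 2 + (a 3).val) := rfl
private theorem idx_t0 (c : S.C) (s : Fin 5) (x : ZMod 2) :
    idx S (V0.t0 c s x) = 150 * (S.eC c).val + 30 * s.val + (16 + x.val) := rfl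
private theorem idx_t1 (c : S.C) (s : Fin 5) (x y : ZMod 2) :
    idx S (V0.t1 c s x y) = 150 * (S.eC c).val + 30 * s.val + (18 + (x.val * 2 + y.val)) := rfl
private theorem idx_t2 (c : S.C) (s : Fin 5) (x y z : ZMod 2) :
    idx S (V0.t2 c s x y z) = 150 * (S.eC c).val + 30 * s.val +
      (22 + (x.val * 4 + y.val * 2 + z.val)) := rfl
private theorem idx_rl (e : S.E) (n : Fin (10 * S.nC + 1)) (x : ZMod 2) :
    idx S (V0.rl e n x) = 150 * S.nC + ((20 * S.nC + 2) * (S.eE e).val + 2 * n.val + x.val) := rfl
private theorem idx_tp (e : S.E) :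
    idx S (V0.tp e) = 150 * S.nC + (20 * S.nC + 2) * S.nE + (S.eE e).val := rfl

theorem idx_lt (v : V0 S) : idx S v < N0 S := by
  unfold N0
  cases v with
  | co c a s =>
    have h0 := zlt (a 0)
    have h1 := zlt (a 1)
    have h2 := zlt (a 2)
    have h3 := zlt (a 3)
    have hc := (S.eC c).isLt
    have hs := s.isLt
    rw [idx_co]; omega
  | t0 c s x =>
    have h0 := zlt x
    have hc := (S.eC c).isLt
    have hs := s.isLt
    rw [idx_t0]; omega
  | t1 c s x y =>
    have h0 := zlt x
    have h1 := zlt y
    have hc := (S.eC c).isLt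
    have hs := s.isLt
    rw [idx_t1]; omega
  | t2 c s x y z =>
    have h0 := zlt x
    have h1 := zlt y
    have h2 := zlt z
    have hc := (S.eC c).isLt
    have hs := s.isLt
    rw [idx_t2]; omega
  | rl e n x =>
    have h0 := zlt x
    have hn := n.isLt
    have h1 := rail_lt (S := S) (S.eE e).val (2 * n.val + x.val) (S.eE e).isLt (by omega)
    rw [idx_rl]; omega
  | tp e =>
    have he := (S.eE e).isLt
    rw [idx_tp]; omega

private theorem ceq {c c' : S.C} (h : (S.eC c).val = (S.eC c').val) : c = c' :=
  S.eC.injective (Fin.ext h)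
private theorem eeq {e e' : S.E} (h : (S.eE e).val = (S.eE e').val) : e = e' :=
  S.eE.injective (Fin.ext h)

private theorem dec3 {c s r c' s' r' : ℕ} (hs : s < 5) (hs' : s' < 5) (hr : r < 30) (hr' : r' < 30)
    (h : 150 * c + 30 * s + r = 150 * c' + 30 * s' + r') : c = c' ∧ s = s' ∧ r = r' := by
  omega

private theorem decr {k e e' m m' : ℕ} (hm : m < k) (hm' : m' < k)
    (h : k * e + m = k * e' + m') : e = e' ∧ m = m' := by
  have h1 : (k * e + m) / k = e := by
    rw [Nat.mul_add_div (by omega), Nat.div_eq_of_lt hm, Nat.add_zero]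
  have h2 : (k * e' + m') / k = e' := by
    rw [Nat.mul_add_div (by omega), Nat.div_eq_of_lt hm', Nat.add_zero]
  have h3 : e = e' := by rw [← h1, ← h2, h]
  subst h3
  exact ⟨rfl, by omega⟩

theorem idx_inj : Function.Injective (idx S) := by
  intro u v h
  cases u with
  | co c a s =>
    have h0 := zlt (a 0)
    have h1 := zlt (a 1)
    have h2 := zlt (a 2)
    have h3 := zlt (a 3)
    have hc := (S.eC c).isLt
    have hs := s.isLt
    rw [idx_co] at h
    cases v with
    | co c' a' s' =>
      have h0' := zlt (a' 0)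
      have h1' := zlt (a' 1)
      have h2' := zlt (a' 2)
      have h3' := zlt (a' 3)
      rw [idx_co] at h
      obtain ⟨e1, e2, e3⟩ := dec3 hs s'.isLt (by omega) (by omega) h
      have ec : c = c' := ceq e1
      have es : s = s' := Fin.ext e2
      have ea : a = a' := by
        funext i
        apply zinj
        fin_cases i
        · show (a 0).val = (a' 0).val; omega
        · show (a 1).val = (a' 1).val; omega
        · show (a 2).val = (a' 2).val; omega
        · show (a 3).val = (a' 3).val; omega
      rw [ec, es, ea]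
    | t0 c' s' x' =>
      have := zlt x'
      rw [idx_t0] at h
      have := dec3 hs s'.isLt (by omega) (by omega) h
      omega
    | t1 c' s' x' y' =>
      have := zlt x'
      have := zlt y'
      rw [idx_t1] at h
      have := dec3 hs s'.isLt (by omega) (by omega) h
      omega
    | t2 c' s' x' y' z' =>
      have := zlt x'
      have := zlt y'
      have := zlt z'
      rw [idx_t2] at h
      have := dec3 hs s'.isLt (by omega) (by omega) h
      omega
    | rl e n x => rw [idx_rl] at h; omega
    | tp e => rw [idx_tp] at h; omega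
  | t0 c s x =>
    have h0 := zlt x
    have hc := (S.eC c).isLt
    have hs := s.isLt
    rw [idx_t0] at h
    cases v with
    | co c' a' s' =>
      have h0' := zlt (a' 0)
      have h1' := zlt (a' 1)
      have h2' := zlt (a' 2)
      have h3' := zlt (a' 3)
      rw [idx_co] at h
      have := dec3 hs s'.isLt (by omega) (by omega) h
      omega
    | t0 c' s' x' =>
      have := zlt x'
      rw [idx_t0] at h
      obtain ⟨e1, e2, e3⟩ := dec3 hs s'.isLt (by omega) (by omega) h
      rw [ceq e1, show s = s' from Fin.ext e2, show x = x' from zinj (by omega)]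
    | t1 c' s' x' y' =>
      have := zlt x'
      have := zlt y'
      rw [idx_t1] at h
      have := dec3 hs s'.isLt (by omega) (by omega) h
      omega
    | t2 c' s' x' y' z' =>
      have := zlt x'
      have := zlt y'
      have := zlt z'
      rw [idx_t2] at h
      have := dec3 hs s'.isLt (by omega) (by omega) h
      omega
    | rl e n x => rw [idx_rl] at h; omega
    | tp e => rw [idx_tp] at h; omega
  | t1 c s x y =>
    have h0 := zlt x
    have h1 := zlt y
    have hc := (S.eC c).isLt
    have hs := s.isLt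
    rw [idx_t1] at h
    cases v with
    | co c' a' s' =>
      have h0' := zlt (a' 0)
      have h1' := zlt (a' 1)
      have h2' := zlt (a' 2)
      have h3' := zlt (a' 3)
      rw [idx_co] at h
      have := dec3 hs s'.isLt (by omega) (by omega) h
      omega
    | t0 c' s' x' =>
      have := zlt x'
      rw [idx_t0] at h
      have := dec3 hs s'.isLt (by omega) (by omega) h
      omega
    | t1 c' s' x' y' =>
      have := zlt x'
      have := zlt y'
      rw [idx_t1] at h
      obtain ⟨e1, e2, e3⟩ := dec3 hs s'.isLt (by omega) (by omega) h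
      rw [ceq e1, show s = s' from Fin.ext e2, show x = x' from zinj (by omega),
        show y = y' from zinj (by omega)]
    | t2 c' s' x' y' z' =>
      have := zlt x'
      have := zlt y'
      have := zlt z'
      rw [idx_t2] at h
      have := dec3 hs s'.isLt (by omega) (by omega) h
      omega
    | rl e n x => rw [idx_rl] at h; omega
    | tp e => rw [idx_tp] at h; omega
  | t2 c s x y z =>
    have h0 := zlt x
    have h1 := zlt y
    have h2 := zlt z
    have hc := (S.eC c).isLt
    have hs := s.isLt
    rw [idx_t2] at h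
    cases v with
    | co c' a' s' =>
      have h0' := zlt (a' 0)
      have h1' := zlt (a' 1)
      have h2' := zlt (a' 2)
      have h3' := zlt (a' 3)
      rw [idx_co] at h
      have := dec3 hs s'.isLt (by omega) (by omega) h
      omega
    | t0 c' s' x' =>
      have := zlt x'
      rw [idx_t0] at h
      have := dec3 hs s'.isLt (by omega) (by omega) h
      omega
    | t1 c' s' x' y' =>
      have := zlt x'
      have := zlt y'
      rw [idx_t1] at h
      have := dec3 hs s'.isLt (by omega) (by omega) h
      omega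
    | t2 c' s' x' y' z' =>
      have := zlt x'
      have := zlt y'
      have := zlt z'
      rw [idx_t2] at h
      obtain ⟨e1, e2, e3⟩ := dec3 hs s'.isLt (by omega) (by omega) h
      rw [ceq e1, show s = s' from Fin.ext e2, show x = x' from zinj (by omega),
        show y = y' from zinj (by omega), show z = z' from zinj (by omega)]
    | rl e n x => rw [idx_rl] at h; omega
    | tp e => rw [idx_tp] at h; omega
  | rl e n x =>
    have h0 := zlt x
    have hn := n.isLt
    have hlt := rail_lt (S := S) (S.eE e).val (2 * n.val + x.val) (S.eE e).isLt (by omega)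
    rw [idx_rl] at h
    cases v with
    | co c' a' s' =>
      have h0' := zlt (a' 0)
      have h1' := zlt (a' 1)
      have h2' := zlt (a' 2)
      have h3' := zlt (a' 3)
      have := (S.eC c').isLt
      have := s'.isLt
      rw [idx_co] at h; omega
    | t0 c' s' x' =>
      have := zlt x'
      have := (S.eC c').isLt
      have := s'.isLt
      rw [idx_t0] at h; omega
    | t1 c' s' x' y' =>
      have := zlt x'
      have := zlt y'
      have := (S.eC c').isLt
      have := s'.isLt
      rw [idx_t1] at h; omega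
    | t2 c' s' x' y' z' =>
      have := zlt x'
      have := zlt y'
      have := zlt z'
      have := (S.eC c').isLt
      have := s'.isLt
      rw [idx_t2] at h; omega
    | rl e' n' x' =>
      have h0' := zlt x'
      have hn' := n'.isLt
      rw [idx_rl] at h
      have h3 : (20 * S.nC + 2) * (S.eE e).val + (2 * n.val + x.val)
          = (20 * S.nC + 2) * (S.eE e').val + (2 * n'.val + x'.val) := by omega
      obtain ⟨e1, e2⟩ := decr (by omega) (by omega) h3
      rw [eeq e1, show n = n' from Fin.ext (by omega), show x = x' from zinj (by omega)]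
    | tp e' => rw [idx_tp] at h; omega
  | tp e =>
    rw [idx_tp] at h
    cases v with
    | co c' a' s' =>
      have h0' := zlt (a' 0)
      have h1' := zlt (a' 1)
      have h2' := zlt (a' 2)
      have h3' := zlt (a' 3)
      have := (S.eC c').isLt
      have := s'.isLt
      rw [idx_co] at h; omega
    | t0 c' s' x' =>
      have := zlt x'
      have := (S.eC c').isLt
      have := s'.isLt
      rw [idx_t0] at h; omega
    | t1 c' s' x' y' =>
      have := zlt x'
      have := zlt y'
      have := (S.eC c').isLt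
      have := s'.isLt
      rw [idx_t1] at h; omega
    | t2 c' s' x' y' z' =>
      have := zlt x'
      have := zlt y'
      have := zlt z'
      have := (S.eC c').isLt
      have := s'.isLt
      rw [idx_t2] at h; omega
    | rl e' n' x' =>
      have h0' := zlt x'
      have hn' := n'.isLt
      have hlt := rail_lt (S := S) (S.eE e').val (2 * n'.val + x'.val) (S.eE e').isLt (by omega)
      rw [idx_rl] at h
      omega
    | tp e' =>
      rw [idx_tp] at h
      rw [eeq (show (S.eE e).val = (S.eE e').val by omega)]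

theorem idx_surj (i : ℕ) (h : i < N0 S) : ∃ v : V0 S, idx S v = i := by
  unfold N0 at h
  by_cases h1 : i < 150 * S.nC
  · have hc : i / 150 < S.nC := by omega
    set c : S.C := S.eC.symm ⟨i / 150, hc⟩ with hcd
    have hcv : (S.eC c).val = i / 150 := by rw [hcd, Equiv.apply_symm_apply]
    set s : Fin 5 := ⟨i % 150 / 30, by omega⟩ with hsd
    have hsv : s.val = i % 150 / 30 := rfl
    by_cases hr1 : i % 30 < 16
    · refine ⟨V0.co c ![((i % 30 / 8 : ℕ) : ZMod 2), ((i % 30 / 4 : ℕ) : ZMod 2),
        ((i % 30 / 2 : ℕ) : ZMod 2), ((i % 30 : ℕ) : ZMod 2)] s, ?_⟩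
      rw [idx_co, hcv, hsv]
      have e0 : ((![((i % 30 / 8 : ℕ) : ZMod 2), ((i % 30 / 4 : ℕ) : ZMod 2),
        ((i % 30 / 2 : ℕ) : ZMod 2), ((i % 30 : ℕ) : ZMod 2)] : Fin 4 → ZMod 2) 0).val
          = i % 30 / 8 % 2 := znat _
      have e1 : ((![((i % 30 / 8 : ℕ) : ZMod 2), ((i % 30 / 4 : ℕ) : ZMod 2),
        ((i % 30 / 2 : ℕ) : ZMod 2), ((i % 30 : ℕ) : ZMod 2)] : Fin 4 → ZMod 2) 1).val
          = i % 30 / 4 % 2 := znat _
      have e2 : ((![((i % 30 / 8 : ℕ) : ZMod 2), ((i % 30 / 4 : ℕ) : ZMod 2),
        ((i % 30 / 2 : ℕ) : ZMod 2), ((i % 30 : ℕ) : ZMod 2)] : Fin 4 → ZMod 2) 2).val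
          = i % 30 / 2 % 2 := znat _
      have e3 : ((![((i % 30 / 8 : ℕ) : ZMod 2), ((i % 30 / 4 : ℕ) : ZMod 2),
        ((i % 30 / 2 : ℕ) : ZMod 2), ((i % 30 : ℕ) : ZMod 2)] : Fin 4 → ZMod 2) 3).val
          = i % 30 % 2 := znat _
      rw [e0, e1, e2, e3]
      have hb : i % 30 / 8 % 2 * 8 + i % 30 / 4 % 2 * 4 + i % 30 / 2 % 2 * 2 + i % 30 % 2
          = i % 30 := by
        generalize i % 30 = r at hr1
        interval_cases r <;> rfl
      rw [hb]
      omega
    · by_cases hr2 : i % 30 < 18
      · refine ⟨V0.t0 c s ((i % 30 - 16 : ℕ) : ZMod 2), ?_⟩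
        rw [idx_t0, hcv, hsv, znat]
        omega
      · by_cases hr3 : i % 30 < 22
        · refine ⟨V0.t1 c s (((i % 30 - 18) / 2 : ℕ) : ZMod 2) ((i % 30 - 18 : ℕ) : ZMod 2), ?_⟩
          rw [idx_t1, hcv, hsv, znat, znat]
          omega
        · refine ⟨V0.t2 c s (((i % 30 - 22) / 4 : ℕ) : ZMod 2) (((i % 30 - 22) / 2 : ℕ) : ZMod 2)
            ((i % 30 - 22 : ℕ) : ZMod 2), ?_⟩
          rw [idx_t2, hcv, hsv, znat, znat, znat]
          omega
  · by_cases h2 : i < 150 * S.nC + (20 * S.nC + 2) * S.nE
    · have hpos : 0 < 20 * S.nC + 2 := by omega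
      have he : (i - 150 * S.nC) / (20 * S.nC + 2) < S.nE := by
        have hcomm : S.nE * (20 * S.nC + 2) = (20 * S.nC + 2) * S.nE := Nat.mul_comm _ _
        rw [Nat.div_lt_iff_lt_mul hpos, hcomm]; omega
      have hm : (i - 150 * S.nC) % (20 * S.nC + 2) < 20 * S.nC + 2 := Nat.mod_lt _ hpos
      have hd := Nat.div_add_mod (i - 150 * S.nC) (20 * S.nC + 2)
      refine ⟨V0.rl (S.eE.symm ⟨(i - 150 * S.nC) / (20 * S.nC + 2), he⟩)
        ⟨(i - 150 * S.nC) % (20 * S.nC + 2) / 2, by omega⟩
        (((i - 150 * S.nC) % (20 * S.nC + 2) : ℕ) : ZMod 2), ?_⟩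
      rw [idx_rl, Equiv.apply_symm_apply, znat]
      simp only
      omega
    · refine ⟨V0.tp (S.eE.symm ⟨i - (150 * S.nC + (20 * S.nC + 2) * S.nE), by omega⟩), ?_⟩
      rw [idx_tp, Equiv.apply_symm_apply]
      simp only
      omega

theorem card_V0 : Fintype.card (V0 S) = N0 S := by
  have hbij : Function.Bijective (fun v : V0 S => (⟨idx S v, idx_lt v⟩ : Fin (N0 S))) := by
    refine ⟨fun u v h => idx_inj (congrArg Fin.val h), fun i => ?_⟩
    obtain ⟨v, hv⟩ := idx_surj i.val i.isLt
    exact ⟨v, Fin.ext hv⟩
  rw [Fintype.card_of_bijective hbij, Fintype.card_fin]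

theorem len_lt (v : V0 S) : len S v < N1 S := by
  unfold N1
  cases v with
  | co c a s =>
    have hc := (S.eC c).isLt
    show (if S.al c = true ∧ s = 0 then 3 + (S.eC c).val else 0) < _
    split_ifs
    · omega
    · omega
  | t0 c s x =>
    have h0 := zlt x
    have hc := (S.eC c).isLt
    have hs := s.isLt
    show (if S.al c = true ∧ S.slot c s = none then
      3 + S.nC + (10 * S.nC + 1) * S.nE + (2 * inc S c s + x.val) else 0) < _
    unfold inc
    split_ifs
    · omega
    · omega
  | t1 c s x y => show 0 < _; omega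
  | t2 c s x y z => show 0 < _; omega
  | rl e n x =>
    have hn := n.isLt
    have h1 : (10 * S.nC + 1) * ((S.eE e).val + 1) ≤ (10 * S.nC + 1) * S.nE :=
      Nat.mul_le_mul_left _ (S.eE e).isLt
    rw [Nat.mul_add, Nat.mul_one] at h1
    show (if n.val % 2 = 1 then 3 + S.nC + ((10 * S.nC + 1) * (S.eE e).val + n.val) else 0) < _
    split_ifs
    · omega
    · omega
  | tp e => show 0 < _; omega

end X

end Crest.Agent.WL
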