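import Crest.Agent.WL.XT5
import Crest.Agent.WL.SysEq
import Crest.Agent.WL.XIso
import Crest.Agent.WL.XShape
import Crest.Agent.WL.BookP7
import Crest.Agent.WL.BookPs
import Crest.Agent.WLH.FinSys
import Crest.Agent.WLH.AddC

/-!
# Row 290: S0437 (identification) from the core theorems
-/

set_option autoImplicit false

namespace Crest.Agent.WL

open Crest.Agent.WLM Crest.Agent.WLH Crest.Agent.WLX Crest.WLRefine

/-- The dictionary of the finite book systems. -/
noncomputable def bDict : BDict (fun T N b => WLH.bsys T N b) (fun T N b => WLH.btw T N b) where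
  D := fun _ _ _ hN => bdict hN
  htw := fun _ _ _ hN c => btw_par hN c

section global

variable {B C : Type} [DecidableEq B] [DecidableEq C]

/-- the constant family of a global solution -/
def constFam (X : XSys B C) (g : B → ZMod 2) (h : ∀ c, X.Sat g c) (t : ℕ) : DFam X t where
  F := fun _ g' => g' = g
  restr := fun _ _ _ h _ => h
  sat := by rintro P g' rfl c _; exact h c
  ext := fun _ g' h _ _ => ⟨g', fun _ _ => rfl, h⟩
  ne := ⟨g, rfl⟩

end global

theorem sheet_sum (D : BookData) (b : D.Chk → ZMod 2) (g : D.Bit → ZMod 2)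
    (h : ∀ c, (D.xsP b).Sat g c) (σ : ℕ → D.Γ) (hσ : D.GWord σ) :
    D.oflux g 0 (fun k => D.pr 0 (σ k)) + D.oflux g 1 (fun k => D.pr 1 (σ k)) +
      D.oflux g 2 (fun k => D.pr 2 (σ k)) = D.sp b σ hσ := by
  have hL : D.L - 1 < D.L := by
    have := D.hL
    omega
  have hF : ∀ i, D.oflux g i (fun k => D.pr i (σ k)) = D.ef g σ i 0 + D.pp b σ hσ i := by
    intro i
    obtain ⟨g', h1, h2⟩ := D.to_outer (constFam (D.xsP b) g h (D.n + 2)) σ hσ i hL g rfl
    have : g' = g := h1
    rw [this] at h2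
    exact h2
  have hc := D.col_centre (constFam (D.xsP b) g h (D.n + 2)) σ hσ g rfl
  rw [hF 0, hF 1, hF 2]
  unfold BookData.sp
  rw [← hc]
  ring

/-- The book of a table machine has no global solution. -/
theorem no_global (T : Tab) (N b : ℕ) (hN : 1 ≤ N) :
    ¬ ∃ g : (book T N b hN).Bit → ZMod 2, ∀ c, (book T N b hN).xs.Sat g c := by
  rintro ⟨g, hg⟩
  have hg' : ∀ c, ((book T N b hN).xsP (book T N b hN).xs.par).Sat g c := hg
  have hw : ∀ h : Fin 3, (book T N b hN).GWord (fun _ => .o h) := fun h =>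
    (gword_iff hN _).2 (gwok_o h)
  have h0 := sheet_sum (book T N b hN) _ g hg' _ (hw 0)
  have h1 := sheet_sum (book T N b hN) _ g hg' _ (hw 1)
  have h2 := sheet_sum (book T N b hN) _ g hg' _ (hw 2)
  rw [BookData.sp_par] at h0 h1 h2
  have hone : ∀ i, (book T N b hN).oflux g i (fun _ => (.one : VLet T.length N b)) = 0 := by
    intro i
    unfold BookData.oflux
    rw [if_pos]
    exact rfl
  have a0 : (fun k : ℕ => (book T N b hN).pr 0 ((fun _ => .o 0 : ℕ → GLet T.length N b) k)) =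
    fun _ => .fact 1 0 0 0 := rfl
  have a1 : (fun k : ℕ => (book T N b hN).pr 1 ((fun _ => .o 0 : ℕ → GLet T.length N b) k)) =
    fun _ => .vo := rfl
  have a2 : (fun k : ℕ => (book T N b hN).pr 2 ((fun _ => .o 0 : ℕ → GLet T.length N b) k)) =
    fun _ => .one := rfl
  have b0 : (fun k : ℕ => (book T N b hN).pr 0 ((fun _ => .o 1 : ℕ → GLet T.length N b) k)) =
    fun _ => .fact 1 0 0 0 := rfl
  have b1 : (fun k : ℕ => (book T N b hN).pr 1 ((fun _ => .o 1 : ℕ → GLet T.length N b) k)) =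
    fun _ => .one := rfl
  have b2 : (fun k : ℕ => (book T N b hN).pr 2 ((fun _ => .o 1 : ℕ → GLet T.length N b) k)) =
    fun _ => .vo := rfl
  have c0 : (fun k : ℕ => (book T N b hN).pr 0 ((fun _ => .o 2 : ℕ → GLet T.length N b) k)) =
    fun _ => .one := rfl
  have c1 : (fun k : ℕ => (book T N b hN).pr 1 ((fun _ => .o 2 : ℕ → GLet T.length N b) k)) =
    fun _ => .vo := rfl
  have c2 : (fun k : ℕ => (book T N b hN).pr 2 ((fun _ => .o 2 : ℕ → GLet T.length N b) k)) =
    fun _ => .vo := rfl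
  have o0 : ¬ (book T N b hN).odd ((book T N b hN).nm (.o 0 : GLet T.length N b)) := by
    show ¬ ((0 : Fin 3) = 2); decide
  have o1 : ¬ (book T N b hN).odd ((book T N b hN).nm (.o 1 : GLet T.length N b)) := by
    show ¬ ((1 : Fin 3) = 2); decide
  have o2 : (book T N b hN).odd ((book T N b hN).nm (.o 2 : GLet T.length N b)) := by
    show ((2 : Fin 3) = 2); rfl
  rw [a0, a1, a2, hone, if_neg o0] at h0
  rw [b0, b1, b2, hone, if_neg o1] at h1
  rw [c0, c1, c2, hone, if_pos o2] at h2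
  generalize (book T N b hN).oflux g 0 (fun _ => (.fact 1 0 0 0 : VLet T.length N b)) = A at h0 h1
  generalize (book T N b hN).oflux g 1 (fun _ => (.vo : VLet T.length N b)) = Y at h0 h2
  generalize (book T N b hN).oflux g 2 (fun _ => (.vo : VLet T.length N b)) = Z at h1 h2
  revert A Y Z
  decide

/-- Isomorphic graphs: families with any number of pebbles. -/
theorem TR.of_iso {V W : Type} [Fintype V] [DecidableEq V] [Fintype W] [DecidableEq W] {t : ℕ}
    {G : V → V → Bool} {H : W → W → Bool} (E : V ≃ W) (hE : ∀ p q, H (E p) (E q) = G p q)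
    (x : Fin t → V) : TR t G H x (fun i => E (x i)) := by
  refine ⟨{ R := fun x u => u = fun i => E (x i), atom := ?_, step := ?_ }, rfl⟩
  · rintro x u rfl
    unfold atT
    ext i j
    · simp
    · simp [hE]
  · rintro x u rfl i
    refine ⟨E, fun z => ?_⟩
    funext j
    by_cases h : j = i
    · subst h; simp
    · simp [Function.update_of_ne h]

/-- An isomorphism gives a global solution of the parity system. -/
theorem global_of_iso {S : Sys} {B C : Type} [DecidableEq B] [DecidableEq C] {Y : XSys B C}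
    (D : Dict S Y) (tw : S.C → ZMod 2) (htw : ∀ c, tw c.1 = Y.par (D.fC c))
    (p0 : X.V S)
    (E : X.V S ≃ X.V S) (hE : ∀ p q, X.adj S tw (E p) (E q) = X.adj S (fun _ => 0) p q) :
    ∃ g : B → ZMod 2, ∀ c, Y.Sat g c := by
  classical
  obtain ⟨F, hx⟩ := TR.of_iso (t := Fintype.card {c : S.C // S.al c = true} + 3) E hE
    (fun _ => p0)
  obtain ⟨Bf⟩ := X.exists_fam (show 3 ≤ Fintype.card {c : S.C // S.al c = true} + 3 by omega)
    (fun _ => 0) tw F _ _ hx
  have e : (fun c => (0 : ZMod 2) + tw c) = tw := by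
    funext c; rw [zero_add]
  rw [e] at Bf
  obtain ⟨Cf⟩ := D.cfam tw Bf htw
  have key : ∀ P : Finset C, P.card ≤ Fintype.card {c : S.C // S.al c = true} + 3 →
      ∃ g, Cf.F P g := by
    intro P
    induction P using Finset.induction_on with
    | empty => intro _; exact Cf.ne
    | insert c P hc ih =>
      intro h
      rw [Finset.card_insert_of_notMem hc] at h
      obtain ⟨g, hg⟩ := ih (by omega)
      obtain ⟨g', -, hg'⟩ := Cf.ext P g hg (by omega) c
      exact ⟨g', hg'⟩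
  obtain ⟨g, hg⟩ := key ((Finset.univ : Finset {c : S.C // S.al c = true}).map D.fC.toEmbedding)
    (by rw [Finset.card_map, Finset.card_univ]; omega)
  refine ⟨g, fun c => Cf.sat _ _ hg c ?_⟩
  rw [Finset.mem_map]
  exact ⟨D.fC.symm c, Finset.mem_univ _, D.fC.apply_symm_apply c⟩

theorem V_pos (T : Tab) (N b : ℕ) : 0 < (WLH.bsys T N b).nC := by
  show 0 < nBC T.length N b
  unfold nBC nG
  positivity

/-- Rejecting: no dimension `≤ N + 1` identifies the graph. -/
theorem ident_reject (T : Tab) (hT : T.Ok) (N b : ℕ) (hN : 1 ≤ N)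
    (hrej : ∀ t, t + 1 < (b + 1) ^ N → ¬ T.Acc [] t) (m : ℕ) (G : Fin m → Fin m → Bool)
    (e : Fin m ≃ X.V (WLH.bsys T N b))
    (hG : ∀ u v, G u v = X.adj (WLH.bsys T N b) (fun _ => 0) (e u) (e v)) (k : ℕ) (hk : 1 ≤ k)
    (hk' : k ≤ N + 1) : ¬ Identifies k G := by
  intro hI
  obtain ⟨Str⟩ := strat_reject bDict T hT N b hN hrej
  have hG' : G = fun u v => X.adj (WLH.bsys T N b) (fun _ => 0) (e u) (e v) := by
    funext u v; exact hG u v
  subst hG'
  have hIso := hI m (fun u v => X.adj (WLH.bsys T N b) (WLH.btw T N b) (e u) (e v))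
    ⟨fun u v => X.adj_symm _ _ _, fun u => X.adj_irrefl _ _⟩ (by
      unfold WLEquiv
      split_ifs with h1
      · exact crequiv_of_strat (show 2 ≤ N + 2 by omega) Str e e
      · obtain ⟨Str'⟩ := strat_mono (show k + 1 ≤ N + 2 by omega) Str
        exact jequiv_of_strat (by omega) Str' e e)
  obtain ⟨f, hf⟩ := hIso
  have hc : (WLH.bsys T N b).C := (WLH.bsys T N b).eC.symm ⟨0, V_pos T N b⟩
  refine no_global T N b hN (global_of_iso (bdict hN) (WLH.btw T N b) (btw_par hN)
    (V0.co hc 0 0, 0) (e.symm.trans (f.trans e)) ?_)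
  intro p q
  have := hf (e.symm p) (e.symm q)
  simpa using this

/-- Accepting: dimension `N + 1` identifies the graph. -/
theorem ident_accept (T : Tab) (hT : T.Ok) (N b : ℕ) (hN : 1 ≤ N) (hb : 1 ≤ b)
    (t : ℕ) (ht : t + 1 < (b + 1) ^ N) (hacc : T.Acc [] t) (m : ℕ) (G : Fin m → Fin m → Bool)
    (e : Fin m ≃ X.V (WLH.bsys T N b))
    (hG : ∀ u v, G u v = X.adj (WLH.bsys T N b) (fun _ => 0) (e u) (e v)) :
    Identifies (N + 1) G := by
  intro m' H' hs hWL
  have hG' : G = fun u v => X.adj (WLH.bsys T N b) (fun _ => 0) (e u) (e v) := by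
    funext u v; exact hG u v
  unfold WLEquiv at hWL
  rw [if_neg (by omega)] at hWL
  have hm : 0 < m := by
    have hc : (WLH.bsys T N b).C := (WLH.bsys T N b).eC.symm ⟨0, V_pos T N b⟩
    exact (e.symm (V0.co hc 0 0, 0)).pos
  subst hG'
  have h1 := fam_of_jequiv (show 2 ≤ N + 1 by omega) hm hWL
  obtain ⟨F, x, u, hxu⟩ := fam_transport (G := X.adj (WLH.bsys T N b) (fun _ => 0)) (H := H') e
    (Equiv.refl (Fin m')) h1
  have hTR : TR (N + 2) (X.adj (WLH.bsys T N b) (fun _ => 0)) H' x u := ⟨F, hxu⟩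
  obtain ⟨b', E, hE⟩ := X.structure_thm (show 3 ≤ N + 2 by omega) _ hTR
  have hiso : TR (N + 2) (X.adj (WLH.bsys T N b) b') H' (fun i => E.symm (u i)) u := by
    have := TR.of_iso (t := N + 2) (G := X.adj (WLH.bsys T N b) b') (H := H') E hE
      (fun i => E.symm (u i))
    simpa using this
  obtain ⟨F2, hF2⟩ := hTR.trans hiso.symm
  obtain ⟨Bf⟩ := X.exists_fam (show 3 ≤ N + 2 by omega) (fun _ => 0) b' F2 _ _ hF2
  have e0 : (fun c => (0 : ZMod 2) + b' c) = b' := by
    funext c; rw [zero_add]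
  rw [e0] at Bf
  let D := bdict (T := T) (b := b) hN
  let β : (book T N b hN).Chk → ZMod 2 := fun c => b' (D.fC.symm c).1
  let D' : Dict (WLH.bsys T N b) ((book T N b hN).xsP β) :=
    { fC := D.fC, fE := D.fE, inj := D.inj, hinc := D.hinc }
  obtain ⟨Cf⟩ := D'.cfam b' Bf (by
    intro c
    show b' c.1 = b' (D.fC.symm (D.fC c)).1
    rw [D.fC.symm_apply_apply])
  obtain ⟨Df⟩ := Cf.toDFam
  obtain ⟨z, hz⟩ := book_lin hT hN hb ht hacc β Df
  have hbd : ∀ c, (WLH.bsys T N b).al c = true →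
      b' c = 0 + (WLH.bsys T N b).bd (fun ee => z (D.fE ee)) c := by
    intro c hc
    have h2 := hz (D.fC ⟨c, hc⟩)
    rw [D.sum_eq] at h2
    have h3 : β (D.fC ⟨c, hc⟩) = b' c := by
      show b' (D.fC.symm (D.fC ⟨c, hc⟩)).1 = b' c
      rw [D.fC.symm_apply_apply]
    rw [h3] at h2
    rw [zero_add, ← h2]
    unfold Sys.bd Sys.sv
    rfl
  obtain ⟨E2, hE2⟩ := X.iso_of_bd (S := WLH.bsys T N b) (fun _ => 0) b' _ hbd
  refine ⟨e.trans (E2.trans E), fun v w => ?_⟩
  show H' (E (E2 (e v))) (E (E2 (e w))) = _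
  rw [hE, hE2]

theorem ident_iff (T : Tab) (hT : T.Ok) (N b : ℕ) (hN : 1 ≤ N) (hb : 1 ≤ b)
    (m : ℕ) (G : Fin m → Fin m → Bool) (e : Fin m ≃ X.V (WLH.bsys T N b))
    (hG : ∀ u v, G u v = X.adj (WLH.bsys T N b) (fun _ => 0) (e u) (e v)) :
    (∃ k, 1 ≤ k ∧ k ≤ N + 1 ∧ Identifies k G) ↔ ∃ t, t + 1 < (b + 1) ^ N ∧ T.Acc [] t := by
  constructor
  · rintro ⟨k, h1, h2, h3⟩
    by_contra hc
    push Not at hc
    exact ident_reject T hT N b hN hc m G e hG k h1 h2 h3
  · rintro ⟨t, ht, ha⟩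
    exact ⟨N + 1, by omega, le_rfl, ident_accept T hT N b hN hb t ht ha m G e hG⟩

end Crest.Agent.WL
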