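import Crest.Agent.WL.Family

/-!
# CHUNK WL-A3b: a strategy gives equal pure histograms in the disjoint union (see the text of StratFam.lean)

Use the pebble family for `(U, U)`, `U = uAdj G H`: `R X X'` iff there are states `ψ₁ ψ₂` with
`ok ψ₁ {a | inl a is a pebble}`, `ok ψ₂ {a | inr (map ψ₂ a) is a pebble}` and `X'` is obtained from `X` by
`inl a ↦ inr (map ψ₁ a)`, `inr c ↦ inl ((map ψ₂).symm c)`.  (No edges across on both sides.)
`fam_joint` / `fam_sep` then give equality of the colours of `inl ∘ v` and `inr ∘ v'` whenever they are related.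
For the histograms one needs a bijection `v ↦ v'` of all `k`-tuples with related pairs: pebble the coordinates
one after the other, starting from a constant tuple (if `V` is empty both sides are empty): every step is
a bijection depending on the previous choices, so by induction on the number of coordinates treated one gets
`Multiset` equality (or a bijection) of the histograms.
-/

set_option autoImplicit false
set_option linter.unusedSectionVars false

namespace Crest.Agent.WL

open Crest.WLRefine Crest.WLRefine.ParityLift Finset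

variable {V W : Type} [Fintype V] [DecidableEq V] [Fintype W] [DecidableEq W]

/-! ### replacing the first `n` coordinates -/

/-- replace the first `n` coordinates of `x` by `v` -/
def spOv {X : Type} {t : ℕ} (n : ℕ) (v : Fin n → X) (x : Fin t → X) : Fin t → X :=
  fun i => if h : (i : ℕ) < n then v ⟨i, h⟩ else x i

theorem spOv_zero {X : Type} {t : ℕ} (v : Fin 0 → X) (x : Fin t → X) : spOv 0 v x = x := by
  funext i
  simp [spOv]

theorem spOv_snoc {X : Type} {t : ℕ} (n : ℕ) (hn : n < t) (v : Fin n → X) (z : X) (x : Fin t → X) :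
    Function.update (spOv n v x) ⟨n, hn⟩ z = spOv (n + 1) (Fin.snoc v z : Fin (n + 1) → X) x := by
  funext i
  by_cases h : i = ⟨n, hn⟩
  · subst h
    rw [Function.update_self]
    simp [spOv, Fin.snoc]
  · rw [Function.update_of_ne h]
    have h' : (i : ℕ) ≠ n := fun e => h (Fin.ext e)
    unfold spOv
    by_cases h1 : (i : ℕ) < n
    · rw [dif_pos h1, dif_pos (by omega)]
      simp [Fin.snoc, h1]
    · rw [dif_neg h1, dif_neg (by omega)]

theorem sp_bij {t : ℕ} {G : V → V → Bool} {H : W → W → Bool} (F : PebbleFam t G H)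
    (x : Fin t → V) (x' : Fin t → W) (hx : F.R x x') (n : ℕ) (hn : n ≤ t) :
    ∃ Φ : (Fin n → V) ≃ (Fin n → W), ∀ v, F.R (spOv n v x) (spOv n (Φ v) x') := by
  induction n with
  | zero =>
    refine ⟨Equiv.ofUnique _ _, fun v => ?_⟩
    rw [spOv_zero, spOv_zero]
    exact hx
  | succ n ih =>
    obtain ⟨Φ, hΦ⟩ := ih (by omega)
    have hst := fun v => F.step _ _ (hΦ v) ⟨n, by omega⟩
    choose f hf using hst
    let e1 : (Fin (n + 1) → V) ≃ V × (Fin n → V) := (Fin.snocEquiv (fun _ => V)).symm
    let e2 : W × (Fin n → W) ≃ (Fin (n + 1) → W) := Fin.snocEquiv (fun _ => W)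
    let e : V × (Fin n → V) ≃ W × (Fin n → W) :=
      (Equiv.prodComm _ _).trans ((Equiv.prodShear Φ f).trans (Equiv.prodComm _ _))
    refine ⟨e1.trans (e.trans e2), fun v => ?_⟩
    obtain ⟨⟨z, v₀⟩, rfl⟩ := (Fin.snocEquiv (fun _ => V)).surjective v
    have h1 : (e1.trans (e.trans e2)) ((Fin.snocEquiv (fun _ => V)) (z, v₀)) =
        (Fin.snoc (Φ v₀) (f v₀ z) : Fin (n + 1) → W) := by
      simp only [Equiv.trans_apply, e1, Equiv.symm_apply_apply, e, e2]
      rfl
    rw [h1]
    have h2 := hf v₀ z
    rw [spOv_snoc, spOv_snoc] at h2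
    exact h2

/-! ### the family of a strategy -/

/-- the pebble family of a strategy -/
noncomputable def spFam {t : ℕ} {G : V → V → Bool} {H : W → W → Bool} (S : Strat t G H) :
    PebbleFam t G H where
  R x x' := ∃ ψ, S.ok ψ (univ.image x) ∧ ∀ i, x' i = S.map ψ (x i)
  atom := by
    rintro x x' ⟨ψ, hok, hx⟩
    unfold atT
    refine Prod.ext ?_ ?_
    · funext i j
      simp only [hx, (S.map ψ).injective.eq_iff]
    · funext i j
      simp only [hx]
      exact S.adj ψ _ hok _ (mem_image_of_mem x (mem_univ i)) _ (mem_image_of_mem x (mem_univ j))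
  step := by
    rintro x x' ⟨ψ, hok, hx⟩ i
    set P : Finset V := (univ.erase i).image x with hP
    have hPsub : P ⊆ univ.image x := image_subset_image (erase_subset _ _)
    have hPc : P.card < t := by
      have h1 : P.card ≤ (univ.erase i : Finset (Fin t)).card := card_image_le
      rw [card_erase_of_mem (mem_univ i), card_univ, Fintype.card_fin] at h1
      have : 0 < t := i.pos
      omega
    have hext := fun κ => S.ext ψ P (S.mono ψ _ _ hPsub hok) hPc κ
    choose ψ' hψ' hok' using hext
    refine ⟨⟨fun z => S.map (ψ' (S.cls z)) z, fun c => (S.map (ψ' (S.cls' c))).symm c,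
      fun z => ?_, fun c => ?_⟩, fun z => ?_⟩
    · beta_reduce
      rw [S.map_cls, Equiv.symm_apply_apply]
    · beta_reduce
      have h1 : S.cls ((S.map (ψ' (S.cls' c))).symm c) = S.cls' c := by
        rw [← S.map_cls (ψ' (S.cls' c)), Equiv.apply_symm_apply]
      rw [h1, Equiv.apply_symm_apply]
    · refine ⟨ψ' (S.cls z), ?_, fun j => ?_⟩
      · refine S.mono _ _ _ ?_ (hok' (S.cls z) z rfl)
        intro a ha
        rw [mem_image] at ha
        obtain ⟨j, -, rfl⟩ := ha
        by_cases hj : j = i
        · subst hj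
          rw [Function.update_self]
          exact mem_insert_self _ _
        · rw [Function.update_of_ne hj]
          exact mem_insert_of_mem (mem_image_of_mem x (mem_erase.2 ⟨hj, mem_univ _⟩))
      · by_cases hj : j = i
        · subst hj
          rw [Function.update_self, Function.update_self]
          rfl
        · rw [Function.update_of_ne hj, Function.update_of_ne hj, hx,
            hψ' (S.cls z) (x j) (mem_image_of_mem x (mem_erase.2 ⟨hj, mem_univ _⟩))]

/-- exchange the two parts of the disjoint union -/
def spMap {t : ℕ} {G : V → V → Bool} {H : W → W → Bool} (S : Strat t G H) (ψ₁ ψ₂ : S.St) :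
    V ⊕ W → V ⊕ W
  | Sum.inl a => Sum.inr (S.map ψ₁ a)
  | Sum.inr c => Sum.inl ((S.map ψ₂).symm c)

theorem spMap_inj {t : ℕ} {G : V → V → Bool} {H : W → W → Bool} (S : Strat t G H) (ψ₁ ψ₂ : S.St) :
    Function.Injective (spMap S ψ₁ ψ₂) := by
  rintro (a | c) (b | d) h
  · simp only [spMap, Sum.inr.injEq, EmbeddingLike.apply_eq_iff_eq] at h
    rw [h]
  · simp [spMap] at h
  · simp [spMap] at h
  · simp only [spMap, Sum.inl.injEq, EmbeddingLike.apply_eq_iff_eq] at h
    rw [h]

/-- the relation on the disjoint union; `P₁`, `P₂` contain the pebbled vertices of the two parts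
(the second one pulled back) -/
def spR {t : ℕ} {G : V → V → Bool} {H : W → W → Bool} (S : Strat t G H) (m : ℕ)
    (X X' : Fin m → V ⊕ W) : Prop :=
  ∃ ψ₁ ψ₂, S.ok ψ₁ (univ.filter fun a => ∃ i, X i = Sum.inl a) ∧
    S.ok ψ₂ (univ.filter fun a => ∃ i, X i = Sum.inr (S.map ψ₂ a)) ∧
    ∀ i, X' i = spMap S ψ₁ ψ₂ (X i)

/-- the pebble family of the disjoint union with itself -/
noncomputable def spUFam {t : ℕ} {G : V → V → Bool} {H : W → W → Bool} (S : Strat t G H) :
    PebbleFam t (uAdj G H) (uAdj G H) where
  R X X' := spR S t X X'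
  atom := by
    rintro X X' ⟨ψ₁, ψ₂, hok₁, hok₂, hX⟩
    unfold atT
    refine Prod.ext ?_ ?_
    · funext i j
      simp only [hX, (spMap_inj S ψ₁ ψ₂).eq_iff]
    · funext i j
      simp only [hX]
      rcases hi : X i with a | c <;> rcases hj : X j with b | d
      · simp only [spMap, uAdj]
        exact S.adj ψ₁ _ hok₁ _ (by simp only [mem_filter, mem_univ, true_and]; exact ⟨i, hi⟩) _
          (by simp only [mem_filter, mem_univ, true_and]; exact ⟨j, hj⟩)
      · simp only [spMap, uAdj]
      · simp only [spMap, uAdj]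
      · simp only [spMap, uAdj]
        have h := S.adj ψ₂ _ hok₂ ((S.map ψ₂).symm c)
          (by simp only [mem_filter, mem_univ, true_and, Equiv.apply_symm_apply]; exact ⟨i, hi⟩)
          ((S.map ψ₂).symm d)
          (by simp only [mem_filter, mem_univ, true_and, Equiv.apply_symm_apply]; exact ⟨j, hj⟩)
        rw [Equiv.apply_symm_apply, Equiv.apply_symm_apply] at h
        exact h.symm
  step := by
    rintro X X' ⟨ψ₁, ψ₂, hok₁, hok₂, hX⟩ i
    set P₁ : Finset V := univ.filter fun a => ∃ j, j ≠ i ∧ X j = Sum.inl a with hP₁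
    set P₂ : Finset V := univ.filter fun a => ∃ j, j ≠ i ∧ X j = Sum.inr (S.map ψ₂ a) with hP₂
    have hs₁ : P₁ ⊆ univ.filter fun a => ∃ i, X i = Sum.inl a := by
      intro a ha
      simp only [hP₁, mem_filter, mem_univ, true_and] at ha ⊢
      obtain ⟨j, -, h⟩ := ha
      exact ⟨j, h⟩
    have hs₂ : P₂ ⊆ univ.filter fun a => ∃ i, X i = Sum.inr (S.map ψ₂ a) := by
      intro a ha
      simp only [hP₂, mem_filter, mem_univ, true_and] at ha ⊢
      obtain ⟨j, -, h⟩ := ha
      exact ⟨j, h⟩
    have hcard : ∀ (P : Finset V) (g : Fin t → V), (∀ a ∈ P, ∃ j, j ≠ i ∧ g j = a) → P.card < t := by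
      intro P g hg
      have h1 : P ⊆ (univ.erase i).image g := by
        intro a ha
        obtain ⟨j, hj, rfl⟩ := hg a ha
        exact mem_image_of_mem g (mem_erase.2 ⟨hj, mem_univ _⟩)
      have h2 := (card_le_card h1).trans card_image_le
      rw [card_erase_of_mem (mem_univ i), card_univ, Fintype.card_fin] at h2
      have : 0 < t := i.pos
      omega
    have hc₁ : P₁.card < t := by
      by_cases hV : Nonempty V
      · obtain ⟨a₀⟩ := hV
        refine hcard P₁ (fun j => Sum.elim id (fun _ => a₀) (X j)) fun a ha => ?_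
        simp only [hP₁, mem_filter, mem_univ, true_and] at ha
        obtain ⟨j, hj, h⟩ := ha
        exact ⟨j, hj, by simp [h]⟩
      · have : P₁ = ∅ := by
          rw [eq_empty_iff_forall_notMem]
          intro a _
          exact hV ⟨a⟩
        rw [this, card_empty]
        exact i.pos
    have hc₂ : P₂.card < t := by
      by_cases hV : Nonempty V
      · obtain ⟨a₀⟩ := hV
        refine hcard P₂ (fun j => Sum.elim (fun _ => a₀) (S.map ψ₂).symm (X j)) fun a ha => ?_
        simp only [hP₂, mem_filter, mem_univ, true_and] at ha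
        obtain ⟨j, hj, h⟩ := ha
        exact ⟨j, hj, by simp [h]⟩
      · have : P₂ = ∅ := by
          rw [eq_empty_iff_forall_notMem]
          intro a _
          exact hV ⟨a⟩
        rw [this, card_empty]
        exact i.pos
    have hext₁ := fun κ => S.ext ψ₁ P₁ (S.mono ψ₁ _ _ hs₁ hok₁) hc₁ κ
    have hext₂ := fun κ => S.ext ψ₂ P₂ (S.mono ψ₂ _ _ hs₂ hok₂) hc₂ κ
    choose φ₁ hφ₁ hok₁' using hext₁
    choose φ₂ hφ₂ hok₂' using hext₂
    have hcls : ∀ (φ : S.K → S.St) (c : W),
        S.cls ((S.map (φ (S.cls' c))).symm c) = S.cls' c := by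
      intro φ c
      rw [← S.map_cls (φ (S.cls' c)), Equiv.apply_symm_apply]
    refine ⟨⟨fun z => Sum.elim (fun a => Sum.inr (S.map (φ₁ (S.cls a)) a))
        (fun c => Sum.inl ((S.map (φ₂ (S.cls' c))).symm c)) z,
      fun z => Sum.elim (fun a => Sum.inr (S.map (φ₂ (S.cls a)) a))
        (fun c => Sum.inl ((S.map (φ₁ (S.cls' c))).symm c)) z, ?_, ?_⟩, ?_⟩
    · rintro (a | c)
      · simp only [Sum.elim_inl, Sum.elim_inr]
        rw [S.map_cls, Equiv.symm_apply_apply]
      · simp only [Sum.elim_inl, Sum.elim_inr]
        rw [hcls, Equiv.apply_symm_apply]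
    · rintro (a | c)
      · simp only [Sum.elim_inl, Sum.elim_inr]
        rw [S.map_cls, Equiv.symm_apply_apply]
      · simp only [Sum.elim_inl, Sum.elim_inr]
        rw [hcls, Equiv.apply_symm_apply]
    · rintro (a | c)
      · refine ⟨φ₁ (S.cls a), ψ₂, ?_, ?_, ?_⟩
        · refine S.mono _ _ _ ?_ (hok₁' (S.cls a) a rfl)
          intro b hb
          simp only [mem_filter, mem_univ, true_and] at hb
          obtain ⟨j, hj⟩ := hb
          by_cases hji : j = i
          · subst hji
            rw [Function.update_self, Sum.inl.injEq] at hj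
            rw [← hj]
            exact mem_insert_self _ _
          · rw [Function.update_of_ne hji] at hj
            refine mem_insert_of_mem ?_
            simp only [hP₁, mem_filter, mem_univ, true_and]
            exact ⟨j, hji, hj⟩
        · refine S.mono _ _ _ ?_ hok₂
          intro b hb
          simp only [mem_filter, mem_univ, true_and] at hb ⊢
          obtain ⟨j, hj⟩ := hb
          by_cases hji : j = i
          · subst hji
            rw [Function.update_self] at hj
            exact absurd hj (by simp)
          · rw [Function.update_of_ne hji] at hj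
            exact ⟨j, hj⟩
        · intro j
          by_cases hji : j = i
          · subst hji
            rw [Function.update_self, Function.update_self]
            rfl
          · rw [Function.update_of_ne hji, Function.update_of_ne hji, hX]
            rcases hj : X j with b | d
            · simp only [spMap]
              rw [hφ₁ (S.cls a) b]
              simp only [hP₁, mem_filter, mem_univ, true_and]
              exact ⟨j, hji, hj⟩
            · simp only [spMap]
      · have hc2 := hok₂' (S.cls' c) ((S.map (φ₂ (S.cls' c))).symm c) (hcls φ₂ c)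
        refine ⟨ψ₁, φ₂ (S.cls' c), ?_, ?_, ?_⟩
        · refine S.mono _ _ _ ?_ hok₁
          intro b hb
          simp only [mem_filter, mem_univ, true_and] at hb ⊢
          obtain ⟨j, hj⟩ := hb
          by_cases hji : j = i
          · subst hji
            rw [Function.update_self] at hj
            exact absurd hj (by simp)
          · rw [Function.update_of_ne hji] at hj
            exact ⟨j, hj⟩
        · refine S.mono _ _ _ ?_ hc2
          intro b hb
          simp only [mem_filter, mem_univ, true_and] at hb
          obtain ⟨j, hj⟩ := hb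
          by_cases hji : j = i
          · subst hji
            rw [Function.update_self, Sum.inr.injEq] at hj
            have hb2 : b = (S.map (φ₂ (S.cls' c))).symm c := by
              rw [Equiv.eq_symm_apply]
              exact hj.symm
            rw [hb2]
            exact mem_insert_self _ _
          · rw [Function.update_of_ne hji] at hj
            refine mem_insert_of_mem ?_
            have hb' : (S.map ψ₂).symm (S.map (φ₂ (S.cls' c)) b) ∈ P₂ := by
              simp only [hP₂, mem_filter, mem_univ, true_and, Equiv.apply_symm_apply]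
              exact ⟨j, hji, hj⟩
            have h1 := hφ₂ (S.cls' c) _ hb'
            rw [Equiv.apply_symm_apply] at h1
            have h2 := (S.map (φ₂ (S.cls' c))).injective h1
            rw [h2] at hb'
            exact hb'
        · intro j
          by_cases hji : j = i
          · subst hji
            rw [Function.update_self, Function.update_self]
            rfl
          · rw [Function.update_of_ne hji, Function.update_of_ne hji, hX]
            rcases hj : X j with b | d
            · simp only [spMap]
            · simp only [spMap, Sum.inl.injEq]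
              have hb' : (S.map ψ₂).symm d ∈ P₂ := by
                simp only [hP₂, mem_filter, mem_univ, true_and, Equiv.apply_symm_apply]
                exact ⟨j, hji, hj⟩
              have h1 := hφ₂ (S.cls' c) _ hb'
              rw [Equiv.apply_symm_apply] at h1
              rw [Equiv.eq_symm_apply, h1]

theorem sp_start {t : ℕ} {G : V → V → Bool} {H : W → W → Bool} (S : Strat t G H) (ht : 0 < t)
    (a : V) : ∃ (x : Fin t → V) (x' : Fin t → W), (spFam S).R x x' := by
  obtain ⟨ψ, hψ⟩ := S.init
  obtain ⟨ψ', -, h⟩ := S.ext ψ ∅ hψ (by simpa using ht) (S.cls a)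
  refine ⟨fun _ => a, fun _ => S.map ψ' a, ψ', ?_, fun _ => rfl⟩
  refine S.mono _ _ _ ?_ (h a rfl)
  intro b hb
  rw [mem_image] at hb
  obtain ⟨_, -, rfl⟩ := hb
  exact mem_insert_self _ _

theorem sp_lift {t : ℕ} {G : V → V → Bool} {H : W → W → Bool} (S : Strat t G H)
    (x : Fin t → V) (x' : Fin t → W) (h : (spFam S).R x x') :
    (spUFam S).R (fun i => Sum.inl (x i)) (fun i => Sum.inr (x' i)) := by
  obtain ⟨ψ, hok, hx⟩ := h
  obtain ⟨ψ₀, hψ₀⟩ := S.init
  refine ⟨ψ, ψ₀, ?_, ?_, fun i => ?_⟩
  · refine S.mono _ _ _ ?_ hok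
    intro a ha
    simp only [mem_filter, mem_univ, true_and, Sum.inl.injEq] at ha
    obtain ⟨i, rfl⟩ := ha
    exact mem_image_of_mem x (mem_univ i)
  · refine S.mono _ _ _ ?_ hψ₀
    intro a ha
    simp at ha
  · simp only [spMap, hx]

theorem sp_map_eq {k : ℕ} {α : Type} (Φ : (Fin k → V) ≃ (Fin k → W)) (c : (Fin k → V) → α)
    (c' : (Fin k → W) → α) (h : ∀ v, c v = c' (Φ v)) :
    (univ : Finset (Fin k → V)).val.map c = (univ : Finset (Fin k → W)).val.map c' := by
  rw [← Finset.map_univ_equiv Φ, Finset.map_val, Multiset.map_map]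
  exact Multiset.map_congr rfl fun v _ => h v

theorem sp_empty {k : ℕ} (hk : 0 < k) {t : ℕ} {G : V → V → Bool} {H : W → W → Bool}
    (S : Strat t G H) (hV : ¬ Nonempty V) {α : Type} (c : (Fin k → V) → α)
    (c' : (Fin k → W) → α) :
    (univ : Finset (Fin k → V)).val.map c = (univ : Finset (Fin k → W)).val.map c' := by
  have hVe : IsEmpty V := not_nonempty_iff.1 hV
  obtain ⟨ψ, -⟩ := S.init
  have hWe : IsEmpty W := ⟨fun c => hV ⟨(S.map ψ).symm c⟩⟩
  have : Nonempty (Fin k) := ⟨⟨0, hk⟩⟩
  rw [Finset.univ_eq_empty, Finset.univ_eq_empty]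
  rfl

theorem Strat.pj_eq {k : ℕ} (hk : 0 < k) {G : V → V → Bool} {H : W → W → Bool} (S : Strat (k + 1) G H)
    (s : ℕ) : pjL G H k s = pjR G H k s := by
  unfold pjL pjR
  by_cases hV : Nonempty V
  · obtain ⟨a⟩ := hV
    obtain ⟨x, x', hx⟩ := sp_start S (by omega) a
    obtain ⟨Φ, hΦ⟩ := sp_bij (spFam S) x x' hx k (by omega)
    refine sp_map_eq Φ _ _ fun v => ?_
    have h := fam_joint (spUFam S) _ _ (sp_lift S _ _ (hΦ v)) s
    have e1 : ∀ i : Fin k, spOv k v x i.castSucc = v i := by
      intro i
      simp [spOv]
    have e2 : ∀ i : Fin k, spOv k (Φ v) x' i.castSucc = Φ v i := by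
      intro i
      simp [spOv]
    simp only [e1, e2] at h
    exact h
  · exact sp_empty hk S hV _ _

theorem Strat.ps_eq {k : ℕ} (hk : 0 < k) {G : V → V → Bool} {H : W → W → Bool} (S : Strat k G H)
    (s : ℕ) : psL G H k s = psR G H k s := by
  unfold psL psR
  by_cases hV : Nonempty V
  · obtain ⟨a⟩ := hV
    obtain ⟨x, x', hx⟩ := sp_start S hk a
    obtain ⟨Φ, hΦ⟩ := sp_bij (spFam S) x x' hx k le_rfl
    refine sp_map_eq Φ _ _ fun v => ?_
    have h := fam_sep (spUFam S) _ _ (sp_lift S _ _ (hΦ v)) s
    have e1 : ∀ i : Fin k, spOv k v x i = v i := by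
      intro i
      simp [spOv]
    have e2 : ∀ i : Fin k, spOv k (Φ v) x' i = Φ v i := by
      intro i
      simp [spOv]
    simp only [e1, e2] at h
    exact h
  · exact sp_empty hk S hV _ _

end Crest.Agent.WL
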