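import Crest.Agent.WL.Basic
import Mathlib.Data.ZMod.Basic
import Mathlib.Data.Fintype.Option
import Mathlib.Algebra.BigOperators.Group.Finset.Basic

/-!
# Row 290: XOR systems, base strategies (Duplicator) and base families (Spoiler)

A system has checks `C` and bits `E`; a check has five slots, a slot holds a bit or nothing.
`al c` : the check is present (an absent check gives only junk vertices).
For a right-hand side `b : C → ZMod 2` the constraint of `c` is `∑_{s} bit (slot c s) = b c`.
-/

set_option autoImplicit false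

namespace Crest.Agent.WL

structure Sys where
  C : Type
  E : Type
  [fC : Fintype C]
  [dC : DecidableEq C]
  [fE : Fintype E]
  [dE : DecidableEq E]
  nC : ℕ
  nE : ℕ
  eC : C ≃ Fin nC
  eE : E ≃ Fin nE
  slot : C → Fin 5 → Option E
  al : C → Bool
  slot_inj : ∀ c s s' e, slot c s = some e → slot c s' = some e → s = s'
  slot_ex : ∀ c, al c = true → ∃ s e, slot c s = some e

attribute [instance] Sys.fC Sys.dC Sys.fE Sys.dE

namespace Sys

variable (S : Sys)

/-- value of a slot under a valuation of the bits (0 for an empty slot). -/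
def sv (z : S.E → ZMod 2) (c : S.C) (s : Fin 5) : ZMod 2 :=
  match S.slot c s with
  | none => 0
  | some e => z e

/-- boundary: the parity of a check under a valuation of the bits. -/
def bd (z : S.E → ZMod 2) (c : S.C) : ZMod 2 := ∑ s : Fin 5, S.sv z c s

end Sys

/-- Duplicator's strategy on the level of the XOR system: states are valuations of the bits, `ok ψ P` says
that the state is valid for the set `P` of pebbled checks. `tw` is the difference of the two right-hand
sides; `t` is the number of pebbles. -/
structure BStrat (S : Sys) (t : ℕ) (tw : S.C → ZMod 2) where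
  St : Type
  val : St → S.E → ZMod 2
  ok : St → Finset S.C → Prop
  mono : ∀ ψ P Q, Q ⊆ P → ok ψ P → ok ψ Q
  sat : ∀ ψ P, ok ψ P → ∀ c ∈ P, S.al c = true → S.bd (val ψ) c = tw c
  ext : ∀ ψ P, ok ψ P → P.card < t → ∀ c, ∃ ψ', ok ψ' (insert c P) ∧
    ∀ c' ∈ P, S.al c' = true → ∀ s e, S.slot c' s = some e → val ψ' e = val ψ e
  init : ∃ ψ, ok ψ ∅

/-- Duplicator's winning positions seen from Spoiler's side, on the level of the XOR system: `F P δ` :
`P` = set of pebbled (present) checks, `δ c s` = shift of the value of slot `s` of the pebbled check `c`. -/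
structure BFam (S : Sys) (t : ℕ) (tw : S.C → ZMod 2) where
  F : Finset S.C → (S.C → Fin 5 → ZMod 2) → Prop
  par : ∀ P δ, F P δ → ∀ c ∈ P, ∑ s : Fin 5, δ c s = tw c
  miss : ∀ P δ, F P δ → ∀ c ∈ P, ∀ s, S.slot c s = none → δ c s = 0
  cons : ∀ P δ, F P δ → ∀ c ∈ P, ∀ c' ∈ P, ∀ s s' e, S.slot c s = some e → S.slot c' s' = some e →
    δ c s = δ c' s'
  sub : ∀ P Q δ, F P δ → Q ⊆ P → F Q δ
  ext : ∀ P δ, F P δ → P.card < t → ∀ c, S.al c = true → ∃ δ', F (insert c P) δ' ∧ ∀ c' ∈ P, δ' c' = δ c'
  init : ∃ δ, F ∅ δ

end Crest.Agent.WL
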