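import Crest.Agent.WL.Basic

/-!
# CHUNK WL-A1: colours of matrices and colours on types

Straightforward inductions on the round: `asMatrix adj` is `adj` read through `Fintype.equivFin V`;
`Function.update` commutes with composition with an equivalence; sums/multisets over `Fin (card V)` are
multisets over `V` (use `Multiset.map_map`, `Finset.univ.map e.toEmbedding = univ`).
For (4)-(6): `jcolor adj` and `jc adj` for `V = Fin n` differ only by the `DecidableEq` instance.
-/

set_option autoImplicit false
set_option linter.unusedSectionVars false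

namespace Crest.Agent.WL

open Crest.WLRefine Crest.WLRefine.ParityLift Finset

variable {V W : Type} [Fintype V] [DecidableEq V] [Fintype W] [DecidableEq W]

theorem Transfer_at {k : ℕ} (G : V → V → Bool) (H : W → W → Bool) (e : V ≃ W)
    (h : ∀ a b, H (e a) (e b) = G a b) (v : Fin k → V) :
    atT H (fun i => e (v i)) = atT G v := by
  unfold atT
  refine Prod.ext ?_ ?_
  · funext i j
    exact decide_eq_decide.2 e.injective.eq_iff
  · funext i j
    exact h _ _

omit [DecidableEq V] [DecidableEq W] in
theorem Transfer_univ (e : V ≃ W) : (univ : Finset W).val = (univ : Finset V).val.map e := by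
  have h := Finset.map_univ_equiv e
  rw [← h]
  rfl

theorem Transfer_update {k : ℕ} (e : V ≃ W) (v : Fin k → V) (i : Fin k) (z : V) :
    Function.update (fun i => e (v i)) i (e z) = fun j => e (Function.update v i z j) := by
  funext j
  by_cases hj : j = i
  · subst hj; simp
  · simp [Function.update_of_ne hj]

omit [DecidableEq V] [DecidableEq W] in
theorem Transfer_univ_pi (e : V ≃ W) (k : ℕ) : (univ : Finset (Fin k → W)).val =
    (univ : Finset (Fin k → V)).val.map (fun v i => e (v i)) := by
  have h := Finset.map_univ_equiv ((Equiv.refl (Fin k)).arrowCongr e)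
  rw [← h]
  rfl

theorem jcolor_eq_jc {n : ℕ} (adj : Fin n → Fin n → Bool) (k s : ℕ) (v : Fin k → Fin n) :
    jcolor adj k s v = jc adj k s v := by
  induction s generalizing v with
  | zero => rfl
  | succ s ih =>
    have h : jcolor adj k s = jc adj k s := funext ih
    change (jcolor adj k s v, _) = (jc adj k s v, _)
    rw [h]

theorem scolor_eq_sc {n : ℕ} (adj : Fin n → Fin n → Bool) (k s : ℕ) (v : Fin k → Fin n) :
    scolor adj k s v = sc adj k s v := by
  induction s generalizing v with
  | zero => rfl
  | succ s ih =>
    have h : scolor adj k s = sc adj k s := funext ih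
    change (scolor adj k s v, _) = (sc adj k s v, _)
    rw [h]

/-- Colours are preserved by graph isomorphisms. -/
theorem jc_iso (G : V → V → Bool) (H : W → W → Bool) (e : V ≃ W)
    (h : ∀ a b, H (e a) (e b) = G a b) (k s : ℕ) (v : Fin k → V) :
    jc H k s (fun i => e (v i)) = jc G k s v := by
  induction s generalizing v with
  | zero => exact Transfer_at G H e h v
  | succ s ih =>
    refine Prod.ext (ih v) ?_
    change (univ : Finset W).val.map (fun z i => jc H k s (Function.update (fun i => e (v i)) i z)) =
      (univ : Finset V).val.map (fun z i => jc G k s (Function.update v i z))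
    rw [Transfer_univ e, Multiset.map_map]
    refine Multiset.map_congr rfl fun z _ => ?_
    funext i
    simp only [Function.comp_apply]
    rw [Transfer_update, ih]

theorem sc_iso (G : V → V → Bool) (H : W → W → Bool) (e : V ≃ W)
    (h : ∀ a b, H (e a) (e b) = G a b) (k s : ℕ) (v : Fin k → V) :
    sc H k s (fun i => e (v i)) = sc G k s v := by
  induction s generalizing v with
  | zero => exact Transfer_at G H e h v
  | succ s ih =>
    refine Prod.ext (ih v) ?_
    funext i
    change (univ : Finset W).val.map (fun z => sc H k s (Function.update (fun i => e (v i)) i z)) =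
      (univ : Finset V).val.map (fun z => sc G k s (Function.update v i z))
    rw [Transfer_univ e, Multiset.map_map]
    refine Multiset.map_congr rfl fun z _ => ?_
    simp only [Function.comp_apply]
    rw [Transfer_update, ih]

theorem jhist_iso (G : V → V → Bool) (H : W → W → Bool) (e : V ≃ W)
    (h : ∀ a b, H (e a) (e b) = G a b) (k s : ℕ) : jhist H k s = jhist G k s := by
  unfold jhist
  rw [Transfer_univ_pi e k, Multiset.map_map]
  exact Multiset.map_congr rfl fun v _ => jc_iso G H e h k s v

theorem shist_iso (G : V → V → Bool) (H : W → W → Bool) (e : V ≃ W)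
    (h : ∀ a b, H (e a) (e b) = G a b) (k s : ℕ) : shist H k s = shist G k s := by
  unfold shist
  rw [Transfer_univ_pi e k, Multiset.map_map]
  exact Multiset.map_congr rfl fun v _ => sc_iso G H e h k s v

/-- (1) joint histogram of `asMatrix`. -/
theorem jcolor_asMatrix (adj : V → V → Bool) (k s : ℕ) (v : Fin k → Fin (Fintype.card V)) :
    jcolor (asMatrix adj) k s v = jc adj k s (fun i => (Fintype.equivFin V).symm (v i)) := by
  rw [jcolor_eq_jc]
  exact (jc_iso (asMatrix adj) adj (Fintype.equivFin V).symm (fun _ _ => rfl) k s v).symm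

theorem scolor_asMatrix (adj : V → V → Bool) (k s : ℕ) (v : Fin k → Fin (Fintype.card V)) :
    scolor (asMatrix adj) k s v = sc adj k s (fun i => (Fintype.equivFin V).symm (v i)) := by
  rw [scolor_eq_sc]
  exact (sc_iso (asMatrix adj) adj (Fintype.equivFin V).symm (fun _ _ => rfl) k s v).symm

theorem jhist_asMatrix (adj : V → V → Bool) (k s : ℕ) :
    (univ : Finset (Fin k → Fin (Fintype.card V))).val.map (jcolor (asMatrix adj) k s)
      = jhist adj k s := by
  rw [show jcolor (asMatrix adj) k s = jc (asMatrix adj) k s from
    funext (jcolor_eq_jc (asMatrix adj) k s)]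
  exact (jhist_iso (asMatrix adj) adj (Fintype.equivFin V).symm (fun _ _ => rfl) k s).symm

theorem shist_asMatrix (adj : V → V → Bool) (k s : ℕ) :
    (univ : Finset (Fin k → Fin (Fintype.card V))).val.map (scolor (asMatrix adj) k s)
      = shist adj k s := by
  rw [show scolor (asMatrix adj) k s = sc (asMatrix adj) k s from
    funext (scolor_eq_sc (asMatrix adj) k s)]
  exact (shist_iso (asMatrix adj) adj (Fintype.equivFin V).symm (fun _ _ => rfl) k s).symm

theorem jequiv_iff {n m : ℕ} (k : ℕ) (G : Fin n → Fin n → Bool) (H : Fin m → Fin m → Bool) :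
    JEquiv k G H ↔ ∀ s, jhist G k s = jhist H k s := by
  unfold JEquiv jhist
  refine forall_congr' fun s => ?_
  rw [show jcolor G k s = jc G k s from funext (jcolor_eq_jc G k s),
    show jcolor H k s = jc H k s from funext (jcolor_eq_jc H k s)]

theorem sequiv_iff {n m : ℕ} (k : ℕ) (G : Fin n → Fin n → Bool) (H : Fin m → Fin m → Bool) :
    SEquiv k G H ↔ ∀ s, shist G k s = shist H k s := by
  unfold SEquiv shist
  refine forall_congr' fun s => ?_
  rw [show scolor G k s = sc G k s from funext (scolor_eq_sc G k s),
    show scolor H k s = sc H k s from funext (scolor_eq_sc H k s)]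

theorem jequiv_asMatrix (k : ℕ) (G : V → V → Bool) (H : W → W → Bool) :
    JEquiv k (asMatrix G) (asMatrix H) ↔ ∀ s, jhist G k s = jhist H k s := by
  unfold JEquiv
  refine forall_congr' fun s => ?_
  rw [jhist_asMatrix, jhist_asMatrix]

theorem sequiv_asMatrix (k : ℕ) (G : V → V → Bool) (H : W → W → Bool) :
    SEquiv k (asMatrix G) (asMatrix H) ↔ ∀ s, shist G k s = shist H k s := by
  unfold SEquiv
  refine forall_congr' fun s => ?_
  rw [shist_asMatrix, shist_asMatrix]

/-- Disjoint union of graphs on arbitrary types. -/
def uAdj (G : V → V → Bool) (H : W → W → Bool) : V ⊕ W → V ⊕ W → Bool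
  | Sum.inl a, Sum.inl a' => G a a'
  | Sum.inr c, Sum.inr c' => H c c'
  | _, _ => false

/-- Joint histogram of the pure tuples of the first part. -/
def pjL (G : V → V → Bool) (H : W → W → Bool) (k s : ℕ) : Multiset (JColor k s) :=
  (univ : Finset (Fin k → V)).val.map (fun v => jc (uAdj G H) k s (fun i => Sum.inl (v i)))

def pjR (G : V → V → Bool) (H : W → W → Bool) (k s : ℕ) : Multiset (JColor k s) :=
  (univ : Finset (Fin k → W)).val.map (fun v => jc (uAdj G H) k s (fun i => Sum.inr (v i)))

def psL (G : V → V → Bool) (H : W → W → Bool) (k s : ℕ) : Multiset (SColor k s) :=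
  (univ : Finset (Fin k → V)).val.map (fun v => sc (uAdj G H) k s (fun i => Sum.inl (v i)))

def psR (G : V → V → Bool) (H : W → W → Bool) (k s : ℕ) : Multiset (SColor k s) :=
  (univ : Finset (Fin k → W)).val.map (fun v => sc (uAdj G H) k s (fun i => Sum.inr (v i)))

/-- the identification of the vertices of the union -/
noncomputable def Transfer_e (V W : Type) [Fintype V] [Fintype W] :
    Fin (Fintype.card (Fin (Fintype.card V) ⊕ Fin (Fintype.card W))) ≃ V ⊕ W :=
  (Fintype.equivFin _).symm.trans
    (Equiv.sumCongr (Fintype.equivFin V).symm (Fintype.equivFin W).symm)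

omit [DecidableEq V] [DecidableEq W] in
theorem Transfer_e_adj (G : V → V → Bool) (H : W → W → Bool)
    (a b : Fin (Fintype.card (Fin (Fintype.card V) ⊕ Fin (Fintype.card W)))) :
    uAdj G H (Transfer_e V W a) (Transfer_e V W b) =
      asMatrix (unionAdj (asMatrix G) (asMatrix H)) a b := by
  unfold Transfer_e
  change uAdj G H (Equiv.sumCongr _ _ ((Fintype.equivFin _).symm a))
    (Equiv.sumCongr _ _ ((Fintype.equivFin _).symm b)) =
    unionAdj (asMatrix G) (asMatrix H) ((Fintype.equivFin _).symm a) ((Fintype.equivFin _).symm b)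
  rcases (Fintype.equivFin (Fin (Fintype.card V) ⊕ Fin (Fintype.card W))).symm a with x | x <;>
  rcases (Fintype.equivFin (Fin (Fintype.card V) ⊕ Fin (Fintype.card W))).symm b with y | y <;>
  rfl

theorem pureJHistEq_iff (k s : ℕ) (G : V → V → Bool) (H : W → W → Bool) :
    PureJHistEq k s (asMatrix G) (asMatrix H) ↔ pjL G H k s = pjR G H k s := by
  unfold PureJHistEq pjL pjR
  rw [Transfer_univ_pi (Fintype.equivFin V).symm k, Transfer_univ_pi (Fintype.equivFin W).symm k,
    Multiset.map_map, Multiset.map_map]
  have h1 : (fun v : Fin k → Fin (Fintype.card V) =>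
      jcolor (asMatrix (unionAdj (asMatrix G) (asMatrix H))) k s
        (Fintype.equivFin _ ∘ Sum.inl ∘ v)) =
      (fun v => jc (uAdj G H) k s (fun i => Sum.inl (v i))) ∘
        (fun v i => (Fintype.equivFin V).symm (v i)) := by
    funext v
    rw [jcolor_eq_jc, ← jc_iso _ _ (Transfer_e V W) (Transfer_e_adj G H)]
    congr 1
    funext i
    simp [Transfer_e]
  have h2 : (fun v : Fin k → Fin (Fintype.card W) =>
      jcolor (asMatrix (unionAdj (asMatrix G) (asMatrix H))) k s
        (Fintype.equivFin _ ∘ Sum.inr ∘ v)) =
      (fun v => jc (uAdj G H) k s (fun i => Sum.inr (v i))) ∘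
        (fun v i => (Fintype.equivFin W).symm (v i)) := by
    funext v
    rw [jcolor_eq_jc, ← jc_iso _ _ (Transfer_e V W) (Transfer_e_adj G H)]
    congr 1
    funext i
    simp [Transfer_e]
  rw [h1, h2]

theorem pureSHistEq_iff (k s : ℕ) (G : V → V → Bool) (H : W → W → Bool) :
    PureSHistEq k s (asMatrix G) (asMatrix H) ↔ psL G H k s = psR G H k s := by
  unfold PureSHistEq psL psR
  rw [Transfer_univ_pi (Fintype.equivFin V).symm k, Transfer_univ_pi (Fintype.equivFin W).symm k,
    Multiset.map_map, Multiset.map_map]
  have h1 : (fun v : Fin k → Fin (Fintype.card V) =>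
      scolor (asMatrix (unionAdj (asMatrix G) (asMatrix H))) k s
        (Fintype.equivFin _ ∘ Sum.inl ∘ v)) =
      (fun v => sc (uAdj G H) k s (fun i => Sum.inl (v i))) ∘
        (fun v i => (Fintype.equivFin V).symm (v i)) := by
    funext v
    rw [scolor_eq_sc, ← sc_iso _ _ (Transfer_e V W) (Transfer_e_adj G H)]
    congr 1
    funext i
    simp [Transfer_e]
  have h2 : (fun v : Fin k → Fin (Fintype.card W) =>
      scolor (asMatrix (unionAdj (asMatrix G) (asMatrix H))) k s
        (Fintype.equivFin _ ∘ Sum.inr ∘ v)) =
      (fun v => sc (uAdj G H) k s (fun i => Sum.inr (v i))) ∘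
        (fun v i => (Fintype.equivFin W).symm (v i)) := by
    funext v
    rw [scolor_eq_sc, ← sc_iso _ _ (Transfer_e V W) (Transfer_e_adj G H)]
    congr 1
    funext i
    simp [Transfer_e]
  rw [h1, h2]

end Crest.Agent.WL
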