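import Crest.Agent.WL.GraphX
import Crest.Agent.WL.Basic

/-!
# Row 290, class recognition (XF0): preserved relations of a pebble family
-/

set_option autoImplicit false
set_option linter.unusedSectionVars false

namespace Crest.Agent.WL

open Finset

variable {V W : Type} [Fintype V] [DecidableEq V] [Fintype W] [DecidableEq W]
variable {t : ℕ} {G : V → V → Bool} {H : W → W → Bool}

/-- preserved unary relations -/
def Pr1 (F : PebbleFam t G H) (A : V → Prop) (A' : W → Prop) : Prop :=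
  ∀ x x', F.R x x' → ∀ i, A (x i) ↔ A' (x' i)

/-- preserved binary relations -/
def Pr2 (F : PebbleFam t G H) (A : V → V → Prop) (A' : W → W → Prop) : Prop :=
  ∀ x x', F.R x x' → ∀ i j, A (x i) (x j) ↔ A' (x' i) (x' j)

/-- preserved ternary relations -/
def Pr3 (F : PebbleFam t G H) (A : V → V → V → Prop) (A' : W → W → W → Prop) : Prop :=
  ∀ x x', F.R x x' → ∀ i j l, A (x i) (x j) (x l) ↔ A' (x' i) (x' j) (x' l)

variable {F : PebbleFam t G H}

theorem pr_eq : Pr2 F (fun u v => u = v) (fun u v => u = v) := by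
  intro x x' hx i j
  have h := congrFun (congrFun (congrArg Prod.fst (F.atom x x' hx)) i) j
  exact decide_eq_decide.1 h

theorem pr_adj : Pr2 F (fun u v => G u v = true) (fun u v => H u v = true) := by
  intro x x' hx i j
  have h := congrFun (congrFun (congrArg Prod.snd (F.atom x x' hx)) i) j
  have h' : G (x i) (x j) = H (x' i) (x' j) := h
  beta_reduce
  rw [h']

theorem Pr1.congr {A B : V → Prop} {A' B' : W → Prop} (h : Pr1 F A A') (h1 : ∀ u, B u ↔ A u)
    (h2 : ∀ u, B' u ↔ A' u) : Pr1 F B B' := fun x x' hx i => by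
  rw [h1, h2]; exact h x x' hx i

theorem Pr2.congr {A B : V → V → Prop} {A' B' : W → W → Prop} (h : Pr2 F A A')
    (h1 : ∀ u v, B u v ↔ A u v) (h2 : ∀ u v, B' u v ↔ A' u v) : Pr2 F B B' := fun x x' hx i j => by
  rw [h1, h2]; exact h x x' hx i j

theorem Pr1.not {A : V → Prop} {A' : W → Prop} (h : Pr1 F A A') :
    Pr1 F (fun u => ¬ A u) (fun u => ¬ A' u) := fun x x' hx i => not_congr (h x x' hx i)

theorem Pr1.and {A B : V → Prop} {A' B' : W → Prop} (h : Pr1 F A A') (h' : Pr1 F B B') :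
    Pr1 F (fun u => A u ∧ B u) (fun u => A' u ∧ B' u) := fun x x' hx i =>
  and_congr (h x x' hx i) (h' x x' hx i)

theorem Pr1.or {A B : V → Prop} {A' B' : W → Prop} (h : Pr1 F A A') (h' : Pr1 F B B') :
    Pr1 F (fun u => A u ∨ B u) (fun u => A' u ∨ B' u) := fun x x' hx i =>
  or_congr (h x x' hx i) (h' x x' hx i)

theorem Pr2.and {A B : V → V → Prop} {A' B' : W → W → Prop} (h : Pr2 F A A') (h' : Pr2 F B B') :
    Pr2 F (fun u v => A u v ∧ B u v) (fun u v => A' u v ∧ B' u v) := fun x x' hx i j =>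
  and_congr (h x x' hx i j) (h' x x' hx i j)

theorem Pr2.or {A B : V → V → Prop} {A' B' : W → W → Prop} (h : Pr2 F A A') (h' : Pr2 F B B') :
    Pr2 F (fun u v => A u v ∨ B u v) (fun u v => A' u v ∨ B' u v) := fun x x' hx i j =>
  or_congr (h x x' hx i j) (h' x x' hx i j)

theorem Pr2.not {A : V → V → Prop} {A' : W → W → Prop} (h : Pr2 F A A') :
    Pr2 F (fun u v => ¬ A u v) (fun u v => ¬ A' u v) := fun x x' hx i j => not_congr (h x x' hx i j)

theorem Pr2.swap {A : V → V → Prop} {A' : W → W → Prop} (h : Pr2 F A A') :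
    Pr2 F (fun u v => A v u) (fun u v => A' v u) := fun x x' hx i j => h x x' hx j i

theorem Pr1.left {A : V → Prop} {A' : W → Prop} (h : Pr1 F A A') :
    Pr2 F (fun u _ => A u) (fun u _ => A' u) := fun x x' hx i _ => h x x' hx i

theorem Pr1.right {A : V → Prop} {A' : W → Prop} (h : Pr1 F A A') :
    Pr2 F (fun _ v => A v) (fun _ v => A' v) := fun x x' hx _ j => h x x' hx j

/-- arbitrary unions -/
theorem Pr1.iEx {ι : Type} {A : ι → V → Prop} {A' : ι → W → Prop} (h : ∀ a, Pr1 F (A a) (A' a)) :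
    Pr1 F (fun u => ∃ a, A a u) (fun u => ∃ a, A' a u) := fun x x' hx i =>
  exists_congr (fun a => h a x x' hx i)

theorem exists_ne3 (ht : 3 ≤ t) (i j : Fin t) : ∃ l : Fin t, l ≠ i ∧ l ≠ j := by
  by_contra h
  push Not at h
  have h1 : (univ : Finset (Fin t)) ⊆ {i, j} := by
    intro l _
    rw [mem_insert, mem_singleton]
    by_cases hl : l = i
    · exact Or.inl hl
    · exact Or.inr (h l hl)
  have h2 := card_le_card h1
  rw [card_univ, Fintype.card_fin] at h2
  have h3 : ({i, j} : Finset (Fin t)).card ≤ 2 := Finset.card_le_two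
  omega

/-- one existential quantifier -/
theorem pr_ex (ht : 3 ≤ t) {A : V → V → V → Prop} {A' : W → W → W → Prop} (h : Pr3 F A A') :
    Pr2 F (fun u v => ∃ z, A u v z) (fun u v => ∃ z, A' u v z) := by
  intro x x' hx i j
  obtain ⟨l, hli, hlj⟩ := exists_ne3 ht i j
  obtain ⟨f, hf⟩ := F.step x x' hx l
  have key : ∀ z, A (x i) (x j) z ↔ A' (x' i) (x' j) (f z) := by
    intro z
    have h1 := h _ _ (hf z) i j l
    simpa [Function.update_of_ne hli.symm, Function.update_of_ne hlj.symm] using h1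
  constructor
  · rintro ⟨z, hz⟩
    exact ⟨f z, (key z).1 hz⟩
  · rintro ⟨z, hz⟩
    exact ⟨f.symm z, (key _).2 (by simpa using hz)⟩

theorem pr_ex1 (ht : 3 ≤ t) {A : V → V → Prop} {A' : W → W → Prop} (h : Pr2 F A A') :
    Pr1 F (fun u => ∃ z, A u z) (fun u => ∃ z, A' u z) := by
  intro x x' hx i
  exact pr_ex ht (A := fun u _ z => A u z) (A' := fun u _ z => A' u z)
    (fun y y' hy i _ l => h y y' hy i l) x x' hx i i

/-- composition -/
theorem Pr2.comp (ht : 3 ≤ t) {A B : V → V → Prop} {A' B' : W → W → Prop} (h : Pr2 F A A')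
    (h' : Pr2 F B B') : Pr2 F (fun u v => ∃ z, A u z ∧ B z v) (fun u v => ∃ z, A' u z ∧ B' z v) :=
  pr_ex ht (fun x x' hx i j l => and_congr (h x x' hx i l) (h' x x' hx l j))

/-- neighbour of a class -/
theorem Pr1.nb (ht : 3 ≤ t) {A : V → Prop} {A' : W → Prop} (h : Pr1 F A A') :
    Pr1 F (fun u => ∃ z, G u z = true ∧ A z) (fun u => ∃ z, H u z = true ∧ A' z) :=
  pr_ex1 ht (pr_adj.and h.right)

/-- degree -/
def dg (G : V → V → Bool) (u : V) : ℕ := (univ.filter fun z => G u z = true).card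

theorem pr_dg (ht : 3 ≤ t) (P : ℕ → Prop) : Pr1 F (fun u => P (dg G u)) (fun u => P (dg H u)) := by
  intro x x' hx i
  obtain ⟨l, hli, -⟩ := exists_ne3 ht i i
  obtain ⟨f, hf⟩ := F.step x x' hx l
  have key : ∀ z, G (x i) z = true ↔ H (x' i) (f z) = true := by
    intro z
    have h1 := pr_adj _ _ (hf z) i l
    simpa [Function.update_of_ne hli.symm] using h1
  have h2 : dg G (x i) = dg H (x' i) := by
    refine Finset.card_bij (fun z _ => f z) ?_ ?_ ?_
    · intro z hz
      rw [mem_filter] at hz ⊢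
      exact ⟨mem_univ _, (key z).1 hz.2⟩
    · intro z _ z' _ h
      exact f.injective h
    · intro z hz
      rw [mem_filter] at hz
      exact ⟨f.symm z, by rw [mem_filter]; exact ⟨mem_univ _, (key _).2 (by simpa using hz.2)⟩,
        by simp⟩
  beta_reduce
  rw [h2]

/-- a second vertex of a class -/
theorem Pr1.two (ht : 3 ≤ t) {A : V → Prop} {A' : W → Prop} (h : Pr1 F A A') :
    Pr1 F (fun u => ∃ z w, z ≠ w ∧ G u z = true ∧ G u w = true ∧ A z ∧ A w)
      (fun u => ∃ z w, z ≠ w ∧ H u z = true ∧ H u w = true ∧ A' z ∧ A' w) := by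
  refine pr_ex1 ht ?_
  refine pr_ex ht (A := fun u z w => z ≠ w ∧ G u z = true ∧ G u w = true ∧ A z ∧ A w)
    (A' := fun u z w => z ≠ w ∧ H u z = true ∧ H u w = true ∧ A' z ∧ A' w) ?_
  intro x x' hx i j l
  exact and_congr (not_congr (pr_eq x x' hx j l)) (and_congr (pr_adj x x' hx i j)
    (and_congr (pr_adj x x' hx i l) (and_congr (h x x' hx j) (h x x' hx l))))

/-- the partner of a new vertex -/
theorem Pr2.move {A : V → V → Prop} {A' : W → W → Prop} (h : Pr2 F A A') (ht : 3 ≤ t)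
    {x : Fin t → V} {x' : Fin t → W} (hx : F.R x x') (i : Fin t) (z : V) (hz : A (x i) z) :
    ∃ (l : Fin t) (z' : W), l ≠ i ∧ F.R (Function.update x l z) (Function.update x' l z') ∧
      A' (x' i) z' := by
  obtain ⟨l, hli, -⟩ := exists_ne3 ht i i
  obtain ⟨f, hf⟩ := F.step x x' hx l
  refine ⟨l, f z, hli, hf z, ?_⟩
  have h1 := h _ _ (hf z) i l
  have h2 : A (x i) z ↔ A' (x' i) (f z) := by
    simpa [Function.update_of_ne hli.symm] using h1
  exact h2.1 hz

end Crest.Agent.WL
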