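import Crest.Agent.WL.GraphX

/-!
# Row 290, class recognition (XF1, chunk R290-XF-ADJ): neighbours of every kind of vertex
-/

set_option autoImplicit false
set_option linter.unusedSectionVars false

namespace Crest.Agent.WL

namespace X

variable {S : Sys} (b : S.C → ZMod 2)

/-- `p` is the vertex `(v, n)` -/
def At (v : V0 S) (n : ℕ) (p : V S) : Prop := p.1 = v ∧ p.2.val = n

/-- tops and junk, whose spine vertex is attached -/
def Jt (v : V0 S) : Prop := junk S v = true ∨ ∃ e, v = V0.tp e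

private theorem stepX_iff (p q : V S) : stepX S b p q = true ↔
    (p.2.val = 0 ∧ q.2.val = 0 ∧ step S b p.1 q.1 = true) ∨
    (p.1 = q.1 ∧ p.2.val = 1 ∧ q.2.val = 2) ∨
    (idx S q.1 = idx S p.1 + 1 ∧ p.2.val = 2 ∧ q.2.val = 1) ∨
    (p.1 = q.1 ∧ p.2.val = 0 ∧ q.2.val = 1 ∧ Jt p.1) ∨
    (p.1 = q.1 ∧ p.2.val = 0 ∧ q.2.val = 3 ∧ 0 < len S p.1) ∨
    (p.1 = q.1 ∧ p.2.val = 2 ∧ q.2.val = 3 + len S p.1) ∨
    (p.1 = q.1 ∧ 3 ≤ p.2.val ∧ q.2.val = p.2.val + 1 ∧ q.2.val ≠ 3 + len S p.1) := by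
  unfold stepX Jt
  simp only [Bool.or_eq_true, Bool.and_eq_true, decide_eq_true_eq, or_assoc, and_assoc]

private theorem adj_iff (p q : V S) :
    adj S b p q = true ↔ stepX S b p q = true ∨ stepX S b q p = true := by
  unfold adj
  rw [Bool.or_eq_true]

private theorem adj0_iff (v w : V0 S) :
    adj0 S b v w = true ↔ step S b v w = true ∨ step S b w v = true := by
  unfold adj0
  rw [Bool.or_eq_true]

theorem adj_zero {v : V0 S} {p q : V S} (h : At v 0 p) :
    adj S b p q = true ↔ (q.2.val = 0 ∧ adj0 S b v q.1 = true) ∨ (At v 1 q ∧ Jt v) ∨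
      (At v 3 q ∧ 0 < len S v) := by
  rw [adj_iff, stepX_iff, stepX_iff, adj0_iff]
  obtain ⟨rfl, h0⟩ := h
  unfold At
  grind (splits := 30)

theorem adj_one {v : V0 S} {p q : V S} (h : At v 1 p) :
    adj S b p q = true ↔ At v 2 q ∨ (q.2.val = 2 ∧ idx S v = idx S q.1 + 1) ∨ (At v 0 q ∧ Jt v) := by
  rw [adj_iff, stepX_iff, stepX_iff]
  obtain ⟨rfl, h0⟩ := h
  unfold At
  grind (splits := 30)

theorem adj_two {v : V0 S} {p q : V S} (h : At v 2 p) :
    adj S b p q = true ↔ At v 1 q ∨ (q.2.val = 1 ∧ idx S q.1 = idx S v + 1) ∨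
      At v (3 + len S v) q := by
  rw [adj_iff, stepX_iff, stepX_iff]
  obtain ⟨rfl, h0⟩ := h
  unfold At
  grind (splits := 30)

/-- `q` is the upper neighbour of the pendant vertex `p` -/
def Up (p q : V S) : Prop :=
  q.1 = p.1 ∧ ((p.2.val = 3 ∧ 0 < len S p.1 ∧ q.2.val = 0) ∨
    (p.2.val = 3 + len S p.1 ∧ q.2.val = 2) ∨
    (p.2.val ≠ 3 ∧ p.2.val ≠ 3 + len S p.1 ∧ p.2.val = q.2.val + 1))

/-- `q` is the lower neighbour of the pendant vertex `p` -/
def Dn (p q : V S) : Prop := q.1 = p.1 ∧ q.2.val = p.2.val + 1 ∧ q.2.val ≠ 3 + len S p.1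

theorem adj_pend {p q : V S} (h : 3 ≤ p.2.val) : adj S b p q = true ↔ Up p q ∨ Dn p q := by
  rw [adj_iff, stepX_iff, stepX_iff]
  unfold Up Dn
  grind (splits := 30)

theorem adj_comm (p q : V S) : adj S b p q = true ↔ adj S b q p = true := by
  rw [adj_iff, adj_iff, or_comm]

theorem adj0_comm (v w : V0 S) : adj0 S b v w = true ↔ adj0 S b w v = true := by
  rw [adj0_iff, adj0_iff, or_comm]

theorem adj0_rl (e : S.E) (n : Fin (10 * S.nC + 1)) (x : ZMod 2) (w : V0 S) :
    adj0 S b (V0.rl e n x) w = true ↔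
      (∃ n' : Fin (10 * S.nC + 1), w = V0.rl e n' x ∧ (n'.val = n.val + 1 ∨ n.val = n'.val + 1)) ∨
      (∃ c s, w = V0.t0 c s x ∧ S.al c = true ∧ S.slot c s = some e ∧ n.val = 2 * inc S c s) ∨
      (w = V0.tp e ∧ n.val = 0) := by
  unfold adj0
  cases w <;> simp [step] <;> grind

theorem adj0_t0 (c : S.C) (s : Fin 5) (x : ZMod 2) (w : V0 S) :
    adj0 S b (V0.t0 c s x) w = true ↔ S.al c = true ∧ ((∃ y, w = V0.t1 c s x y) ∨
      (∃ e n, w = V0.rl e n x ∧ S.slot c s = some e ∧ n.val = 2 * inc S c s)) := by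
  unfold adj0
  cases w <;> simp [step] <;> grind

theorem adj0_t1 (c : S.C) (s : Fin 5) (x y : ZMod 2) (w : V0 S) :
    adj0 S b (V0.t1 c s x y) w = true ↔ S.al c = true ∧ (w = V0.t0 c s x ∨
      ∃ z, w = V0.t2 c s x y z) := by
  unfold adj0
  cases w <;> simp [step] <;> grind

theorem adj0_t2 (c : S.C) (s : Fin 5) (x y z : ZMod 2) (w : V0 S) :
    adj0 S b (V0.t2 c s x y z) w = true ↔ S.al c = true ∧ (w = V0.t1 c s x y ∨
      ∃ a, w = V0.co c a s ∧ full S b c a s = x ∧ full S b c a (s + 1) = y ∧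
        full S b c a (s + 2) = z) := by
  unfold adj0
  cases w <;> simp [step] <;> grind

theorem adj0_co (c : S.C) (a : Fin 4 → ZMod 2) (s : Fin 5) (w : V0 S) :
    adj0 S b (V0.co c a s) w = true ↔ S.al c = true ∧
      ((∃ s' : Fin 5, w = V0.co c a s' ∧ (s'.val = s.val + 1 ∨ s.val = s'.val + 1)) ∨
      w = V0.t2 c s (full S b c a s) (full S b c a (s + 1)) (full S b c a (s + 2))) := by
  unfold adj0
  cases w <;> simp [step] <;> grind

theorem adj0_tp (e : S.E) (w : V0 S) :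
    adj0 S b (V0.tp e) w = true ↔ ∃ (n : Fin (10 * S.nC + 1)) (x : ZMod 2),
      w = V0.rl e n x ∧ n.val = 0 := by
  unfold adj0
  cases w <;> simp [step] <;> grind

theorem len_pos_three (v : V0 S) : len S v = 0 ∨ 3 ≤ len S v := by
  cases v with
  | co c a s => simp only [len]; by_cases h : S.al c = true ∧ s = 0 <;> simp [h]
  | t0 c s x =>
    simp only [len]
    by_cases h : S.al c = true ∧ S.slot c s = none
    · rw [if_pos h]; omega
    · rw [if_neg h]; simp
  | t1 c s x y => left; rfl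
  | t2 c s x y z => left; rfl
  | rl e n x =>
    simp only [len]
    by_cases h : n.val % 2 = 1
    · rw [if_pos h]; omega
    · rw [if_neg h]; simp
  | tp e => left; rfl

theorem len_lt' (v : V0 S) : len S v < N1 S := by
  cases v with
  | co c a s =>
    simp only [len, N1]
    have := (S.eC c).isLt
    split <;> nlinarith
  | t0 c s x =>
    simp only [len, N1, inc]
    have h1 := (S.eC c).isLt
    have h2 := s.isLt
    have h3 : x.val < 2 := x.val_lt
    split <;> nlinarith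
  | t1 c s x y => simp only [len, N1]; nlinarith
  | t2 c s x y z => simp only [len, N1]; nlinarith
  | rl e n x =>
    simp only [len, N1]
    have h1 := (S.eE e).isLt
    have h2 := n.isLt
    split <;> nlinarith
  | tp e => simp only [len, N1]; nlinarith

end X

end Crest.Agent.WL
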