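import Crest.Agent.WL.XF4

/-!
# Row 290, class recognition (XF10, chunk R290-XF-SP1): the spine is recognised
-/

set_option autoImplicit false
set_option linter.unusedSectionVars false

namespace Crest.Agent.WL

namespace X

open Finset

variable {S : Sys} {b b' : S.C → ZMod 2} {t : ℕ}

theorem xf10_pos_le (p : V S) (h : 3 ≤ p.2.val) : pos p ≤ M S := by
  have h1 := len_lt_M p.1
  unfold pos
  split_ifs <;> omega

theorem xf10_two (p : V S) : p.2.val = 2 ↔
    (NP p ∧ ∃ j : {j : ℕ // N1 S < j ∧ j ≤ M S}, ∃ q, Ch j.1 p q) := by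
  have hM : M S = 2 * N1 S := rfl
  have hl := len_lt' (S := S) p.1
  constructor
  · intro h
    refine ⟨fun h' => by omega, ⟨M S - len S p.1, by omega, by omega⟩,
      (p.1, ⟨3 + len S p.1, by omega⟩), ?_, ?_, ?_⟩
    · show 3 ≤ 3 + len S p.1
      omega
    · unfold pos
      show (if 3 + len S p.1 < 3 + len S p.1 then 3 + len S p.1 - (3 + len S p.1)
        else M S + 3 - (3 + len S p.1)) = M S - len S p.1
      rw [if_neg (by omega)]
      omega
    · exact ⟨rfl, Or.inr (Or.inl ⟨rfl, h⟩)⟩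
  · rintro ⟨hN, ⟨j, hj, hj'⟩, q, hq3, hq, hqp⟩
    have hlq := len_lt' (S := S) q.1
    simp only at hq
    rcases up_cases hq3 hqp with ⟨h1, h2, -⟩ | ⟨h1, h2, h3⟩ | ⟨h1, h2⟩
    · exact absurd ⟨h1, by have := pos_pos q; omega, xf10_pos_le p h1⟩ hN
    · omega
    · exact h1.2

/-- CHUNK R290-XF-SP1. `NP p ∧ ∃ j q, N1 < j ≤ M, Ch j p q` (`up_cases`, `len_lt'`, `M = 2 N1`) -/
theorem pr_two (ht : 3 ≤ t) (F : PebbleFam t (adj S b) (adj S b')) :
    Pr1 F (fun p : V S => p.2.val = 2) (fun p : V S => p.2.val = 2) := by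
  have hN := xf4_N1 S
  exact ((pr_NP ht F).and (Pr1.iEx (fun j : {j : ℕ // N1 S < j ∧ j ≤ M S} =>
    pr_ex1 ht (pr_ch ht F j.1 (by have := j.2.1; omega) j.2.2)))).congr xf10_two xf10_two

theorem xf10_one (b : S.C → ZMod 2) (p : V S) : p.2.val = 1 ↔
    (NP p ∧ ∃ q, adj S b p q = true ∧ q.2.val = 2) := by
  have hM : M S = 2 * N1 S := rfl
  have hN1 := xf4_N1 S
  constructor
  · intro h
    refine ⟨fun h' => by omega, (p.1, ⟨2, by omega⟩), ?_, rfl⟩
    exact (adj_one b (v := p.1) ⟨rfl, h⟩).2 (Or.inl ⟨rfl, rfl⟩)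
  · rintro ⟨hN, q, hq, hq2⟩
    rcases (adj_two b (v := q.1) ⟨rfl, hq2⟩).1 ((adj_comm b p q).1 hq) with h | h | h
    · exact h.2
    · exact h.1
    · have hl := len_lt' (S := S) q.1
      refine absurd ⟨by have := h.2; omega, ?_, ?_⟩ hN
      · unfold pos
        rw [h.1, h.2, if_neg (by omega)]
        omega
      · exact xf10_pos_le p (by have := h.2; omega)

/-- CHUNK R290-XF-SP1. adjacent to a vertex with `p.2 = 2`, and `NP` (`adj_two`) -/
theorem pr_one (ht : 3 ≤ t) (F : PebbleFam t (adj S b) (adj S b')) :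
    Pr1 F (fun p : V S => p.2.val = 1) (fun p : V S => p.2.val = 1) :=
  ((pr_NP ht F).and ((pr_two ht F).nb ht)).congr (xf10_one b) (xf10_one b')

theorem xf10_last (b : S.C → ZMod 2) (p : V S) : (idx S p.1 + 1 = N0 S ∧ p.2.val = 2) ↔
    (p.2.val = 2 ∧ dg (adj S b) p = 2) := by
  classical
  have hM : M S = 2 * N1 S := rfl
  have hN1 := xf4_N1 S
  have hl := len_lt' (S := S) p.1
  constructor
  · rintro ⟨h, h2⟩
    refine ⟨h2, le_antisymm ?_ ?_⟩
    · have h1 : (univ.filter fun z => adj S b p z = true) ⊆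
          ({(p.1, ⟨1, by omega⟩), (p.1, ⟨3 + len S p.1, by omega⟩)} : Finset (V S)) := by
        intro z hz
        rw [mem_insert, mem_singleton]
        rcases (adj_two b (v := p.1) ⟨rfl, h2⟩).1 (mem_filter.1 hz).2 with h3 | h3 | h3
        · exact Or.inl (Prod.ext h3.1 (Fin.ext h3.2))
        · have := idx_lt z.1
          omega
        · exact Or.inr (Prod.ext h3.1 (Fin.ext h3.2))
      exact (card_le_card h1).trans card_le_two
    · refine dg_of_two b (q := (p.1, ⟨1, by omega⟩)) (r := (p.1, ⟨3 + len S p.1, by omega⟩)) ?_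
        ((adj_two b (v := p.1) ⟨rfl, h2⟩).2 (Or.inl ⟨rfl, rfl⟩))
        ((adj_two b (v := p.1) ⟨rfl, h2⟩).2 (Or.inr (Or.inr ⟨rfl, rfl⟩)))
      intro h3
      have h4 := congrArg (fun z : V S => z.2.val) h3
      simp only at h4
      omega
  · rintro ⟨h2, hd⟩
    refine ⟨?_, h2⟩
    by_contra hne
    have h3 := idx_lt p.1
    have h4 := dg_spine b (v := p.1) (p := p) ⟨rfl, h2⟩ (by omega)
    omega

/-- CHUNK R290-XF-SP1. the last one: `p.2 = 2` and degree 2 (`dg_spine`; its neighbours are `(v,1)` and `(v,3+len v)`) -/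
theorem pr_last (ht : 3 ≤ t) (F : PebbleFam t (adj S b) (adj S b')) :
    Pr1 F (fun p : V S => idx S p.1 + 1 = N0 S ∧ p.2.val = 2)
      (fun p : V S => idx S p.1 + 1 = N0 S ∧ p.2.val = 2) :=
  ((pr_two ht F).and (pr_dg ht (fun n => n = 2))).congr (xf10_last b) (xf10_last b')

theorem xf10_down1 (b : S.C → ZMod 2) (i : ℕ) (p : V S) :
    (idx S p.1 = i ∧ p.2.val = 1) ↔ (p.2.val = 1 ∧
      (∃ z, adj S b p z = true ∧ (idx S z.1 = i ∧ z.2.val = 2)) ∧
      ¬ (idx S p.1 = i + 1 ∧ p.2.val = 1)) := by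
  have hM : M S = 2 * N1 S := rfl
  have hN1 := xf4_N1 S
  constructor
  · rintro ⟨h, h1⟩
    exact ⟨h1, ⟨(p.1, ⟨2, by omega⟩), (adj_one b (v := p.1) ⟨rfl, h1⟩).2 (Or.inl ⟨rfl, rfl⟩), h, rfl⟩,
      fun h' => by omega⟩
  · rintro ⟨h1, ⟨z, hz, hzi, hz2⟩, hn⟩
    refine ⟨?_, h1⟩
    rcases (adj_one b (v := p.1) ⟨rfl, h1⟩).1 hz with h | h | h
    · rw [← h.1]; exact hzi
    · exact absurd ⟨by omega, h1⟩ hn
    · have := h.1.2
      omega

theorem xf10_down2 (b : S.C → ZMod 2) (i : ℕ) (hi : i + 1 < N0 S) (p : V S) :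
    (idx S p.1 = i ∧ p.2.val = 2) ↔ (p.2.val = 2 ∧
      (∃ z, adj S b p z = true ∧ (idx S z.1 = i + 1 ∧ z.2.val = 1)) ∧
      ¬ (idx S p.1 = i + 1 ∧ p.2.val = 2)) := by
  have hM : M S = 2 * N1 S := rfl
  have hN1 := xf4_N1 S
  constructor
  · rintro ⟨h, h1⟩
    obtain ⟨w, hw⟩ := idx_surj (S := S) (i + 1) hi
    exact ⟨h1, ⟨(w, ⟨1, by omega⟩), (adj_two b (v := p.1) ⟨rfl, h1⟩).2
      (Or.inr (Or.inl ⟨rfl, by rw [hw, h]⟩)), hw, rfl⟩, fun h' => by omega⟩
  · rintro ⟨h1, ⟨z, hz, hzi, hz2⟩, hn⟩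
    refine ⟨?_, h1⟩
    rcases (adj_two b (v := p.1) ⟨rfl, h1⟩).1 hz with h | h | h
    · refine absurd ⟨?_, h1⟩ hn
      rw [← h.1]; exact hzi
    · omega
    · have := h.2
      omega

/-- CHUNK R290-XF-SP1. downward induction on `i`: `(v,1)` = `p.2 = 1`, adjacent to `(v,2)`, not `(v⁺,1)`;
`(v⁻,2)` = `p.2 = 2`, adjacent to `(v,1)`, not `(v,2)` (`adj_one`, `adj_two`, `idx_inj`, `idx_surj`) -/
theorem pr_spine (ht : 3 ≤ t) (F : PebbleFam t (adj S b) (adj S b')) (i : ℕ) (hi : i < N0 S) :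
    Pr1 F (fun p : V S => idx S p.1 = i ∧ p.2.val = 2) (fun p : V S => idx S p.1 = i ∧ p.2.val = 2) ∧
    Pr1 F (fun p : V S => idx S p.1 = i ∧ p.2.val = 1) (fun p : V S => idx S p.1 = i ∧ p.2.val = 1) := by
  obtain ⟨k, hk⟩ : ∃ k, i + 1 + k = N0 S := ⟨N0 S - (i + 1), by omega⟩
  induction k generalizing i with
  | zero =>
    have h2 : Pr1 F (fun p : V S => idx S p.1 = i ∧ p.2.val = 2)
        (fun p : V S => idx S p.1 = i ∧ p.2.val = 2) :=
      (pr_last ht F).congr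
        (fun p => and_congr_left (fun _ => by constructor <;> intro h <;> omega))
        (fun p => and_congr_left (fun _ => by constructor <;> intro h <;> omega))
    have h3 : Pr1 F (fun p : V S => idx S p.1 = i + 1 ∧ p.2.val = 1)
        (fun p : V S => idx S p.1 = i + 1 ∧ p.2.val = 1) := by
      intro x x' _ j
      have e1 := idx_lt (x j).1
      have e2 := idx_lt (x' j).1
      constructor
      · rintro ⟨h, _⟩; omega
      · rintro ⟨h, _⟩; omega
    exact ⟨h2, ((pr_one ht F).and ((h2.nb ht).and h3.not)).congr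
      (xf10_down1 b i) (xf10_down1 b' i)⟩
  | succ k ih =>
    obtain ⟨g2, g1⟩ := ih (i + 1) (by omega) (by omega)
    have h2 : Pr1 F (fun p : V S => idx S p.1 = i ∧ p.2.val = 2)
        (fun p : V S => idx S p.1 = i ∧ p.2.val = 2) :=
      ((pr_two ht F).and ((g1.nb ht).and g2.not)).congr
        (xf10_down2 b i (by omega)) (xf10_down2 b' i (by omega))
    exact ⟨h2, ((pr_one ht F).and ((h2.nb ht).and g1.not)).congr
      (xf10_down1 b i) (xf10_down1 b' i)⟩

end X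

end Crest.Agent.WL
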