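import Crest.Agent.WL.XF10

/-!
# Row 290, class recognition (XF11, chunk R290-XF-SP2): tops, junk, pendant paths
-/

set_option autoImplicit false
set_option linter.unusedSectionVars false

namespace Crest.Agent.WL

namespace X

open Finset

variable {S : Sys} {b b' : S.C → ZMod 2} {t : ℕ}

/-- CHUNK R290-XF-SP2. `pr_spine`, `idx_inj` -/
theorem pr_at_one_two (ht : 3 ≤ t) (F : PebbleFam t (adj S b) (adj S b')) (v : V0 S) :
    Pr1 F (At v 1) (At v 1) ∧ Pr1 F (At v 2) (At v 2) := by
  obtain ⟨h2, h1⟩ := pr_spine ht F (idx S v) (idx_lt v)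
  constructor
  · refine h1.congr ?_ ?_
    all_goals
      intro p
      constructor
      · rintro ⟨h, h'⟩
        exact ⟨by rw [h], h'⟩
      · rintro ⟨h, h'⟩
        exact ⟨idx_inj h, h'⟩
  · refine h2.congr ?_ ?_
    all_goals
      intro p
      constructor
      · rintro ⟨h, h'⟩
        exact ⟨by rw [h], h'⟩
      · rintro ⟨h, h'⟩
        exact ⟨idx_inj h, h'⟩

/-- CHUNK R290-XF-SP2. adjacent to `(v,1)` and `p.2 ≠ 2` -/
theorem pr_jt (ht : 3 ≤ t) (F : PebbleFam t (adj S b) (adj S b')) (v : V0 S) (hv : Jt v) :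
    Pr1 F (At v 0) (At v 0) := by
  have key : ∀ (b : S.C → ZMod 2) (p : V S), At v 0 p ↔
      (∃ z, adj S b p z = true ∧ At v 1 z) ∧ ¬ p.2.val = 2 := by
    intro b p
    constructor
    · intro h
      refine ⟨⟨(v, ⟨1, by omega⟩), ?_, rfl, rfl⟩, by have := h.2; omega⟩
      rw [adj_comm, adj_one b ⟨rfl, rfl⟩]
      exact Or.inr (Or.inr ⟨h, hv⟩)
    · rintro ⟨⟨z, h1, h2⟩, h3⟩
      rw [adj_comm, adj_one b h2] at h1
      rcases h1 with h | ⟨h, -⟩ | ⟨h, -⟩
      · exact absurd h.2 h3
      · exact absurd h h3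
      · exact h
  exact (((pr_at_one_two ht F v).1.nb ht).and (pr_two ht F).not).congr (key b) (key b')

/-- CHUNK R290-XF-SP2. pendant path attached to the spine; induction on `m`: adjacent to `(v, 3 + len v + m)`, not
`(v, 3 + len v + m - 1)` (for `m = 0`: `(v,2)`); start: adjacent to `(v,2)` and `p.2 ≠ 1` -/
theorem pr_spine_pend (ht : 3 ≤ t) (F : PebbleFam t (adj S b) (adj S b')) (v : V0 S) (m : ℕ)
    (hm : 3 + len S v + m < M S + 3) :
    Pr1 F (At v (3 + len S v + m)) (At v (3 + len S v + m)) := by
  induction m using Nat.strong_induction_on with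
  | _ m ih =>
    rcases m with _ | m
    · have key : ∀ (b : S.C → ZMod 2) (p : V S), At v (3 + len S v + 0) p ↔
          (∃ z, adj S b p z = true ∧ At v 2 z) ∧ ¬ p.2.val = 1 := by
        intro b p
        constructor
        · intro h
          refine ⟨⟨(v, ⟨2, by omega⟩), ?_, rfl, rfl⟩, by have := h.2; omega⟩
          rw [adj_comm, adj_two b ⟨rfl, rfl⟩]
          exact Or.inr (Or.inr h)
        · rintro ⟨⟨z, h1, h2⟩, h3⟩
          rw [adj_comm, adj_two b h2] at h1
          rcases h1 with h | ⟨h, -⟩ | h
          · exact absurd h.2 h3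
          · exact absurd h h3
          · exact h
      exact (((pr_at_one_two ht F v).2.nb ht).and (pr_one ht F).not).congr (key b) (key b')
    · have hprev : Pr1 F (At v (if m = 0 then 2 else 3 + len S v + (m - 1)))
          (At v (if m = 0 then 2 else 3 + len S v + (m - 1))) := by
        by_cases h : m = 0
        · rw [if_pos h]; exact (pr_at_one_two ht F v).2
        · rw [if_neg h]; exact ih (m - 1) (by omega) (by omega)
      have key : ∀ (b : S.C → ZMod 2) (p : V S), At v (3 + len S v + (m + 1)) p ↔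
          (∃ z, adj S b p z = true ∧ At v (3 + len S v + m) z) ∧
            ¬ At v (if m = 0 then 2 else 3 + len S v + (m - 1)) p := by
        intro b p
        constructor
        · intro h
          have h0 := h.2
          refine ⟨⟨(v, ⟨3 + len S v + m, by omega⟩), ?_, rfl, rfl⟩, fun h' => ?_⟩
          · rw [adj_comm, adj_pend b (by simp only; omega)]
            exact Or.inr ⟨h.1, by simp only; omega, by simp only; omega⟩
          · have := h'.2
            split_ifs at this <;> omega
        · rintro ⟨⟨z, h1, h2⟩, h3⟩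
          have hz := h2.2
          rw [adj_comm, adj_pend b (by omega)] at h1
          rcases h1 with ⟨h4, h5⟩ | ⟨h4, h5, h6⟩
          · exfalso
            apply h3
            refine ⟨h4.trans h2.1, ?_⟩
            rw [h2.1] at h5
            split_ifs with h6 <;> omega
          · exact ⟨h4.trans h2.1, by omega⟩
      exact (((ih m (by omega) (by omega)).nb ht).and hprev.not).congr (key b) (key b')

/-- CHUNK R290-XF-SP2. own pendant paths of a class of marked vertices; induction on `m`; start: adjacent to the class and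
pendant with position `l` (`pr_pend`) -/
theorem pr_own_pend (ht : 3 ≤ t) (F : PebbleFam t (adj S b) (adj S b')) (K : V0 S → Prop) (l : ℕ)
    (hl : 3 ≤ l) (hK : ∀ v, K v → len S v = l)
    (h0 : Pr1 F (fun p : V S => p.2.val = 0 ∧ K p.1) (fun p : V S => p.2.val = 0 ∧ K p.1)) (m : ℕ)
    (hm : m < l) :
    Pr1 F (fun p : V S => p.2.val = 3 + m ∧ K p.1) (fun p : V S => p.2.val = 3 + m ∧ K p.1) := by
  by_cases hne : ∃ v, K v
  swap
  · intro x x' hx i
    constructor
    · rintro ⟨-, h⟩; exact absurd ⟨_, h⟩ hne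
    · rintro ⟨-, h⟩; exact absurd ⟨_, h⟩ hne
  obtain ⟨v0, hv0⟩ := hne
  have hlM : l ≤ M S := by
    have h1 := len_lt' v0
    rw [hK v0 hv0] at h1
    unfold M; omega
  induction m using Nat.strong_induction_on with
  | _ m ih =>
    rcases m with _ | m
    · have key : ∀ (b : S.C → ZMod 2) (p : V S), (p.2.val = 3 + 0 ∧ K p.1) ↔
          (∃ z, adj S b p z = true ∧ (z.2.val = 0 ∧ K z.1)) ∧ (3 ≤ p.2.val ∧ pos p = l) := by
        intro b p
        constructor
        · rintro ⟨h1, h2⟩
          have h3 := hK _ h2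
          refine ⟨⟨(p.1, ⟨0, by omega⟩), ?_, rfl, h2⟩, by omega, ?_⟩
          · rw [adj_comm, adj_zero b (v := p.1) (p := (p.1, ⟨0, by omega⟩)) ⟨rfl, rfl⟩]
            exact Or.inr (Or.inr ⟨⟨rfl, h1⟩, by omega⟩)
          · unfold pos
            rw [h3, if_pos (by omega)]
            omega
        · rintro ⟨⟨z, h1, h2, h3⟩, h4, h5⟩
          rw [adj_comm, adj_zero b (v := z.1) ⟨rfl, h2⟩] at h1
          rcases h1 with ⟨h, -⟩ | ⟨h, -⟩ | ⟨h, -⟩
          · omega
          · have := h.2; omega
          · exact ⟨h.2, by rw [h.1]; exact h3⟩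
      exact ((h0.nb ht).and (pr_pend ht F l hl hlM)).congr (key b) (key b')
    · have hprev : Pr1 F (fun p : V S => p.2.val = (if m = 0 then 0 else 3 + (m - 1)) ∧ K p.1)
          (fun p : V S => p.2.val = (if m = 0 then 0 else 3 + (m - 1)) ∧ K p.1) := by
        by_cases h : m = 0
        · rw [if_pos h]; exact h0
        · rw [if_neg h]; exact ih (m - 1) (by omega) (by omega)
      have key : ∀ (b : S.C → ZMod 2) (p : V S), (p.2.val = 3 + (m + 1) ∧ K p.1) ↔
          (∃ z, adj S b p z = true ∧ (z.2.val = 3 + m ∧ K z.1)) ∧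
            ¬ (p.2.val = (if m = 0 then 0 else 3 + (m - 1)) ∧ K p.1) := by
        intro b p
        constructor
        · rintro ⟨h1, h2⟩
          have h3 := hK _ h2
          have h4 := p.2.2
          refine ⟨⟨(p.1, ⟨3 + m, by omega⟩), ?_, rfl, h2⟩, fun h' => ?_⟩
          · rw [adj_comm, adj_pend b (by simp only; omega)]
            exact Or.inr ⟨rfl, by simp only; omega, by simp only; omega⟩
          · have := h'.1
            split_ifs at this <;> omega
        · rintro ⟨⟨z, h1, h2, h3⟩, h4⟩
          have h5 := hK _ h3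
          rw [adj_comm, adj_pend b (by omega)] at h1
          rcases h1 with ⟨h6, h7⟩ | ⟨h6, h7, h8⟩
          · exfalso
            apply h4
            refine ⟨?_, by rw [h6]; exact h3⟩
            rw [h5] at h7
            split_ifs with h8 <;> omega
          · exact ⟨by omega, by rw [h6]; exact h3⟩
      exact (((ih m (by omega) (by omega)).nb ht).and hprev.not).congr (key b) (key b')

end X

end Crest.Agent.WL
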