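import Crest.Agent.WL.XF0
import Crest.Agent.WL.XF1
import Crest.Agent.WL.XShape

/-!
# Row 290, class recognition (XF2, chunk R290-XF-DEG): degrees

`dg (adj S b) p` is the number of neighbours.  Lower bounds: exhibit distinct neighbours; upper bounds: `adj_pend`.
-/

set_option autoImplicit false
set_option linter.unusedSectionVars false

namespace Crest.Agent.WL

namespace X

open Finset

variable {S : Sys} (b : S.C → ZMod 2)

/-- position in the pendant path, counted from its leaf (`= 1`) -/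
def pos (p : V S) : ℕ :=
  if p.2.val < 3 + len S p.1 then 3 + len S p.1 - p.2.val else M S + 3 - p.2.val

theorem len_lt_M (v : V0 S) : len S v < M S := by
  have h := len_lt' (S := S) v
  have h2 : M S = 2 * N1 S := rfl
  omega

theorem pos_pos (p : V S) : 1 ≤ pos p := by
  have h := p.2.isLt
  unfold pos
  split_ifs <;> omega

theorem dg_of_two {p q r : V S} (h : q ≠ r) (hq : adj S b p q = true) (hr : adj S b p r = true) :
    2 ≤ dg (adj S b) p := by
  have h1 : ({q, r} : Finset (V S)) ⊆ univ.filter fun z => adj S b p z = true := by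
    intro z hz
    rw [mem_insert, mem_singleton] at hz
    rcases hz with rfl | rfl
    · exact mem_filter.2 ⟨mem_univ _, hq⟩
    · exact mem_filter.2 ⟨mem_univ _, hr⟩
  have h2 := card_le_card h1
  rwa [card_pair h] at h2

theorem dg_of_three {p q r s : V S} (h1 : q ≠ r) (h2 : q ≠ s) (h3 : r ≠ s) (hq : adj S b p q = true)
    (hr : adj S b p r = true) (hs : adj S b p s = true) : 3 ≤ dg (adj S b) p := by
  have h4 : ({q, r, s} : Finset (V S)) ⊆ univ.filter fun z => adj S b p z = true := by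
    intro z hz
    rw [mem_insert, mem_insert, mem_singleton] at hz
    rcases hz with rfl | rfl | rfl
    · exact mem_filter.2 ⟨mem_univ _, hq⟩
    · exact mem_filter.2 ⟨mem_univ _, hr⟩
    · exact mem_filter.2 ⟨mem_univ _, hs⟩
  have h5 := card_le_card h4
  rwa [card_eq_three.2 ⟨q, r, s, h1, h2, h3, rfl⟩] at h5

/-- a vertex of degree 2 with two known neighbours has no third one -/
theorem eq_of_dg_two {p q r s : V S} (hd : dg (adj S b) p = 2) (h : q ≠ r) (hq : adj S b p q = true)
    (hr : adj S b p r = true) (hs : adj S b p s = true) : s = q ∨ s = r := by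
  by_contra hn
  rw [not_or] at hn
  have := dg_of_three b h (fun e => hn.1 e.symm) (fun e => hn.2 e.symm) hq hr hs
  omega

theorem exists_up {p : V S} (h : 3 ≤ p.2.val) : ∃ q, Up p q := by
  have hp := p.2.isLt
  by_cases h1 : p.2.val = 3 ∧ 0 < len S p.1
  · exact ⟨(p.1, ⟨0, by omega⟩), rfl, Or.inl ⟨h1.1, h1.2, rfl⟩⟩
  · by_cases h2 : p.2.val = 3 + len S p.1
    · exact ⟨(p.1, ⟨2, by omega⟩), rfl, Or.inr (Or.inl ⟨h2, rfl⟩)⟩
    · refine ⟨(p.1, ⟨p.2.val - 1, by omega⟩), rfl, Or.inr (Or.inr ⟨by omega, h2, ?_⟩)⟩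
      show p.2.val = p.2.val - 1 + 1
      omega

theorem up_unique {p q q' : V S} (h : 3 ≤ p.2.val) (hq : Up p q) (hq' : Up p q') : q = q' := by
  obtain ⟨e1, h1⟩ := hq
  obtain ⟨e2, h2⟩ := hq'
  refine Prod.ext (e1.trans e2.symm) (Fin.ext ?_)
  omega

theorem exists_dn {p : V S} (h : 3 ≤ p.2.val) (h2 : 2 ≤ pos p) : ∃ q, Dn p q := by
  have hp := p.2.isLt
  have hl := len_lt_M p.1
  have h3 : p.2.val + 1 < M S + 3 ∧ p.2.val + 1 ≠ 3 + len S p.1 := by
    unfold pos at h2
    split_ifs at h2 <;> omega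
  exact ⟨(p.1, ⟨p.2.val + 1, h3.1⟩), rfl, rfl, h3.2⟩

theorem dn_unique {p q q' : V S} (hq : Dn p q) (hq' : Dn p q') : q = q' := by
  obtain ⟨e1, h1, -⟩ := hq
  obtain ⟨e2, h2, -⟩ := hq'
  exact Prod.ext (e1.trans e2.symm) (Fin.ext (h1.trans h2.symm))

theorem pos_dn {p q : V S} (h : 3 ≤ p.2.val) (hq : Dn p q) :
    3 ≤ q.2.val ∧ pos p = pos q + 1 ∧ Up q p := by
  obtain ⟨e1, h1, h2⟩ := hq
  have hqlt := q.2.isLt
  refine ⟨by omega, ?_, e1.symm, Or.inr (Or.inr ⟨by omega, by rw [e1]; exact h2, h1⟩)⟩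
  unfold pos
  rw [e1]
  split_ifs <;> omega

/-- above a pendant vertex: a pendant vertex or the point of attachment -/
theorem up_cases {p q : V S} (h : 3 ≤ p.2.val) (hq : Up p q) :
    (3 ≤ q.2.val ∧ pos q = pos p + 1 ∧ Dn q p) ∨
    (At p.1 0 q ∧ 0 < len S p.1 ∧ pos p = len S p.1) ∨
    (At p.1 2 q ∧ pos p + len S p.1 = M S) := by
  have hp := p.2.isLt
  have hl := len_lt_M p.1
  obtain ⟨e1, h1 | h1 | h1⟩ := hq
  · refine Or.inr (Or.inl ⟨⟨e1, h1.2.2⟩, h1.2.1, ?_⟩)
    unfold pos
    rw [if_pos (by omega)]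
    omega
  · refine Or.inr (Or.inr ⟨⟨e1, h1.2⟩, ?_⟩)
    unfold pos
    rw [if_neg (by omega)]
    omega
  · refine Or.inl ⟨by omega, ?_, e1.symm, h1.2.2, by rw [e1]; exact h1.2.1⟩
    unfold pos
    rw [e1]
    split_ifs <;> omega

theorem dg_pend_le {p : V S} (h : 3 ≤ p.2.val) : dg (adj S b) p ≤ 2 := by
  classical
  obtain ⟨q, hq⟩ := exists_up h
  by_cases hd : ∃ r, Dn p r
  · obtain ⟨r, hr⟩ := hd
    have h1 : (univ.filter fun z => adj S b p z = true) ⊆ ({q, r} : Finset (V S)) := by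
      intro z hz
      rw [mem_insert, mem_singleton]
      rcases (adj_pend b h).1 (mem_filter.1 hz).2 with h2 | h2
      · exact Or.inl (up_unique h h2 hq)
      · exact Or.inr (dn_unique h2 hr)
    exact (card_le_card h1).trans card_le_two
  · have h1 : (univ.filter fun z => adj S b p z = true) ⊆ ({q} : Finset (V S)) := by
      intro z hz
      rw [mem_singleton]
      rcases (adj_pend b h).1 (mem_filter.1 hz).2 with h2 | h2
      · exact up_unique h h2 hq
      · exact absurd ⟨z, h2⟩ hd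
    have h2 := card_le_card h1
    rw [card_singleton] at h2
    exact h2.trans one_le_two

theorem dg_pend_two {p : V S} (h : 3 ≤ p.2.val) (h2 : 2 ≤ pos p) : dg (adj S b) p = 2 := by
  obtain ⟨q, hq⟩ := exists_up h
  obtain ⟨r, hr⟩ := exists_dn h h2
  refine le_antisymm (dg_pend_le b h) (dg_of_two b ?_ ((adj_pend b h).2 (Or.inl hq))
    ((adj_pend b h).2 (Or.inr hr)))
  rintro rfl
  obtain ⟨-, h3⟩ := hq
  obtain ⟨-, h4, -⟩ := hr
  omega

theorem dg_pend_one {p : V S} (h : 3 ≤ p.2.val) (h2 : pos p = 1) : dg (adj S b) p = 1 := by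
  obtain ⟨q, hq⟩ := exists_up h
  have h1 : (univ.filter fun z => adj S b p z = true) = ({q} : Finset (V S)) := by
    ext z
    rw [mem_singleton, mem_filter]
    constructor
    · rintro ⟨-, hz⟩
      rcases (adj_pend b h).1 hz with h3 | h3
      · exact up_unique h h3 hq
      · have h4 := (pos_dn h h3).2.1
        have h5 := pos_pos z
        omega
    · rintro rfl
      exact ⟨mem_univ _, (adj_pend b h).2 (Or.inl hq)⟩
  unfold dg
  rw [h1, card_singleton]

private theorem len_lt_M3 (v : V0 S) : 3 + len S v < M S + 3 := by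
  have := len_lt (S := S) v
  unfold M
  omega

private theorem three_lt_M : 3 < M S + 3 := by
  unfold M N1
  omega

/-- three neighbours of a marked core vertex -/
private theorem dg_three_core {v w w' : V0 S} {p : V S} (hp : At v 0 p) (hl : 0 < len S v)
    (hw : adj0 S b v w = true) (hw' : adj0 S b v w' = true) (hne : w ≠ w') :
    3 ≤ dg (adj S b) p := by
  have hM := three_lt_M (S := S)
  have h0 : 0 < M S + 3 := by omega
  refine dg_of_three b (p := p) (q := (v, ⟨3, hM⟩)) (r := (w, ⟨0, h0⟩)) (s := (w', ⟨0, h0⟩))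
    ?_ ?_ ?_ ?_ ?_ ?_
  · intro h
    have := congrArg (fun z : V S => z.2.val) h
    simp at this
  · intro h
    have := congrArg (fun z : V S => z.2.val) h
    simp at this
  · intro h
    exact hne (congrArg Prod.fst h)
  · exact (adj_zero b hp).2 (Or.inr (Or.inr ⟨⟨rfl, rfl⟩, hl⟩))
  · exact (adj_zero b hp).2 (Or.inl ⟨rfl, hw⟩)
  · exact (adj_zero b hp).2 (Or.inl ⟨rfl, hw'⟩)

/-- marked vertices have degree at least 3: the pendant vertex and two neighbours in the core
(`co c a 0`: `co c a 1`, `t2`; missing `t0`: two `t1`; `rl e n x`, `n` odd: `rl e (n ± 1) x`) -/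
theorem dg_mark {v : V0 S} {p : V S} (hp : At v 0 p) (hl : 0 < len S v) : 3 ≤ dg (adj S b) p := by
  cases v with
  | co c a s =>
    have hl' : 0 < (if S.al c = true ∧ s = 0 then 3 + (S.eC c).val else 0) := hl
    by_cases hc : S.al c = true ∧ s = 0
    · obtain ⟨hal, rfl⟩ := hc
      refine dg_three_core b hp hl (w := V0.co c a 1)
        (w' := V0.t2 c 0 (full S b c a 0) (full S b c a (0 + 1)) (full S b c a (0 + 2)))
        ?_ ?_ (fun h => by cases h)
      · exact (adj0_co b c a 0 _).2 ⟨hal, Or.inl ⟨1, rfl, Or.inl rfl⟩⟩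
      · exact (adj0_co b c a 0 _).2 ⟨hal, Or.inr rfl⟩
    · rw [if_neg hc] at hl'
      omega
  | t0 c s x =>
    have hl' : 0 < (if S.al c = true ∧ S.slot c s = none then
      3 + S.nC + (10 * S.nC + 1) * S.nE + (2 * inc S c s + x.val) else 0) := hl
    by_cases hc : S.al c = true ∧ S.slot c s = none
    · refine dg_three_core b hp hl (w := V0.t1 c s x 0) (w' := V0.t1 c s x 1)
        ?_ ?_ (fun h => ?_)
      · exact (adj0_t0 b c s x _).2 ⟨hc.1, Or.inl ⟨0, rfl⟩⟩
      · exact (adj0_t0 b c s x _).2 ⟨hc.1, Or.inl ⟨1, rfl⟩⟩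
      · injection h with _ _ _ h4
        exact absurd h4 (by decide)
    · rw [if_neg hc] at hl'
      omega
  | t1 c s x y => exact absurd hl (lt_irrefl 0)
  | t2 c s x y z => exact absurd hl (lt_irrefl 0)
  | rl e n x =>
    have hl' : 0 < (if n.val % 2 = 1 then
      3 + S.nC + ((10 * S.nC + 1) * (S.eE e).val + n.val) else 0) := hl
    have hn := n.isLt
    by_cases hc : n.val % 2 = 1
    · refine dg_three_core b hp hl (w := V0.rl e ⟨n.val - 1, by omega⟩ x)
        (w' := V0.rl e ⟨n.val + 1, by omega⟩ x) ?_ ?_ (fun h => ?_)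
      · exact (adj0_rl b e n x _).2 (Or.inl ⟨_, rfl, Or.inr (by simp only; omega)⟩)
      · exact (adj0_rl b e n x _).2 (Or.inl ⟨_, rfl, Or.inl rfl⟩)
      · injection h with _ h2 _
        have h3 := congrArg Fin.val h2
        simp only at h3
        omega
    · rw [if_neg hc] at hl'
      omega
  | tp e => exact absurd hl (lt_irrefl 0)

/-- a marked vertex is not the last one -/
theorem idx_lt_of_len {v : V0 S} (hl : 0 < len S v) : idx S v + 1 < N0 S := by
  have zlt : ∀ x : ZMod 2, x.val < 2 := fun x => ZMod.val_lt x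
  unfold N0
  cases v with
  | co c a s =>
    have h0 := zlt (a 0)
    have h1 := zlt (a 1)
    have h2 := zlt (a 2)
    have h3 := zlt (a 3)
    have hc := (S.eC c).isLt
    have hs := s.isLt
    show 150 * (S.eC c).val + 30 * s.val +
      ((a 0).val * 8 + (a 1).val * 4 + (a 2).val * 2 + (a 3).val) + 1 < _
    omega
  | t0 c s x =>
    have h0 := zlt x
    have hc := (S.eC c).isLt
    have hs := s.isLt
    show 150 * (S.eC c).val + 30 * s.val + (16 + x.val) + 1 < _
    omega
  | t1 c s x y => exact absurd hl (lt_irrefl 0)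
  | t2 c s x y z => exact absurd hl (lt_irrefl 0)
  | rl e n x =>
    have hl' : 0 < (if n.val % 2 = 1 then
      3 + S.nC + ((10 * S.nC + 1) * (S.eE e).val + n.val) else 0) := hl
    have hn := n.isLt
    have h0 := zlt x
    by_cases hc : n.val % 2 = 1
    · have h1 : (20 * S.nC + 2) * ((S.eE e).val + 1) ≤ (20 * S.nC + 2) * S.nE :=
        Nat.mul_le_mul_left _ (S.eE e).isLt
      rw [Nat.mul_add, Nat.mul_one] at h1
      show 150 * S.nC + ((20 * S.nC + 2) * (S.eE e).val + 2 * n.val + x.val) + 1 < _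
      omega
    · rw [if_neg hc] at hl'
      omega
  | tp e => exact absurd hl (lt_irrefl 0)

theorem dg_spine {v : V0 S} {p : V S} (hp : At v 2 p) (hl : idx S v + 1 < N0 S) :
    3 ≤ dg (adj S b) p := by
  obtain ⟨w, hw⟩ := idx_surj (S := S) (idx S v + 1) hl
  have hM := len_lt_M3 (S := S) v
  have h1 : 1 < M S + 3 := by omega
  refine dg_of_three b (p := p) (q := (v, ⟨1, h1⟩)) (r := (w, ⟨1, h1⟩))
    (s := (v, ⟨3 + len S v, hM⟩)) ?_ ?_ ?_ ?_ ?_ ?_
  · intro h
    have h2 : v = w := congrArg Prod.fst h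
    rw [← h2] at hw
    omega
  · intro h
    have h2 := congrArg (fun z : V S => z.2.val) h
    simp only at h2
    omega
  · intro h
    have h2 := congrArg (fun z : V S => z.2.val) h
    simp only at h2
    omega
  · exact (adj_two b hp).2 (Or.inl ⟨rfl, rfl⟩)
  · exact (adj_two b hp).2 (Or.inr (Or.inl ⟨rfl, hw⟩))
  · exact (adj_two b hp).2 (Or.inr (Or.inr ⟨rfl, rfl⟩))

end X

end Crest.Agent.WL
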