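import Crest.Agent.WL.XF2

/-!
# Row 290, class recognition (XF3, chunk R290-XF-BASE): chains of length 3 end in a pendant path
-/

set_option autoImplicit false
set_option linter.unusedSectionVars false

namespace Crest.Agent.WL

namespace X

open Finset

variable {S : Sys} (b : S.C → ZMod 2)

/-- `N0 ≥ 2` if there is a vertex -/
theorem two_le_N0 (v : V0 S) : 2 ≤ N0 S := by
  have hC : S.C → 2 ≤ N0 S := by
    intro c
    have hc := (S.eC c).isLt
    have h0 : 0 ≤ (20 * S.nC + 2) * S.nE := Nat.zero_le _
    unfold N0
    omega
  have hE : S.E → 2 ≤ N0 S := by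
    intro e
    have he := (S.eE e).isLt
    have h0 : (20 * S.nC + 2) * 1 ≤ (20 * S.nC + 2) * S.nE := Nat.mul_le_mul_left _ (by omega)
    unfold N0
    omega
  cases v with
  | co c a s => exact hC c
  | t0 c s x => exact hC c
  | t1 c s x y => exact hC c
  | t2 c s x y z => exact hC c
  | rl e n x => exact hE e
  | tp e => exact hE e

/-- values of three consecutive slots can be prescribed -/
theorem exists_full (c : S.C) (s : Fin 5) (x y z : ZMod 2) :
    ∃ a : Fin 4 → ZMod 2, full S b c a s = x ∧ full S b c a (s + 1) = y ∧
      full S b c a (s + 2) = z := by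
  have f0 : ∀ a, full S b c a 0 = a 0 := fun a => rfl
  have f1 : ∀ a, full S b c a 1 = a 1 := fun a => rfl
  have f2 : ∀ a, full S b c a 2 = a 2 := fun a => rfl
  have f3 : ∀ a, full S b c a 3 = a 3 := fun a => rfl
  have f4 : ∀ a, full S b c a 4 = b c + (a 0 + a 1 + a 2 + a 3) := fun a => rfl
  generalize b c = β at f4
  fin_cases s
  · refine ⟨![x, y, z, 0], ?_, ?_, ?_⟩
    · exact (f0 _).trans rfl
    · exact (f1 _).trans rfl
    · exact (f2 _).trans rfl
  · refine ⟨![0, x, y, z], ?_, ?_, ?_⟩
    · exact (f1 _).trans rfl
    · exact (f2 _).trans rfl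
    · exact (f3 _).trans rfl
  · refine ⟨![z - β - x - y, 0, x, y], ?_, ?_, ?_⟩
    · exact (f2 _).trans rfl
    · exact (f3 _).trans rfl
    · refine (f4 _).trans ?_
      show β + ((z - β - x - y) + 0 + x + y) = z
      ring
  · refine ⟨![z, y - β - x - z, 0, x], ?_, ?_, ?_⟩
    · exact (f3 _).trans rfl
    · refine (f4 _).trans ?_
      show β + (z + (y - β - x - z) + 0 + x) = y
      ring
    · exact (f0 _).trans rfl
  · refine ⟨![y, z, x - β - y - z, 0], ?_, ?_, ?_⟩
    · refine (f4 _).trans ?_
      show β + (y + z + (x - β - y - z) + 0) = x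
      ring
    · exact (f0 _).trans rfl
    · exact (f1 _).trans rfl

private theorem three_lt_M' : 3 < M S + 3 := by
  unfold M N1
  omega

private theorem len_lt_M' (v : V0 S) : 3 + len S v < M S + 3 := by
  have := len_lt (S := S) v
  unfold M
  omega

private theorem two_core {v w w' : V0 S} {p : V S} (hp : At v 0 p)
    (hw : adj0 S b v w = true) (hw' : adj0 S b v w' = true) (hne : w ≠ w') :
    2 ≤ dg (adj S b) p := by
  have hM := three_lt_M' (S := S)
  have h0 : 0 < M S + 3 := by omega
  refine dg_of_two b (p := p) (q := (w, ⟨0, h0⟩)) (r := (w', ⟨0, h0⟩)) ?_ ?_ ?_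
  · intro h
    exact hne (congrArg Prod.fst h)
  · exact (adj_zero b hp).2 (Or.inl ⟨rfl, hw⟩)
  · exact (adj_zero b hp).2 (Or.inl ⟨rfl, hw'⟩)

/-- CHUNK R290-XF-BASE. PROOF.  Suppose `s = (v, i)`, `i ≤ 2`.
`i = 0`, `v` junk: `r = (v, 1)` (`adj_zero`); if `idx v ≠ 0`, `r` has the three neighbours `(v,0)`, `(v,2)`, `(w,2)` with
`idx w + 1 = idx v` (`idx_surj`): degree 3, contradiction; if `idx v = 0`: `q ≠ s` is a neighbour of `r` (degree 2,
neighbours `(v,0)`, `(v,2)`: `eq_of_dg_two`), so `q = (v,2)` which has degree 3 (`dg_spine`, `two_le_N0`).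
`i = 0`, `v` not junk: `v` has two distinct neighbours, contradiction with degree 1, EXCEPT `v = rl e n x` with
`n = 10 nC`: if `nC ≥ 1` its only neighbour `r = (rl e (n-1) x, 0)` has `len > 0`: degree 3 (`dg_mark`); if `nC = 0` its
only neighbour is `(tp e, 0)`, which has the three neighbours `rl e 0 0`, `rl e 0 1`, `(tp e, 1)`.
(`co c a s`: `co c a (s ± 1)` and `t2`; `t0`: two `t1`; `t1`: `t0` and `t2`; `t2`: `t1` and a `co c a s` with the prescribed
values (exists: the three values are independent) ; `rl e 0 x`: `tp` and `rl e 1 x` (if `nC ≥ 1`); `tp`.)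
`i = 1`: `(v,2)` and, if `idx v ≠ 0`, `(w,2)`: degree ≥ 2, contradiction; so `idx v = 0`, and (degree 1) `r = (v,2)` has
degree 3 (`dg_spine`, `two_le_N0`), contradiction.
`i = 2`: neighbours `(v,1)`, `(v,3+len v)`: degree ≥ 2, contradiction. -/
theorem leaf_pend {q r s : V S} (hs : dg (adj S b) s = 1) (hrs : adj S b r s = true)
    (hr : dg (adj S b) r = 2) (hqr : adj S b q r = true) (hq : dg (adj S b) q = 2) (hne : s ≠ q) :
    3 ≤ s.2.val := by
  by_contra hcon
  have hM := three_lt_M' (S := S)
  have h0M : 0 < M S + 3 := by omega
  have h1M : 1 < M S + 3 := by omega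
  have h2M : 2 < M S + 3 := by omega
  have hsr : adj S b s r = true := (adj_comm b r s).1 hrs
  have hrq : adj S b r q = true := (adj_comm b q r).1 hqr
  obtain ⟨v, i⟩ := s
  have hi : i.val ≤ 2 := by
    have : ¬ 3 ≤ i.val := hcon
    omega
  have hN := two_le_N0 (S := S) v
  -- spine vertex of index 0
  have hspine : ∀ p : V S, At v 2 p → idx S v = 0 → 3 ≤ dg (adj S b) p := fun p hp h0 =>
    dg_spine b hp (by omega)
  rcases (show i.val = 0 ∨ i.val = 1 ∨ i.val = 2 by omega) with h | h | h
  · -- i = 0
    have hA : At v 0 ((v, i) : V S) := ⟨rfl, h⟩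
    by_cases hl : 0 < len S v
    · have := dg_mark b hA hl
      omega
    by_cases hj : junk S v = true
    · -- junk
      have hno : ∀ w, ¬ adj0 S b v w = true := by
        intro w hw
        cases v with
        | co c a s =>
          have h1 := ((adj0_co b c a s w).1 hw).1
          have h2 : (!S.al c) = true := hj
          rw [h1] at h2
          exact absurd h2 (by decide)
        | t0 c s x =>
          have h1 := ((adj0_t0 b c s x w).1 hw).1
          have h2 : (!S.al c) = true := hj
          rw [h1] at h2
          exact absurd h2 (by decide)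
        | t1 c s x y =>
          have h1 := ((adj0_t1 b c s x y w).1 hw).1
          have h2 : (!S.al c) = true := hj
          rw [h1] at h2
          exact absurd h2 (by decide)
        | t2 c s x y z =>
          have h1 := ((adj0_t2 b c s x y z w).1 hw).1
          have h2 : (!S.al c) = true := hj
          rw [h1] at h2
          exact absurd h2 (by decide)
        | rl e n x => exact absurd hj (by simp [junk])
        | tp e => exact absurd hj (by simp [junk])
      have hr1 : At v 1 r := by
        rcases (adj_zero b hA).1 hsr with h1 | h1 | h1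
        · exact absurd h1.2 (hno _)
        · exact h1.1
        · exact absurd h1.2 hl
      have hv2 : adj S b r (v, ⟨2, h2M⟩) = true := (adj_one b hr1).2 (Or.inl ⟨rfl, rfl⟩)
      have hne2 : ((v, i) : V S) ≠ (v, ⟨2, h2M⟩) := by
        intro hh
        have := congrArg (fun z : V S => z.2.val) hh
        simp only at this
        omega
      by_cases hid : idx S v = 0
      · rcases eq_of_dg_two b hr hne2 hrs hv2 hrq with h3 | h3
        · exact hne h3.symm
        · have h4 := hspine q (by rw [h3]; exact ⟨rfl, rfl⟩) hid
          omega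
      · have hlt : idx S v - 1 < N0 S := by
          have := idx_lt (S := S) v
          omega
        obtain ⟨w, hw⟩ := idx_surj (S := S) (idx S v - 1) hlt
        have hvw : v ≠ w := by
          intro hh
          rw [← hh] at hw
          omega
        have hw2 : adj S b r (w, ⟨2, h2M⟩) = true :=
          (adj_one b hr1).2 (Or.inr (Or.inl ⟨rfl, by simp only; omega⟩))
        have h5 := dg_of_three b (p := r) (q := ((v, i) : V S)) (r := (v, ⟨2, h2M⟩))
          (s := (w, ⟨2, h2M⟩)) hne2 (fun hh => hvw (congrArg Prod.fst hh))
          (fun hh => hvw (congrArg Prod.fst hh)) hrs hv2 hw2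
        omega
    · -- not junk
      have key : 2 ≤ dg (adj S b) ((v, i) : V S) → False := fun h1 => by omega
      cases v with
      | co c a s =>
        have hal : S.al c = true := by
          have h2 : ¬ (!S.al c) = true := hj
          cases h3 : S.al c
          · rw [h3] at h2; exact absurd rfl h2
          · rfl
        obtain ⟨s', hs'⟩ : ∃ s' : Fin 5, s'.val = s.val + 1 ∨ s.val = s'.val + 1 := by
          have := s.isLt
          by_cases h3 : s.val = 0
          · exact ⟨⟨1, by omega⟩, Or.inl (by simp only; omega)⟩
          · exact ⟨⟨s.val - 1, by omega⟩, Or.inr (by simp only; omega)⟩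
        exact key (two_core b hA ((adj0_co b c a s _).2 ⟨hal, Or.inl ⟨s', rfl, hs'⟩⟩)
          ((adj0_co b c a s _).2 ⟨hal, Or.inr rfl⟩) (fun hh => by cases hh))
      | t0 c s x =>
        have hal : S.al c = true := by
          have h2 : ¬ (!S.al c) = true := hj
          cases h3 : S.al c
          · rw [h3] at h2; exact absurd rfl h2
          · rfl
        exact key (two_core b hA ((adj0_t0 b c s x _).2 ⟨hal, Or.inl ⟨0, rfl⟩⟩)
          ((adj0_t0 b c s x _).2 ⟨hal, Or.inl ⟨1, rfl⟩⟩) (fun hh => by
            injection hh with _ _ _ h4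
            exact absurd h4 (by decide)))
      | t1 c s x y =>
        have hal : S.al c = true := by
          have h2 : ¬ (!S.al c) = true := hj
          cases h3 : S.al c
          · rw [h3] at h2; exact absurd rfl h2
          · rfl
        exact key (two_core b hA ((adj0_t1 b c s x y _).2 ⟨hal, Or.inl rfl⟩)
          ((adj0_t1 b c s x y _).2 ⟨hal, Or.inr ⟨0, rfl⟩⟩) (fun hh => by cases hh))
      | t2 c s x y z =>
        have hal : S.al c = true := by
          have h2 : ¬ (!S.al c) = true := hj
          cases h3 : S.al c
          · rw [h3] at h2; exact absurd rfl h2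
          · rfl
        obtain ⟨a, ha⟩ := exists_full b c s x y z
        exact key (two_core b hA ((adj0_t2 b c s x y z _).2 ⟨hal, Or.inl rfl⟩)
          ((adj0_t2 b c s x y z _).2 ⟨hal, Or.inr ⟨a, rfl, ha⟩⟩) (fun hh => by cases hh))
      | rl e n x =>
        have hn := n.isLt
        by_cases hn0 : n.val = 0
        · by_cases hC : S.nC = 0
          · -- only neighbour is the top
            have hr1 : At (V0.tp e) 0 r := by
              rcases (adj_zero b hA).1 hsr with h1 | h1 | h1
              · rcases (adj0_rl b e n x r.1).1 h1.2 with ⟨n', hn', h4⟩ | ⟨c, s, -⟩ | ⟨h4, -⟩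
                · have := n'.isLt
                  omega
                · have := (S.eC c).isLt
                  omega
                · exact ⟨h4, h1.1⟩
              · rcases h1.2 with h4 | ⟨e', h4⟩
                · exact absurd h4 hj
                · cases h4
              · exact absurd h1.2 hl
            have hx : ∀ y : ZMod 2, adj0 S b (V0.tp e) (V0.rl e ⟨0, by omega⟩ y) = true :=
              fun y => (adj0_tp b e _).2 ⟨_, _, rfl, rfl⟩
            have h5 := dg_of_three b (p := r) (q := (V0.rl e ⟨0, by omega⟩ 0, ⟨0, h0M⟩))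
              (r := (V0.rl e ⟨0, by omega⟩ 1, ⟨0, h0M⟩)) (s := (V0.tp e, ⟨1, h1M⟩))
              (fun hh => by
                have h6 := congrArg Prod.fst hh
                injection h6 with _ _ h7
                exact absurd h7 (by decide))
              (fun hh => by
                have h6 := congrArg Prod.fst hh
                cases h6)
              (fun hh => by
                have h6 := congrArg Prod.fst hh
                cases h6)
              ((adj_zero b hr1).2 (Or.inl ⟨rfl, hx 0⟩)) ((adj_zero b hr1).2 (Or.inl ⟨rfl, hx 1⟩))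
              ((adj_zero b hr1).2 (Or.inr (Or.inl ⟨⟨rfl, rfl⟩, Or.inr ⟨e, rfl⟩⟩)))
            omega
          · exact key (two_core b hA
              ((adj0_rl b e n x (V0.rl e ⟨1, by omega⟩ x)).2
                (Or.inl ⟨⟨1, by omega⟩, rfl, Or.inl (by simp only; omega)⟩))
              ((adj0_rl b e n x (V0.tp e)).2 (Or.inr (Or.inr ⟨rfl, hn0⟩))) (fun hh => by cases hh))
        · by_cases hn1 : n.val < 10 * S.nC
          · exact key (two_core b hA
              ((adj0_rl b e n x (V0.rl e ⟨n.val + 1, by omega⟩ x)).2
                (Or.inl ⟨⟨n.val + 1, by omega⟩, rfl, Or.inl rfl⟩))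
              ((adj0_rl b e n x (V0.rl e ⟨n.val - 1, by omega⟩ x)).2
                (Or.inl ⟨⟨n.val - 1, by omega⟩, rfl, Or.inr (by simp only; omega)⟩))
              (fun hh => by
                injection hh with _ h2 _
                have h3 := congrArg Fin.val h2
                simp only at h3
                omega))
          · have hr1 : ∃ n' : Fin (10 * S.nC + 1), At (V0.rl e n' x) 0 r ∧ n.val = n'.val + 1 := by
              rcases (adj_zero b hA).1 hsr with h1 | h1 | h1
              · rcases (adj0_rl b e n x r.1).1 h1.2 with ⟨n', hn', h4⟩ | ⟨c, s, -, -, -, h4⟩ | ⟨-, h4⟩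
                · have h5 := n'.isLt
                  rcases h4 with h4 | h4
                  · omega
                  · exact ⟨n', ⟨hn', h1.1⟩, h4⟩
                · have h5 := (S.eC c).isLt
                  have h6 := s.isLt
                  unfold inc at h4
                  omega
                · exact absurd h4 hn0
              · rcases h1.2 with h4 | ⟨e', h4⟩
                · exact absurd h4 hj
                · cases h4
              · exact absurd h1.2 hl
            obtain ⟨n', hr2, hn'⟩ := hr1
            have hodd : n'.val % 2 = 1 := by omega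
            have hl' : 0 < len S (V0.rl e n' x : V0 S) := by
              show 0 < (if n'.val % 2 = 1 then
                3 + S.nC + ((10 * S.nC + 1) * (S.eE e).val + n'.val) else 0)
              rw [if_pos hodd]
              omega
            have := dg_mark b hr2 hl'
            omega
      | tp e =>
        have hx : ∀ y : ZMod 2, adj0 S b (V0.tp e) (V0.rl e ⟨0, by omega⟩ y) = true :=
          fun y => (adj0_tp b e _).2 ⟨_, _, rfl, rfl⟩
        exact key (two_core b hA (hx 0) (hx 1) (fun hh => by
          injection hh with _ _ h7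
          exact absurd h7 (by decide)))
  · -- i = 1
    have hA : At v 1 ((v, i) : V S) := ⟨rfl, h⟩
    have hv2 : adj S b ((v, i) : V S) (v, ⟨2, h2M⟩) = true := (adj_one b hA).2 (Or.inl ⟨rfl, rfl⟩)
    by_cases hid : idx S v = 0
    · rcases (adj_one b hA).1 hsr with h1 | h1 | h1
      · have := hspine r h1 hid
        omega
      · omega
      · have h5 := dg_of_two b (p := ((v, i) : V S)) (q := r) (r := (v, ⟨2, h2M⟩))
          (fun hh => by
            have h6 := congrArg (fun z : V S => z.2.val) hh
            have h7 : r.2.val = 0 := h1.1.2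
            simp only at h6
            omega) hsr hv2
        omega
    · have hlt : idx S v - 1 < N0 S := by
        have := idx_lt (S := S) v
        omega
      obtain ⟨w, hw⟩ := idx_surj (S := S) (idx S v - 1) hlt
      have hvw : v ≠ w := by
        intro hh
        rw [← hh] at hw
        omega
      have hw2 : adj S b ((v, i) : V S) (w, ⟨2, h2M⟩) = true :=
        (adj_one b hA).2 (Or.inr (Or.inl ⟨rfl, by simp only; omega⟩))
      have h5 := dg_of_two b (p := ((v, i) : V S)) (q := (v, ⟨2, h2M⟩)) (r := (w, ⟨2, h2M⟩))
        (fun hh => hvw (congrArg Prod.fst hh)) hv2 hw2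
      omega
  · -- i = 2
    have hA : At v 2 ((v, i) : V S) := ⟨rfl, h⟩
    have hl := len_lt_M' (S := S) v
    have h5 := dg_of_two b (p := ((v, i) : V S)) (q := (v, ⟨1, h1M⟩)) (r := (v, ⟨3 + len S v, hl⟩))
      (fun hh => by
        have h6 := congrArg (fun z : V S => z.2.val) hh
        simp only at h6
        omega)
      ((adj_two b hA).2 (Or.inl ⟨rfl, rfl⟩)) ((adj_two b hA).2 (Or.inr (Or.inr ⟨rfl, rfl⟩)))
    omega

end X

end Crest.Agent.WL
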