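import Crest.Agent.WL.XF3

/-!
# Row 290, class recognition (XF4, chunk R290-XF-CHAIN): the marks are recognised
-/

set_option autoImplicit false
set_option linter.unusedSectionVars false

namespace Crest.Agent.WL

namespace X

open Finset

variable {S : Sys} {b b' : S.C → ZMod 2} {t : ℕ}

/-- `q` is a pendant vertex at position `j`, `p` is its upper neighbour -/
def Ch (j : ℕ) (p q : V S) : Prop := 3 ≤ q.2.val ∧ pos q = j ∧ Up q p

theorem xf4_up_val {p q : V S} (hq : Up p q) (h3 : 3 ≤ p.2.val) : q.2.val < p.2.val := by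
  obtain ⟨-, h | h | h⟩ := hq
  · omega
  · omega
  · omega

theorem xf4_dn_val {p q : V S} (hq : Dn p q) : q.2.val = p.2.val + 1 := hq.2.1

theorem xf4_ne {p q r : V S} (h3 : 3 ≤ p.2.val) (hq : Up p q) (hr : Dn p r) : r ≠ q := by
  intro h
  subst h
  have h1 := xf4_up_val hq h3
  have h2 := xf4_dn_val hr
  omega

theorem xf4_N1 (S : Sys) : 3 ≤ N1 S := by
  unfold N1
  have := Nat.zero_le ((10 * S.nC + 1) * S.nE)
  omega

/-- above a vertex at position `j < 3`, the vertex is pendant -/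
theorem xf4_up {p q : V S} (h : 3 ≤ p.2.val) (hq : Up p q) (hp : pos p < 3) :
    3 ≤ q.2.val ∧ pos q = pos p + 1 ∧ Dn q p := by
  have h1 := len_lt' (S := S) p.1
  have h2 := xf4_N1 S
  have h3 := len_pos_three (S := S) p.1
  have h5 : M S = 2 * N1 S := rfl
  rcases up_cases h hq with h4 | ⟨-, h4, h4'⟩ | ⟨-, h4⟩
  · exact h4
  · omega
  · omega

/-- CHUNK R290-XF-CHAIN. (`leaf_pend` gives that `s` is pendant, then `r = up s`, `q = up r` is pendant because marks have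
length ≥ 3 (`len_pos_three`) resp. `M - len ≥ 3`, and `p = up q`; conversely degrees by `dg_pend_*`.) -/
theorem ch_three (b : S.C → ZMod 2) (p q : V S) :
    (adj S b p q = true ∧ dg (adj S b) q = 2 ∧ ∃ r, r ≠ p ∧ adj S b q r = true ∧
      dg (adj S b) r = 2 ∧ ∃ s, s ≠ q ∧ adj S b r s = true ∧ dg (adj S b) s = 1) ↔ Ch 3 p q := by
  constructor
  · rintro ⟨hpq, hq2, r, hrp, hqr, hr2, s, hsq, hrs, hs1⟩
    have hs3 := leaf_pend b hs1 hrs hr2 hqr hq2 hsq
    have hps : pos s = 1 := by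
      by_contra hne
      have h1 := pos_pos s
      have h2 := dg_pend_two b hs3 (by omega)
      omega
    -- `r` is above `s`
    have hsr : Up s r := by
      rcases (adj_pend b hs3).1 ((adj_comm b r s).1 hrs) with h | h
      · exact h
      · obtain ⟨-, h1, -⟩ := pos_dn hs3 h
        have h2 := pos_pos r
        omega
    obtain ⟨hr3, hpr, hrs'⟩ := xf4_up hs3 hsr (by omega)
    have hrq : Up r q := by
      rcases (adj_pend b hr3).1 ((adj_comm b q r).1 hqr) with h | h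
      · exact h
      · exact absurd (dn_unique hrs' h) hsq
    obtain ⟨hq3, hpq3, hqr'⟩ := xf4_up hr3 hrq (by omega)
    have hqp : Up q p := by
      rcases (adj_pend b hq3).1 ((adj_comm b p q).1 hpq) with h | h
      · exact h
      · exact absurd (dn_unique hqr' h) hrp
    exact ⟨hq3, by omega, hqp⟩
  · rintro ⟨hq3, hpq, hqp⟩
    obtain ⟨r, hqr⟩ := exists_dn hq3 (by omega)
    obtain ⟨hr3, hr, hrq⟩ := pos_dn hq3 hqr
    obtain ⟨s, hrs⟩ := exists_dn hr3 (by omega)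
    obtain ⟨hs3, hs, hsr⟩ := pos_dn hr3 hrs
    refine ⟨(adj_comm b q p).1 ((adj_pend b hq3).2 (Or.inl hqp)), dg_pend_two b hq3 (by omega), r,
      xf4_ne hq3 hqp hqr, (adj_pend b hq3).2 (Or.inr hqr), dg_pend_two b hr3 (by omega), s,
      xf4_ne hr3 hrq hrs, (adj_pend b hr3).2 (Or.inr hrs), dg_pend_one b hs3 (by omega)⟩

/-- CHUNK R290-XF-CHAIN. (`up_cases` for `r`: if `q` is a point of attachment its degree is ≥ 3: `dg_mark`, or
`dg_spine` with `idx_lt_of_len`, since `pos r = j < M` forces `0 < len`.) -/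
theorem ch_succ (b : S.C → ZMod 2) (j : ℕ) (h3 : 3 ≤ j) (hM : j < M S) (p q : V S) :
    (adj S b p q = true ∧ dg (adj S b) q = 2 ∧ ∃ r, r ≠ p ∧ Ch j q r) ↔ Ch (j + 1) p q := by
  constructor
  · rintro ⟨hpq, hq2, r, hrp, hr3, hpr, hrq⟩
    have key : 3 ≤ q.2.val ∧ pos q = pos r + 1 ∧ Dn q r := by
      rcases up_cases hr3 hrq with h | ⟨h1, h2, -⟩ | ⟨h1, h2⟩
      · exact h
      · have := dg_mark b h1 h2
        omega
      · have := dg_spine b h1 (idx_lt_of_len (by omega))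
        omega
    obtain ⟨hq3, hpq3, hqr⟩ := key
    have hqp : Up q p := by
      rcases (adj_pend b hq3).1 ((adj_comm b p q).1 hpq) with h | h
      · exact h
      · exact absurd (dn_unique hqr h) hrp
    exact ⟨hq3, by omega, hqp⟩
  · rintro ⟨hq3, hpq, hqp⟩
    obtain ⟨r, hqr⟩ := exists_dn hq3 (by omega)
    obtain ⟨hr3, hr, hrq⟩ := pos_dn hq3 hqr
    exact ⟨(adj_comm b q p).1 ((adj_pend b hq3).2 (Or.inl hqp)), dg_pend_two b hq3 (by omega), r,
      xf4_ne hq3 hqp hqr, hr3, by omega, hrq⟩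

/-- CHUNK R290-XF-CHAIN. induction on `j`, `pr_ex`, `pr_dg`, `pr_adj`, `pr_eq`, `Pr2.congr` -/
theorem pr_ch (ht : 3 ≤ t) (F : PebbleFam t (adj S b) (adj S b')) (j : ℕ) (h3 : 3 ≤ j)
    (hM : j ≤ M S) : Pr2 F (Ch j) (Ch j) := by
  have h1 := pr_dg (F := F) ht (fun n => n = 1)
  have h2 := pr_dg (F := F) ht (fun n => n = 2)
  induction j, h3 using Nat.le_induction with
  | base =>
    have hs : Pr2 F (fun q r => ∃ s, s ≠ q ∧ adj S b r s = true ∧ dg (adj S b) s = 1)
        (fun q r => ∃ s, s ≠ q ∧ adj S b' r s = true ∧ dg (adj S b') s = 1) :=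
      pr_ex ht (A := fun q r s => s ≠ q ∧ adj S b r s = true ∧ dg (adj S b) s = 1)
        (A' := fun q r s => s ≠ q ∧ adj S b' r s = true ∧ dg (adj S b') s = 1)
        (fun x x' hx i j l => and_congr (not_congr (pr_eq x x' hx l i))
          (and_congr (pr_adj x x' hx j l) (h1 x x' hx l)))
    have hr : Pr2 F
        (fun p q => ∃ r, r ≠ p ∧ adj S b q r = true ∧ dg (adj S b) r = 2 ∧
          ∃ s, s ≠ q ∧ adj S b r s = true ∧ dg (adj S b) s = 1)
        (fun p q => ∃ r, r ≠ p ∧ adj S b' q r = true ∧ dg (adj S b') r = 2 ∧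
          ∃ s, s ≠ q ∧ adj S b' r s = true ∧ dg (adj S b') s = 1) :=
      pr_ex ht
        (A := fun p q r => r ≠ p ∧ adj S b q r = true ∧ dg (adj S b) r = 2 ∧
          ∃ s, s ≠ q ∧ adj S b r s = true ∧ dg (adj S b) s = 1)
        (A' := fun p q r => r ≠ p ∧ adj S b' q r = true ∧ dg (adj S b') r = 2 ∧
          ∃ s, s ≠ q ∧ adj S b' r s = true ∧ dg (adj S b') s = 1)
        (fun x x' hx i j l => and_congr (not_congr (pr_eq x x' hx l i))
          (and_congr (pr_adj x x' hx j l) (and_congr (h2 x x' hx l) (hs x x' hx j l))))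
    exact (pr_adj.and (h2.right.and hr)).congr (fun p q => (ch_three b p q).symm)
      (fun p q => (ch_three b' p q).symm)
  | succ j hj ih =>
    have ih' := ih (by omega)
    have hr : Pr2 F (fun p q => ∃ r, r ≠ p ∧ Ch j q r) (fun p q => ∃ r, r ≠ p ∧ Ch j q r) :=
      pr_ex ht (A := fun p q r => r ≠ p ∧ Ch j q r) (A' := fun p q r => r ≠ p ∧ Ch j q r)
        (fun x x' hx i k l => and_congr (not_congr (pr_eq x x' hx l i)) (ih' x x' hx k l))
    exact (pr_adj.and (h2.right.and hr)).congr (fun p q => (ch_succ b j hj (by omega) p q).symm)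
      (fun p q => (ch_succ b' j hj (by omega) p q).symm)

/-- CHUNK R290-XF-CHAIN. -/
theorem pr_pend (ht : 3 ≤ t) (F : PebbleFam t (adj S b) (adj S b')) (j : ℕ) (h3 : 3 ≤ j)
    (hM : j ≤ M S) : Pr1 F (fun p => 3 ≤ p.2.val ∧ pos p = j) (fun p => 3 ≤ p.2.val ∧ pos p = j) := by
  have key : ∀ p : V S, (3 ≤ p.2.val ∧ pos p = j) ↔ ∃ q, Ch j q p := by
    intro p
    constructor
    · rintro ⟨h, h'⟩
      obtain ⟨q, hq⟩ := exists_up h
      exact ⟨q, h, h', hq⟩
    · rintro ⟨q, h, h', -⟩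
      exact ⟨h, h'⟩
  exact (pr_ex1 ht (pr_ch ht F j h3 hM).swap).congr key key

/-- CHUNK R290-XF-CHAIN. for `3 ≤ l < N1`: `3 ≤ dg p ∧ ∃ q, Ch l p q`; (`l ≥ N1` : `len_lt'`) -/
theorem pr_mark (ht : 3 ≤ t) (F : PebbleFam t (adj S b) (adj S b')) (l : ℕ) (h3 : 3 ≤ l) :
    Pr1 F (fun p => p.2.val = 0 ∧ len S p.1 = l) (fun p => p.2.val = 0 ∧ len S p.1 = l) := by
  have hN := xf4_N1 S
  have hM : M S = 2 * N1 S := rfl
  by_cases hl : l < N1 S
  · have key : ∀ (b : S.C → ZMod 2) (p : V S), (p.2.val = 0 ∧ len S p.1 = l) ↔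
        (3 ≤ dg (adj S b) p ∧ ∃ q, Ch l p q) := by
      intro b p
      constructor
      · rintro ⟨h0, h1⟩
        refine ⟨dg_mark b (v := p.1) ⟨rfl, h0⟩ (by omega), (p.1, ⟨3, by omega⟩), le_refl 3, ?_, ?_⟩
        · unfold pos
          show (if 3 < 3 + len S p.1 then 3 + len S p.1 - 3 else M S + 3 - 3) = l
          rw [if_pos (by omega)]
          omega
        · exact ⟨rfl, Or.inl ⟨rfl, by show 0 < len S p.1; omega, h0⟩⟩
      · rintro ⟨h1, q, hq3, hq, hqp⟩
        rcases up_cases hq3 hqp with ⟨h2, -, -⟩ | ⟨h2, h3', h4⟩ | ⟨h2, h4⟩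
        · have := dg_pend_le b h2
          omega
        · refine ⟨h2.2, ?_⟩
          rw [h2.1]
          omega
        · have := len_lt' (S := S) q.1
          omega
    exact ((pr_dg ht (fun n => 3 ≤ n)).and (pr_ex1 ht (pr_ch ht F l h3 (by omega)))).congr
      (key b) (key b')
  · have key : ∀ p : V S, (p.2.val = 0 ∧ len S p.1 = l) ↔ False := by
      intro p
      constructor
      · rintro ⟨-, h⟩
        have := len_lt' (S := S) p.1
        omega
      · exact False.elim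
    intro x x' _ i
    show ((x i).2.val = 0 ∧ len S (x i).1 = l) ↔ ((x' i).2.val = 0 ∧ len S (x' i).1 = l)
    rw [key, key]

/-- not a pendant vertex of position in `[3, M]` -/
def NP (p : V S) : Prop := ¬ (3 ≤ p.2.val ∧ 3 ≤ pos p ∧ pos p ≤ M S)

/-- CHUNK R290-XF-CHAIN. -/
theorem pr_NP (ht : 3 ≤ t) (F : PebbleFam t (adj S b) (adj S b')) : Pr1 F (NP (S := S)) NP := by
  intro x x' hx i
  unfold NP
  refine not_congr ⟨?_, ?_⟩
  · rintro ⟨h1, h2, h3⟩
    obtain ⟨h4, h5⟩ := (pr_pend ht F (pos (x i)) h2 h3 x x' hx i).1 ⟨h1, rfl⟩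
    exact ⟨h4, by omega, by omega⟩
  · rintro ⟨h1, h2, h3⟩
    obtain ⟨h4, h5⟩ := (pr_pend ht F (pos (x' i)) h2 h3 x x' hx i).2 ⟨h1, rfl⟩
    exact ⟨h4, by omega, by omega⟩

end X

end Crest.Agent.WL
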