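import Crest.Agent.WL.XF4

/-!
# Row 290, class recognition (XF5, chunk R290-XF-RAIL): the classes of the rails and of the missing slots
-/

set_option autoImplicit false
set_option linter.unusedSectionVars false

namespace Crest.Agent.WL

namespace X

open Finset

variable {S : Sys} {b b' : S.C → ZMod 2} {t : ℕ}

/-- rail vertices with number `n` -/
def cR (e : S.E) (n : ℕ) (p : V S) : Prop :=
  p.2.val = 0 ∧ ∃ (m : Fin (10 * S.nC + 1)) (x : ZMod 2), m.val = n ∧ p.1 = V0.rl e m x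

private theorem zv_lt (x : ZMod 2) : x.val < 2 := ZMod.val_lt x

private theorem zv_inj {x y : ZMod 2} (h : x.val = y.val) : x = y := ZMod.val_injective 2 h

private theorem lex_uniq {k a a' r r' : ℕ} (hr : r < k) (hr' : r' < k)
    (h : k * a + r = k * a' + r') : a = a' ∧ r = r' := by
  have h1 : (k * a + r) / k = (k * a' + r') / k := by rw [h]
  have hk : 0 < k := by omega
  rw [Nat.mul_add_div hk, Nat.mul_add_div hk, Nat.div_eq_of_lt hr, Nat.div_eq_of_lt hr'] at h1
  have h2 : a = a' := by omega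
  subst h2
  exact ⟨rfl, by omega⟩

private theorem lex_lt {k a c r : ℕ} (hr : r < k) (ha : a < c) : k * a + r < k * c := by
  have h1 : k * (a + 1) ≤ k * c := Nat.mul_le_mul_left k ha
  rw [Nat.mul_add, Nat.mul_one] at h1
  omega

/-- CHUNK R290-XF-RAIL. the mark determines the class -/
theorem len_rl (e : S.E) (n : ℕ) (hn : n % 2 = 1) (hn' : n < 10 * S.nC + 1) (v : V0 S) :
    len S v = 3 + S.nC + ((10 * S.nC + 1) * (S.eE e).val + n) ↔
      ∃ (m : Fin (10 * S.nC + 1)) (x : ZMod 2), m.val = n ∧ v = V0.rl e m x := by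
  constructor
  · intro h
    cases v with
    | co c a s =>
      exfalso
      have hc := (S.eC c).isLt
      simp only [len] at h
      generalize (10 * S.nC + 1) * (S.eE e).val = K at h
      split_ifs at h <;> omega
    | t0 c s x =>
      exfalso
      have he := lex_lt (k := 10 * S.nC + 1) hn' (S.eE e).isLt
      simp only [len] at h
      generalize (10 * S.nC + 1) * (S.eE e).val = K at h he
      generalize (10 * S.nC + 1) * S.nE = L at h he
      split_ifs at h <;> omega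
    | t1 c s x y =>
      exfalso
      have h2 : (0 : ℕ) = 3 + S.nC + ((10 * S.nC + 1) * (S.eE e).val + n) := h
      generalize (10 * S.nC + 1) * (S.eE e).val = K at h2
      omega
    | t2 c s x y z =>
      exfalso
      have h2 : (0 : ℕ) = 3 + S.nC + ((10 * S.nC + 1) * (S.eE e).val + n) := h
      generalize (10 * S.nC + 1) * (S.eE e).val = K at h2
      omega
    | rl e' m x =>
      simp only [len] at h
      by_cases hm : m.val % 2 = 1
      · rw [if_pos hm] at h
        have h2 : (10 * S.nC + 1) * (S.eE e').val + m.val = (10 * S.nC + 1) * (S.eE e).val + n := by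
          omega
        obtain ⟨h3, h4⟩ := lex_uniq m.isLt hn' h2
        have h5 : e' = e := S.eE.injective (Fin.ext h3)
        subst h5
        exact ⟨m, x, h4, rfl⟩
      · rw [if_neg hm] at h
        exfalso
        generalize (10 * S.nC + 1) * (S.eE e).val = K at h
        omega
    | tp e' =>
      exfalso
      have h2 : (0 : ℕ) = 3 + S.nC + ((10 * S.nC + 1) * (S.eE e).val + n) := h
      generalize (10 * S.nC + 1) * (S.eE e).val = K at h2
      omega
  · rintro ⟨m, x, hm, rfl⟩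
    simp only [len]
    rw [if_pos (by omega), hm]

/-- CHUNK R290-XF-RAIL. -/
theorem len_t0 (c : S.C) (hc : S.al c = true) (s : Fin 5) (hs : S.slot c s = none) (x : ZMod 2)
    (v : V0 S) :
    len S v = 3 + S.nC + (10 * S.nC + 1) * S.nE + (2 * inc S c s + x.val) ↔ v = V0.t0 c s x := by
  constructor
  · intro h
    cases v with
    | co c' a s' =>
      exfalso
      have hc := (S.eC c').isLt
      simp only [len] at h
      generalize (10 * S.nC + 1) * S.nE = K at h
      split_ifs at h <;> omega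
    | t0 c' s' x' =>
      simp only [len] at h
      by_cases hm : S.al c' = true ∧ S.slot c' s' = none
      · rw [if_pos hm] at h
        unfold inc at h
        have h2 := zv_lt x
        have h3 := zv_lt x'
        have h4 := s.isLt
        have h5 := s'.isLt
        have h6 : (S.eC c').val = (S.eC c).val ∧ s'.val = s.val ∧ x'.val = x.val := by
          generalize (10 * S.nC + 1) * S.nE = K at h
          omega
        obtain ⟨h7, h8, h9⟩ := h6
        have h10 : c' = c := S.eC.injective (Fin.ext h7)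
        have h11 : s' = s := Fin.ext h8
        have h12 : x' = x := zv_inj h9
        rw [h10, h11, h12]
      · rw [if_neg hm] at h
        exfalso
        generalize (10 * S.nC + 1) * S.nE = K at h
        omega
    | t1 c' s' x' y =>
      exfalso
      have h2 : (0 : ℕ) = 3 + S.nC + (10 * S.nC + 1) * S.nE + (2 * inc S c s + x.val) := h
      generalize (10 * S.nC + 1) * S.nE = K at h2
      omega
    | t2 c' s' x' y z =>
      exfalso
      have h2 : (0 : ℕ) = 3 + S.nC + (10 * S.nC + 1) * S.nE + (2 * inc S c s + x.val) := h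
      generalize (10 * S.nC + 1) * S.nE = K at h2
      omega
    | rl e' m x' =>
      exfalso
      have he := lex_lt (k := 10 * S.nC + 1) m.isLt (S.eE e').isLt
      simp only [len] at h
      generalize (10 * S.nC + 1) * (S.eE e').val = K at h he
      generalize (10 * S.nC + 1) * S.nE = L at h he
      split_ifs at h <;> omega
    | tp e' =>
      exfalso
      have h2 : (0 : ℕ) = 3 + S.nC + (10 * S.nC + 1) * S.nE + (2 * inc S c s + x.val) := h
      generalize (10 * S.nC + 1) * S.nE = K at h2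
      omega
  · rintro rfl
    simp only [len]
    rw [if_pos ⟨hc, hs⟩]

/-- CHUNK R290-XF-RAIL. `pr_mark` -/
theorem pr_t0_none (ht : 3 ≤ t) (F : PebbleFam t (adj S b) (adj S b')) (c : S.C)
    (hc : S.al c = true) (s : Fin 5) (hs : S.slot c s = none) (x : ZMod 2) :
    Pr1 F (At (V0.t0 c s x) 0) (At (V0.t0 c s x) 0) := by
  have h := pr_mark ht F (3 + S.nC + (10 * S.nC + 1) * S.nE + (2 * inc S c s + x.val))
    (by omega)
  have key : ∀ p : V S, At (V0.t0 c s x) 0 p ↔ p.2.val = 0 ∧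
      len S p.1 = 3 + S.nC + (10 * S.nC + 1) * S.nE + (2 * inc S c s + x.val) := by
    intro p
    rw [len_t0 c hc s hs x p.1]
    unfold At
    exact and_comm
  exact h.congr key key

private theorem pr_odd (ht : 3 ≤ t) (F : PebbleFam t (adj S b) (adj S b')) (e : S.E) (n : ℕ)
    (hn2 : n % 2 = 1) (hn : n < 10 * S.nC + 1) : Pr1 F (cR e n) (cR e n) := by
  have h := pr_mark ht F (3 + S.nC + ((10 * S.nC + 1) * (S.eE e).val + n)) (by omega)
  have key : ∀ p : V S, cR e n p ↔ p.2.val = 0 ∧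
      len S p.1 = 3 + S.nC + ((10 * S.nC + 1) * (S.eE e).val + n) := by
    intro p
    rw [len_rl e n hn2 hn p.1]
    exact Iff.rfl
  exact h.congr key key

/-- neighbours of an odd rail vertex -/
private theorem nb_odd (b : S.C → ZMod 2) {e : S.E} {n : ℕ} (hn2 : n % 2 = 1) {p z : V S}
    (hz : cR e n z) (h : adj S b p z = true) :
    (p.2.val = 0 ∧ ∃ (m : Fin (10 * S.nC + 1)) (x : ZMod 2), (m.val = n + 1 ∨ n = m.val + 1) ∧
      p.1 = V0.rl e m x) ∨ (p.2.val = 3 ∧ p.1 = z.1) := by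
  obtain ⟨hz0, m, x, hm, hz1⟩ := hz
  have h1 : adj S b z p = true := (adj_comm b p z).1 h
  rcases (adj_zero b (v := V0.rl e m x) ⟨hz1, hz0⟩).1 h1 with h2 | h2 | h2
  · obtain ⟨h3, h4⟩ := h2
    rcases (adj0_rl b e m x p.1).1 h4 with ⟨n', h5, h6⟩ | ⟨c, s, -, -, -, h5⟩ | ⟨-, h5⟩
    · left
      refine ⟨h3, n', x, ?_, h5⟩
      omega
    · exfalso; omega
    · exfalso; omega
  · exfalso
    rcases h2.2 with h3 | ⟨e', h3⟩
    · exact absurd h3 (by simp [junk])
    · cases h3
  · right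
    exact ⟨h2.1.2, by rw [h2.1.1, hz1]⟩

private theorem adj_rails (b : S.C → ZMod 2) {e : S.E} {m m' : Fin (10 * S.nC + 1)} {x : ZMod 2}
    {p q : V S} (hp : p.2.val = 0) (hp1 : p.1 = V0.rl e m x) (hq : q.2.val = 0)
    (hq1 : q.1 = V0.rl e m' x) (h : m'.val = m.val + 1 ∨ m.val = m'.val + 1) :
    adj S b p q = true := by
  refine (adj_zero b (v := V0.rl e m x) ⟨hp1, hp⟩).2 (Or.inl ⟨hq, ?_⟩)
  exact (adj0_rl b e m x q.1).2 (Or.inl ⟨m', hq1, h⟩)

private theorem zero_lt_M (S : Sys) : 0 < M S + 3 := by omega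

private theorem rl_inj {e : S.E} {m m' : Fin (10 * S.nC + 1)} {x y : ZMod 2}
    (h : (V0.rl e m x : V0 S) = V0.rl e m' y) : m = m' ∧ x = y := by
  injection h with _ h1 h2
  exact ⟨h1, h2⟩

private theorem cR_even_mid (b : S.C → ZMod 2) (e : S.E) (n : ℕ) (hn2 : n % 2 = 0) (h0 : 0 < n)
    (hn : n < 10 * S.nC) (p : V S) :
    cR e n p ↔ (∃ z, adj S b p z = true ∧ cR e (n - 1) z) ∧
      (∃ z, adj S b p z = true ∧ cR e (n + 1) z) := by
  constructor
  · rintro ⟨hp0, m, x, hm, hp1⟩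
    refine ⟨⟨(V0.rl e ⟨n - 1, by omega⟩ x, ⟨0, zero_lt_M S⟩), ?_, rfl, _, x, rfl, rfl⟩,
      ⟨(V0.rl e ⟨n + 1, by omega⟩ x, ⟨0, zero_lt_M S⟩), ?_, rfl, _, x, rfl, rfl⟩⟩
    · exact adj_rails b hp0 hp1 rfl rfl (Or.inr (by simp only; omega))
    · exact adj_rails b hp0 hp1 rfl rfl (Or.inl (by simp only; omega))
  · rintro ⟨⟨z, hpz, hz⟩, ⟨w, hpw, hw⟩⟩
    rcases nb_odd b (by omega) hz hpz with ⟨h1, m, x, h2, h3⟩ | ⟨h1, h2⟩
    · rcases nb_odd b (by omega) hw hpw with ⟨h4, m', y, h5, h6⟩ | ⟨h4, h5⟩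
      · have h7 : m = m' := (rl_inj (h3.symm.trans h6)).1
        subst h7
        exact ⟨h1, m, x, by omega, h3⟩
      · exfalso; omega
    · rcases nb_odd b (by omega) hw hpw with ⟨h4, m', y, h5, h6⟩ | ⟨h4, h5⟩
      · exfalso; omega
      · exfalso
        obtain ⟨-, m, x, hm, hz1⟩ := hz
        obtain ⟨-, m', x', hm', hw1⟩ := hw
        have h6 : (V0.rl e m x : V0 S) = V0.rl e m' x' := by
          rw [← hz1, ← hw1, ← h2, ← h5]
        have h7 := (rl_inj h6).1
        subst h7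
        omega

private theorem not_NP_pend {e : S.E} {n : ℕ} (hn2 : n % 2 = 1) {p z : V S} (hz : cR e n z)
    (h3 : p.2.val = 3) (h1 : p.1 = z.1) : ¬ NP p := by
  obtain ⟨-, m, x, hm, hz1⟩ := hz
  have hl : len S z.1 = 3 + S.nC + ((10 * S.nC + 1) * (S.eE e).val + n) := by
    rw [hz1]
    simp only [len]
    rw [if_pos (by omega), hm]
  have hl2 := len_lt' (S := S) z.1
  have hM : M S = 2 * N1 S := rfl
  intro h
  apply h
  have hpos : pos p = len S z.1 := by
    unfold pos
    rw [h1, if_pos (by omega)]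
    omega
  refine ⟨by omega, ?_, ?_⟩
  · rw [hpos, hl]; omega
  · rw [hpos]; omega

private theorem NP_zero {p : V S} (h : p.2.val = 0) : NP p := by
  intro h1
  omega

private theorem cR_first (b : S.C → ZMod 2) (h0 : 0 < S.nC) (e : S.E) (p : V S) :
    cR e 0 p ↔ ((∃ z, adj S b p z = true ∧ cR e 1 z) ∧ ¬ cR e 2 p) ∧ NP p := by
  constructor
  · rintro ⟨hp0, m, x, hm, hp1⟩
    refine ⟨⟨⟨(V0.rl e ⟨1, by omega⟩ x, ⟨0, zero_lt_M S⟩), ?_, rfl, _, x, rfl, rfl⟩, ?_⟩,
      NP_zero hp0⟩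
    · exact adj_rails b hp0 hp1 rfl rfl (Or.inl (by simp only; omega))
    · rintro ⟨-, m', x', hm', hp1'⟩
      have h7 := (rl_inj (hp1.symm.trans hp1')).1
      subst h7
      omega
  · rintro ⟨⟨⟨z, hpz, hz⟩, h2⟩, hN⟩
    rcases nb_odd b (by omega) hz hpz with ⟨h1, m, x, h4, h3⟩ | ⟨h1, h4⟩
    · refine ⟨h1, m, x, ?_, h3⟩
      rcases h4 with h4 | h4
      · exact absurd ⟨h1, m, x, by omega, h3⟩ h2
      · omega
    · exact absurd hN (not_NP_pend (by omega) hz h1 h4)

private theorem cR_last (b : S.C → ZMod 2) (h0 : 0 < S.nC) (e : S.E) (p : V S) :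
    cR e (10 * S.nC) p ↔ ((∃ z, adj S b p z = true ∧ cR e (10 * S.nC - 1) z) ∧
      ¬ cR e (10 * S.nC - 2) p) ∧ NP p := by
  constructor
  · rintro ⟨hp0, m, x, hm, hp1⟩
    refine ⟨⟨⟨(V0.rl e ⟨10 * S.nC - 1, by omega⟩ x, ⟨0, zero_lt_M S⟩), ?_, rfl, _, x, rfl, rfl⟩,
      ?_⟩, NP_zero hp0⟩
    · exact adj_rails b hp0 hp1 rfl rfl (Or.inr (by simp only; omega))
    · rintro ⟨-, m', x', hm', hp1'⟩
      have h7 := (rl_inj (hp1.symm.trans hp1')).1
      subst h7
      omega
  · rintro ⟨⟨⟨z, hpz, hz⟩, h2⟩, hN⟩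
    rcases nb_odd b (by omega) hz hpz with ⟨h1, m, x, h4, h3⟩ | ⟨h1, h4⟩
    · refine ⟨h1, m, x, ?_, h3⟩
      rcases h4 with h4 | h4
      · omega
      · exact absurd ⟨h1, m, x, by omega, h3⟩ h2
    · exact absurd hN (not_NP_pend (by omega) hz h1 h4)

/-- CHUNK R290-XF-RAIL. `pr_mark` for `n` odd; for even `n` with `0 < n < 10 nC`: the vertices adjacent to `cR e (n-1)`
and to `cR e (n+1)`; for `n = 0 < 10 nC`: adjacent to `cR e 1`, not in `cR e 2`, and `NP`; for `n = 10 nC > 0`: adjacent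
to `cR e (n-1)`, not in `cR e (n-2)`, and `NP`.  (`adj_zero`, `adj0_rl`.)  The case `nC = 0` is excluded. -/
theorem pr_rl (ht : 3 ≤ t) (F : PebbleFam t (adj S b) (adj S b')) (h0 : 0 < S.nC) (e : S.E) (n : ℕ)
    (hn : n < 10 * S.nC + 1) : Pr1 F (cR e n) (cR e n) := by
  have hmid : ∀ n : ℕ, n % 2 = 0 → 0 < n → n < 10 * S.nC → Pr1 F (cR e n) (cR e n) := by
    intro n h1 h2 h3
    have ha := pr_odd ht F e (n - 1) (by omega) (by omega)
    have hb := pr_odd ht F e (n + 1) (by omega) (by omega)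
    exact ((ha.nb ht).and (hb.nb ht)).congr (cR_even_mid b e n h1 h2 h3)
      (cR_even_mid b' e n h1 h2 h3)
  by_cases h2 : n % 2 = 1
  · exact pr_odd ht F e n h2 hn
  · by_cases h3 : n = 0
    · subst h3
      have ha := pr_odd ht F e 1 (by omega) (by omega)
      have hb := hmid 2 (by omega) (by omega) (by omega)
      exact (((ha.nb ht).and hb.not).and (pr_NP ht F)).congr (cR_first b h0 e) (cR_first b' h0 e)
    · by_cases h4 : n = 10 * S.nC
      · subst h4
        have ha := pr_odd ht F e (10 * S.nC - 1) (by omega) (by omega)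
        have hb := hmid (10 * S.nC - 2) (by omega) (by omega) (by omega)
        exact (((ha.nb ht).and hb.not).and (pr_NP ht F)).congr (cR_last b h0 e) (cR_last b' h0 e)
      · exact hmid n (by omega) (by omega) (by omega)

/-- the same value at two rail vertices of `e` -/
def RL (e : S.E) (n n' : ℕ) (p q : V S) : Prop :=
  p.2.val = 0 ∧ q.2.val = 0 ∧ ∃ (m m' : Fin (10 * S.nC + 1)) (x : ZMod 2), m.val = n ∧ m'.val = n' ∧
    p.1 = V0.rl e m x ∧ q.1 = V0.rl e m' x

private theorem RL_self (e : S.E) (n : ℕ) (p q : V S) : RL e n n p q ↔ p = q ∧ cR e n p := by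
  constructor
  · rintro ⟨hp, hq, m, m', x, hm, hm', hp1, hq1⟩
    have h1 : m = m' := Fin.ext (by omega)
    subst h1
    exact ⟨Prod.ext (hp1.trans hq1.symm) (Fin.ext (by omega)), hp, m, x, hm, hp1⟩
  · rintro ⟨rfl, hp, m, x, hm, hp1⟩
    exact ⟨hp, hp, m, m, x, hm, hm, hp1, hp1⟩

private theorem RL_succ (b : S.C → ZMod 2) (e : S.E) (n n' : ℕ) (hn' : n' + 1 < 10 * S.nC + 1)
    (p q : V S) : RL e n (n' + 1) p q ↔
      ∃ z, RL e n n' p z ∧ (adj S b z q = true ∧ cR e (n' + 1) q) := by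
  constructor
  · rintro ⟨hp, hq, m, m', x, hm, hm', hp1, hq1⟩
    refine ⟨(V0.rl e ⟨n', by omega⟩ x, ⟨0, zero_lt_M S⟩),
      ⟨hp, rfl, m, ⟨n', by omega⟩, x, hm, rfl, hp1, rfl⟩, ?_, hq, m', x, hm', hq1⟩
    exact adj_rails b rfl rfl hq hq1 (Or.inl (by simp only; omega))
  · rintro ⟨z, ⟨hp, hz, m, m', x, hm, hm', hp1, hz1⟩, hzq, hq, m'', y, hm'', hq1⟩
    refine ⟨hp, hq, m, m'', x, hm, hm'', hp1, ?_⟩
    rcases (adj_zero b (v := V0.rl e m' x) ⟨hz1, hz⟩).1 hzq with h2 | h2 | h2
    · obtain ⟨h3, h4⟩ := h2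
      rcases (adj0_rl b e m' x q.1).1 h4 with ⟨k, h5, h6⟩ | ⟨c, s, h5, -⟩ | ⟨h5, -⟩
      · have h7 := rl_inj (h5.symm.trans hq1)
        rw [h5, h7.1]
      · rw [hq1] at h5; cases h5
      · rw [hq1] at h5; cases h5
    · have := h2.1.2
      omega
    · have := h2.1.2
      omega

/-- CHUNK R290-XF-RAIL. induction on the distance, `Pr2.comp`: `RL e n (n' + 1)` is `∃ z, RL e n n' ∧ adj z q ∧ cR e (n'+1) q`;
then `Pr2.swap` for `n > n'` -/
theorem pr_RL (ht : 3 ≤ t) (F : PebbleFam t (adj S b) (adj S b')) (h0 : 0 < S.nC) (e : S.E)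
    (n n' : ℕ) (hn : n < 10 * S.nC + 1) (hn' : n' < 10 * S.nC + 1) :
    Pr2 F (RL e n n') (RL e n n') := by
  have key : ∀ (d n : ℕ), n + d < 10 * S.nC + 1 → Pr2 F (RL e n (n + d)) (RL e n (n + d)) := by
    intro d
    induction d with
    | zero =>
      intro n hn
      have h1 := pr_rl ht F h0 e n hn
      exact (pr_eq.and h1.left).congr (fun p q => RL_self e n p q) (fun p q => RL_self e n p q)
    | succ d ih =>
      intro n hn
      have h1 := pr_rl ht F h0 e (n + d + 1) (by omega)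
      have h2 := ih n (by omega)
      have h3 := Pr2.comp ht h2 (pr_adj.and h1.right)
      exact h3.congr (fun p q => RL_succ b e n (n + d) (by omega) p q)
        (fun p q => RL_succ b' e n (n + d) (by omega) p q)
  rcases Nat.le_total n n' with h | h
  · obtain ⟨d, rfl⟩ := Nat.exists_eq_add_of_le h
    exact key d n hn'
  · obtain ⟨d, rfl⟩ := Nat.exists_eq_add_of_le h
    have h1 := (key d n' hn).swap
    have h2 : ∀ p q : V S, RL e (n' + d) n' p q ↔ RL e n' (n' + d) q p := by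
      intro p q
      constructor
      · rintro ⟨hp, hq, m, m', x, hm, hm', hp1, hq1⟩
        exact ⟨hq, hp, m', m, x, hm', hm, hq1, hp1⟩
      · rintro ⟨hp, hq, m, m', x, hm, hm', hp1, hq1⟩
        exact ⟨hq, hp, m', m, x, hm', hm, hq1, hp1⟩
    exact h1.congr h2 h2

end X

end Crest.Agent.WL
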