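import Crest.Agent.WL.XF6

/-!
# Row 290, class recognition (XF7, chunk R290-XF-VAL): values seen from a core
-/

set_option autoImplicit false
set_option linter.unusedSectionVars false

namespace Crest.Agent.WL

namespace X

open Finset

variable {S : Sys} {t : ℕ}

/-- two ports of the same core -/
def CC (c : S.C) (s s' : Fin 5) (p q : V S) : Prop :=
  ∃ a, At (V0.co c a s) 0 p ∧ At (V0.co c a s') 0 q

/-- `q` is the `t0` vertex of slot `s` with the value of the core `p` -/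
def VL (b : S.C → ZMod 2) (c : S.C) (s : Fin 5) (p q : V S) : Prop :=
  ∃ a, At (V0.co c a 0) 0 p ∧ At (V0.t0 c s (full S b c a s)) 0 q

/-- `q` is the vertex number `n` of the rail of `e` with the value of the core `p` in slot `s` -/
def VR (b : S.C → ZMod 2) (c : S.C) (s : Fin 5) (e : S.E) (n : ℕ) (p q : V S) : Prop :=
  ∃ a, At (V0.co c a 0) 0 p ∧ q.2.val = 0 ∧ ∃ m : Fin (10 * S.nC + 1), m.val = n ∧
    q.1 = V0.rl e m (full S b c a s)

/-- a function of the core -/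
def WW (c : S.C) (f : (Fin 4 → ZMod 2) → V0 S) (p q : V S) : Prop :=
  ∃ a, At (V0.co c a 0) 0 p ∧ At (f a) 0 q

theorem WW_step {b : S.C → ZMod 2} {c : S.C} {f g : (Fin 4 → ZMod 2) → V0 S} {C : V S → Prop}
    (hfg : ∀ a p q, At (f a) 0 p → ((adj S b p q = true ∧ C q) ↔ At (g a) 0 q)) (p q : V S) :
    WW c g p q ↔ ∃ z, WW c f p z ∧ (adj S b z q = true ∧ C q) := by
  constructor
  · rintro ⟨a, h1, h2⟩
    refine ⟨(f a, ⟨0, by omega⟩), ⟨a, h1, rfl, rfl⟩, ?_⟩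
    exact (hfg a _ q ⟨rfl, rfl⟩).2 h2
  · rintro ⟨z, ⟨a, h1, h2⟩, h3⟩
    exact ⟨a, h1, (hfg a _ q h2).1 h3⟩

theorem pr_WW {b b' : S.C → ZMod 2} (ht : 3 ≤ t) (F : PebbleFam t (adj S b) (adj S b')) {c : S.C}
    {f g f' g' : (Fin 4 → ZMod 2) → V0 S} {C : V S → Prop} (hC : Pr1 F C C)
    (hfg : ∀ a p q, At (f a) 0 p → ((adj S b p q = true ∧ C q) ↔ At (g a) 0 q))
    (hfg' : ∀ a p q, At (f' a) 0 p → ((adj S b' p q = true ∧ C q) ↔ At (g' a) 0 q))
    (h : Pr2 F (WW c f) (WW c f')) : Pr2 F (WW c g) (WW c g') :=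
  (Pr2.comp ht h (pr_adj.and hC.right)).congr (WW_step hfg) (WW_step hfg')

theorem st_co {b : S.C → ZMod 2} {c : S.C} (hc : S.al c = true) (s s' : Fin 5)
    (hs : s'.val = s.val + 1) (a : Fin 4 → ZMod 2) (p q : V S) (hp : At (V0.co c a s) 0 p) :
    (adj S b p q = true ∧ cCo c s' q) ↔ At (V0.co c a s') 0 q := by
  rw [adj_zero b hp, adj0_co]
  constructor
  · rintro ⟨h, h0, a', h1⟩
    rcases h with ⟨-, -, h⟩ | ⟨h, -⟩ | ⟨h, -⟩
    · rcases h with ⟨s'', h2, -⟩ | h2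
      · rw [h1] at h2
        injection h2 with e1 e2 e3
        subst e2
        exact ⟨h1, h0⟩
      · rw [h1] at h2; exact absurd h2 (by simp)
    · have := h.2; omega
    · have := h.2; omega
  · rintro ⟨h1, h0⟩
    exact ⟨Or.inl ⟨h0, hc, Or.inl ⟨s', h1, Or.inl hs⟩⟩, h0, a, h1⟩

theorem st_t2 {b : S.C → ZMod 2} {c : S.C} (hc : S.al c = true) (s : Fin 5)
    (a : Fin 4 → ZMod 2) (p q : V S) (hp : At (V0.co c a s) 0 p) :
    (adj S b p q = true ∧ cT2 c s q) ↔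
      At (V0.t2 c s (full S b c a s) (full S b c a (s + 1)) (full S b c a (s + 2))) 0 q := by
  rw [adj_zero b hp, adj0_co]
  constructor
  · rintro ⟨h, h0, x, y, z, h1⟩
    rcases h with ⟨-, -, h⟩ | ⟨h, -⟩ | ⟨h, -⟩
    · rcases h with ⟨s'', h2, -⟩ | h2
      · rw [h1] at h2; exact absurd h2 (by simp)
      · exact ⟨h2, h0⟩
    · have := h.2; omega
    · have := h.2; omega
  · rintro ⟨h1, h0⟩
    exact ⟨Or.inl ⟨h0, hc, Or.inr h1⟩, h0, _, _, _, h1⟩

theorem st_t1 {b : S.C → ZMod 2} {c : S.C} (hc : S.al c = true) (s : Fin 5)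
    (x y z : ZMod 2) (p q : V S) (hp : At (V0.t2 c s x y z) 0 p) :
    (adj S b p q = true ∧ cT1 c s q) ↔ At (V0.t1 c s x y) 0 q := by
  rw [adj_zero b hp, adj0_t2]
  constructor
  · rintro ⟨h, h0, x', y', h1⟩
    rcases h with ⟨-, -, h⟩ | ⟨h, -⟩ | ⟨h, -⟩
    · rcases h with h2 | ⟨a, h2, -⟩
      · exact ⟨h2, h0⟩
      · rw [h1] at h2; exact absurd h2 (by simp)
    · have := h.2; omega
    · have := h.2; omega
  · rintro ⟨h1, h0⟩
    exact ⟨Or.inl ⟨h0, hc, Or.inl h1⟩, h0, _, _, h1⟩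

theorem st_t0 {b : S.C → ZMod 2} {c : S.C} (hc : S.al c = true) (s : Fin 5)
    (x y : ZMod 2) (p q : V S) (hp : At (V0.t1 c s x y) 0 p) :
    (adj S b p q = true ∧ cT0 c s q) ↔ At (V0.t0 c s x) 0 q := by
  rw [adj_zero b hp, adj0_t1]
  constructor
  · rintro ⟨h, h0, x', h1⟩
    rcases h with ⟨-, -, h⟩ | ⟨h, -⟩ | ⟨h, -⟩
    · rcases h with h2 | ⟨z, h2⟩
      · exact ⟨h2, h0⟩
      · rw [h1] at h2; exact absurd h2 (by simp)
    · have := h.2; omega
    · have := h.2; omega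
  · rintro ⟨h1, h0⟩
    exact ⟨Or.inl ⟨h0, hc, Or.inl h1⟩, h0, _, h1⟩

theorem st_rl {b : S.C → ZMod 2} {c : S.C} (hc : S.al c = true) (s : Fin 5) (e : S.E)
    (he : S.slot c s = some e) (k : Fin (10 * S.nC + 1)) (hk : k.val = 2 * inc S c s)
    (x : ZMod 2) (p q : V S) (hp : At (V0.t0 c s x) 0 p) :
    (adj S b p q = true ∧ cR e (2 * inc S c s) q) ↔ At (V0.rl e k x) 0 q := by
  rw [adj_zero b hp, adj0_t0]
  constructor
  · rintro ⟨h, h0, m, x', hm, h1⟩
    have hmk : m = k := Fin.ext (by omega)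
    subst hmk
    rcases h with ⟨-, -, h⟩ | ⟨h, -⟩ | ⟨h, -⟩
    · rcases h with ⟨y, h2⟩ | ⟨e', n, h2, -⟩
      · rw [h1] at h2; exact absurd h2 (by simp)
      · rw [h1] at h2
        injection h2 with e1 e2 e3
        subst e3
        exact ⟨h1, h0⟩
    · have := h.2; omega
    · have := h.2; omega
  · rintro ⟨h1, h0⟩
    exact ⟨Or.inl ⟨h0, hc, Or.inr ⟨e, k, h1, he, hk⟩⟩, h0, k, x, hk, h1⟩

/-- CHUNK R290-XF-VAL. adjacent members of neighbouring classes, composition -/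
theorem pr_CC {b b' : S.C → ZMod 2} (ht : 3 ≤ t) (F : PebbleFam t (adj S b) (adj S b')) (c : S.C)
    (hc : S.al c = true) (s : Fin 5) : Pr2 F (CC c 0 s) (CC c 0 s) := by
  obtain ⟨n, hn⟩ := s
  induction n with
  | zero =>
    refine (pr_eq.and (pr_co ht F c hc 0).left).congr ?_ ?_
    all_goals
      intro p q
      constructor
      · rintro ⟨a, ⟨h1, h2⟩, ⟨h3, h4⟩⟩
        exact ⟨Prod.ext (h1.trans h3.symm) (Fin.ext (h2.trans h4.symm)), h2, a, h1⟩
      · rintro ⟨rfl, h2, a, h1⟩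
        exact ⟨a, ⟨h1, h2⟩, ⟨h1, h2⟩⟩
  | succ n ih =>
    exact pr_WW ht F (pr_co ht F c hc ⟨n + 1, hn⟩)
      (fun a p q hp => st_co hc ⟨n, by omega⟩ ⟨n + 1, hn⟩ rfl a p q hp)
      (fun a p q hp => st_co hc ⟨n, by omega⟩ ⟨n + 1, hn⟩ rfl a p q hp) (ih (by omega))

/-- CHUNK R290-XF-VAL. `CC c 0 s`, then `co - t2`, `t2 - t1`, `t1 - t0` (adjacent members of the classes) -/
theorem pr_VL {b b' : S.C → ZMod 2} (ht : 3 ≤ t) (F : PebbleFam t (adj S b) (adj S b')) (c : S.C)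
    (hc : S.al c = true) (s : Fin 5) : Pr2 F (VL b c s) (VL b' c s) := by
  have h1 := pr_WW ht F (pr_t2 ht F c hc s)
      (fun a p q hp => st_t2 (b := b) hc s a p q hp)
      (fun a p q hp => st_t2 (b := b') hc s a p q hp) (pr_CC ht F c hc s)
  have h2 := pr_WW ht F (pr_t1 ht F c hc s)
      (fun a p q hp => st_t1 (b := b) hc s _ _ _ p q hp)
      (fun a p q hp => st_t1 (b := b') hc s _ _ _ p q hp) h1
  exact pr_WW ht F (pr_t0 ht F c hc s)
      (fun a p q hp => st_t0 (b := b) hc s _ _ p q hp)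
      (fun a p q hp => st_t0 (b := b') hc s _ _ p q hp) h2

/-- CHUNK R290-XF-VAL. `VL`, then `t0 - rl e (2 inc)` (adjacent members of the classes), then `RL` -/
theorem pr_VR {b b' : S.C → ZMod 2} (ht : 3 ≤ t) (F : PebbleFam t (adj S b) (adj S b')) (c : S.C)
    (hc : S.al c = true) (s : Fin 5) (e : S.E) (he : S.slot c s = some e) (n : ℕ)
    (hn : n < 10 * S.nC + 1) : Pr2 F (VR b c s e n) (VR b' c s e n) := by
  have h0 : 0 < S.nC := lt_of_le_of_lt (Nat.zero_le _) (S.eC c).2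
  have hk : 2 * inc S c s < 10 * S.nC + 1 := by
    have h1 := (S.eC c).2
    have h2 := s.2
    unfold inc
    omega
  have h1 : Pr2 F (WW c fun a => V0.rl e ⟨2 * inc S c s, hk⟩ (full S b c a s))
      (WW c fun a => V0.rl e ⟨2 * inc S c s, hk⟩ (full S b' c a s)) :=
    pr_WW ht F (pr_rl ht F h0 e (2 * inc S c s) hk)
      (fun a p q hp => st_rl (b := b) hc s e he ⟨2 * inc S c s, hk⟩ rfl _ p q hp)
      (fun a p q hp => st_rl (b := b') hc s e he ⟨2 * inc S c s, hk⟩ rfl _ p q hp)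
      (pr_VL ht F c hc s)
  refine (Pr2.comp ht h1 (pr_RL ht F h0 e (2 * inc S c s) n hk hn)).congr ?_ ?_
  all_goals
    intro p q
    constructor
    · rintro ⟨a, h1, h2, m, h3, h4⟩
      exact ⟨(V0.rl e ⟨2 * inc S c s, hk⟩ _, ⟨0, by omega⟩), ⟨a, h1, rfl, rfl⟩, rfl, h2,
        ⟨2 * inc S c s, hk⟩, m, _, rfl, h3, rfl, h4⟩
    · rintro ⟨z, ⟨a, h1, h2, h3⟩, -, h4, m, m', x, h5, h6, h7, h8⟩
      rw [h7] at h2
      injection h2 with e1 e2 e3
      subst e3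
      exact ⟨a, h1, h4, m', h6, h8⟩

/-- CHUNK R290-XF-VAL. image of a core -/
theorem core_image {b b' : S.C → ZMod 2} (ht : 3 ≤ t) (F : PebbleFam t (adj S b) (adj S b'))
    (x x' : Fin t → V S) (hx : F.R x x') (i : Fin t) (c : S.C) (hc : S.al c = true)
    (a : Fin 4 → ZMod 2) (hi : At (V0.co c a 0) 0 (x i)) :
    ∃ a', At (V0.co c a' 0) 0 (x' i) := by
  obtain ⟨h1, a', h2⟩ := (pr_co ht F c hc 0 x x' hx i).1 ⟨hi.2, a, hi.1⟩
  exact ⟨a', h2, h1⟩

theorem core_inj {c : S.C} {a a' : Fin 4 → ZMod 2} {p : V S} (h : At (V0.co c a 0) 0 p)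
    (h' : At (V0.co c a' 0) 0 p) : a = a' := by
  have h2 := h.1.symm.trans h'.1
  injection h2

/-- CHUNK R290-XF-VAL. missing slots are not shifted: the third pebble on `t0 c s (full b c a s)` (`Pr2.move` with `VL`),
`pr_t0_none` -/
theorem core_miss {b b' : S.C → ZMod 2} (ht : 3 ≤ t) (F : PebbleFam t (adj S b) (adj S b'))
    (x x' : Fin t → V S) (hx : F.R x x') (i : Fin t) (c : S.C) (hc : S.al c = true)
    (a a' : Fin 4 → ZMod 2) (hi : At (V0.co c a 0) 0 (x i)) (hi' : At (V0.co c a' 0) 0 (x' i))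
    (s : Fin 5) (hs : S.slot c s = none) : full S b c a s = full S b' c a' s := by
  obtain ⟨l, z', hl, hR, a'', h1, h2⟩ := (pr_VL ht F c hc s).move ht hx i
    (V0.t0 c s (full S b c a s), ⟨0, by omega⟩) ⟨a, hi, rfl, rfl⟩
  have e1 := core_inj h1 hi'
  subst e1
  have h3 := (pr_t0_none ht F c hc s hs (full S b c a s) _ _ hR l).1
    (by rw [Function.update_self]; exact ⟨rfl, rfl⟩)
  rw [Function.update_self] at h3
  have h4 := h3.1.symm.trans h2.1
  injection h4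

/-- CHUNK R290-XF-VAL. two cores which share a bit: the relation `∃ z, VR c s e 0 p z ∧ VR c1 s1 e 0 q z` is preserved -/
theorem core_cons {b b' : S.C → ZMod 2} (ht : 3 ≤ t) (F : PebbleFam t (adj S b) (adj S b'))
    (x x' : Fin t → V S) (hx : F.R x x') (i j : Fin t) (c c1 : S.C) (hc : S.al c = true)
    (hc1 : S.al c1 = true) (a a' d d' : Fin 4 → ZMod 2) (hi : At (V0.co c a 0) 0 (x i))
    (hi' : At (V0.co c a' 0) 0 (x' i)) (hj : At (V0.co c1 d 0) 0 (x j))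
    (hj' : At (V0.co c1 d' 0) 0 (x' j)) (s s1 : Fin 5) (e : S.E) (hs : S.slot c s = some e)
    (hs1 : S.slot c1 s1 = some e) :
    full S b c a s + full S b' c a' s = full S b c1 d s1 + full S b' c1 d' s1 := by
  have h := Pr2.comp ht (pr_VR ht F c hc s e hs 0 (by omega))
    (pr_VR ht F c1 hc1 s1 e hs1 0 (by omega)).swap x x' hx i j
  have key : ∀ (b : S.C → ZMod 2) (a d : Fin 4 → ZMod 2) (p q : V S), At (V0.co c a 0) 0 p →
      At (V0.co c1 d 0) 0 q →
      ((∃ z, VR b c s e 0 p z ∧ VR b c1 s1 e 0 q z) ↔ full S b c a s = full S b c1 d s1) := by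
    intro b a d p q hp hq
    constructor
    · rintro ⟨z, ⟨a1, h1, -, m, h2, h3⟩, d1, h4, -, m', h5, h6⟩
      have e1 := core_inj h1 hp
      have e2 := core_inj h4 hq
      subst e1 e2
      have h7 := h3.symm.trans h6
      injection h7
    · intro h1
      exact ⟨(V0.rl e ⟨0, by omega⟩ (full S b c a s), ⟨0, by omega⟩),
        ⟨a, hp, rfl, ⟨0, by omega⟩, rfl, rfl⟩, d, hq, rfl, ⟨0, by omega⟩, rfl, by rw [h1]⟩
  have h1 := key b a d _ _ hi hj
  have h2 := key b' a' d' _ _ hi' hj'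
  have h3 : full S b c a s = full S b c1 d s1 ↔ full S b' c a' s = full S b' c1 d' s1 :=
    h1.symm.trans (h.trans h2)
  revert h3
  generalize full S b c a s = u1
  generalize full S b c1 d s1 = u2
  generalize full S b' c a' s = u3
  generalize full S b' c1 d' s1 = u4
  revert u1 u2 u3 u4
  decide

end X

end Crest.Agent.WL
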