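import Crest.Agent.WL.XF7
import Crest.Agent.WL.Sys

/-!
# Row 290, class recognition (XF8, chunk R290-XF-FAM): Spoiler's family on the system
-/

set_option autoImplicit false
set_option linter.unusedSectionVars false

namespace Crest.Agent.WL

namespace X

open Finset

variable {S : Sys} {t : ℕ}

/-- the family: `P` is a set of present checks, each with a pebble on a core -/
def famF {b b' : S.C → ZMod 2} (F : PebbleFam t (adj S b) (adj S b')) (P : Finset S.C)
    (δ : S.C → Fin 5 → ZMod 2) : Prop :=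
  ∃ x x', F.R x x' ∧ ∀ c ∈ P, S.al c = true ∧ ∃ (i : Fin t) (a a' : Fin 4 → ZMod 2),
    At (V0.co c a 0) 0 (x i) ∧ At (V0.co c a' 0) 0 (x' i) ∧
      ∀ s, δ c s = full S b c a s + full S b' c a' s

theorem full_four (b : S.C → ZMod 2) (c : S.C) (a : Fin 4 → ZMod 2) :
    full S b c a 0 = a 0 ∧ full S b c a 1 = a 1 ∧ full S b c a 2 = a 2 ∧ full S b c a 3 = a 3 ∧
      full S b c a 4 = b c + (a 0 + a 1 + a 2 + a 3) := by
  refine ⟨?_, ?_, ?_, ?_, ?_⟩ <;> simp [full]

/-- CHUNK R290-XF-FAM. `∑ s, full b c a s = b c` -/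
theorem sum_full (b : S.C → ZMod 2) (c : S.C) (a : Fin 4 → ZMod 2) :
    ∑ s : Fin 5, full S b c a s = b c := by
  obtain ⟨h0, h1, h2, h3, h4⟩ := full_four b c a
  rw [Fin.sum_univ_five, h0, h1, h2, h3, h4]
  have h := CharTwo.add_self_eq_zero (a 0 + a 1 + a 2 + a 3)
  calc a 0 + a 1 + a 2 + a 3 + (b c + (a 0 + a 1 + a 2 + a 3))
      = b c + ((a 0 + a 1 + a 2 + a 3) + (a 0 + a 1 + a 2 + a 3)) := by ring
    _ = b c := by rw [h, add_zero]

/-- CHUNK R290-XF-FAM. `ext`: if `c ∈ P` take `δ`; otherwise the pebbles `i_c` of the members of `P` leave one free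
(`P.card < t`); move it to `(co c 0 0, 0)` (`F.step`), `core_image` gives the image, `δ' = update δ c _`. -/
theorem exists_fam_aux (ht : 3 ≤ t) (b b' : S.C → ZMod 2)
    (F : PebbleFam t (adj S b) (adj S b')) (x x' : Fin t → V S) (hx : F.R x x') :
    Nonempty (BFam S t (fun c => b c + b' c)) := by
  classical
  refine ⟨⟨famF F, ?_, ?_, ?_, ?_, ?_, ?_⟩⟩
  · rintro P δ ⟨x, x', hx, h⟩ c hc
    obtain ⟨-, i, a, a', -, -, hδ⟩ := h c hc
    simp only [hδ, Finset.sum_add_distrib, sum_full]
  · rintro P δ ⟨x, x', hx, h⟩ c hc s hs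
    obtain ⟨hal, i, a, a', hi, hi', hδ⟩ := h c hc
    rw [hδ s, core_miss ht F x x' hx i c hal a a' hi hi' s hs]
    exact CharTwo.add_self_eq_zero _
  · rintro P δ ⟨x, x', hx, h⟩ c hc c1 hc1 s s1 e hs hs1
    obtain ⟨hal, i, a, a', hi, hi', hδ⟩ := h c hc
    obtain ⟨hal1, j, d, d', hj, hj', hδ1⟩ := h c1 hc1
    rw [hδ s, hδ1 s1]
    exact core_cons ht F x x' hx i j c c1 hal hal1 a a' d d' hi hi' hj hj' s s1 e hs hs1
  · rintro P Q δ ⟨x, x', hx, h⟩ hQ
    exact ⟨x, x', hx, fun c hc => h c (hQ hc)⟩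
  · rintro P δ ⟨x, x', hx, h⟩ hcard c hal
    by_cases hc : c ∈ P
    · refine ⟨δ, ?_, fun _ _ => rfl⟩
      rw [Finset.insert_eq_of_mem hc]
      exact ⟨x, x', hx, h⟩
    · -- the pebbles of the members of `P`
      let g : S.C → Fin t := fun c' => if hc' : c' ∈ P then (h c' hc').2.choose else ⟨0, by omega⟩
      have hg : ∀ c' (hc' : c' ∈ P), g c' = (h c' hc').2.choose := fun c' hc' => by
        simp only [g, dif_pos hc']
      obtain ⟨l, hl⟩ : ∃ l : Fin t, l ∉ P.image g := by
        by_contra hcon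
        push Not at hcon
        have h1 : (univ : Finset (Fin t)) ⊆ P.image g := fun l _ => hcon l
        have h2 := card_le_card h1
        rw [card_univ, Fintype.card_fin] at h2
        have h3 : (P.image g).card ≤ P.card := card_image_le
        omega
      obtain ⟨f, hf⟩ := F.step x x' hx l
      have hM : 0 < M S + 3 := by omega
      set z : V S := (V0.co c 0 0, ⟨0, hM⟩) with hz
      have hR := hf z
      obtain ⟨a', ha'⟩ := core_image ht F _ _ hR l c hal 0 (by
        rw [Function.update_self]; exact ⟨rfl, rfl⟩)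
      refine ⟨Function.update δ c (fun s => full S b c 0 s + full S b' c a' s),
        ⟨_, _, hR, ?_⟩, ?_⟩
      · intro c1 hc1
        rw [Finset.mem_insert] at hc1
        by_cases hcc : c1 = c
        · subst hcc
          refine ⟨hal, l, 0, a', ?_, ha', ?_⟩
          · rw [Function.update_self]; exact ⟨rfl, rfl⟩
          · intro s; rw [Function.update_self]
        · have hc1P : c1 ∈ P := hc1.resolve_left hcc
          obtain ⟨hal1, -⟩ := h c1 hc1P
          obtain ⟨a1, a1', hi, hi', hδ⟩ := (h c1 hc1P).2.choose_spec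
          have hne : (h c1 hc1P).2.choose ≠ l := by
            intro he
            apply hl
            rw [← he, ← hg c1 hc1P]
            exact Finset.mem_image_of_mem g hc1P
          refine ⟨hal1, (h c1 hc1P).2.choose, a1, a1', ?_, ?_, ?_⟩
          · rw [Function.update_of_ne hne]; exact hi
          · rw [Function.update_of_ne hne]; exact hi'
          · intro s
            rw [Function.update_of_ne hcc]; exact hδ s
      · intro c1 hc1
        have hcc : c1 ≠ c := fun he => hc (he ▸ hc1)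
        rw [Function.update_of_ne hcc]
  · exact ⟨fun _ _ => 0, x, x', hx, fun c hc => absurd hc (Finset.notMem_empty c)⟩

end X

end Crest.Agent.WL
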