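import Crest.Agent.WL.XF7
import Crest.Agent.WL.XFDefs

/-!
# Row 290, class recognition (XF9, chunk R290-XF-REL1): relations to a core
-/

set_option autoImplicit false
set_option linter.unusedSectionVars false

namespace Crest.Agent.WL

namespace X

open Finset

variable {S : Sys} {t : ℕ}

/-- the core `p` (port 0) and the core `q` (port `s1`) have the same value in slot `σ` -/
def SV (b : S.C → ZMod 2) (c : S.C) (s1 σ : Fin 5) (p q : V S) : Prop :=
  ∃ a d, At (V0.co c a 0) 0 p ∧ At (V0.co c d s1) 0 q ∧ full S b c a σ = full S b c d σ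

theorem at_inj {v w : V0 S} {n m : ℕ} {p : V S} (h : At v n p) (h' : At w m p) : v = w :=
  h.1.symm.trans h'.1

theorem sv_char (b : S.C → ZMod 2) (c : S.C) (s1 σ : Fin 5) (p q : V S) :
    SV b c s1 σ p q ↔ ∃ y, (∃ z, VL b c σ p z ∧ VL b c σ y z) ∧ CC c 0 s1 y q := by
  constructor
  · rintro ⟨a, d, hp, hq, h⟩
    refine ⟨z0 (V0.co c d 0), ⟨z0 (V0.t0 c σ (full S b c a σ)), ⟨a, hp, at_z0 _⟩,
      ⟨d, at_z0 _, ?_⟩⟩, ⟨d, at_z0 _, hq⟩⟩
    rw [← h]
    exact at_z0 _
  · rintro ⟨y, ⟨z, ⟨a, hp, hz⟩, ⟨d, hy, hz'⟩⟩, ⟨d', hy', hq⟩⟩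
    have h1 := at_inj hy hy'
    injection h1 with _ h2 _
    subst h2
    have h3 := at_inj hz hz'
    injection h3 with _ _ h4
    exact ⟨a, d, hp, hq, h4⟩

theorem z2_key : ∀ a d a' d' : ZMod 2, (a = d ↔ a' = d') → d' = d + (a + a') := by decide

/-- CHUNK R290-XF-REL1. `SV p q ↔ ∃ z, VL b c σ p z ∧ ∃ y, VL b c σ y z ∧ CC c 0 s1 y q` (`Pr2.comp`, `Pr2.swap`) -/
theorem pr_SV {b b' : S.C → ZMod 2} (ht : 3 ≤ t) (F : PebbleFam t (adj S b) (adj S b')) (c : S.C)
    (hc : S.al c = true) (s1 σ : Fin 5) : Pr2 F (SV b c s1 σ) (SV b' c s1 σ) := by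
  have hVL := pr_VL ht F c hc σ
  have h1 := (hVL.comp ht hVL.swap).comp ht (pr_CC ht F c hc s1)
  exact h1.congr (fun u v => sv_char b c s1 σ u v) (fun u v => sv_char b' c s1 σ u v)

/-- CHUNK R290-XF-REL1. class `cCo c s1` (`pr_co`); `pr_SV` for `σ = 0, 1, 2, 3` -/
theorem rel_co {b b' : S.C → ZMod 2} (ht : 3 ≤ t) (F : PebbleFam t (adj S b) (adj S b'))
    (x x' : Fin t → V S) (hx : F.R x x') (i j : Fin t) (c : S.C) (hc : S.al c = true)
    (a a' : Fin 4 → ZMod 2) (hi : At (V0.co c a 0) 0 (x i)) (hi' : At (V0.co c a' 0) 0 (x' i))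
    (d : Fin 4 → ZMod 2) (s : Fin 5) (hj : At (V0.co c d s) 0 (x j)) :
    At (shG c (dl b b' c a a') (V0.co c d s)) 0 (x' j) := by
  obtain ⟨h0, d', hd'⟩ := (pr_co ht F c hc s x x' hx j).1 ⟨hj.2, d, hj.1⟩
  refine ⟨?_, h0⟩
  rw [hd']
  change V0.co c d' s = if c = c then V0.co c (fun i => d i + dl b b' c a a' ⟨i.val, by omega⟩) s
    else V0.co c d s
  rw [if_pos rfl]
  congr 1
  have hk : ∃ k, k = i := ⟨i, rfl⟩
  obtain ⟨k, hk⟩ := hk
  rw [← hk] at hi hi'
  clear hk
  clear i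
  funext i
  have key : (full S b c a ⟨i.val, by omega⟩ = full S b c d ⟨i.val, by omega⟩) ↔
      (full S b' c a' ⟨i.val, by omega⟩ = full S b' c d' ⟨i.val, by omega⟩) := by
    have h := pr_SV ht F c hc s (⟨i.val, by omega⟩ : Fin 5) x x' hx k j
    constructor
    · intro he
      obtain ⟨a2, d2, h1, h2, h3⟩ := h.1 ⟨a, d, hi, hj, he⟩
      have e1 := at_inj hi' h1
      have e2 := hd'.symm.trans h2.1
      injection e1 with _ e1 _
      injection e2 with _ e2 _
      subst e1; subst e2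
      exact h3
    · intro he
      obtain ⟨a2, d2, h1, h2, h3⟩ := h.2 ⟨a', d', hi', ⟨hd', h0⟩, he⟩
      have e1 := at_inj hi h1
      have e2 := at_inj hj h2
      injection e1 with _ e1 _
      injection e2 with _ e2 _
      subst e1; subst e2
      exact h3
  have h2 := z2_key _ _ _ _ key
  unfold dl
  have hf : ∀ (b : S.C → ZMod 2) (d : Fin 4 → ZMod 2), full S b c d ⟨i.val, by omega⟩ = d i := by
    intro b d
    unfold full
    rw [dif_pos (show (⟨i.val, by omega⟩ : Fin 5).val < 4 from i.isLt)]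
  rw [hf b' d', hf b d] at h2
  exact h2

/-- CHUNK R290-XF-REL1. class `cT0 c s` (`pr_t0`), `pr_VL` -/
theorem rel_t0 {b b' : S.C → ZMod 2} (ht : 3 ≤ t) (F : PebbleFam t (adj S b) (adj S b'))
    (x x' : Fin t → V S) (hx : F.R x x') (i j : Fin t) (c : S.C) (hc : S.al c = true)
    (a a' : Fin 4 → ZMod 2) (hi : At (V0.co c a 0) 0 (x i)) (hi' : At (V0.co c a' 0) 0 (x' i))
    (s : Fin 5) (y : ZMod 2) (hj : At (V0.t0 c s y) 0 (x j)) :
    At (shG c (dl b b' c a a') (V0.t0 c s y)) 0 (x' j) := by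
  obtain ⟨h0, y', hy'⟩ := (pr_t0 ht F c hc s x x' hx j).1 ⟨hj.2, y, hj.1⟩
  refine ⟨?_, h0⟩
  rw [hy']
  change V0.t0 c s y' = if c = c then V0.t0 c s (y + dl b b' c a a' s) else V0.t0 c s y
  rw [if_pos rfl]
  congr 1
  have h := pr_VL ht F c hc s x x' hx i j
  have key : (full S b c a s = y) ↔ (full S b' c a' s = y') := by
    constructor
    · intro he
      obtain ⟨a2, h1, h2⟩ := h.1 ⟨a, hi, by rw [he]; exact hj⟩
      have e1 := at_inj hi' h1
      have e2 := hy'.symm.trans h2.1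
      injection e1 with _ e1 _
      injection e2 with _ _ e2
      subst e1
      exact e2.symm
    · intro he
      obtain ⟨a2, h1, h2⟩ := h.2 ⟨a', hi', by rw [he]; exact ⟨hy', h0⟩⟩
      have e1 := at_inj hi h1
      have e2 := at_inj hj h2
      injection e1 with _ e1 _
      injection e2 with _ _ e2
      subst e1
      exact e2.symm
  exact z2_key _ _ _ _ key

/-- CHUNK R290-XF-REL1. class `cR e n` (`pr_rl`), `pr_VR`; the sum in `shG` has one nonzero term (`slot_inj`) -/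
theorem rel_rl {b b' : S.C → ZMod 2} (ht : 3 ≤ t) (F : PebbleFam t (adj S b) (adj S b'))
    (x x' : Fin t → V S) (hx : F.R x x') (i j : Fin t) (c : S.C) (hc : S.al c = true)
    (a a' : Fin 4 → ZMod 2) (hi : At (V0.co c a 0) 0 (x i)) (hi' : At (V0.co c a' 0) 0 (x' i))
    (s : Fin 5) (e : S.E) (hs : S.slot c s = some e) (m : Fin (10 * S.nC + 1)) (y : ZMod 2)
    (hj : At (V0.rl e m y) 0 (x j)) :
    At (shG c (dl b b' c a a') (V0.rl e m y)) 0 (x' j) := by
  obtain ⟨h0, m', y', hm', hy'⟩ :=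
    (pr_rl ht F (nC_pos c) e m.val m.isLt x x' hx j).1 ⟨hj.2, m, y, rfl, hj.1⟩
  have hmm : m' = m := Fin.ext hm'
  subst hmm
  refine ⟨?_, h0⟩
  rw [hy']
  change V0.rl e m' y' = V0.rl e m' (y + ∑ s' : Fin 5,
    if S.slot c s' = some e then dl b b' c a a' s' else 0)
  have hsum : (∑ s' : Fin 5, if S.slot c s' = some e then dl b b' c a a' s' else 0) =
      dl b b' c a a' s := by
    rw [Finset.sum_eq_single s]
    · rw [if_pos hs]
    · intro s' _ hne
      exact if_neg fun h => hne (S.slot_inj c s' s e h hs)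
    · intro h
      exact absurd (Finset.mem_univ _) h
  rw [hsum]
  congr 1
  have h := pr_VR ht F c hc s e hs m'.val m'.isLt x x' hx i j
  have key : (full S b c a s = y) ↔ (full S b' c a' s = y') := by
    constructor
    · intro he
      obtain ⟨a2, h1, -, m2, -, h2⟩ := h.1 ⟨a, hi, hj.2, m', rfl, by rw [he]; exact hj.1⟩
      have e1 := at_inj hi' h1
      have e2 := hy'.symm.trans h2
      injection e1 with _ e1 _
      injection e2 with _ _ e2
      subst e1
      exact e2.symm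
    · intro he
      obtain ⟨a2, h1, -, m2, -, h2⟩ := h.2 ⟨a', hi', h0, m', rfl, by rw [he]; exact hy'⟩
      have e1 := at_inj hi h1
      have e2 := hj.1.symm.trans h2
      injection e1 with _ e1 _
      injection e2 with _ _ e2
      subst e1
      exact e2.symm
  exact z2_key _ _ _ _ key

end X

end Crest.Agent.WL
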