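import Crest.Agent.WL.XStrat0

/-!
# CHUNK R290-XS1: the shift preserves all edges except the risky ones

Case analysis on the kinds of the two vertices and on the second components.  Facts: `mp` is an injective involution
preserving `len`, `junk`, the class; on junk and tops it is the identity; `full_mp`; vertices of absent checks have
no core edges (all clauses of `step` about checks contain `S.al c`).
Suggestion: first prove for the core: `step S b u v = step S (fun c => b c + tw c) (mp u) (mp v)` unless
`u = rl e n x`, `v = t0 c s x'` with `al c`, `slot c s = some e` and `bd z c ≠ tw c`.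
-/

set_option autoImplicit false

namespace Crest.Agent.WL

namespace X

variable {S : Sys}

theorem step_mp (b : S.C → ZMod 2) (z : S.E → ZMod 2) (tw : S.C → ZMod 2) (u v : V0 S)
    (h : ¬ ∃ e n x c s x', u = V0.rl e n x ∧ v = V0.t0 c s x' ∧
      S.al c = true ∧ S.slot c s = some e ∧ S.bd z c ≠ tw c) :
    step S b u v = step S (fun c => b c + tw c) (mp S z tw u) (mp S z tw v) := by
  cases u with
  | co c a s =>
    by_cases hc : S.al c = true
    · cases v with
      | co c' a' s' =>
        by_cases hcc : c = c'
        · subst hcc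
          simp only [step, mp, hc, if_true, Bool.true_and, true_and]
          congr 1
          simp only [eq_iff_iff, and_congr_left_iff]
          intro _
          constructor
          · intro e; rw [e]
          · intro e
            funext i
            have := congrFun e i
            simpa using this
        · by_cases hc' : S.al c' = true
          · simp [step, mp, hc, hc', hcc]
          · simp [step, mp, hc, hc', hcc]
      | t0 c' s' x' => simp only [mp]; split_ifs <;> rfl
      | t1 c' s' x' y' => simp only [mp]; split_ifs <;> rfl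
      | t2 c' s' x' y' z' => simp only [mp]; split_ifs <;> rfl
      | rl e n x => simp only [mp]; split_ifs <;> rfl
      | tp e => simp only [mp]; split_ifs <;> rfl
    · cases v <;> (simp only [mp]; split_ifs <;> simp [step, hc])
  | t0 c s x =>
    by_cases hc : S.al c = true
    · cases v with
      | t1 c' s' x' y' =>
        by_cases hcc : c = c'
        · subst hcc
          by_cases hs : s = s'
          · subst hs
            simp [step, mp, hc]
          · simp [step, mp, hc, hs]
        · by_cases hc' : S.al c' = true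
          · simp [step, mp, hc, hc', hcc]
          · simp [step, mp, hc, hc', hcc]
      | t0 c' s' x' => simp only [mp]; split_ifs <;> rfl
      | co c' s' x' => simp only [mp]; split_ifs <;> rfl
      | t2 c' s' x' y' z' => simp only [mp]; split_ifs <;> rfl
      | rl e n x => simp only [mp]; split_ifs <;> rfl
      | tp e => simp only [mp]; split_ifs <;> rfl
    · cases v <;> (simp only [mp]; split_ifs <;> simp [step, hc])
  | t1 c s x y =>
    by_cases hc : S.al c = true
    · cases v with
      | t2 c' s' x' y' z' =>
        by_cases hcc : c = c'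
        · subst hcc
          by_cases hs : s = s'
          · subst hs
            simp [step, mp, hc]
          · simp [step, mp, hc, hs]
        · by_cases hc' : S.al c' = true
          · simp [step, mp, hc, hc', hcc]
          · simp [step, mp, hc, hc', hcc]
      | t0 c' s' x' => simp only [mp]; split_ifs <;> rfl
      | co c' s' x' => simp only [mp]; split_ifs <;> rfl
      | t1 c' s' x' y' => simp only [mp]; split_ifs <;> rfl
      | rl e n x => simp only [mp]; split_ifs <;> rfl
      | tp e => simp only [mp]; split_ifs <;> rfl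
    · cases v <;> (simp only [mp]; split_ifs <;> simp [step, hc])
  | t2 c s x y y' =>
    by_cases hc : S.al c = true
    · cases v with
      | co c' a s' =>
        by_cases hcc : c = c'
        · subst hcc
          by_cases hs : s = s'
          · subst hs
            simp only [step, mp, hc, if_true, Bool.true_and, true_and, full_mp, add_left_inj]
          · simp [step, mp, hc, hs]
        · by_cases hc' : S.al c' = true
          · simp [step, mp, hc, hc', hcc]
          · simp [step, mp, hc, hc', hcc]
      | t0 c' s' x' => simp only [mp]; split_ifs <;> rfl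
      | t1 c' s' x' y' => simp only [mp]; split_ifs <;> rfl
      | t2 c' s' x' y' z' => simp only [mp]; split_ifs <;> rfl
      | rl e n x => simp only [mp]; split_ifs <;> rfl
      | tp e => simp only [mp]; split_ifs <;> rfl
    · cases v <;> (simp only [mp]; split_ifs <;> simp [step, hc])
  | rl e n x =>
    cases v with
    | t0 c s x' =>
      by_cases hc : S.al c = true
      · by_cases hs : S.slot c s = some e
        · have hbd : S.bd z c = tw c := by
            by_contra hne
            exact h ⟨e, n, x, c, s, x', rfl, rfl, hc, hs, hne⟩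
          have h1 : sh S z tw c s = z e := sh_sat z tw c s e hs hbd
          have h2 : zu S z e = z e := by
            unfold zu
            rw [if_pos ⟨c, s, hc, hs⟩]
          simp only [step, mp, hc, if_true, Bool.true_and, hs, true_and, h1, h2, add_left_inj]
        · simp [step, mp, hc, hs]
      · simp [step, mp, hc]
    | rl e' n' x' =>
      by_cases he : e = e'
      · subst he
        simp [step, mp]
      · simp [step, mp, he]
    | co c' a s' => simp only [mp]; split_ifs <;> rfl
    | t1 c' s' x' y' => simp only [mp]; split_ifs <;> rfl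
    | t2 c' s' x' y' z' => simp only [mp]; split_ifs <;> rfl
    | tp e => rfl
  | tp e =>
    cases v with
    | rl e' n' x' => rfl
    | t0 c' s' x' => simp only [mp]; split_ifs <;> rfl
    | co c' a s' => simp only [mp]; split_ifs <;> rfl
    | t1 c' s' x' y' => simp only [mp]; split_ifs <;> rfl
    | t2 c' s' x' y' z' => simp only [mp]; split_ifs <;> rfl
    | tp e => rfl

theorem mp_tp_iff (z : S.E → ZMod 2) (tw : S.C → ZMod 2) (v : V0 S) (e : S.E) :
    mp S z tw v = V0.tp e ↔ v = V0.tp e := by
  constructor
  · intro h
    have := mp_invol z tw v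
    rw [h] at this
    rw [← this]
    rfl
  · intro h
    rw [h]
    rfl

theorem stepX_mpV (b : S.C → ZMod 2) (z : S.E → ZMod 2) (tw : S.C → ZMod 2) (p q : V S)
    (h : ¬ Risk z tw p q) :
    stepX S b p q = stepX S (fun c => b c + tw c) (mpV S z tw p) (mpV S z tw q) := by
  obtain ⟨v, i⟩ := p
  obtain ⟨w, j⟩ := q
  have inj : Function.Injective (mp S z tw) := (mp_invol z tw).injective
  have hp2 : (mpV S z tw (v, i)).2 = i := by unfold mpV; split_ifs <;> rfl
  have hq2 : (mpV S z tw (w, j)).2 = j := by unfold mpV; split_ifs <;> rfl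
  have hp1 : (mpV S z tw (v, i)).1 = if (i.val = 0 ∨ (3 ≤ i.val ∧ i.val < 3 + len S v)) then
      mp S z tw v else v := by
    unfold mpV
    simp only
    split_ifs <;> rfl
  have hq1 : (mpV S z tw (w, j)).1 = if (j.val = 0 ∨ (3 ≤ j.val ∧ j.val < 3 + len S w)) then
      mp S z tw w else w := by
    unfold mpV
    simp only
    split_ifs <;> rfl
  have hlp : len S (mpV S z tw (v, i)).1 = len S v := by
    rw [hp1]; split_ifs
    · exact len_mp z tw v
    · rfl
  have hlq : len S (mpV S z tw (w, j)).1 = len S w := by
    rw [hq1]; split_ifs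
    · exact len_mp z tw w
    · rfl
  have k1 : (decide (i.val = 0 ∧ j.val = 0) && step S b v w) =
      (decide ((mpV S z tw (v, i)).2.val = 0 ∧ (mpV S z tw (w, j)).2.val = 0) &&
        step S (fun c => b c + tw c) (mpV S z tw (v, i)).1 (mpV S z tw (w, j)).1) := by
    rw [hp2, hq2]
    by_cases h0 : i.val = 0 ∧ j.val = 0
    · rw [hp1, hq1, if_pos (Or.inl h0.1), if_pos (Or.inl h0.2)]
      simp only [h0, true_and, decide_true, Bool.true_and]
      apply step_mp
      rintro ⟨e, n, x, c, s, x', hu, hv, h1, h2, h3⟩
      exact h ⟨h0.1, h0.2, e, n, x, c, s, x', hu, hv, h1, h2, h3⟩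
    · simp only [h0, decide_false, Bool.false_and]
  have k2 : decide (v = w ∧ i.val = 1 ∧ j.val = 2) =
      decide ((mpV S z tw (v, i)).1 = (mpV S z tw (w, j)).1 ∧ (mpV S z tw (v, i)).2.val = 1 ∧
        (mpV S z tw (w, j)).2.val = 2) := by
    rw [hp2, hq2]
    congr 1
    apply propext
    constructor
    · rintro ⟨h1, h2, h3⟩
      rw [hp1, hq1, if_neg (by omega), if_neg (by omega)]
      exact ⟨h1, h2, h3⟩
    · rintro ⟨h1, h2, h3⟩
      rw [hp1, hq1, if_neg (by omega), if_neg (by omega)] at h1
      exact ⟨h1, h2, h3⟩
  have k3 : decide (idx S w = idx S v + 1 ∧ i.val = 2 ∧ j.val = 1) =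
      decide (idx S (mpV S z tw (w, j)).1 = idx S (mpV S z tw (v, i)).1 + 1 ∧
        (mpV S z tw (v, i)).2.val = 2 ∧ (mpV S z tw (w, j)).2.val = 1) := by
    rw [hp2, hq2]
    congr 1
    apply propext
    constructor
    · rintro ⟨h1, h2, h3⟩
      rw [hp1, hq1, if_neg (by omega), if_neg (by omega)]
      exact ⟨h1, h2, h3⟩
    · rintro ⟨h1, h2, h3⟩
      rw [hp1, hq1, if_neg (by omega), if_neg (by omega)] at h1
      exact ⟨h1, h2, h3⟩
  have k4 : decide (v = w ∧ i.val = 0 ∧ j.val = 1 ∧ (junk S v = true ∨ ∃ e, v = V0.tp e)) =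
      decide ((mpV S z tw (v, i)).1 = (mpV S z tw (w, j)).1 ∧ (mpV S z tw (v, i)).2.val = 0 ∧
        (mpV S z tw (w, j)).2.val = 1 ∧ (junk S (mpV S z tw (v, i)).1 = true ∨
          ∃ e, (mpV S z tw (v, i)).1 = V0.tp e)) := by
    rw [hp2, hq2]
    congr 1
    apply propext
    have key : (junk S v = true ∨ ∃ e, v = V0.tp e) → mp S z tw v = v := by
      rintro (hj | ⟨e, rfl⟩)
      · exact mp_junk z tw v hj
      · rfl
    constructor
    · rintro ⟨h1, h2, h3, h4⟩
      rw [hp1, hq1, if_pos (by omega), if_neg (by omega), key h4]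
      exact ⟨h1, h2, h3, h4⟩
    · rintro ⟨h1, h2, h3, h4⟩
      rw [hp1, hq1, if_pos (by omega), if_neg (by omega)] at h1
      rw [hp1, if_pos (by omega)] at h4
      have h5 : (junk S v = true ∨ ∃ e, v = V0.tp e) := by
        rcases h4 with h4 | ⟨e, h4⟩
        · left; rw [junk_mp] at h4; exact h4
        · right; exact ⟨e, (mp_tp_iff z tw v e).mp h4⟩
      rw [key h5] at h1
      exact ⟨h1, h2, h3, h5⟩
  have k5 : decide (v = w ∧ i.val = 0 ∧ j.val = 3 ∧ 0 < len S v) =
      decide ((mpV S z tw (v, i)).1 = (mpV S z tw (w, j)).1 ∧ (mpV S z tw (v, i)).2.val = 0 ∧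
        (mpV S z tw (w, j)).2.val = 3 ∧ 0 < len S (mpV S z tw (v, i)).1) := by
    rw [hlp, hp2, hq2]
    congr 1
    apply propext
    constructor
    · rintro ⟨h1, h2, h3, h4⟩
      subst h1
      rw [hp1, hq1, if_pos (by omega), if_pos (by omega)]
      exact ⟨rfl, h2, h3, h4⟩
    · rintro ⟨h1, h2, h3, h4⟩
      have h5 : len S v = len S w := by rw [← hlp, ← hlq, h1]
      rw [hp1, hq1, if_pos (by omega), if_pos (by omega)] at h1
      exact ⟨inj h1, h2, h3, h4⟩
  have k6 : decide (v = w ∧ i.val = 2 ∧ j.val = 3 + len S v) =
      decide ((mpV S z tw (v, i)).1 = (mpV S z tw (w, j)).1 ∧ (mpV S z tw (v, i)).2.val = 2 ∧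
        (mpV S z tw (w, j)).2.val = 3 + len S (mpV S z tw (v, i)).1) := by
    rw [hlp, hp2, hq2]
    congr 1
    apply propext
    constructor
    · rintro ⟨h1, h2, h3⟩
      subst h1
      rw [hp1, hq1, if_neg (by omega), if_neg (by omega)]
      exact ⟨rfl, h2, h3⟩
    · rintro ⟨h1, h2, h3⟩
      have h5 : len S v = len S w := by rw [← hlp, ← hlq, h1]
      rw [hp1, hq1, if_neg (by omega), if_neg (by omega)] at h1
      exact ⟨h1, h2, h3⟩
  have k7 : decide (v = w ∧ 3 ≤ i.val ∧ j.val = i.val + 1 ∧ j.val ≠ 3 + len S v) =
      decide ((mpV S z tw (v, i)).1 = (mpV S z tw (w, j)).1 ∧ 3 ≤ (mpV S z tw (v, i)).2.val ∧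
        (mpV S z tw (w, j)).2.val = (mpV S z tw (v, i)).2.val + 1 ∧
        (mpV S z tw (w, j)).2.val ≠ 3 + len S (mpV S z tw (v, i)).1) := by
    rw [hlp, hp2, hq2]
    congr 1
    apply propext
    constructor
    · rintro ⟨h1, h2, h3, h4⟩
      subst h1
      refine ⟨?_, h2, h3, h4⟩
      rw [hp1, hq1]
      by_cases h6 : i.val < 3 + len S v
      · rw [if_pos (by omega), if_pos (by omega)]
      · rw [if_neg (by omega), if_neg (by omega)]
    · rintro ⟨h1, h2, h3, h4⟩
      have h5 : len S v = len S w := by rw [← hlp, ← hlq, h1]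
      refine ⟨?_, h2, h3, h4⟩
      by_cases h6 : i.val < 3 + len S v
      · rw [hp1, hq1, if_pos (by omega), if_pos (by omega)] at h1
        exact inj h1
      · rw [hp1, hq1, if_neg (by omega), if_neg (by omega)] at h1
        exact h1
  unfold stepX
  simp only
  rw [k1, k2, k3, k4, k5, k6, k7]

theorem adj_mpV (b : S.C → ZMod 2) (z : S.E → ZMod 2) (tw : S.C → ZMod 2) (p q : V S)
    (h : ¬ Risk z tw p q) (h' : ¬ Risk z tw q p) :
    adj S b p q = adj S (fun c => b c + tw c) (mpV S z tw p) (mpV S z tw q) := by
  unfold adj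
  rw [stepX_mpV b z tw p q h, stepX_mpV b z tw q p h']

end X

end Crest.Agent.WL
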