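import Crest.Agent.WL.Basic

/-!
# CHUNK R290-XT1: the largest back-and-forth relation `TR`

`TR t G H x u` : some pebble family relates `x` and `u`.  It is symmetric, transitive, preserved by copying pebbles.
-/

set_option autoImplicit false

namespace Crest.Agent.WL

open Finset

variable {U V W : Type} [Fintype U] [DecidableEq U] [Fintype V] [DecidableEq V] [Fintype W]
  [DecidableEq W]

/-- Some family relates `x` and `u`. -/
def TR (t : ℕ) (G : V → V → Bool) (H : W → W → Bool) (x : Fin t → V) (u : Fin t → W) : Prop :=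
  ∃ F : PebbleFam t G H, F.R x u

variable {t : ℕ} {G : V → V → Bool} {H : W → W → Bool}

theorem TR.atom {x : Fin t → V} {u : Fin t → W} (h : TR t G H x u) : atT G x = atT H u := by
  obtain ⟨F, hF⟩ := h
  exact F.atom x u hF

theorem TR.eq_iff {x : Fin t → V} {u : Fin t → W} (h : TR t G H x u) (i j : Fin t) :
    x i = x j ↔ u i = u j := by
  have h1 := congrFun (congrFun (congrArg Prod.fst h.atom) i) j
  exact decide_eq_decide.1 h1

theorem TR.adj_eq {x : Fin t → V} {u : Fin t → W} (h : TR t G H x u) (i j : Fin t) :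
    G (x i) (x j) = H (u i) (u j) :=
  congrFun (congrFun (congrArg Prod.snd h.atom) i) j

theorem TR.step {x : Fin t → V} {u : Fin t → W} (h : TR t G H x u) (i : Fin t) :
    ∃ f : V ≃ W, ∀ z, TR t G H (Function.update x i z) (Function.update u i (f z)) := by
  obtain ⟨F, hF⟩ := h
  obtain ⟨f, hf⟩ := F.step x u hF i
  exact ⟨f, fun z => ⟨F, hf z⟩⟩

theorem TR.symm {x : Fin t → V} {u : Fin t → W} (h : TR t G H x u) : TR t H G u x := by
  obtain ⟨F, hF⟩ := h
  refine ⟨⟨fun y y' => F.R y' y, fun y y' hy => (F.atom _ _ hy).symm, fun y y' hy i => ?_⟩, hF⟩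
  obtain ⟨f, hf⟩ := F.step _ _ hy i
  refine ⟨f.symm, fun w => ?_⟩
  have := hf (f.symm w)
  rwa [Equiv.apply_symm_apply] at this

/-- Composition of families. -/
theorem TR.trans {K : U → U → Bool} {x : Fin t → V} {u : Fin t → W} {y : Fin t → U}
    (h : TR t G H x u) (h' : TR t H K u y) : TR t G K x y := by
  obtain ⟨F, hF⟩ := h
  obtain ⟨F', hF'⟩ := h'
  refine ⟨⟨fun a b => ∃ c, F.R a c ∧ F'.R c b, ?_, ?_⟩, ⟨u, hF, hF'⟩⟩
  · rintro a b ⟨c, h1, h2⟩
    exact (F.atom _ _ h1).trans (F'.atom _ _ h2)
  · rintro a b ⟨c, h1, h2⟩ i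
    obtain ⟨f, hf⟩ := F.step _ _ h1 i
    obtain ⟨g, hg⟩ := F'.step _ _ h2 i
    exact ⟨f.trans g, fun z => ⟨_, hf z, hg (f z)⟩⟩

theorem TR.copy {x : Fin t → V} {u : Fin t → W} (h : TR t G H x u) (i j : Fin t) :
    TR t G H (Function.update x i (x j)) (Function.update u i (u j)) := by
  by_cases hij : j = i
  · subst hij
    rw [Function.update_eq_self, Function.update_eq_self]
    exact h
  · obtain ⟨f, hf⟩ := h.step i
    have h1 := hf (x j)
    have h2 := (h1.eq_iff i j).1 (by
      rw [Function.update_self, Function.update_of_ne hij])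
    rw [Function.update_self, Function.update_of_ne hij] at h2
    rwa [h2] at h1

/-- Copy pebble `j` to all places of a set `s`. -/
theorem TR.copySet {x : Fin t → V} {u : Fin t → W} (h : TR t G H x u) (j : Fin t)
    (s : Finset (Fin t)) (hj : j ∉ s) :
    TR t G H (fun i => if i ∈ s then x j else x i) (fun i => if i ∈ s then u j else u i) := by
  induction s using Finset.induction_on with
  | empty => simpa using h
  | insert a s ha ih =>
    have hjs : j ∉ s := fun hc => hj (Finset.mem_insert_of_mem hc)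
    have h1 := (ih hjs).copy a j
    have key : ∀ {B : Type} (y : Fin t → B),
        Function.update (fun i => if i ∈ s then y j else y i) a
          ((fun i => if i ∈ s then y j else y i) j) =
          fun i => if i ∈ insert a s then y j else y i := by
      intro B y
      funext i
      by_cases hi : i = a
      · subst hi
        simp [hjs]
      · rw [Function.update_of_ne hi]
        simp [hi]
    rw [key x, key u] at h1
    exact h1

/-- Two vertices: `v` at place `0`, `v'` everywhere else. -/
def pr2 {A : Type} (t : ℕ) (v v' : A) (i : Fin t) : A := if i.val = 0 then v else v'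

theorem TR.const {x : Fin t → V} {u : Fin t → W} (h : TR t G H x u) (j : Fin t) :
    TR t G H (fun _ => x j) (fun _ => u j) := by
  have h1 := h.copySet j (Finset.univ.erase j) (Finset.notMem_erase _ _)
  have key : ∀ {B : Type} (y : Fin t → B),
      (fun i => if i ∈ Finset.univ.erase j then y j else y i) = fun _ => y j := by
    intro B y
    funext i
    by_cases hi : i = j
    · subst hi; simp
    · simp [hi]
  rwa [key x, key u] at h1

theorem TR.pair (ht : 2 ≤ t) {x : Fin t → V} {u : Fin t → W} (h : TR t G H x u) (j : Fin t)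
    (hj : j.val ≠ 0) :
    TR t G H (pr2 t (x ⟨0, by omega⟩) (x j)) (pr2 t (u ⟨0, by omega⟩) (u j)) := by
  have h1 := h.copySet j (Finset.univ.filter fun i => i.val ≠ 0 ∧ i ≠ j) (by simp)
  have key : ∀ {B : Type} (y : Fin t → B),
      (fun i => if i ∈ Finset.univ.filter (fun i : Fin t => i.val ≠ 0 ∧ i ≠ j) then y j else y i) =
        pr2 t (y ⟨0, by omega⟩) (y j) := by
    intro B y
    funext i
    unfold pr2
    by_cases h0 : i.val = 0
    · have e : (⟨0, by omega⟩ : Fin t) = i := Fin.ext h0.symm
      rw [e]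
      simp [h0]
    · by_cases hi : i = j
      · subst hi; simp [h0]
      · simp [h0, hi]
  rwa [key x, key u] at h1

/-- drop the first vertex of a pair -/
theorem TR.snd (ht : 2 ≤ t) {v v' : V} {u u' : W} (h : TR t G H (pr2 t v v') (pr2 t u u')) :
    TR t G H (fun _ => v') (fun _ => u') := by
  have h1 := h.const ⟨1, by omega⟩
  simpa [pr2] using h1

theorem TR.fst (ht : 2 ≤ t) {v v' : V} {u u' : W} (h : TR t G H (pr2 t v v') (pr2 t u u')) :
    TR t G H (fun _ => v) (fun _ => u) := by
  have h1 := h.const ⟨0, by omega⟩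
  simpa [pr2] using h1

/-- A vertex related to `u` extends to a pair for every `u'`. -/
theorem TR.extend (ht : 2 ≤ t) {v : V} {u : W} (h : TR t G H (fun _ => v) (fun _ => u)) :
    ∃ f : V ≃ W, ∀ z, TR t G H (pr2 t v z) (pr2 t u (f z)) := by
  obtain ⟨f, hf⟩ := h.step ⟨1, by omega⟩
  refine ⟨f, fun z => ?_⟩
  have h1 := (hf z).pair ht ⟨1, by omega⟩ (by simp)
  have hne : (⟨0, by omega⟩ : Fin t) ≠ ⟨1, by omega⟩ := by simp
  rwa [Function.update_self, Function.update_self, Function.update_of_ne hne,
    Function.update_of_ne hne] at h1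

/-- GLUING: two pairs with the same first vertices; if `z'` is rigid over `v` then the three vertices are
related simultaneously.  (Step at place `2` from the first pair, `z₁` = the vertex answered by `y'`; copying shows
`TR (pr2 v z₁) (pr2 u y')`, so `TR (pr2 v z') (pr2 v z₁)` in `G`, so `z₁ = z'`.) -/
theorem TR.glue (ht : 3 ≤ t) {v z z' : V} {u y y' : W} (h1 : TR t G H (pr2 t v z) (pr2 t u y))
    (h2 : TR t G H (pr2 t v z') (pr2 t u y'))
    (hr : ∀ z₁, TR t G G (pr2 t v z') (pr2 t v z₁) → z₁ = z') :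
    TR t G H (pr2 t z z') (pr2 t y y') ∧ G z z' = H y y' ∧ (z = z' ↔ y = y') := by
  have hne02 : (⟨0, by omega⟩ : Fin t) ≠ ⟨2, by omega⟩ := by simp
  have hne12 : (⟨1, by omega⟩ : Fin t) ≠ ⟨2, by omega⟩ := by simp
  have hne20 : (⟨2, by omega⟩ : Fin t) ≠ ⟨0, by omega⟩ := by simp
  obtain ⟨f, hf⟩ := h1.step ⟨2, by omega⟩
  have h3 := hf (f.symm y')
  rw [Equiv.apply_symm_apply] at h3
  have h4 := h3.pair (by omega) ⟨2, by omega⟩ (by simp)
  rw [Function.update_self, Function.update_self, Function.update_of_ne hne02,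
    Function.update_of_ne hne02] at h4
  have e0 : ∀ {B : Type} (a b : B), pr2 t a b ⟨0, by omega⟩ = a := by intro B a b; simp [pr2]
  have e1 : ∀ {B : Type} (a b : B), pr2 t a b ⟨1, by omega⟩ = b := by intro B a b; simp [pr2]
  rw [e0, e0] at h4
  have h5 := hr _ (h2.trans h4.symm)
  rw [h5] at h3
  have ha := h3.adj_eq ⟨1, by omega⟩ ⟨2, by omega⟩
  have he := h3.eq_iff ⟨1, by omega⟩ ⟨2, by omega⟩
  rw [Function.update_self, Function.update_self, Function.update_of_ne hne12,
    Function.update_of_ne hne12, e1, e1] at ha he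
  refine ⟨?_, ha, he⟩
  have h6 := (h3.copy ⟨0, by omega⟩ ⟨1, by omega⟩).pair (by omega) ⟨2, by omega⟩ (by simp)
  simpa [Function.update_of_ne hne12, Function.update_of_ne hne20, e1] using h6

end Crest.Agent.WL
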