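import Crest.Agent.WL.XFam
import Crest.Agent.WL.XT1

/-!
# CHUNK R290-XT2: consequences of class recognition in the graph `X` (for S0437)

`rel_own`: like `X.rel`, also for the own pendant paths of the vertices (use `clX_pres` to know that the image of
`(v, τ)` is `(v', τ)` with the same class, then walk with a third pebble along the pendant path down to `(v, 0)`,
whose image is known by `rel`).
`rel_rail`: a pebble on a rail vertex controls the rail and its pendant paths.
-/

set_option autoImplicit false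

namespace Crest.Agent.WL

namespace X

open Finset

variable {S : Sys}

/-- `v` itself or its own pendant path. -/
def Own (p : V S) : Prop := p.2.val = 0 ∨ (3 ≤ p.2.val ∧ p.2.val < 3 + len S p.1)

theorem XT2.clX_snd (p : V S) : (clX p).2 = p.2 := by
  unfold clX
  split_ifs <;> rfl

theorem XT2.snd_eq {t : ℕ} (ht : 3 ≤ t) (b b' : S.C → ZMod 2) {x x' : Fin t → V S}
    (hx : TR t (adj S b) (adj S b') x x') (j : Fin t) : (x' j).2 = (x j).2 := by
  obtain ⟨F, hF⟩ := hx
  have h := clX_pres ht b b' F x x' hF j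
  rw [← XT2.clX_snd (x' j), h, XT2.clX_snd]

theorem XT2.third {t : ℕ} (ht : 3 ≤ t) (i j : Fin t) : ∃ l : Fin t, l ≠ i ∧ l ≠ j := by
  by_contra hcon
  push Not at hcon
  have h0 := hcon ⟨0, by omega⟩
  have h1 := hcon ⟨1, by omega⟩
  have h2 := hcon ⟨2, by omega⟩
  have e : ∀ (n : ℕ) (hn : n < t), ((⟨n, hn⟩ : Fin t) ≠ i → (⟨n, hn⟩ : Fin t) = j) →
      n = i.val ∨ n = j.val := by
    intro n hn h
    by_cases hni : n = i.val
    · exact Or.inl hni
    · right
      have := h (fun h' => hni (by rw [← h']))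
      rw [← this]
  have a0 := e 0 _ h0
  have a1 := e 1 _ h1
  have a2 := e 2 _ h2
  omega

theorem XT2.adj_down (b : S.C → ZMod 2) (v : V0 S) (σ τ : Fin (M S + 3)) (h3 : 3 ≤ τ.val)
    (hlt : τ.val < 3 + len S v)
    (h : (σ.val = 0 ∧ τ.val = 3) ∨ (σ.val + 1 = τ.val ∧ 3 ≤ σ.val)) :
    adj S b (v, σ) (v, τ) = true := by
  unfold adj stepX
  simp only [Bool.or_eq_true, Bool.and_eq_true, decide_eq_true_eq]
  left
  rcases h with ⟨h1, h2⟩ | ⟨h1, h2⟩
  · left; left; right
    exact ⟨trivial, h1, h2, by omega⟩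
  · right
    exact ⟨trivial, h2, h1.symm, by omega⟩

theorem XT2.adj_same (b : S.C → ZMod 2) (w v : V0 S) (σ τ : Fin (M S + 3))
    (h : (σ.val = 0 ∧ τ.val = 3) ∨ (σ.val + 1 = τ.val ∧ 3 ≤ σ.val))
    (ha : adj S b (w, σ) (v, τ) = true) : v = w := by
  unfold adj stepX at ha
  simp only [Bool.or_eq_true, Bool.and_eq_true, decide_eq_true_eq] at ha
  rcases ha with ((((((h1 | h1) | h1) | h1) | h1) | h1) | h1) |
      ((((((h1 | h1) | h1) | h1) | h1) | h1) | h1)
  all_goals first
    | exact h1.1.symm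
    | exact h1.1
    | (exfalso; omega)

/-- walking down the own pendant path -/
theorem XT2.pend {t : ℕ} (ht : 3 ≤ t) (b b' : S.C → ZMod 2) (i : Fin t) (p p' : V S) (v v' : V0 S)
    (t0 : Fin (M S + 3)) (ht0 : t0.val = 0) (hp : p.2.val = 0)
    (hbase : ∀ x x' : Fin t → V S, TR t (adj S b) (adj S b') x x' → x i = p → x' i = p' →
      ∀ j, x j = (v, t0) → x' j = (v', t0)) (k : ℕ) :
    ∀ x x' : Fin t → V S, TR t (adj S b) (adj S b') x x' → x i = p → x' i = p' →
      ∀ (j : Fin t) (τ : Fin (M S + 3)), τ.val = k + 3 → τ.val < 3 + len S v → x j = (v, τ) →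
        x' j = (v', τ) := by
  induction k with
  | zero =>
    intro x x' hx hi hi' j τ hτ hlt hj
    have hij : i ≠ j := by
      rintro rfl
      rw [hi] at hj
      rw [hj] at hp
      simp only at hp
      omega
    obtain ⟨l, hli, hlj⟩ := XT2.third ht i j
    obtain ⟨f, hf⟩ := hx.step l
    have hu := hf (v, t0)
    have hfz : f (v, t0) = (v', t0) := by
      have := hbase _ _ hu (by rw [Function.update_of_ne hli.symm]; exact hi)
        (by rw [Function.update_of_ne hli.symm]; exact hi') l (by rw [Function.update_self])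
      rw [Function.update_self] at this
      exact this
    have ha := hu.adj_eq l j
    rw [Function.update_self, Function.update_self, Function.update_of_ne hlj.symm,
      Function.update_of_ne hlj.symm, hj, hfz,
      XT2.adj_down b v t0 τ (by omega) hlt (Or.inl ⟨ht0, by omega⟩)] at ha
    have h2 : (x' j).2 = τ := by rw [XT2.snd_eq ht b b' hx j, hj]
    have he : x' j = ((x' j).1, τ) := Prod.ext rfl h2
    rw [he] at ha ⊢
    rw [XT2.adj_same b' v' (x' j).1 t0 τ (Or.inl ⟨ht0, by omega⟩) ha.symm]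
  | succ k ih =>
    intro x x' hx hi hi' j τ hτ hlt hj
    have hij : i ≠ j := by
      rintro rfl
      rw [hi] at hj
      rw [hj] at hp
      simp only at hp
      omega
    obtain ⟨l, hli, hlj⟩ := XT2.third ht i j
    obtain ⟨f, hf⟩ := hx.step l
    have hτ1 : τ.val - 1 < M S + 3 := by
      have := τ.isLt
      omega
    have hu := hf (v, ⟨τ.val - 1, hτ1⟩)
    have hfz : f (v, ⟨τ.val - 1, hτ1⟩) = (v', ⟨τ.val - 1, hτ1⟩) := by
      have := ih _ _ hu (by rw [Function.update_of_ne hli.symm]; exact hi)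
        (by rw [Function.update_of_ne hli.symm]; exact hi') l ⟨τ.val - 1, hτ1⟩
        (by simp only; omega) (by simp only; omega) (by rw [Function.update_self])
      rw [Function.update_self] at this
      exact this
    have hcond : ((⟨τ.val - 1, hτ1⟩ : Fin (M S + 3)).val = 0 ∧ τ.val = 3) ∨
        ((⟨τ.val - 1, hτ1⟩ : Fin (M S + 3)).val + 1 = τ.val ∧
          3 ≤ (⟨τ.val - 1, hτ1⟩ : Fin (M S + 3)).val) := by
      right
      simp only
      omega
    have ha := hu.adj_eq l j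
    rw [Function.update_self, Function.update_self, Function.update_of_ne hlj.symm,
      Function.update_of_ne hlj.symm, hj, hfz,
      XT2.adj_down b v _ τ (by omega) hlt hcond] at ha
    have h2 : (x' j).2 = τ := by rw [XT2.snd_eq ht b b' hx j, hj]
    have he : x' j = ((x' j).1, τ) := Prod.ext rfl h2
    rw [he] at ha ⊢
    rw [XT2.adj_same b' v' (x' j).1 _ τ hcond ha.symm]

theorem rel_own {t : ℕ} (ht : 3 ≤ t) (b b' : S.C → ZMod 2) {x x' : Fin t → V S}
    (hx : TR t (adj S b) (adj S b') x x') (i : Fin t)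
    (c : S.C) (hc : S.al c = true) (a : Fin 4 → ZMod 2) (t0 : Fin (M S + 3)) (ht0 : t0.val = 0)
    (hi : x i = (V0.co c a 0, t0)) :
    ∃ a' : Fin 4 → ZMod 2, x' i = (V0.co c a' 0, t0) ∧
      (∀ s, S.slot c s = none → dl b b' c a a' s = 0) ∧
      ∀ (j : Fin t), Loc c (x j).1 → Own (x j) → x' j = (shG c (dl b b' c a a') (x j).1, (x j).2) := by
  obtain ⟨F, hF⟩ := id hx
  obtain ⟨a', hi', hmiss, hloc⟩ := rel ht b b' F x x' hF i c hc a t0 ht0 hi
  refine ⟨a', hi', hmiss, ?_⟩
  have hbase : ∀ v : V0 S, Loc c v → ∀ x x' : Fin t → V S, TR t (adj S b) (adj S b') x x' →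
      x i = (V0.co c a 0, t0) → x' i = (V0.co c a' 0, t0) →
      ∀ j, x j = (v, t0) → x' j = (shG c (dl b b' c a a') v, t0) := by
    intro v hv y y' hy hyi hyi' j hj
    obtain ⟨F2, hF2⟩ := hy
    obtain ⟨a2, h1, -, h3⟩ := rel ht b b' F2 y y' hF2 i c hc a t0 ht0 hyi
    rw [hyi'] at h1
    have ha : a' = a2 := by
      injection h1 with h1 h2
      injection h1
    subst ha
    exact h3 j v hv hj
  intro j hL hO
  rcases hO with h0 | ⟨h3, hlt⟩
  · have hj : x j = ((x j).1, t0) := Prod.ext rfl (Fin.ext (by rw [h0, ht0]))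
    have h := hbase (x j).1 hL x x' hx hi hi' j hj
    rw [h]
    exact Prod.ext rfl (Fin.ext (by rw [h0]; exact ht0))
  · exact XT2.pend ht b b' i _ _ (x j).1 _ t0 ht0 ht0 (hbase (x j).1 hL) ((x j).2.val - 3) x x' hx hi hi'
      j (x j).2 (by omega) hlt rfl

theorem XT2.clX_rl_of_own (e : S.E) (n : Fin (10 * S.nC + 1)) (y : ZMod 2) (τ : Fin (M S + 3))
    (h : Own ((V0.rl e n y, τ) : V S)) : clX ((V0.rl e n y, τ) : V S) = (V0.rl e n 0, τ) := by
  unfold clX
  rw [if_neg]
  · rfl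
  · rintro (h1 | ⟨c, s, x, h1, -⟩ | h1)
    · simp [junk] at h1
    · simp at h1
    · exact h1 h

theorem XT2.of_clX_rl (q : V S) (e : S.E) (n : Fin (10 * S.nC + 1)) (τ : Fin (M S + 3))
    (h : clX q = (V0.rl e n 0, τ)) : ∃ y, q = (V0.rl e n y, τ) := by
  unfold clX at h
  split_ifs at h with h1
  · exact ⟨0, h⟩
  · obtain ⟨v, σ⟩ := q
    injection h with h2 h3
    cases v with
    | co c a s => simp [cls0] at h2
    | t0 c s x => simp [cls0] at h2
    | t1 c s x y => simp [cls0] at h2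
    | t2 c s x y z => simp [cls0] at h2
    | rl e' n' x =>
      simp only [cls0, V0.rl.injEq] at h2
      refine ⟨x, ?_⟩
      rw [h2.1, h2.2.1]
      exact Prod.ext rfl h3
    | tp e' => simp [cls0] at h2

theorem XT2.rl_image {t : ℕ} (ht : 3 ≤ t) (b b' : S.C → ZMod 2) {x x' : Fin t → V S}
    (hx : TR t (adj S b) (adj S b') x x') (j : Fin t) (e : S.E) (n : Fin (10 * S.nC + 1)) (y : ZMod 2)
    (τ : Fin (M S + 3)) (hj : x j = (V0.rl e n y, τ)) (ho : Own (x j)) :
    ∃ y', x' j = (V0.rl e n y', τ) := by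
  obtain ⟨F, hF⟩ := hx
  have h := clX_pres ht b b' F x x' hF j
  rw [hj, XT2.clX_rl_of_own e n y τ (by rw [← hj]; exact ho)] at h
  exact XT2.of_clX_rl _ e n τ h

theorem XT2.adj_rl (b : S.C → ZMod 2) (e : S.E) (n n' : Fin (10 * S.nC + 1)) (y : ZMod 2)
    (t0 : Fin (M S + 3)) (ht0 : t0.val = 0) (h : n'.val = n.val + 1 ∨ n.val = n'.val + 1) :
    adj S b (V0.rl e n y, t0) (V0.rl e n' y, t0) = true := by
  unfold adj stepX
  simp only [Bool.or_eq_true, Bool.and_eq_true, decide_eq_true_eq]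
  rcases h with h | h
  · left; left; left; left; left; left; left
    refine ⟨⟨ht0, ht0⟩, ?_⟩
    simp [step, h]
  · right; left; left; left; left; left; left
    refine ⟨⟨ht0, ht0⟩, ?_⟩
    simp [step, h]

theorem XT2.adj_rl_eq (b : S.C → ZMod 2) (e : S.E) (n n' : Fin (10 * S.nC + 1)) (y y' : ZMod 2)
    (t0 : Fin (M S + 3)) (ht0 : t0.val = 0)
    (h : adj S b (V0.rl e n y, t0) (V0.rl e n' y', t0) = true) : y' = y := by
  unfold adj stepX at h
  simp only [Bool.or_eq_true, Bool.and_eq_true, decide_eq_true_eq] at h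
  rcases h with ((((((h1 | h1) | h1) | h1) | h1) | h1) | h1) |
      ((((((h1 | h1) | h1) | h1) | h1) | h1) | h1)
  all_goals first
    | (exfalso; omega)
    | (have h2 := h1.2
       simp [step] at h2
       first
         | exact h2.1
         | exact h2.1.symm)

theorem XT2.rail_one {t : ℕ} (ht : 3 ≤ t) (b b' : S.C → ZMod 2) (i : Fin t)
    (e : S.E) (n0 : Fin (10 * S.nC + 1)) (x0 x0' : ZMod 2) (t0 : Fin (M S + 3)) (ht0 : t0.val = 0)
    (k : ℕ) : ∀ x x' : Fin t → V S, TR t (adj S b) (adj S b') x x' → x i = (V0.rl e n0 x0, t0) →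
      x' i = (V0.rl e n0 x0', t0) → ∀ (j : Fin t) (n : Fin (10 * S.nC + 1)),
        (n.val - n0.val) + (n0.val - n.val) = k → x j = (V0.rl e n x0, t0) →
          x' j = (V0.rl e n x0', t0) := by
  induction k with
  | zero =>
    intro x x' hx hi hi' j n hk hj
    have hn : n = n0 := Fin.ext (by omega)
    subst hn
    have : x i = x j := by rw [hi, hj]
    rw [← (hx.eq_iff i j).1 this, hi']
  | succ k ih =>
    intro x x' hx hi hi' j n hk hj
    have hnn : n.val ≠ n0.val := by omega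
    obtain ⟨l, hli, hlj⟩ := XT2.third ht i j
    obtain ⟨f, hf⟩ := hx.step l
    obtain ⟨n1, hn1, hk1⟩ : ∃ n1 : Fin (10 * S.nC + 1),
        (n.val = n1.val + 1 ∨ n1.val = n.val + 1) ∧ (n1.val - n0.val) + (n0.val - n1.val) = k := by
      have hn := n.isLt
      have hn0 := n0.isLt
      rcases lt_or_gt_of_ne hnn with h | h
      · exact ⟨⟨n.val + 1, by omega⟩, Or.inr rfl, by simp only; omega⟩
      · exact ⟨⟨n.val - 1, by omega⟩, Or.inl (by simp only; omega), by simp only; omega⟩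
    have hu := hf (V0.rl e n1 x0, t0)
    have hfz : f (V0.rl e n1 x0, t0) = (V0.rl e n1 x0', t0) := by
      have := ih _ _ hu (by rw [Function.update_of_ne hli.symm]; exact hi)
        (by rw [Function.update_of_ne hli.symm]; exact hi') l n1 hk1 (by rw [Function.update_self])
      rw [Function.update_self] at this
      exact this
    obtain ⟨y', hy'⟩ := XT2.rl_image ht b b' hx j e n x0 t0 hj (by rw [hj]; exact Or.inl ht0)
    have ha := hu.adj_eq l j
    rw [Function.update_self, Function.update_self, Function.update_of_ne hlj.symm,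
      Function.update_of_ne hlj.symm, hj, hfz, hy', XT2.adj_rl b e n1 n x0 t0 ht0 hn1] at ha
    rw [hy', XT2.adj_rl_eq b' e n1 n x0' y' t0 ht0 ha.symm]

theorem XT2.rail_base {t : ℕ} (ht : 3 ≤ t) (b b' : S.C → ZMod 2) (i : Fin t)
    (e : S.E) (n0 : Fin (10 * S.nC + 1)) (x0 x0' : ZMod 2) (t0 : Fin (M S + 3)) (ht0 : t0.val = 0)
    (n : Fin (10 * S.nC + 1)) (y : ZMod 2) (x x' : Fin t → V S)
    (hx : TR t (adj S b) (adj S b') x x') (hi : x i = (V0.rl e n0 x0, t0))
    (hi' : x' i = (V0.rl e n0 x0', t0)) (j : Fin t) (hj : x j = (V0.rl e n y, t0)) :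
    x' j = (V0.rl e n (y + x0 + x0'), t0) := by
  obtain ⟨y', hy'⟩ := XT2.rl_image ht b b' hx j e n y t0 hj (by rw [hj]; exact Or.inl ht0)
  by_cases hyx : y = x0
  · subst hyx
    have := XT2.rail_one ht b b' i e n0 y x0' t0 ht0 _ x x' hx hi hi' j n rfl hj
    rw [this, CharTwo.add_self_eq_zero, zero_add]
  · have hne : y' ≠ x0' := by
      rintro rfl
      have := XT2.rail_one ht b' b i e n0 y' x0 t0 ht0 _ x' x hx.symm hi' hi j n rfl hy'
      rw [hj] at this
      injection this with h1 h2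
      injection h1 with h3 h4 h5
      exact hyx h5
    rw [hy']
    have key : ∀ y y' x0 x0' : ZMod 2, y ≠ x0 → y' ≠ x0' → y' = y + x0 + x0' := by decide
    rw [key y y' x0 x0' hyx hne]

theorem rel_rail {t : ℕ} (ht : 3 ≤ t) (b b' : S.C → ZMod 2) {x x' : Fin t → V S}
    (hx : TR t (adj S b) (adj S b') x x') (i : Fin t)
    (e : S.E) (n0 : Fin (10 * S.nC + 1)) (x0 : ZMod 2) (t0 : Fin (M S + 3)) (ht0 : t0.val = 0)
    (hi : x i = (V0.rl e n0 x0, t0)) :
    ∃ x0' : ZMod 2, x' i = (V0.rl e n0 x0', t0) ∧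
      ∀ (j : Fin t) (n : Fin (10 * S.nC + 1)) (y : ZMod 2) (τ : Fin (M S + 3)),
        x j = (V0.rl e n y, τ) → Own (x j) → x' j = (V0.rl e n (y + x0 + x0'), τ) := by
  obtain ⟨x0', hi'⟩ := XT2.rl_image ht b b' hx i e n0 x0 t0 hi (by rw [hi]; exact Or.inl ht0)
  refine ⟨x0', hi', ?_⟩
  intro j n y τ hj hO
  rw [hj] at hO
  rcases hO with h0 | ⟨h3, hlt⟩
  · have hτ : τ = t0 := Fin.ext (by
      have : τ.val = 0 := h0
      rw [this, ht0])
    subst hτ
    exact XT2.rail_base ht b b' i e n0 x0 x0' τ ht0 n y x x' hx hi hi' j hj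
  · have h3' : 3 ≤ τ.val := h3
    have hlt' : τ.val < 3 + len S (V0.rl e n y) := hlt
    exact XT2.pend ht b b' i _ _ (V0.rl e n y) (V0.rl e n (y + x0 + x0')) t0 ht0 ht0
      (fun y1 y1' hy h1 h2 j hj => XT2.rail_base ht b b' i e n0 x0 x0' t0 ht0 n y y1 y1' hy h1 h2 j hj)
      (τ.val - 3) x x' hx hi hi' j τ (by omega) hlt' hj

end X

end Crest.Agent.WL
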