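import Crest.Agent.WL.XT2

/-!
# CHUNK R290-XT3: charts of a graph `H` equivalent to `X S b`

`φ` : a bijection with related constant tuples; `fc c` : answers to a second pebble when the first one is on the core
`vc c = (co c 0 0, 0)`; `fe e` : the same for the rail vertex `ve e = (rl e 0 0, 0)`.
-/

set_option autoImplicit false

namespace Crest.Agent.WL

namespace X

open Finset

variable {S : Sys} {W : Type} [Fintype W] [DecidableEq W]

def vc (c : S.C) : V S := (V0.co c 0 0, 0)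
def ve (e : S.E) : V S := (V0.rl e 0 0, 0)

/-- Charts. -/
structure ChartH (S : Sys) (b : S.C → ZMod 2) (t : ℕ) (H : W → W → Bool) where
  φ : V S ≃ W
  hφ : ∀ z, TR t (adj S b) H (fun _ => z) (fun _ => φ z)
  fc : S.C → (V S ≃ W)
  hfc : ∀ c z, TR t (adj S b) H (pr2 t (vc c) z) (pr2 t (φ (vc c)) (fc c z))
  fe : S.E → (V S ≃ W)
  hfe : ∀ e z, TR t (adj S b) H (pr2 t (ve e) z) (pr2 t (φ (ve e)) (fe e z))

variable {b : S.C → ZMod 2} {t : ℕ} {H : W → W → Bool}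

/-- `φ` from one step (`TR.step` at place 0, then `TR.const`), `fc`, `fe` by `TR.extend`. -/
theorem exists_ch (ht : 3 ≤ t) {x : Fin t → V S} {u : Fin t → W} (h : TR t (adj S b) H x u) :
    Nonempty (ChartH S b t H) := by
  obtain ⟨f, hf⟩ := h.step ⟨0, by omega⟩
  have h1 : ∀ z, TR t (adj S b) H (fun _ => z) (fun _ => f z) := by
    intro z
    have h2 := (hf z).const ⟨0, by omega⟩
    simpa using h2
  have h3 : ∀ v : V S, ∃ g : V S ≃ W, ∀ z, TR t (adj S b) H (pr2 t v z) (pr2 t (f v) (g z)) :=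
    fun v => (h1 v).extend (by omega)
  choose g hg using h3
  exact ⟨⟨f, h1, fun c => g (vc c), fun c z => hg (vc c) z, fun e => g (ve e),
    fun e z => hg (ve e) z⟩⟩

/-- `clX_pres` for the composition. -/
theorem cl_unique (ht : 3 ≤ t) {z z' : V S} {y : W} (h : TR t (adj S b) H (fun _ => z) (fun _ => y))
    (h' : TR t (adj S b) H (fun _ => z') (fun _ => y)) : clX z = clX z' := by
  obtain ⟨F, hF⟩ := h'.trans h.symm
  exact clX_pres ht b b F _ _ hF ⟨0, by omega⟩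

theorem ch_shG_zero (c : S.C) (δ : Fin 5 → ZMod 2) (hδ : ∀ s, δ s = 0) (v : V0 S) :
    shG c δ v = v := by
  cases v with
  | co c' a s => simp [shG, hδ]
  | t0 c' s x => simp [shG, hδ]
  | t1 c' s x y => simp [shG, hδ]
  | t2 c' s x y z => simp [shG, hδ]
  | rl e n x => simp [shG, hδ]
  | tp e => simp [shG]

theorem ch_dl_self (b : S.C → ZMod 2) (c : S.C) (a : Fin 4 → ZMod 2) (s : Fin 5) :
    dl b b c a a s = 0 := by
  unfold dl
  exact CharTwo.add_self_eq_zero _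

/-- `rel_own` with `b' = b`, `a' = a`. -/
theorem rigidC (ht : 3 ≤ t) (c : S.C) (hc : S.al c = true) (z z₁ : V S) (hz : Loc c z.1) (ho : Own z)
    (h : TR t (adj S b) (adj S b) (pr2 t (vc c) z) (pr2 t (vc c) z₁)) : z₁ = z := by
  have h0 : pr2 t (vc c) z ⟨0, by omega⟩ = (V0.co c 0 0, 0) := by simp [pr2, vc]
  obtain ⟨a', ha', -, hj⟩ := rel_own ht b b h ⟨0, by omega⟩ c hc 0 0 rfl h0
  have ha : a' = 0 := by
    have h1 : pr2 t (vc c) z₁ ⟨0, by omega⟩ = (V0.co c 0 0, 0) := by simp [pr2, vc]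
    rw [h1] at ha'
    simp only [Prod.mk.injEq, V0.co.injEq, true_and, and_true] at ha'
    exact ha'.symm
  subst ha
  have h2 : pr2 t (vc c) z ⟨1, by omega⟩ = z := by simp [pr2]
  have h3 : pr2 t (vc c) z₁ ⟨1, by omega⟩ = z₁ := by simp [pr2]
  have h4 := hj ⟨1, by omega⟩
  rw [h2, h3] at h4
  rw [h4 hz ho, ch_shG_zero c _ (fun s => ch_dl_self b c 0 s)]

theorem rigidE (ht : 3 ≤ t) (e : S.E) (n : Fin (10 * S.nC + 1)) (y : ZMod 2) (τ : Fin (M S + 3))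
    (z₁ : V S) (ho : Own (V0.rl e n y, τ))
    (h : TR t (adj S b) (adj S b) (pr2 t (ve e) (V0.rl e n y, τ)) (pr2 t (ve e) z₁)) :
    z₁ = (V0.rl e n y, τ) := by
  have h0 : pr2 t (ve e) (V0.rl e n y, τ) ⟨0, by omega⟩ = (V0.rl e 0 0, 0) := by simp [pr2, ve]
  obtain ⟨x0', hx0', hj⟩ := rel_rail ht b b h ⟨0, by omega⟩ e 0 0 0 rfl h0
  have hx : x0' = 0 := by
    have h1 : pr2 t (ve e) z₁ ⟨0, by omega⟩ = (V0.rl e 0 0, 0) := by simp [pr2, ve]
    rw [h1] at hx0'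
    simp only [Prod.mk.injEq, V0.rl.injEq, true_and, and_true] at hx0'
    exact hx0'.symm
  subst hx
  have h2 : pr2 t (ve e) (V0.rl e n y, τ) ⟨1, by omega⟩ = (V0.rl e n y, τ) := by simp [pr2]
  have h3 : pr2 t (ve e) z₁ ⟨1, by omega⟩ = z₁ := by simp [pr2]
  have h4 := hj ⟨1, by omega⟩ n y τ h2
  rw [h2, h3] at h4
  rw [h4 ho, add_zero, add_zero]

/-- `TR.glue` over `vc c`. -/
theorem chartC (ht : 3 ≤ t) (A : ChartH S b t H) (c : S.C) (hc : S.al c = true) (z z' : V S)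
    (hz' : Loc c z'.1) (ho' : Own z') :
    TR t (adj S b) H (pr2 t z z') (pr2 t (A.fc c z) (A.fc c z')) ∧
      adj S b z z' = H (A.fc c z) (A.fc c z') := by
  obtain ⟨h1, h2, -⟩ := TR.glue ht (A.hfc c z) (A.hfc c z')
    (fun z₁ h => rigidC ht c hc z' z₁ hz' ho' h)
  exact ⟨h1, h2⟩

theorem chartE (ht : 3 ≤ t) (A : ChartH S b t H) (e : S.E) (n : Fin (10 * S.nC + 1)) (y : ZMod 2)
    (τ : Fin (M S + 3)) (ho' : Own (V0.rl e n y, τ)) (z : V S) :
    TR t (adj S b) H (pr2 t z (V0.rl e n y, τ)) (pr2 t (A.fe e z) (A.fe e (V0.rl e n y, τ))) ∧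
      adj S b z (V0.rl e n y, τ) = H (A.fe e z) (A.fe e (V0.rl e n y, τ)) := by
  obtain ⟨h1, h2, -⟩ := TR.glue ht (A.hfe e z) (A.hfe e (V0.rl e n y, τ))
    (fun z₁ h => rigidE ht e n y τ z₁ ho' h)
  exact ⟨h1, h2⟩

theorem ch_clX_rl (e : S.E) (n : Fin (10 * S.nC + 1)) (y : ZMod 2) (τ : Fin (M S + 3))
    (ho : Own ((V0.rl e n y, τ) : V S)) : clX ((V0.rl e n y, τ) : V S) = (V0.rl e n 0, τ) := by
  unfold clX
  rw [if_neg]
  · rfl
  · rintro (h | ⟨c, s, x, h, -⟩ | h)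
    · simp [junk] at h
    · simp at h
    · exact h ho

/-- a vertex with the refined class of an own rail vertex is an own rail vertex -/
theorem ch_of_clX (e : S.E) (n : Fin (10 * S.nC + 1)) (y : ZMod 2) (τ : Fin (M S + 3))
    (ho : Own ((V0.rl e n y, τ) : V S)) (z : V S) (h : clX z = clX ((V0.rl e n y, τ) : V S)) :
    ∃ y', z = (V0.rl e n y', τ) := by
  rw [ch_clX_rl e n y τ ho] at h
  unfold clX at h
  split_ifs at h with h1
  · exact ⟨0, h⟩
  · obtain ⟨v, τ'⟩ := z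
    simp only [Prod.mk.injEq] at h
    obtain ⟨h2, rfl⟩ := h
    cases v with
    | rl e' n' y' =>
      simp only [cls0, V0.rl.injEq, and_true] at h2
      obtain ⟨rfl, rfl⟩ := h2
      exact ⟨y', rfl⟩
    | co c a s => simp [cls0] at h2
    | t0 c s x => simp [cls0] at h2
    | t1 c s x y => simp [cls0] at h2
    | t2 c s x y z => simp [cls0] at h2
    | tp e => simp [cls0] at h2

/-- The two charts of a rail differ by a constant shift.
PROOF.  `y₀ := fc c (rl e 0 0, 0)`; `z₀ := (fe e).symm y₀` has the class of `rl e 0 0` (`cl_unique`), so `z₀ = (rl e 0 δ, 0)`.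
For `z' = (rl e n y, τ)` own: `y' := fc c z'`, `z'' := (fe e).symm y'` has the class of `z'`.  `chartC` (with
`z = (rl e 0 0,0)`) gives `TR (pr2 (rl e 0 0) z') (pr2 y₀ y')`, `chartE` gives `TR (pr2 (rl e 0 δ) z'') (pr2 y₀ y')`, so
`TR (pr2 (rl e 0 0) z') (pr2 (rl e 0 δ) z'')` in `X` and `rel_rail` gives `z'' = (rl e n (y + 0 + δ), τ)`. -/
theorem delta (ht : 3 ≤ t) (A : ChartH S b t H) (c : S.C) (hc : S.al c = true) (s : Fin 5) (e : S.E)
    (hs : S.slot c s = some e) :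
    ∃ δ : ZMod 2, ∀ (n : Fin (10 * S.nC + 1)) (y : ZMod 2) (τ : Fin (M S + 3)),
      Own (V0.rl e n y, τ) → A.fc c (V0.rl e n y, τ) = A.fe e (V0.rl e n (y + δ), τ) := by
  have key : ∀ (n : Fin (10 * S.nC + 1)) (y : ZMod 2) (τ : Fin (M S + 3)),
      Own ((V0.rl e n y, τ) : V S) → ∃ y', A.fc c (V0.rl e n y, τ) = A.fe e (V0.rl e n y', τ) := by
    intro n y τ ho
    have h1 : TR t (adj S b) H (fun _ => ((V0.rl e n y, τ) : V S))
        (fun _ => A.fc c (V0.rl e n y, τ)) := (A.hfc c _).snd (by omega)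
    have h2 : TR t (adj S b) H (fun _ => (A.fe e).symm (A.fc c (V0.rl e n y, τ)))
        (fun _ => A.fc c (V0.rl e n y, τ)) := by
      have h3 := (A.hfe e ((A.fe e).symm (A.fc c (V0.rl e n y, τ)))).snd (by omega)
      rwa [Equiv.apply_symm_apply] at h3
    obtain ⟨y', hy'⟩ := ch_of_clX e n y τ ho _ (cl_unique ht h2 h1)
    exact ⟨y', by rw [← hy', Equiv.apply_symm_apply]⟩
  have ho0 : Own ((V0.rl e 0 0, 0) : V S) := Or.inl rfl
  obtain ⟨δ, hδ⟩ := key 0 0 0 ho0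
  refine ⟨δ, fun n y τ ho => ?_⟩
  obtain ⟨y', hy'⟩ := key n y τ ho
  have ho' : Own ((V0.rl e n y', τ) : V S) := ho
  obtain ⟨h1, -⟩ := chartC ht A c hc (V0.rl e 0 0, 0) (V0.rl e n y, τ) ⟨s, hs⟩ ho
  obtain ⟨h2, -⟩ := chartE ht A e n y' τ ho' (V0.rl e 0 δ, 0)
  rw [← hδ, ← hy'] at h2
  have h3 := h1.trans h2.symm
  have h4 : pr2 t ((V0.rl e 0 0, 0) : V S) (V0.rl e n y, τ) ⟨0, by omega⟩ = (V0.rl e 0 0, 0) := by
    simp [pr2]
  obtain ⟨x0', hx0', hj⟩ := rel_rail ht b b h3 ⟨0, by omega⟩ e 0 0 0 rfl h4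
  have hx : x0' = δ := by
    have h5 : pr2 t ((V0.rl e 0 δ, 0) : V S) (V0.rl e n y', τ) ⟨0, by omega⟩ =
        (V0.rl e 0 δ, 0) := by simp [pr2]
    rw [h5] at hx0'
    simp only [Prod.mk.injEq, V0.rl.injEq, true_and, and_true] at hx0'
    exact hx0'.symm
  subst hx
  have h6 : pr2 t ((V0.rl e 0 0, 0) : V S) (V0.rl e n y, τ) ⟨1, by omega⟩ = (V0.rl e n y, τ) := by
    simp [pr2]
  have h7 : pr2 t ((V0.rl e 0 x0', 0) : V S) (V0.rl e n y', τ) ⟨1, by omega⟩ =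
      (V0.rl e n y', τ) := by simp [pr2]
  have h8 := hj ⟨1, by omega⟩ n y τ h6
  rw [h6, h7, add_zero] at h8
  rw [hy', h8 ho]

end X

end Crest.Agent.WL
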