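import Crest.Agent.WL.XFam
import Crest.Agent.WL.XT2

/-!
# CHUNK R290-XT4: adjacency of `X` in charts and across charts (finite case analysis of `stepX`)
-/

set_option autoImplicit false

namespace Crest.Agent.WL

namespace X

open Finset

variable {S : Sys}

/-! ### auxiliary notions -/

/-- rigid vertices of the refined classes -/
def Rg (p : V S) : Prop :=
  junk S p.1 = true ∨ (∃ c s x, p.1 = V0.t0 c s x ∧ S.slot c s = none) ∨ ¬ Own p

theorem clX_rg {p : V S} (h : Rg p) : clX p = p := by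
  unfold clX
  exact if_pos h

theorem clX_nrg {p : V S} (h : ¬ Rg p) : clX p = (cls0 S p.1, p.2) := by
  unfold clX
  exact if_neg h

theorem cls0_idem (v : V0 S) : cls0 S (cls0 S v) = cls0 S v := by
  cases v <;> rfl

theorem nrg_cls {p : V S} (h : ¬ Rg p) : ¬ Rg (cls0 S p.1, p.2) := by
  obtain ⟨v, τ⟩ := p
  unfold Rg at h ⊢
  push Not at h ⊢
  obtain ⟨h1, h2, h3⟩ := h
  cases v with
  | co c a s => exact ⟨h1, fun c' s' x e => (by cases e), h3⟩
  | t0 c s x =>
    have hs : S.slot c s ≠ none := h2 c s x rfl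
    refine ⟨h1, fun c' s' x e => ?_, ?_⟩
    · cases e
      exact hs
    · unfold Own at h3 ⊢
      simp only [len, cls0, hs, and_false, if_false] at h3 ⊢
      exact h3
  | t1 c s x y => exact ⟨h1, fun c' s' x e => (by cases e), h3⟩
  | t2 c s x y z => exact ⟨h1, fun c' s' x e => (by cases e), h3⟩
  | rl e n x => exact ⟨h1, fun c' s' x e => (by cases e), h3⟩
  | tp e => exact ⟨h1, fun c' s' x e => (by cases e), h3⟩

theorem clX_cases {p₀ p : V S} (h : clX p₀ = clX p) :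
    (Rg p ∧ Rg p₀ ∧ p₀ = p) ∨ (¬ Rg p ∧ ¬ Rg p₀ ∧ cls0 S p₀.1 = cls0 S p.1 ∧ p₀.2 = p.2) := by
  by_cases h1 : Rg p
  · by_cases h2 : Rg p₀
    · rw [clX_rg h1, clX_rg h2] at h
      exact Or.inl ⟨h1, h2, h⟩
    · rw [clX_rg h1, clX_nrg h2] at h
      exact absurd (h ▸ h1) (nrg_cls h2)
  · by_cases h2 : Rg p₀
    · rw [clX_nrg h1, clX_rg h2] at h
      exact absurd (h ▸ h2) (nrg_cls h1)
    · rw [clX_nrg h1, clX_nrg h2] at h
      exact Or.inr ⟨h1, h2, (Prod.mk.inj h).1, (Prod.mk.inj h).2⟩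

theorem clX_cls {p₀ p : V S} (h : clX p₀ = clX p) : cls0 S p₀.1 = cls0 S p.1 ∧ p₀.2 = p.2 := by
  rcases clX_cases h with ⟨-, -, rfl⟩ | ⟨-, -, h1, h2⟩
  · exact ⟨rfl, rfl⟩
  · exact ⟨h1, h2⟩

theorem clX_own {p₀ p : V S} (h : clX p₀ = clX p) : Own p₀ ↔ Own p := by
  rcases clX_cases h with ⟨-, -, rfl⟩ | ⟨h1, h2, -, -⟩
  · rfl
  · unfold Rg at h1 h2
    push Not at h1 h2
    exact ⟨fun _ => h1.2.2, fun _ => h2.2.2⟩

theorem loc_cls0 (c : S.C) (v : V0 S) : Loc c (cls0 S v) ↔ Loc c v := by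
  cases v <;> exact Iff.rfl

theorem cls0_tp {v : V0 S} {e : S.E} (h : cls0 S v = V0.tp e) : v = V0.tp e := by
  cases v <;> simp [cls0] at h ⊢
  exact h

theorem cls0_rl {v : V0 S} {e : S.E} {n : Fin (10 * S.nC + 1)} {x : ZMod 2}
    (h : cls0 S v = V0.rl e n x) : ∃ y, v = V0.rl e n y := by
  cases v <;> simp [cls0] at h ⊢
  exact ⟨h.1, h.2.1⟩

/-- the part of the oriented edges which does not depend on the right-hand side -/
def FX (p q : V S) : Prop :=
  (p.1 = q.1 ∧ p.2.val = 1 ∧ q.2.val = 2) ∨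
  (idx S q.1 = idx S p.1 + 1 ∧ p.2.val = 2 ∧ q.2.val = 1) ∨
  (p.1 = q.1 ∧ p.2.val = 0 ∧ q.2.val = 1 ∧ (junk S p.1 = true ∨ ∃ e, p.1 = V0.tp e)) ∨
  (p.1 = q.1 ∧ p.2.val = 0 ∧ q.2.val = 3 ∧ 0 < len S p.1) ∨
  (p.1 = q.1 ∧ p.2.val = 2 ∧ q.2.val = 3 + len S p.1) ∨
  (p.1 = q.1 ∧ 3 ≤ p.2.val ∧ q.2.val = p.2.val + 1 ∧ q.2.val ≠ 3 + len S p.1)

theorem stepX_iff (b : S.C → ZMod 2) (p q : V S) : stepX S b p q = true ↔
    (p.2.val = 0 ∧ q.2.val = 0 ∧ step S b p.1 q.1 = true) ∨ FX p q := by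
  unfold stepX FX
  simp only [Bool.or_eq_true, Bool.and_eq_true, decide_eq_true_eq, and_assoc, or_assoc]

/-- the oriented edges of the core -/
theorem step_cases (b : S.C → ZMod 2) (v w : V0 S) (h : step S b v w = true) :
    (∃ c, S.al c = true ∧ Loc c v ∧ Loc c w) ∨
    (∃ e n n' x x', v = V0.rl e n x ∧ w = V0.rl e n' x') ∨
    (∃ e n x, v = V0.tp e ∧ w = V0.rl e n x ∧ n.val = 0) := by
  cases v <;> cases w <;>
    simp only [step, Bool.and_eq_true, decide_eq_true_eq, Bool.false_eq_true] at h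
  · obtain ⟨h0, rfl, -⟩ := h
    exact Or.inl ⟨_, h0, rfl, rfl⟩
  · obtain ⟨h0, rfl, -⟩ := h
    exact Or.inl ⟨_, h0, rfl, rfl⟩
  · obtain ⟨h0, rfl, -⟩ := h
    exact Or.inl ⟨_, h0, rfl, rfl⟩
  · obtain ⟨h0, rfl, -⟩ := h
    exact Or.inl ⟨_, h0, rfl, rfl⟩
  · obtain ⟨h0, h1, -⟩ := h
    exact Or.inl ⟨_, h0, ⟨_, h1⟩, rfl⟩
  · obtain ⟨rfl, -⟩ := h
    exact Or.inr (Or.inl ⟨_, _, _, _, _, rfl, rfl⟩)
  · obtain ⟨rfl, h1⟩ := h
    exact Or.inr (Or.inr ⟨_, _, _, rfl, rfl, h1⟩)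

/-- `p`, `q` lie in a common chart. -/
def Common (p q : V S) : Prop :=
  (∃ c, S.al c = true ∧ Loc c p.1 ∧ Loc c q.1 ∧ Own p ∧ Own q) ∨
  (∃ e n n' y y', p.1 = V0.rl e n y ∧ q.1 = V0.rl e n' y' ∧ Own p ∧ Own q)

theorem Common.symm {p q : V S} (h : Common p q) : Common q p := by
  rcases h with ⟨c, h0, h1, h2, h3, h4⟩ | ⟨e, n, n', y, y', h1, h2, h3, h4⟩
  · exact Or.inl ⟨c, h0, h2, h1, h4, h3⟩
  · exact Or.inr ⟨e, n', n, y', y, h2, h1, h4, h3⟩

/-- tops and the beginnings of rails -/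
def GX (p q : V S) : Prop :=
  p.2.val = 0 ∧ q.2.val = 0 ∧ ∃ e n x, p.1 = V0.tp e ∧ q.1 = V0.rl e n x ∧ n.val = 0

theorem stepX_cross (b : S.C → ZMod 2) (p q : V S) (h : ¬ Common p q) :
    stepX S b p q = true ↔ GX p q ∨ FX p q := by
  rw [stepX_iff]
  refine or_congr_left ?_
  unfold GX
  constructor
  · rintro ⟨h1, h2, h3⟩
    refine ⟨h1, h2, ?_⟩
    rcases step_cases b _ _ h3 with ⟨c, k0, k1, k2⟩ | ⟨e, n, n', x, x', k1, k2⟩ | k
    · exact absurd (Or.inl ⟨c, k0, k1, k2, Or.inl h1, Or.inl h2⟩) h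
    · exact absurd (Or.inr ⟨e, n, n', x, x', k1, k2, Or.inl h1, Or.inl h2⟩) h
    · exact k
  · rintro ⟨h1, h2, e, n, x, h3, h4, h5⟩
    refine ⟨h1, h2, ?_⟩
    rw [h3, h4]
    simp [step, h5]

theorem len_common (v : V0 S) (h : 0 < len S v) :
    (∃ c, S.al c = true ∧ Loc c v) ∨ (∃ e n y, v = V0.rl e n y) := by
  cases v with
  | co c a s =>
    simp only [len] at h
    split_ifs at h with h1
    · exact Or.inl ⟨c, h1.1, rfl⟩
    · omega
  | t0 c s x =>
    simp only [len] at h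
    split_ifs at h with h1
    · exact Or.inl ⟨c, h1.1, rfl⟩
    · omega
  | t1 c s x y => simp [len] at h
  | t2 c s x y z => simp [len] at h
  | rl e n x => exact Or.inr ⟨e, n, x, rfl⟩
  | tp e => simp [len] at h

theorem FX_cross (p q : V S) (h : ¬ Common p q) (hF : FX p q) :
    (∃ e, p.1 = V0.tp e ∧ q.1 = V0.tp e) ∨ (Rg p ∧ Rg q) := by
  have hcom : p.1 = q.1 → Own p → Own q → ¬ 0 < len S p.1 := by
    intro he op oq hl
    rcases len_common _ hl with ⟨c, h0, h1⟩ | ⟨e, n, y, h1⟩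
    · exact h (Or.inl ⟨c, h0, h1, he ▸ h1, op, oq⟩)
    · exact h (Or.inr ⟨e, n, n, y, y, h1, he ▸ h1, op, oq⟩)
  have rgo : ∀ p : V S, ¬ Own p → Rg p := fun p hp => Or.inr (Or.inr hp)
  rcases hF with ⟨h1, h2, h3⟩ | ⟨h1, h2, h3⟩ | ⟨h1, h2, h3, h4⟩ | ⟨h1, h2, h3, h4⟩ |
    ⟨h1, h2, h3⟩ | ⟨h1, h2, h3, h4⟩
  · right
    refine ⟨rgo _ ?_, rgo _ ?_⟩ <;> (unfold Own; omega)
  · right
    refine ⟨rgo _ ?_, rgo _ ?_⟩ <;> (unfold Own; omega)
  · rcases h4 with h4 | ⟨e, he⟩
    · right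
      exact ⟨Or.inl h4, Or.inl (h1 ▸ h4)⟩
    · left
      exact ⟨e, he, h1 ▸ he⟩
  · exfalso
    refine hcom h1 (Or.inl h2) (Or.inr ⟨by omega, ?_⟩) h4
    rw [← h1]
    omega
  · right
    refine ⟨rgo _ ?_, rgo _ ?_⟩
    · unfold Own; omega
    · unfold Own; rw [← h1]; omega
  · by_cases hp : p.2.val < 3 + len S p.1
    · exfalso
      refine hcom h1 (Or.inr ⟨h2, hp⟩) (Or.inr ⟨by omega, ?_⟩) (by omega)
      rw [← h1]
      omega
    · right
      refine ⟨rgo _ ?_, rgo _ ?_⟩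
      · unfold Own; omega
      · unfold Own; rw [← h1]; omega

theorem common_congr {p q p₀ q₀ : V S} (hp : clX p₀ = clX p) (hq : clX q₀ = clX q)
    (h : Common p₀ q₀) : Common p q := by
  obtain ⟨hp1, -⟩ := clX_cls hp
  obtain ⟨hq1, -⟩ := clX_cls hq
  rcases h with ⟨c, h0, h1, h2, h3, h4⟩ | ⟨e, n, n', y, y', h1, h2, h3, h4⟩
  · refine Or.inl ⟨c, h0, ?_, ?_, (clX_own hp).1 h3, (clX_own hq).1 h4⟩
    · rw [← loc_cls0, ← hp1, loc_cls0]; exact h1
    · rw [← loc_cls0, ← hq1, loc_cls0]; exact h2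
  · rw [h1] at hp1
    rw [h2] at hq1
    obtain ⟨z, hz⟩ := cls0_rl hp1.symm
    obtain ⟨z', hz'⟩ := cls0_rl hq1.symm
    exact Or.inr ⟨e, n, n', z, z', hz, hz', (clX_own hp).1 h3, (clX_own hq).1 h4⟩

theorem GX_congr {p q p₀ q₀ : V S} (hp : clX p₀ = clX p) (hq : clX q₀ = clX q)
    (h : GX p₀ q₀) : GX p q := by
  obtain ⟨hp1, hp2⟩ := clX_cls hp
  obtain ⟨hq1, hq2⟩ := clX_cls hq
  obtain ⟨h1, h2, e, n, x, h3, h4, h5⟩ := h
  rw [h3] at hp1
  rw [h4] at hq1
  obtain ⟨z', hz'⟩ := cls0_rl hq1.symm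
  exact ⟨hp2 ▸ h1, hq2 ▸ h2, e, n, z', cls0_tp hp1.symm, hz', h5⟩

theorem FX_congr {p q p₀ q₀ : V S} (h : ¬ Common p₀ q₀) (hp : clX p₀ = clX p)
    (hq : clX q₀ = clX q) (hF : FX p₀ q₀) : FX p q := by
  have key : p₀ = p ∧ q₀ = q := by
    rcases FX_cross _ _ h hF with ⟨e, h1, h2⟩ | ⟨h1, h2⟩
    · obtain ⟨hp1, hp2⟩ := clX_cls hp
      obtain ⟨hq1, hq2⟩ := clX_cls hq
      rw [h1] at hp1
      rw [h2] at hq1
      exact ⟨Prod.ext (h1.trans (cls0_tp hp1.symm).symm) hp2,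
        Prod.ext (h2.trans (cls0_tp hq1.symm).symm) hq2⟩
    · refine ⟨?_, ?_⟩
      · rcases clX_cases hp with ⟨-, -, e⟩ | ⟨-, e, -⟩
        · exact e
        · exact absurd h1 e
      · rcases clX_cases hq with ⟨-, -, e⟩ | ⟨-, e, -⟩
        · exact e
        · exact absurd h2 e
  obtain ⟨rfl, rfl⟩ := key
  exact hF

/-- Across charts adjacency depends only on the classes. -/
theorem adj_cross (b b' : S.C → ZMod 2) (p q p₀ q₀ : V S) (h : ¬ Common p q) (hp : clX p₀ = clX p)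
    (hq : clX q₀ = clX q) : adj S b p₀ q₀ = adj S b' p q := by
  have h0 : ¬ Common p₀ q₀ := fun hc => h (common_congr hp hq hc)
  have hs : ¬ Common q p := fun hc => h hc.symm
  have hs0 : ¬ Common q₀ p₀ := fun hc => h0 hc.symm
  rw [Bool.eq_iff_iff]
  unfold adj
  rw [Bool.or_eq_true, Bool.or_eq_true, stepX_cross b _ _ h0, stepX_cross b _ _ hs0,
    stepX_cross b' _ _ h, stepX_cross b' _ _ hs]
  constructor
  · rintro ((k | k) | (k | k))
    · exact Or.inl (Or.inl (GX_congr hp hq k))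
    · exact Or.inl (Or.inr (FX_congr h0 hp hq k))
    · exact Or.inr (Or.inl (GX_congr hq hp k))
    · exact Or.inr (Or.inr (FX_congr hs0 hq hp k))
  · rintro ((k | k) | (k | k))
    · exact Or.inl (Or.inl (GX_congr hp.symm hq.symm k))
    · exact Or.inl (Or.inr (FX_congr h hp.symm hq.symm k))
    · exact Or.inr (Or.inl (GX_congr hq.symm hp.symm k))
    · exact Or.inr (Or.inr (FX_congr hs hq.symm hp.symm k))

/-- Two vertices of the same class are equal or lie in a common chart. -/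
theorem eq_or_common (p q : V S) (h : clX p = clX q) : p = q ∨ Common p q := by
  rcases clX_cases h with ⟨-, -, e⟩ | ⟨h1, h2, h3, h4⟩
  · exact Or.inl e
  · unfold Rg at h1 h2
    push Not at h1 h2
    obtain ⟨k1, -, k3⟩ := h1
    obtain ⟨l1, -, l3⟩ := h2
    have hl : (∃ c, S.al c = true ∧ Loc c p.1) ∨ (∃ e n y, p.1 = V0.rl e n y) ∨
        (∃ e, p.1 = V0.tp e) := by
      obtain ⟨v, τ⟩ := p
      cases v with
      | co c a s => exact Or.inl ⟨c, by simpa [junk] using l1, rfl⟩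
      | t0 c s x => exact Or.inl ⟨c, by simpa [junk] using l1, rfl⟩
      | t1 c s x y => exact Or.inl ⟨c, by simpa [junk] using l1, rfl⟩
      | t2 c s x y z => exact Or.inl ⟨c, by simpa [junk] using l1, rfl⟩
      | rl e n x => exact Or.inr (Or.inl ⟨e, n, x, rfl⟩)
      | tp e => exact Or.inr (Or.inr ⟨e, rfl⟩)
    rcases hl with ⟨c, hc, hL⟩ | ⟨e, n, y, he⟩ | ⟨e, he⟩
    · right
      refine Or.inl ⟨c, hc, hL, ?_, l3, k3⟩
      rw [← loc_cls0, ← h3, loc_cls0]
      exact hL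
    · right
      rw [he] at h3
      obtain ⟨z, hz⟩ := cls0_rl h3.symm
      exact Or.inr ⟨e, n, n, y, z, he, hz, l3, k3⟩
    · left
      rw [he] at h3
      exact Prod.ext (he.trans (cls0_tp h3.symm).symm) h4

/-! ### the shift `shG` -/

theorem shG_invol (c : S.C) (δ : Fin 5 → ZMod 2) : Function.Involutive (shG (S := S) c δ) := by
  intro v
  cases v with
  | co c' a s => by_cases h : c' = c <;> simp [shG, h, aa2]
  | t0 c' s x => by_cases h : c' = c <;> simp [shG, h, aa2]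
  | t1 c' s x y => by_cases h : c' = c <;> simp [shG, h, aa2]
  | t2 c' s x y y' => by_cases h : c' = c <;> simp [shG, h, aa2]
  | rl e n x => simp only [shG, aa2]
  | tp e => simp [shG]

theorem len_shG (c : S.C) (δ : Fin 5 → ZMod 2) (hδ : ∀ s, S.slot c s = none → δ s = 0) (v : V0 S) :
    len S (shG c δ v) = len S v := by
  cases v with
  | co c' a s => by_cases h : c' = c <;> simp [shG, h, len]
  | t0 c' s x =>
    by_cases h : c' = c
    · subst h
      by_cases hn : S.slot c' s = none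
      · simp [shG, len, hδ s hn]
      · simp [shG, len, hn]
    · simp [shG, h]
  | t1 c' s x y => by_cases h : c' = c <;> simp [shG, h, len]
  | t2 c' s x y z => by_cases h : c' = c <;> simp [shG, h, len]
  | rl e n x => simp [shG, len]
  | tp e => simp [shG]

theorem own_shG (c : S.C) (δ : Fin 5 → ZMod 2) (hδ : ∀ s, S.slot c s = none → δ s = 0) (p : V S)
    (h : Own p) : Own (shG c δ p.1, p.2) := by
  unfold Own at h ⊢
  rw [len_shG c δ hδ]
  exact h

theorem loc_shG (c : S.C) (δ : Fin 5 → ZMod 2) (v : V0 S) (h : Loc c v) : Loc c (shG c δ v) := by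
  cases v with
  | co c' a s => simp only [Loc] at h; subst h; simp [shG, Loc]
  | t0 c' s x => simp only [Loc] at h; subst h; simp [shG, Loc]
  | t1 c' s x y => simp only [Loc] at h; subst h; simp [shG, Loc]
  | t2 c' s x y z => simp only [Loc] at h; subst h; simp [shG, Loc]
  | rl e n x => exact h
  | tp e => exact h

theorem cls0_shG (c : S.C) (δ : Fin 5 → ZMod 2) (v : V0 S) : cls0 S (shG c δ v) = cls0 S v := by
  cases v with
  | co c' a s => by_cases h : c' = c <;> simp [shG, h, cls0]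
  | t0 c' s x => by_cases h : c' = c <;> simp [shG, h, cls0]
  | t1 c' s x y => by_cases h : c' = c <;> simp [shG, h, cls0]
  | t2 c' s x y z => by_cases h : c' = c <;> simp [shG, h, cls0]
  | rl e n x => simp [shG, cls0]
  | tp e => simp [shG]

theorem loc_not_junk {c : S.C} (hc : S.al c = true) {v : V0 S} (h : Loc c v) :
    ¬ junk S v = true := by
  cases v with
  | co c' a s => simp only [Loc] at h; subst h; simp [junk, hc]
  | t0 c' s x => simp only [Loc] at h; subst h; simp [junk, hc]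
  | t1 c' s x y => simp only [Loc] at h; subst h; simp [junk, hc]
  | t2 c' s x y z => simp only [Loc] at h; subst h; simp [junk, hc]
  | rl e n x => simp [junk]
  | tp e => simp [junk]

theorem clX_shG (c : S.C) (δ : Fin 5 → ZMod 2) (hδ : ∀ s, S.slot c s = none → δ s = 0)
    (hc : S.al c = true) (p : V S) (hp : Loc c p.1) (h : Own p) :
    clX (shG c δ p.1, p.2) = clX p := by
  by_cases hm : ∃ c s x, p.1 = V0.t0 c s x ∧ S.slot c s = none
  · obtain ⟨c', s, x, e, hs⟩ := hm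
    have hcc : c' = c := by rw [e] at hp; exact hp
    subst hcc
    have : shG c' δ p.1 = p.1 := by
      rw [e]
      simp [shG, hδ s hs]
    rw [this]
  · have h1 : ¬ Rg p := by
      rintro (k | k | k)
      · exact loc_not_junk hc hp k
      · exact hm k
      · exact k h
    have h2 : ¬ Rg (shG c δ p.1, p.2) := by
      rintro (k | ⟨c', s, x, e, hs⟩ | k)
      · exact loc_not_junk hc (loc_shG c δ _ hp) k
      · apply hm
        have e1 : cls0 S p.1 = V0.t0 c' s 0 := by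
          rw [← cls0_shG c δ p.1]
          change shG c δ p.1 = V0.t0 c' s x at e
          rw [e]
          rfl
        obtain ⟨v, τ⟩ := p
        cases v with
        | t0 c'' s'' x'' =>
          simp only [cls0, V0.t0.injEq] at e1
          obtain ⟨rfl, rfl, -⟩ := e1
          exact ⟨_, _, _, rfl, hs⟩
        | co c a s => simp [cls0] at e1
        | t1 c s x y => simp [cls0] at e1
        | t2 c s x y z => simp [cls0] at e1
        | rl e n x => simp [cls0] at e1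
        | tp e => simp [cls0] at e1
      · exact k (own_shG c δ hδ p h)
    rw [clX_nrg h1, clX_nrg h2, cls0_shG]

theorem full_shG (b b' : S.C → ZMod 2) (c : S.C) (δ : Fin 5 → ZMod 2)
    (hb : b' c = b c + ∑ s, δ s) (a : Fin 4 → ZMod 2) (s : Fin 5) :
    full S b c (fun i => a i + δ ⟨i.val, by omega⟩) s = full S b' c a s + δ s := by
  unfold full
  by_cases h : s.val < 4
  · rw [dif_pos h, dif_pos h]
  · rw [dif_neg h, dif_neg h]
    have hs : s = 4 := by
      apply Fin.ext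
      have := s.isLt
      show s.val = 4
      omega
    subst hs
    rw [hb, Fin.sum_univ_five]
    show b c + ((a 0 + δ 0) + (a 1 + δ 1) + (a 2 + δ 2) + (a 3 + δ 3)) =
      b c + (δ 0 + δ 1 + δ 2 + δ 3 + δ 4) + (a 0 + a 1 + a 2 + a 3) + δ 4
    have h0 := CharTwo.add_self_eq_zero (δ 4)
    linear_combination -h0

theorem sum_slot (c : S.C) (δ : Fin 5 → ZMod 2) (s : Fin 5) (e : S.E) (h : S.slot c s = some e) :
    (∑ s' : Fin 5, if S.slot c s' = some e then δ s' else 0) = δ s := by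
  rw [Finset.sum_eq_single s]
  · rw [if_pos h]
  · intro s' _ hne
    rw [if_neg]
    intro h'
    exact hne (S.slot_inj c s' s e h' h)
  · intro hs
    exact absurd (Finset.mem_univ s) hs

theorem step_shG (b b' : S.C → ZMod 2) (c : S.C) (δ : Fin 5 → ZMod 2)
    (hb : b' c = b c + ∑ s, δ s) (v w : V0 S) (hv : Loc c v) (hw : Loc c w) :
    step S b' v w = step S b (shG c δ v) (shG c δ w) := by
  cases v <;> cases w <;> simp only [Loc] at hv hw
  all_goals (try subst hv)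
  all_goals (try subst hw)
  all_goals (try simp only [shG, step, if_pos])
  case co.co a₁ s₁ c₁ a s =>
    congr 1
    rw [decide_eq_decide]
    refine and_congr_right fun _ => and_congr_left fun _ => ?_
    constructor
    · rintro rfl; rfl
    · intro h
      funext i
      exact add_right_cancel (congrFun h i)
  case t0.t1 s₁ x₁ c₁ s x y =>
    congr 1
    rw [decide_eq_decide]
    refine and_congr_right fun _ => and_congr_right fun h => ?_
    rw [h]
    exact (add_left_inj _).symm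
  case t1.t2 s₁ x₁ y₁ c₁ s x y z =>
    congr 1
    rw [decide_eq_decide]
    refine and_congr_right fun _ => and_congr_right fun h => ?_
    rw [h, add_left_inj, add_left_inj]
  case t2.co s₁ x y z c₁ a s =>
    congr 1
    rw [decide_eq_decide]
    refine and_congr_right fun _ => and_congr_right fun h => ?_
    rw [full_shG b b' _ δ hb, full_shG b b' _ δ hb, full_shG b b' _ δ hb, add_left_inj,
      add_left_inj, add_left_inj]
  case rl.t0 e₁ n₁ x₁ c₁ s x =>
    congr 1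
    rw [decide_eq_decide]
    refine and_congr_right fun h => and_congr_right fun _ => ?_
    rw [sum_slot _ δ s e₁ h]
    exact (add_left_inj _).symm
  case rl.rl e₁ n₁ x₁ e n x =>
    rw [decide_eq_decide]
    refine and_congr_right fun h => and_congr_left fun _ => ?_
    rw [h]
    exact (add_left_inj _).symm

theorem FX_own {p q : V S} (op : Own p) (oq : Own q) : FX p q ↔
    (p.1 = q.1 ∧ p.2.val = 0 ∧ q.2.val = 3 ∧ 0 < len S p.1) ∨
    (p.1 = q.1 ∧ 3 ≤ p.2.val ∧ q.2.val = p.2.val + 1 ∧ q.2.val ≠ 3 + len S p.1) := by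
  unfold Own at op oq
  constructor
  · rintro (⟨h1, h2, h3⟩ | ⟨h1, h2, h3⟩ | ⟨h1, h2, h3, h4⟩ | h | ⟨h1, h2, h3⟩ | h)
    · omega
    · omega
    · omega
    · exact Or.inl h
    · omega
    · exact Or.inr h
  · rintro (h | h)
    · exact Or.inr (Or.inr (Or.inr (Or.inl h)))
    · exact Or.inr (Or.inr (Or.inr (Or.inr (Or.inr h))))

theorem stepX_shG (b b' : S.C → ZMod 2) (c : S.C) (δ : Fin 5 → ZMod 2)
    (hδ : ∀ s, S.slot c s = none → δ s = 0) (hb : b' c = b c + ∑ s, δ s) (p q : V S)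
    (hp : Loc c p.1) (hq : Loc c q.1) (op : Own p) (oq : Own q) :
    stepX S b' p q = true ↔ stepX S b (shG c δ p.1, p.2) (shG c δ q.1, q.2) = true := by
  rw [stepX_iff, stepX_iff, FX_own op oq, FX_own (own_shG c δ hδ p op) (own_shG c δ hδ q oq)]
  simp only [len_shG c δ hδ, (shG_invol (S := S) c δ).injective.eq_iff]
  rw [step_shG b b' c δ hb _ _ hp hq]

/-- Inside the chart of `c`: the shift by `δ` (0 at the empty slots) changes the right-hand side of `c` by `∑ δ`. -/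
theorem adj_shG (b b' : S.C → ZMod 2) (c : S.C) (hc : S.al c = true) (δ : Fin 5 → ZMod 2)
    (hδ : ∀ s, S.slot c s = none → δ s = 0) (hb : b' c = b c + ∑ s, δ s) (p q : V S)
    (hp : Loc c p.1) (hq : Loc c q.1) (op : Own p) (oq : Own q) :
    adj S b' p q = adj S b (shG c δ p.1, p.2) (shG c δ q.1, q.2) := by
  rw [Bool.eq_iff_iff]
  unfold adj
  rw [Bool.or_eq_true, Bool.or_eq_true, stepX_shG b b' c δ hδ hb p q hp hq op oq,
    stepX_shG b b' c δ hδ hb q p hq hp oq op]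

/-- Adjacency of rail vertices does not depend on the right-hand side. -/
theorem adj_rail (b b' : S.C → ZMod 2) (e : S.E) (n n' : Fin (10 * S.nC + 1)) (y y' : ZMod 2)
    (τ τ' : Fin (M S + 3)) :
    adj S b' (V0.rl e n y, τ) (V0.rl e n' y', τ') = adj S b (V0.rl e n y, τ) (V0.rl e n' y', τ') := by
  rfl

end X

end Crest.Agent.WL
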