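import Crest.Agent.WL.XT3
import Crest.Agent.WL.XT4

/-!
# CHUNK R290-XT5: structure theorem: every graph equivalent to `X S b` is some `X S b'`

PROOF.  Charts `A : ChartH S b t H`.  `dc c s :=` the shift of `delta` (for present `c` and a slot holding a bit), `0`
otherwise; `b' c := b c + ∑ s, dc c s`.
`E p :=` `A.fc c (shG c (dc c) p.1, p.2)` if `Own p` and `p.1` is `co, t0, t1, t2` of a present check `c`;
`A.fe e p` if `Own p` and `p.1 = rl e n x`; `A.φ p` otherwise.
(1) `E p = A.fc c (shG c (dc c) p.1, p.2)` for every own `p` with `Loc c p.1`, `c` present (rails: `delta`, the sum in `shG` is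
    `dc c s` for the unique slot `s` holding `e`).
(2) `∃ p₀, clX p₀ = clX p ∧ TR (const p₀) (const (E p))` (`hfc` and `TR.snd`, `clX_shG`).
(3) same chart: `H (E p) (E q) = adj b (sh p) (sh q) = adj b' p q` by `chartC`, `adj_shG` (resp. `chartE`, `adj_rail`), and
    `E` is injective on a chart.
(4) no common chart: take `p₀` from (2), `TR.extend` gives `q₀` with `TR (pr2 p₀ q₀) (pr2 (E p) (E q))`; `cl_unique`:
    `clX q₀ = clX q`; `TR.adj_eq` and `adj_cross`.
(5) `E` injective: if `E p = E q` then (2) and `cl_unique` give `clX p = clX q`, so `p = q` or a common chart, where `E` is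
    injective.  `card (V S) = card W` by `A.φ`, so `E` is bijective.
-/

set_option autoImplicit false

namespace Crest.Agent.WL

namespace X

open Finset

variable {S : Sys} {W : Type} [Fintype W] [DecidableEq W]

/-- the check of a gadget vertex -/
private def kc : V0 S → Option S.C
  | V0.co c _ _ => some c
  | V0.t0 c _ _ => some c
  | V0.t1 c _ _ _ => some c
  | V0.t2 c _ _ _ _ => some c
  | V0.rl _ _ _ => none
  | V0.tp _ => none

/-- the bit of a rail vertex -/
private def kr : V0 S → Option S.E
  | V0.rl e _ _ => some e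
  | _ => none

private theorem loc_of_kc {v : V0 S} {c : S.C} (h : kc v = some c) : Loc c v := by
  cases v <;> simp_all [kc, Loc]

private theorem kc_of_loc {v : V0 S} {c : S.C} (h : Loc c v) :
    kc v = some c ∨ ∃ s e n x, S.slot c s = some e ∧ v = V0.rl e n x := by
  cases v with
  | rl e n x =>
    obtain ⟨s, hs⟩ := h
    exact Or.inr ⟨s, e, n, x, hs, rfl⟩
  | tp e => exact absurd h (by simp [Loc])
  | co c' a s => left; simp_all [kc, Loc]
  | t0 c' s x => left; simp_all [kc, Loc]
  | t1 c' s x y => left; simp_all [kc, Loc]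
  | t2 c' s x y z => left; simp_all [kc, Loc]

open Classical in
/-- shifts between the charts -/
private noncomputable def dcS {t : ℕ} (ht : 3 ≤ t) {b : S.C → ZMod 2} {H : W → W → Bool}
    (A : ChartH S b t H) (c : S.C) (s : Fin 5) : ZMod 2 :=
  if h : S.al c = true ∧ ∃ e, S.slot c s = some e then
    (delta ht A c h.1 s h.2.choose h.2.choose_spec).choose else 0

private theorem dcS_none {t : ℕ} (ht : 3 ≤ t) {b : S.C → ZMod 2} {H : W → W → Bool}
    (A : ChartH S b t H) (c : S.C) (s : Fin 5) (hs : S.slot c s = none) : dcS ht A c s = 0 := by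
  unfold dcS
  rw [dif_neg]
  rintro ⟨-, e, he⟩
  rw [hs] at he
  cases he

private theorem dcS_spec {t : ℕ} (ht : 3 ≤ t) {b : S.C → ZMod 2} {H : W → W → Bool}
    (A : ChartH S b t H) (c : S.C) (hc : S.al c = true) (s : Fin 5) (e : S.E)
    (hs : S.slot c s = some e) (n : Fin (10 * S.nC + 1)) (y : ZMod 2) (τ : Fin (M S + 3))
    (ho : Own (V0.rl e n y, τ)) :
    A.fc c (V0.rl e n y, τ) = A.fe e (V0.rl e n (y + dcS ht A c s), τ) := by
  have h : S.al c = true ∧ ∃ e, S.slot c s = some e := ⟨hc, e, hs⟩
  have he : h.2.choose = e := by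
    have h1 := hs.symm.trans h.2.choose_spec
    exact (Option.some_injective _ h1).symm
  have hsp := (delta ht A c h.1 s h.2.choose h.2.choose_spec).choose_spec
  have hd : dcS ht A c s = (delta ht A c h.1 s h.2.choose h.2.choose_spec).choose := by
    unfold dcS
    rw [dif_pos h]
  rw [← hd] at hsp
  rw [he] at hsp
  exact hsp n y τ ho

open Classical in
/-- the isomorphism -/
private noncomputable def EE {t : ℕ} (ht : 3 ≤ t) {b : S.C → ZMod 2} {H : W → W → Bool}
    (A : ChartH S b t H) (p : V S) : W :=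
  if Own p then
    match kc p.1 with
    | some c => if S.al c = true then A.fc c (shG c (dcS ht A c) p.1, p.2) else A.φ p
    | none => match kr p.1 with
      | some e => A.fe e p
      | none => A.φ p
  else A.φ p

private theorem EE_chart {t : ℕ} (ht : 3 ≤ t) {b : S.C → ZMod 2} {H : W → W → Bool}
    (A : ChartH S b t H) (c : S.C) (hc : S.al c = true) (p : V S) (hl : Loc c p.1) (ho : Own p) :
    EE ht A p = A.fc c (shG c (dcS ht A c) p.1, p.2) := by
  rcases kc_of_loc hl with h | ⟨s, e, n, x, hs, h⟩
  · unfold EE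
    rw [if_pos ho, h]
    simp only
    rw [if_pos hc]
  · obtain ⟨v, τ⟩ := p
    simp only at h
    subst h
    have hE : EE ht A (V0.rl e n x, τ) = A.fe e (V0.rl e n x, τ) := by
      unfold EE
      rw [if_pos ho]
      rfl
    have hsum : (∑ s' : Fin 5, if S.slot c s' = some e then dcS ht A c s' else 0) =
        dcS ht A c s := by
      rw [Finset.sum_eq_single s]
      · rw [if_pos hs]
      · intro s' _ hne
        rw [if_neg]
        intro h
        exact hne (S.slot_inj c s' s e h hs)
      · intro h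
        exact absurd (Finset.mem_univ _) h
    have hsh : shG c (dcS ht A c) (V0.rl e n x) = V0.rl e n (x + dcS ht A c s) := by
      unfold shG
      simp only
      rw [hsum]
    rw [hE]
    simp only [hsh]
    have h6 := dcS_spec ht A c hc s e hs n (x + dcS ht A c s) τ ho
    rw [aa2] at h6
    exact h6.symm

private theorem EE_rail {t : ℕ} (ht : 3 ≤ t) {b : S.C → ZMod 2} {H : W → W → Bool}
    (A : ChartH S b t H) (e : S.E) (n : Fin (10 * S.nC + 1)) (y : ZMod 2) (τ : Fin (M S + 3))
    (ho : Own (V0.rl e n y, τ)) : EE ht A (V0.rl e n y, τ) = A.fe e (V0.rl e n y, τ) := by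
  unfold EE
  rw [if_pos ho]
  rfl

private theorem EE_cl {t : ℕ} (ht : 3 ≤ t) {b : S.C → ZMod 2} {H : W → W → Bool}
    (A : ChartH S b t H) (p : V S) :
    ∃ p₀, clX p₀ = clX p ∧ TR t (adj S b) H (fun _ => p₀) (fun _ => EE ht A p) := by
  by_cases ho : Own p
  · rcases hk : kc p.1 with _ | c
    · rcases hr : kr p.1 with _ | e
      · have : EE ht A p = A.φ p := by
          unfold EE
          rw [if_pos ho, hk, hr]
        rw [this]
        exact ⟨p, rfl, A.hφ p⟩
      · have : EE ht A p = A.fe e p := by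
          unfold EE
          rw [if_pos ho, hk, hr]
        rw [this]
        exact ⟨p, rfl, (A.hfe e p).snd (by omega)⟩
    · by_cases hc : S.al c = true
      · have : EE ht A p = A.fc c (shG c (dcS ht A c) p.1, p.2) := by
          unfold EE
          rw [if_pos ho, hk]
          simp only
          rw [if_pos hc]
        rw [this]
        refine ⟨_, ?_, (A.hfc c (shG c (dcS ht A c) p.1, p.2)).snd (by omega)⟩
        exact clX_shG c _ (dcS_none ht A c) hc p (loc_of_kc hk) ho
      · have : EE ht A p = A.φ p := by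
          unfold EE
          rw [if_pos ho, hk]
          simp only
          rw [if_neg hc]
        rw [this]
        exact ⟨p, rfl, A.hφ p⟩
  · have : EE ht A p = A.φ p := by
      unfold EE
      rw [if_neg ho]
    rw [this]
    exact ⟨p, rfl, A.hφ p⟩

private theorem EE_common {t : ℕ} (ht : 3 ≤ t) {b : S.C → ZMod 2} {H : W → W → Bool}
    (A : ChartH S b t H) (p q : V S) (h : Common p q) :
    H (EE ht A p) (EE ht A q) = adj S (fun c => b c + ∑ s, dcS ht A c s) p q ∧
      (EE ht A p = EE ht A q → p = q) := by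
  rcases h with ⟨c, hc, hlp, hlq, hop, hoq⟩ | ⟨e, n, n', y, y', hp, hq, hop, hoq⟩
  · have hp := EE_chart ht A c hc p hlp hop
    have hq := EE_chart ht A c hc q hlq hoq
    have hn := dcS_none ht A c
    have h1 := (chartC ht A c hc (shG c (dcS ht A c) p.1, p.2) (shG c (dcS ht A c) q.1, q.2)
      (loc_shG c _ q.1 hlq) (own_shG c _ hn q hoq)).2
    have h2 := adj_shG b (fun c => b c + ∑ s, dcS ht A c s) c hc (dcS ht A c) hn rfl p q hlp hlq
      hop hoq
    refine ⟨?_, ?_⟩
    · rw [hp, hq, h2, h1]
    · intro he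
      rw [hp, hq] at he
      have h3 := (A.fc c).injective he
      have h4 : shG c (dcS ht A c) p.1 = shG c (dcS ht A c) q.1 := (Prod.mk.inj h3).1
      have h5 : p.2 = q.2 := (Prod.mk.inj h3).2
      exact Prod.ext ((shG_invol c (dcS ht A c)).injective h4) h5
  · obtain ⟨v, τ⟩ := p
    obtain ⟨v', τ'⟩ := q
    simp only at hp hq
    subst hp
    subst hq
    rw [EE_rail ht A e n y τ hop, EE_rail ht A e n' y' τ' hoq]
    refine ⟨?_, ?_⟩
    · rw [← (chartE ht A e n' y' τ' hoq (V0.rl e n y, τ)).2]
      exact (adj_rail b (fun c => b c + ∑ s, dcS ht A c s) e n n' y y' τ τ').symm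
    · intro he
      exact (A.fe e).injective he

theorem structure_thm {t : ℕ} (ht : 3 ≤ t) (b : S.C → ZMod 2) {H : W → W → Bool}
    {x : Fin t → V S} {u : Fin t → W} (h : TR t (adj S b) H x u) :
    ∃ (b' : S.C → ZMod 2) (E : V S ≃ W), ∀ p q, H (E p) (E q) = adj S b' p q := by
  obtain ⟨A⟩ := exists_ch ht h
  have hcl : ∀ p q, EE ht A p = EE ht A q → clX p = clX q := by
    intro p q hpq
    obtain ⟨p₀, hp₀, hp⟩ := EE_cl ht A p
    obtain ⟨q₀, hq₀, hq⟩ := EE_cl ht A q
    rw [← hpq] at hq
    rw [← hp₀, ← hq₀]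
    exact cl_unique ht hp hq
  have hinj : Function.Injective (EE ht A) := by
    intro p q hpq
    rcases eq_or_common p q (hcl p q hpq) with h | h
    · exact h
    · exact (EE_common ht A p q h).2 hpq
  have hbij : Function.Bijective (EE ht A) :=
    (Fintype.bijective_iff_injective_and_card _).2 ⟨hinj, Fintype.card_congr A.φ⟩
  refine ⟨fun c => b c + ∑ s, dcS ht A c s, Equiv.ofBijective _ hbij, ?_⟩
  intro p q
  change H (EE ht A p) (EE ht A q) = _
  by_cases hcom : Common p q
  · exact (EE_common ht A p q hcom).1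
  · obtain ⟨p₀, hp₀, hp⟩ := EE_cl ht A p
    obtain ⟨q₁, hq₁, hq⟩ := EE_cl ht A q
    obtain ⟨f, hf⟩ := hp.extend (by omega)
    have h1 := hf (f.symm (EE ht A q))
    rw [Equiv.apply_symm_apply] at h1
    have h2 : clX (f.symm (EE ht A q)) = clX q := by
      rw [← hq₁]
      exact cl_unique ht (h1.snd (by omega)) hq
    have h3 := h1.adj_eq ⟨0, by omega⟩ ⟨1, by omega⟩
    have h4 := adj_cross b (fun c => b c + ∑ s, dcS ht A c s) p q p₀ (f.symm (EE ht A q)) hcom
      hp₀ h2
    rw [← h4]
    exact h3.symm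

end X

end Crest.Agent.WL
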